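import Vale.Agent.P019.Core

/-!
P019 Basic: elementary API for `cl`, `vmap`, `CP`, `Compat`, `Uv`, `Nv`, `res`.
All proofs are unfolding / linear algebra over the field `ZMod ℓ`.
-/

namespace P019

variable {ℓ : ℕ} {F : Type*} [Field F]

theorem bas_cl (u : Fˣ) : cl ℓ (u : F) = ModN.mkQ ℓ (Additive.ofMul u) := by
  rw [cl, dif_neg u.ne_zero, Units.mk0_val]

@[simp] theorem cl_zero : cl ℓ (0 : F) = 0 := dif_pos rfl
@[simp] theorem cl_one : cl ℓ (1 : F) = 0 := by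
  rw [← Units.val_one, bas_cl, ofMul_one, map_zero]
theorem cl_mul {a b : F} (ha : a ≠ 0) (hb : b ≠ 0) : cl ℓ (a * b) = cl ℓ a + cl ℓ b := by
  lift a to Fˣ using ha.isUnit
  lift b to Fˣ using hb.isUnit
  rw [← Units.val_mul, bas_cl, bas_cl, bas_cl, ofMul_mul, map_add]
theorem cl_inv (a : F) : cl ℓ a⁻¹ = -cl ℓ a := by
  by_cases ha : a = 0
  · simp [ha]
  · rw [eq_neg_iff_add_eq_zero, ← cl_mul (inv_ne_zero ha) ha, inv_mul_cancel₀ ha, cl_one]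
theorem cl_div {a b : F} (ha : a ≠ 0) (hb : b ≠ 0) : cl ℓ (a / b) = cl ℓ a - cl ℓ b := by
  rw [div_eq_mul_inv, cl_mul ha (inv_ne_zero hb), cl_inv, sub_eq_add_neg]
theorem cl_pow (a : F) (n : ℕ) : cl ℓ (a ^ n) = (n : ZMod ℓ) • cl ℓ a := by
  by_cases ha : a = 0
  · rcases n with _ | n <;> simp [ha]
  · induction n with
    | zero => simp
    | succ n ih => rw [pow_succ, cl_mul (pow_ne_zero _ ha) ha, ih, Nat.cast_succ, add_smul, one_smul]
theorem cl_zpow (a : F) (n : ℤ) : cl ℓ (a ^ n) = (n : ZMod ℓ) • cl ℓ a := by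
  obtain ⟨m, rfl | rfl⟩ := n.eq_nat_or_neg
  · rw [zpow_natCast, cl_pow, Int.cast_natCast]
  · rw [zpow_neg, zpow_natCast, cl_inv, cl_pow, Int.cast_neg, Int.cast_natCast, neg_smul]
theorem cl_prod {ι : Type*} (s : Finset ι) (f : ι → F) (h : ∀ i ∈ s, f i ≠ 0) :
    cl ℓ (∏ i ∈ s, f i) = ∑ i ∈ s, cl ℓ (f i) := by
  classical
  induction s using Finset.induction_on with
  | empty => simp
  | insert i s hi ih =>
    have h' : ∀ j ∈ s, f j ≠ 0 := fun j hj => h j (Finset.mem_insert_of_mem hj)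
    rw [Finset.prod_insert hi, Finset.sum_insert hi,
      cl_mul (h i (Finset.mem_insert_self _ _)) (Finset.prod_ne_zero_iff.2 h'), ih h']
theorem cl_surj (v : V ℓ F) : ∃ a : F, a ≠ 0 ∧ cl ℓ a = v := by
  obtain ⟨u, rfl⟩ := Submodule.mkQ_surjective _ v
  exact ⟨(Additive.toMul u : Fˣ), Units.ne_zero _, bas_cl _⟩
theorem bas_root {a : F} (ha : a ≠ 0) (h : cl ℓ a = 0) : ∃ b : F, b ≠ 0 ∧ b ^ ℓ = a := by
  lift a to Fˣ using ha.isUnit
  rw [bas_cl] at h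
  obtain ⟨u, hu⟩ := (Submodule.Quotient.mk_eq_zero _).1 h
  refine ⟨(Additive.toMul u : Fˣ), Units.ne_zero _, ?_⟩
  have h2 := congrArg Additive.toMul hu
  rw [LinearMap.lsmul_apply, natCast_zsmul, toMul_nsmul, toMul_ofMul] at h2
  rw [← h2, Units.val_pow_eq_pow_val]
theorem cl_eq_zero_iff {a : F} (ha : a ≠ 0) : cl ℓ a = 0 ↔ ∃ b : F, b ^ ℓ = a := by
  refine ⟨fun h => (bas_root ha h).imp fun _ hb => hb.2, ?_⟩
  rintro ⟨b, rfl⟩
  rw [cl_pow, ZMod.natCast_self, zero_smul]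
theorem cl_eq_iff {a b : F} (ha : a ≠ 0) (hb : b ≠ 0) :
    cl ℓ a = cl ℓ b ↔ ∃ c : F, c ≠ 0 ∧ a = b * c ^ ℓ := by
  constructor
  · intro h
    obtain ⟨c, hc, e⟩ := bas_root (ℓ := ℓ) (div_ne_zero ha hb) (by rw [cl_div ha hb, h, sub_self])
    exact ⟨c, hc, by rw [e, mul_div_cancel₀ _ hb]⟩
  · rintro ⟨c, hc, rfl⟩
    rw [cl_mul hb (pow_ne_zero _ hc), cl_pow, ZMod.natCast_self, zero_smul, add_zero]
theorem cl_algebraMap [Fact ℓ.Prime] {k : Type*} [Field k] [Algebra k F] [IsAlgClosed k] (c : k) :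
    cl ℓ (algebraMap k F c) = 0 := by
  obtain ⟨z, rfl⟩ := IsAlgClosed.exists_pow_nat_eq c (Fact.out : ℓ.Prime).pos
  rw [map_pow, cl_pow, ZMod.natCast_self, zero_smul]
theorem cl_neg [Fact ℓ.Prime] (k : Type*) [Field k] [Algebra k F] [IsAlgClosed k] (a : F) :
    cl ℓ (-a) = cl ℓ a := by
  by_cases ha : a = 0
  · rw [ha, neg_zero]
  · have h := cl_algebraMap (ℓ := ℓ) (F := F) (-1 : k)
    rw [map_neg, map_one] at h
    rw [← neg_one_mul, cl_mul (neg_ne_zero.2 one_ne_zero) ha, h, zero_add]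
theorem vmap_cl {E : Type*} [Field E] (f : F →+* E) (a : F) :
    vmap ℓ f (cl ℓ a) = cl ℓ (f a) := by
  by_cases ha : a = 0
  · simp [ha]
  · lift a to Fˣ using Ne.isUnit ha
    exact (congrArg _ (bas_cl a)).trans (bas_cl (Units.map (f : F →* E) a)).symm

/-- a character is the same as a multiplicative-to-additive function on nonzero elements -/
theorem exists_char (φ : F → ZMod ℓ) (h0 : φ 0 = 0)
    (h : ∀ a b, a ≠ 0 → b ≠ 0 → φ (a * b) = φ a + φ b) :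
    ∃ σ : X ℓ F, ∀ a, σ (cl ℓ a) = φ a := by
  have h1 : φ 1 = 0 := by
    have := h 1 1 one_ne_zero one_ne_zero
    rw [mul_one] at this
    exact left_eq_add.1 this
  let ψ : Additive Fˣ →+ ZMod ℓ :=
    { toFun := fun u => φ (Additive.toMul u : Fˣ)
      map_zero' := h1
      map_add' := fun u v => h _ _ (Units.ne_zero _) (Units.ne_zero _) }
  refine ⟨ModN.liftEquiv'.symm ⟨ψ, fun g => by rw [nsmul_eq_mul, ZMod.natCast_self, zero_mul]⟩,
    fun a => ?_⟩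
  by_cases ha : a = 0
  · rw [ha, cl_zero, map_zero, h0]
  · lift a to Fˣ using Ne.isUnit ha
    rw [bas_cl]
    rfl

/-- membership in the span of the classes of a multiplicative subgroup -/
theorem mem_Hs_iff [Fact ℓ.Prime] {s : Set F} (h1 : (1 : F) ∈ s)
    (hm : ∀ a ∈ s, ∀ b ∈ s, a * b ∈ s) (v : V ℓ F) :
    v ∈ Hs ℓ s ↔ ∃ a ∈ s, a ≠ 0 ∧ cl ℓ a = v := by
  refine ⟨fun hv => ?_, ?_⟩
  · induction hv using Submodule.span_induction with
    | mem v hv =>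
      obtain ⟨a, ha, rfl⟩ := hv
      by_cases h0 : a = 0
      · exact ⟨1, h1, one_ne_zero, by rw [h0, cl_one, cl_zero]⟩
      · exact ⟨a, ha, h0, rfl⟩
    | zero => exact ⟨1, h1, one_ne_zero, cl_one⟩
    | add v w _ _ hv hw =>
      obtain ⟨a, ha, ha0, rfl⟩ := hv
      obtain ⟨b, hb, hb0, rfl⟩ := hw
      exact ⟨a * b, hm a ha b hb, mul_ne_zero ha0 hb0, cl_mul ha0 hb0⟩
    | smul c v _ hv =>
      obtain ⟨a, ha, ha0, rfl⟩ := hv
      have hp : ∀ n : ℕ, a ^ n ∈ s := fun n => by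
        induction n with
        | zero => rwa [pow_zero]
        | succ n ih => rw [pow_succ]; exact hm _ ih a ha
      exact ⟨a ^ c.val, hp _, pow_ne_zero _ ha0, by rw [cl_pow, ZMod.natCast_zmod_val]⟩
  · rintro ⟨a, ha, -, rfl⟩
    exact Submodule.subset_span ⟨a, ha, rfl⟩
theorem cl_mem_Hs {s : Set F} {a : F} (ha : a ∈ s) : cl ℓ a ∈ Hs ℓ s :=
  Submodule.subset_span ⟨a, ha, rfl⟩
theorem Hs_mono {s t : Set F} (h : s ⊆ t) : Hs ℓ s ≤ Hs ℓ t :=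
  Submodule.span_mono (Set.image_mono h)
theorem Hs_univ : Hs ℓ (Set.univ : Set F) = ⊤ := by
  refine eq_top_iff.2 fun v _ => ?_
  obtain ⟨a, -, rfl⟩ := cl_surj v
  exact cl_mem_Hs (Set.mem_univ a)
theorem mem_Uv_iff [Fact ℓ.Prime] (O : ValuationSubring F) (v : V ℓ F) :
    v ∈ Uv ℓ O ↔ ∃ a, O.valuation a = 1 ∧ cl ℓ a = v := by
  refine ⟨fun h => ?_, fun ⟨a, ha, e⟩ => e ▸ cl_mem_Hs ha⟩
  obtain ⟨a, ha, -, e⟩ := (mem_Hs_iff (s := {a | O.valuation a = 1}) (map_one O.valuation)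
    (fun a ha b hb => by
      rw [Set.mem_ofPred_eq] at ha hb ⊢
      rw [map_mul, ha, hb, mul_one]) v).1 h
  exact ⟨a, ha, e⟩
theorem bas_unit {O : ValuationSubring F} {a : F} (h : O.valuation (a - 1) < 1) :
    O.valuation a = 1 := by
  have := O.valuation.map_one_add_of_lt h
  rwa [add_sub_cancel] at this
theorem mem_Nv_iff [Fact ℓ.Prime] (O : ValuationSubring F) (v : V ℓ F) :
    v ∈ Nv ℓ O ↔ ∃ a, O.valuation (a - 1) < 1 ∧ cl ℓ a = v := by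
  refine ⟨fun h => ?_, fun ⟨a, ha, e⟩ => e ▸ cl_mem_Hs ha⟩
  obtain ⟨a, ha, -, e⟩ := (mem_Hs_iff (s := {a | O.valuation (a - 1) < 1}) (by simp)
    (fun a ha b hb => by
      rw [Set.mem_ofPred_eq] at ha hb ⊢
      have e : a * b - 1 = a * (b - 1) + (a - 1) := by ring
      rw [e]
      exact O.valuation.map_add_lt (by rwa [map_mul, bas_unit ha, one_mul]) ha) v).1 h
  exact ⟨a, ha, e⟩
theorem Nv_le_Uv (O : ValuationSubring F) : Nv ℓ O ≤ Uv ℓ O := Hs_mono fun _ ha => bas_unit ha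
theorem bas_ann (s : Set F) (σ : X ℓ F) :
    σ ∈ (Hs ℓ s).dualAnnihilator ↔ ∀ a ∈ s, σ (cl ℓ a) = 0 := by
  rw [Submodule.mem_dualAnnihilator]
  refine ⟨fun h a ha => h _ (cl_mem_Hs ha), fun h w hw => ?_⟩
  refine (Submodule.span_le (p := LinearMap.ker σ)).2 ?_ hw
  rintro _ ⟨a, ha, rfl⟩
  exact h a ha
theorem mem_Iv_iff (O : ValuationSubring F) (σ : X ℓ F) :
    σ ∈ Iv ℓ O ↔ ∀ a, O.valuation a = 1 → σ (cl ℓ a) = 0 := bas_ann _ σ
theorem mem_Dv_iff (O : ValuationSubring F) (σ : X ℓ F) :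
    σ ∈ Dv ℓ O ↔ ∀ a, O.valuation (a - 1) < 1 → σ (cl ℓ a) = 0 := bas_ann _ σ
theorem Iv_le_Dv (O : ValuationSubring F) : Iv ℓ O ≤ Dv ℓ O :=
  Submodule.dualAnnihilator_anti (Nv_le_Uv O)
theorem Iv_val_eq {O : ValuationSubring F} {σ : X ℓ F} (hσ : σ ∈ Iv ℓ O) {a b : F}
    (h : O.valuation a = O.valuation b) : σ (cl ℓ a) = σ (cl ℓ b) := by
  by_cases hb : b = 0
  · rw [hb, map_zero, map_eq_zero] at h
    rw [h, hb]
  · have hb' : O.valuation b ≠ 0 := (map_ne_zero _).2 hb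
    have ha : a ≠ 0 := (map_ne_zero O.valuation).1 (h ▸ hb')
    have h2 := (mem_Iv_iff O σ).1 hσ (a / b) (by rw [map_div₀, h, div_self hb'])
    rwa [cl_div ha hb, map_sub, sub_eq_zero] at h2
theorem Uv_mono {O O' : ValuationSubring F} (h : O ≤ O') : Uv ℓ O ≤ Uv ℓ O' :=
  Hs_mono fun a ha => by
    rw [Set.mem_ofPred_eq] at ha ⊢
    rw [← ValuationSubring.mapOfLE_valuation_apply O O' h, ha, map_one]
theorem Nv_anti {O O' : ValuationSubring F} (h : O ≤ O') : Nv ℓ O' ≤ Nv ℓ O :=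
  Hs_mono fun _ ha => O.mem_nonunits_iff.1
    (ValuationSubring.nonunits_le_nonunits.2 h (O'.mem_nonunits_iff.2 ha))
theorem Iv_anti {O O' : ValuationSubring F} (h : O ≤ O') : Iv ℓ O' ≤ Iv ℓ O :=
  Submodule.dualAnnihilator_anti (Uv_mono h)
theorem Dv_mono {O O' : ValuationSubring F} (h : O ≤ O') : Dv ℓ O ≤ Dv ℓ O' :=
  Submodule.dualAnnihilator_anti (Nv_anti h)
theorem Uv_top : Uv ℓ (⊤ : ValuationSubring F) = ⊤ := by
  refine eq_top_iff.2 fun v _ => ?_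
  obtain ⟨a, ha, rfl⟩ := cl_surj v
  refine cl_mem_Hs (le_antisymm ((ValuationSubring.valuation_le_one_iff _ a).2 trivial) ?_)
  have h := (ValuationSubring.valuation_le_one_iff (⊤ : ValuationSubring F) a⁻¹).2 trivial
  rwa [map_inv₀, inv_le_one₀ (zero_lt_iff.2 ((map_ne_zero _).2 ha))] at h
theorem Iv_top : Iv ℓ (⊤ : ValuationSubring F) = ⊥ := by
  rw [Iv, Uv_top, Submodule.dualAnnihilator_top]
theorem mem_Uv_of_forall [Fact ℓ.Prime] (O : ValuationSubring F) (v : V ℓ F)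
    (h : ∀ σ ∈ Iv ℓ O, σ v = 0) : v ∈ Uv ℓ O :=
  (Subspace.forall_mem_dualAnnihilator_apply_eq_zero_iff _ v).1 h
theorem mem_Nv_of_forall [Fact ℓ.Prime] (O : ValuationSubring F) (v : V ℓ F)
    (h : ∀ σ ∈ Dv ℓ O, σ v = 0) : v ∈ Nv ℓ O :=
  (Subspace.forall_mem_dualAnnihilator_apply_eq_zero_iff _ v).1 h
/-- prescribed values on independent classes -/
theorem exists_Iv_of_VInd [Fact ℓ.Prime] {O : ValuationSubring F} {r : ℕ} {b : Fin r → V ℓ F}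
    (hb : VInd ℓ O b) (t : Fin r → ZMod ℓ) : ∃ σ ∈ Iv ℓ O, ∀ j, σ (b j) = t j := by
  obtain ⟨g, hg⟩ := LinearMap.exists_leftInverse_of_injective _ (LinearMap.ker_eq_bot.2 hb)
  refine ⟨Finsupp.linearCombination (ZMod ℓ) t ∘ₗ g ∘ₗ (Uv ℓ O).mkQ,
    (Submodule.mem_dualAnnihilator _).2 fun w hw => ?_, fun j => ?_⟩
  · rw [LinearMap.comp_apply, LinearMap.comp_apply, Submodule.mkQ_apply,
      (Submodule.Quotient.mk_eq_zero _).2 hw, map_zero, map_zero]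
  · have h := LinearMap.congr_fun hg (Finsupp.single j 1)
    rw [LinearMap.comp_apply, Finsupp.linearCombination_single, one_smul, LinearMap.id_apply] at h
    rw [LinearMap.comp_apply, LinearMap.comp_apply, h, Finsupp.linearCombination_single, one_smul]
theorem IRank.finite_Iv [Fact ℓ.Prime] {O : ValuationSubring F} {r : ℕ} (h : IRank ℓ O r) :
    Module.Finite (ZMod ℓ) (Iv ℓ O) ∧ Module.finrank (ZMod ℓ) (Iv ℓ O) = r := by
  have := h.1
  have e := Submodule.dualQuotEquivDualAnnihilator (Uv ℓ O)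
  exact ⟨Module.Finite.equiv e, by rw [Iv, ← e.finrank_eq, Subspace.dual_finrank_eq, h.2]⟩
theorem IRank.exists_basis [Fact ℓ.Prime] {O : ValuationSubring F} {r : ℕ} (h : IRank ℓ O r) :
    ∃ x : Fin r → F, (∀ j, x j ≠ 0) ∧ VInd ℓ O (fun j => cl ℓ (x j)) ∧
      ∀ v : V ℓ F, ∃ t : Fin r → ZMod ℓ, v - ∑ j, t j • cl ℓ (x j) ∈ Uv ℓ O := by
  have := h.1
  let B := Module.finBasisOfFinrankEq (ZMod ℓ) (V ℓ F ⧸ Uv ℓ O) h.2
  have h1 : ∀ j, ∃ x : F, x ≠ 0 ∧ (Uv ℓ O).mkQ (cl ℓ x) = B j := fun j => by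
    obtain ⟨v, hv⟩ := (Uv ℓ O).mkQ_surjective (B j)
    obtain ⟨x, hx, rfl⟩ := cl_surj v
    exact ⟨x, hx, hv⟩
  choose x hx hB using h1
  refine ⟨x, hx, ?_, fun v => ⟨fun j => B.repr ((Uv ℓ O).mkQ v) j, ?_⟩⟩
  · simp only [VInd, hB]
    exact B.linearIndependent
  · rw [← Submodule.Quotient.mk_eq_zero, ← Submodule.mkQ_apply, map_sub, map_sum]
    simp only [map_smul, hB]
    rw [B.sum_repr, sub_self]

theorem CP_refl (σ : X ℓ F) : CP σ σ := fun _ => mul_comm _ _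
theorem CP.symm {σ τ : X ℓ F} (h : CP σ τ) : CP τ σ := fun x => by
  linear_combination -h x
theorem CP.add {σ τ ρ : X ℓ F} (h : CP σ τ) (h' : CP σ ρ) : CP σ (τ + ρ) := fun x => by
  simp only [LinearMap.add_apply]
  linear_combination h x + h' x
theorem CP.smul {σ τ : X ℓ F} (h : CP σ τ) (c : ZMod ℓ) : CP σ (c • τ) := fun x => by
  simp only [LinearMap.smul_apply, smul_eq_mul]
  linear_combination c * h x
theorem CP_zero (σ : X ℓ F) : CP σ 0 := fun x => by simp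
/-- inertia commutes with decomposition: cases `v x < 1`, `v x > 1` (`1 - x = -x (1 - 1/x)`,
note `-1` is a unit), `v x = 1` -/
theorem CP_of_Iv_Dv (k : Type*) [Field k] [Algebra k F] [IsAlgClosed k] [Fact ℓ.Prime]
    {O : ValuationSubring F} {σ τ : X ℓ F} (hσ : σ ∈ Iv ℓ O) (hτ : τ ∈ Dv ℓ O) : CP σ τ := by
  intro x
  have hs := (mem_Iv_iff O σ).1 hσ
  have hs' := (mem_Dv_iff O σ).1 (Iv_le_Dv O hσ)
  have ht := (mem_Dv_iff O τ).1 hτ
  have key : ∀ y : F, O.valuation y < 1 → O.valuation (1 - y - 1) < 1 := fun y hy => by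
    rwa [sub_sub_cancel_left, Valuation.map_neg]
  rcases lt_trichotomy (O.valuation x) 1 with h | h | h
  · rw [hs' _ (key x h), ht _ (key x h), mul_zero, zero_mul]
  · rw [hs x h, zero_mul]
    rcases (O.valuation.map_sub_le (map_one _).le h.le).lt_or_eq with h' | h'
    · rw [ht x (by rwa [Valuation.map_sub_swap]), mul_zero]
    · rw [hs _ h', zero_mul]
  · have h0 : x ≠ 0 := by
      rintro rfl
      simp at h
    have hi : O.valuation x⁻¹ < 1 := (O.valuation.one_lt_val_iff h0).1 h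
    have h1 : 1 - x⁻¹ ≠ 0 := (map_ne_zero O.valuation).1 (by
      rw [bas_unit (key _ hi)]
      exact one_ne_zero)
    have e : 1 - x = -x * (1 - x⁻¹) := by field_simp; ring
    rw [e, cl_mul (neg_ne_zero.2 h0) h1, cl_neg k, map_add, map_add, hs' _ (key _ hi),
      ht _ (key _ hi), add_zero, add_zero]

theorem bas_cs {K L : Type*} [Field K] [Field L] (Θ : V ℓ K ≃ₗ[ZMod ℓ] V ℓ L) (σ : X ℓ K) :
    (σ ∘ₗ Θ.symm.toLinearMap) ∘ₗ Θ.toLinearMap = σ :=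
  LinearMap.ext fun v => by simp
theorem Compat.symm {K L : Type*} [Field K] [Field L] {Θ : V ℓ K ≃ₗ[ZMod ℓ] V ℓ L}
    (h : Compat Θ) : Compat Θ.symm := fun σ τ => by
  rw [h, bas_cs, bas_cs]
theorem Compat.trans {K L M : Type*} [Field K] [Field L] [Field M]
    {Θ : V ℓ K ≃ₗ[ZMod ℓ] V ℓ L} {Ψ : V ℓ L ≃ₗ[ZMod ℓ] V ℓ M}
    (h : Compat Θ) (h' : Compat Ψ) : Compat (Θ.trans Ψ) := fun σ τ =>
  (h' σ τ).trans (h _ _)
/-- the alternating functional -/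
noncomputable def bas_phi (σ τ : X ℓ F) :
    TensorProduct (ZMod ℓ) (V ℓ F) (V ℓ F) →ₗ[ZMod ℓ] ZMod ℓ :=
  TensorProduct.lift ((LinearMap.mul (ZMod ℓ) (ZMod ℓ)).compl₁₂ σ τ) -
    TensorProduct.lift ((LinearMap.mul (ZMod ℓ) (ZMod ℓ)).compl₁₂ τ σ)
theorem bas_CP (σ τ : X ℓ F) : CP σ τ ↔ R ℓ F ≤ LinearMap.ker (bas_phi σ τ) := by
  have e : ∀ u v, bas_phi σ τ (u ⊗ₜ v) = σ u * τ v - σ v * τ u := fun u v => by
    simp [bas_phi, mul_comm]
  rw [R, Submodule.span_le]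
  constructor
  · rintro h _ ⟨x, -, -, rfl⟩
    rw [SetLike.mem_coe, LinearMap.mem_ker, e, h x, sub_self]
  · intro h x
    by_cases h0 : x = 0
    · simp [h0]
    by_cases h1 : x = 1
    · simp [h1]
    have := h ⟨x, h0, h1, rfl⟩
    rwa [SetLike.mem_coe, LinearMap.mem_ker, e, sub_eq_zero] at this
/-- `CP σ τ` says that the functional `σ ⊗ τ - τ ⊗ σ` kills `R` -/
theorem compat_of_R {K L : Type*} [Field K] [Field L] (Θ : V ℓ K ≃ₗ[ZMod ℓ] V ℓ L)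
    (h : (R ℓ K).map (TensorProduct.map Θ.toLinearMap Θ.toLinearMap) = R ℓ L) : Compat Θ := fun σ τ => by
  rw [bas_CP, bas_CP, ← h, Submodule.map_le_iff_le_comap, ← LinearMap.ker_comp]
  have e : bas_phi σ τ ∘ₗ TensorProduct.map Θ.toLinearMap Θ.toLinearMap =
      bas_phi (σ ∘ₗ Θ.toLinearMap) (τ ∘ₗ Θ.toLinearMap) :=
    TensorProduct.ext' fun u v => by simp [bas_phi]
  rw [e]
theorem Corr.symm {K L : Type*} [Field K] [Field L] {Θ : V ℓ K ≃ₗ[ZMod ℓ] V ℓ L}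
    {O : ValuationSubring K} {O' : ValuationSubring L} (h : Corr ℓ Θ O O') :
    Corr ℓ Θ.symm O' O :=
  ⟨(Submodule.map_symm_eq_iff Θ).2 h.1, (Submodule.map_symm_eq_iff Θ).2 h.2⟩
theorem bas_map {K L : Type*} [Field K] [Field L] (Θ : V ℓ K ≃ₗ[ZMod ℓ] V ℓ L)
    (U : Submodule (ZMod ℓ) (V ℓ K)) (σ : X ℓ L) :
    σ ∈ (U.map Θ.toLinearMap).dualAnnihilator ↔ σ ∘ₗ Θ.toLinearMap ∈ U.dualAnnihilator := by
  rw [Submodule.mem_dualAnnihilator, Submodule.mem_dualAnnihilator]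
  refine ⟨fun h w hw => h _ (Submodule.mem_map_of_mem hw), ?_⟩
  rintro h _ ⟨w, hw, rfl⟩
  exact h w hw
theorem Corr.mem_Iv {K L : Type*} [Field K] [Field L] {Θ : V ℓ K ≃ₗ[ZMod ℓ] V ℓ L}
    {O : ValuationSubring K} {O' : ValuationSubring L} (h : Corr ℓ Θ O O') (σ : X ℓ L) :
    σ ∈ Iv ℓ O' ↔ σ ∘ₗ Θ.toLinearMap ∈ Iv ℓ O := by
  rw [Iv, ← h.1]
  exact bas_map Θ _ σ
theorem Corr.mem_Dv {K L : Type*} [Field K] [Field L] {Θ : V ℓ K ≃ₗ[ZMod ℓ] V ℓ L}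
    {O : ValuationSubring K} {O' : ValuationSubring L} (h : Corr ℓ Θ O O') (σ : X ℓ L) :
    σ ∈ Dv ℓ O' ↔ σ ∘ₗ Θ.toLinearMap ∈ Dv ℓ O := by
  rw [Dv, ← h.2]
  exact bas_map Θ _ σ
theorem Corr.IRank {K L : Type*} [Field K] [Field L] {Θ : V ℓ K ≃ₗ[ZMod ℓ] V ℓ L}
    {O : ValuationSubring K} {O' : ValuationSubring L} (h : Corr ℓ Θ O O') {r : ℕ}
    (hr : IRank ℓ O r) : IRank ℓ O' r := by
  have := hr.1
  have e := Submodule.Quotient.equiv _ _ Θ h.1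
  exact ⟨Module.Finite.equiv e, by rw [← e.finrank_eq, hr.2]⟩
theorem Corr.VInd {K L : Type*} [Field K] [Field L] {Θ : V ℓ K ≃ₗ[ZMod ℓ] V ℓ L}
    {O : ValuationSubring K} {O' : ValuationSubring L} (h : Corr ℓ Θ O O') {r : ℕ}
    {b : Fin r → V ℓ K} (hb : VInd ℓ O b) : VInd ℓ O' (fun j => Θ (b j)) :=
  LinearIndependent.map' hb (Submodule.Quotient.equiv _ _ Θ h.1).toLinearMap
    (LinearEquiv.ker _)
theorem Compat.NC {K L : Type*} [Field K] [Field L] {Θ : V ℓ K ≃ₗ[ZMod ℓ] V ℓ L}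
    (h : Compat Θ) (τ : X ℓ L) : NC τ ↔ NC (τ ∘ₗ Θ.toLinearMap) := by
  constructor
  · rintro ⟨a, b, h1, h2, h3⟩
    exact ⟨_, _, (h _ _).1 h1, (h _ _).1 h2, fun h4 => h3 ((h _ _).2 h4)⟩
  · rintro ⟨a, b, h1, h2, h3⟩
    rw [← bas_cs Θ a] at h1 h3
    rw [← bas_cs Θ b] at h2 h3
    exact ⟨_, _, (h _ _).2 h1, (h _ _).2 h2, fun h4 => h3 ((h _ _).1 h4)⟩
theorem Compat.InCl {K L : Type*} [Field K] [Field L] {Θ : V ℓ K ≃ₗ[ZMod ℓ] V ℓ L}
    (h : Compat Θ) (τ : X ℓ L) : InCl τ ↔ InCl (τ ∘ₗ Θ.toLinearMap) := by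
  classical
  constructor
  · intro H s
    obtain ⟨τ', h1, h2⟩ := H (s.image Θ)
    exact ⟨_, (h.NC τ').1 h1, fun v hv => h2 _ (Finset.mem_image_of_mem _ hv)⟩
  · intro H s
    obtain ⟨τ', h1, h2⟩ := H (s.image Θ.symm)
    refine ⟨τ' ∘ₗ Θ.symm.toLinearMap, (h.NC _).2 (by rwa [bas_cs]), fun v hv => ?_⟩
    simpa using h2 _ (Finset.mem_image_of_mem _ hv)

theorem bas_pi [Fact ℓ.Prime] (hℓ : (ℓ : F) ≠ 0) (E : Type*) [Field E]
    [Algebra F E] [IsPurelyInseparable F E] (x : E) : ∃ (N : ℕ) (y : F), (N : ZMod ℓ) ≠ 0 ∧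
      algebraMap F E y = x ^ N ∧ algebraMap F E (1 - y) = (1 - x) ^ N := by
  obtain ⟨q, hq⟩ := ExpChar.exists F
  have := expChar_of_injective_algebraMap (algebraMap F E).injective q
  obtain ⟨n, y, hy⟩ := IsPurelyInseparable.pow_mem F q x
  refine ⟨q ^ n, y, ?_, hy, by rw [map_sub, map_one, hy, sub_pow_expChar_pow, one_pow]⟩
  rw [Nat.cast_pow]
  refine pow_ne_zero _ fun h => ?_
  have hd := (ZMod.natCast_eq_zero_iff q ℓ).1 h
  cases hq with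
  | zero => exact (Fact.out : ℓ.Prime).not_dvd_one hd
  | prime hp =>
    rw [(Nat.prime_dvd_prime_iff_eq Fact.out hp).1 hd] at hℓ
    exact hℓ (CharP.cast_eq_zero F q)

/-- purely inseparable extensions (characteristic prime to `ℓ`) do not change `V`;
use `x ^ q ∈ F`, `(1 - x) ^ q = 1 - x ^ q`, `q` invertible mod `ℓ` -/
theorem vmap_bijective_of_pi [Fact ℓ.Prime] (hℓ : (ℓ : F) ≠ 0) (E : Type*) [Field E]
    [Algebra F E] [IsPurelyInseparable F E] :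
    Function.Bijective (vmap ℓ (algebraMap F E)) := by
  constructor
  · refine (injective_iff_map_eq_zero _).2 fun v hv => ?_
    obtain ⟨a, ha, rfl⟩ := cl_surj v
    rw [vmap_cl] at hv
    obtain ⟨b, -, hb⟩ := bas_root ((map_ne_zero _).2 ha) hv
    obtain ⟨N, y, hN, hy, -⟩ := bas_pi hℓ E b
    have h1 : a ^ N = y ^ ℓ := (algebraMap F E).injective (by
      rw [map_pow, map_pow, ← hb, hy, pow_right_comm])
    have h2 := congrArg (cl ℓ) h1
    rw [cl_pow, cl_pow, ZMod.natCast_self, zero_smul] at h2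
    exact (smul_eq_zero.1 h2).resolve_left hN
  · intro v
    obtain ⟨x, -, rfl⟩ := cl_surj v
    obtain ⟨N, y, hN, hy, -⟩ := bas_pi hℓ E x
    exact ⟨(N : ZMod ℓ)⁻¹ • cl ℓ y, by
      rw [map_smul, vmap_cl, hy, cl_pow, inv_smul_smul₀ hN]⟩
theorem compat_of_pi [Fact ℓ.Prime] (hℓ : (ℓ : F) ≠ 0) (E : Type*) [Field E]
    [Algebra F E] [IsPurelyInseparable F E] :
    Compat (LinearEquiv.ofBijective _ (vmap_bijective_of_pi hℓ E)) := by
  intro σ τ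
  have e : ∀ (ρ : X ℓ E) (a : F), (ρ ∘ₗ (LinearEquiv.ofBijective _
      (vmap_bijective_of_pi hℓ E)).toLinearMap) (cl ℓ a) = ρ (cl ℓ (algebraMap F E a)) :=
    fun ρ a => congrArg ρ (vmap_cl _ a)
  constructor
  · intro h x
    rw [e, e, e, e, map_sub, map_one]
    exact h _
  · intro h x
    obtain ⟨N, y, hN, h1, h2⟩ := bas_pi hℓ E x
    have h3 := h y
    rw [e, e, e, e, h1, h2, cl_pow, cl_pow] at h3
    simp only [map_smul, smul_eq_mul] at h3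
    refine mul_left_cancel₀ (mul_ne_zero hN hN) ?_
    linear_combination h3

end P019
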