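import Vale.Agent.P019.SepB

/-!
P019 Sep: separating characters, transport of valuation rings with function field residue.
`exists_sepChar`: extend `y` to a transcendence basis `(y, z)` of `F / A` (`F` is finitely
generated over `A`), base field `A(z)`; `gm_idx_triv` gives a polynomial in one variable with
finitely many roots; `exists_mono` over `A(z)` for `y - c`; `σ a = N⁻¹ n` when `a^N ~ (y-c)^n`
(`mono_val`, `exists_char`).  `ff_nonCP`: `x = (y - c₁)/(c₂ - c₁)`, `σ_c₁, σ_c₂`.
`ff_center`: if `ρ [f] ≠ 0`, `CP ρ σ_c` at `f / c`.  `transport_ff`: `transport` with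
`exists_liftChar`, `exists_resChar`, `CP_res_iff`, `resK_isAlgClosed`.
`dim_le`: `flag_triv` with `e = 1`, transport, `N ≠ U` (`ff_exists_cl_ne`, `cl_mem_Nv_iff`),
`IRank.succ_le`.  `Nv_infinite`: `y ∈ m_w` transcendental over `k` (if `π ∈ m_w` is constant use
`π y` or `π / y`); the classes of `y - c`, `c ∉ m_w`, are in `N_w`; the characters `σ_c` separate
them; `k \ m_w` is infinite (`c` or `1 + c`).
-/

namespace P019

open IntermediateField

variable {ℓ : ℕ} [Fact ℓ.Prime] {k F : Type*} [Field k] [Field F] [Algebra k F] [IsAlgClosed k]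

omit [IsAlgClosed k] in
theorem sep75_tr {K : Type*} [Field K] [Algebra K F] {w : ValuationSubring F} (hw : w ≠ ⊤)
    {x : F} (hx : ¬ IsAlgebraic K x) : ∃ y, ¬ IsAlgebraic K y ∧ w.valuation y < 1 := by
  obtain ⟨a, ha⟩ : ∃ a : F, a ∉ w := by
    by_contra! h
    exact hw (top_le_iff.1 fun a _ => h a)
  have h0 : a⁻¹ ≠ 0 := inv_ne_zero fun h => ha (h ▸ w.zero_mem)
  have h1 : w.valuation a⁻¹ < 1 := (resb_lt_one_iff w _).2 (Or.inr (by rwa [inv_inv]))
  by_cases hp : IsAlgebraic K a⁻¹
  · have key : ∀ z, z ∈ w → ¬ IsAlgebraic K z →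
        ∃ y, ¬ IsAlgebraic K y ∧ w.valuation y < 1 := fun z hz hz' =>
      ⟨a⁻¹ * z, fun h => hz' (inv_mul_cancel_left₀ h0 z ▸ hp.inv.mul h), by
        rw [map_mul]
        exact mul_lt_one_of_lt_of_le h1 ((w.valuation_le_one_iff z).2 hz)⟩
    rcases w.mem_or_inv_mem x with h | h
    · exact key x h hx
    · exact key x⁻¹ h fun h' => hx (by simpa using h'.inv)
  · exact ⟨_, hp, h1⟩

omit [IsAlgClosed k] in
theorem sep75_step {d n : ℕ} (hF : IsFF k F d) (hn : n + 1 ≤ d) {w : ValuationSubring F}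
    (hw : w ≠ ⊤) {y : Fin n → F} (hy : AlgebraicIndependent k y) :
    ∃ x, ¬ IsAlgebraic (adjoin k (Set.range y)) x ∧ w.valuation x < 1 := by
  obtain ⟨s, rfl⟩ : ∃ s, d = n + (s + 1) := ⟨d - (n + 1), by omega⟩
  obtain ⟨z, hz⟩ := hF.extend hy (Fintype.card_fin n)
  refine sep75_tr hw (x := z 0) ((ffb_option hy _).1 ?_)
  have := hz.comp (fun o : Option (Fin n) => o.elim (Sum.inr 0) Sum.inl) (by
    rintro (_ | a) (_ | b) h <;> simp_all)
  convert this using 1
  funext o
  cases o <;> rfl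

omit [IsAlgClosed k] in
theorem sep75_basis {d : ℕ} (hF : IsFF k F d) {w : ValuationSubring F} (hw : w ≠ ⊤) (n : ℕ)
    (hn : n ≤ d) : ∃ y : Fin n → F, AlgebraicIndependent k y ∧ ∀ j, w.valuation (y j) < 1 := by
  induction n with
  | zero => exact ⟨Fin.elim0, algebraicIndependent_empty_type, fun j => j.elim0⟩
  | succ n ih =>
    obtain ⟨y, hy, hv⟩ := ih (by omega)
    obtain ⟨x, hx, hx'⟩ := sep75_step hF hn hw hy
    refine ⟨_, ((ffb_option hy x).2 hx).comp _ (finSuccEquiv n).injective, fun j => ?_⟩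
    simp only [Function.comp]
    cases finSuccEquiv n j with
    | none => exact hx'
    | some i => exact hv i

theorem sep75_mem {w : ValuationSubring F} {y : F} (hy : w.valuation y < 1) {c : k}
    (hc : ¬ w.valuation (algebraMap k F c) < 1) : cl ℓ (y - algebraMap k F c) ∈ Nv ℓ w := by
  have h0 : algebraMap k F c ≠ 0 := fun h => hc (by simp [h])
  have h1 : w.valuation (1 - y / algebraMap k F c - 1) < 1 := by
    rw [sub_sub_cancel_left, Valuation.map_neg, map_div₀,
      div_lt_one₀ (zero_lt_one.trans_le (not_lt.1 hc))]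
    exact hy.trans_le (not_lt.1 hc)
  have h2 : y - algebraMap k F c = algebraMap k F (-c) * (1 - y / algebraMap k F c) := by
    rw [map_neg]; field_simp; ring
  rw [h2, cl_mul (by simpa using h0) (resb_ne (bas_unit h1)), cl_algebraMap, zero_add]
  exact cl_mem_Hs h1

theorem sep75_inf (w : ValuationSubring F) :
    {c : k | ¬ w.valuation (algebraMap k F c) < 1}.Infinite := by
  intro h
  refine Set.infinite_univ (α := k)
    ((h.union (h.preimage (add_right_injective 1).injOn)).subset fun c _ => ?_)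
  by_cases hc : w.valuation (algebraMap k F c) < 1
  · right
    simp only [Set.mem_preimage, Set.mem_ofPred_eq, map_add, map_one]
    exact (w.valuation.map_one_add_of_lt hc).not_lt
  · exact Or.inl hc

omit [IsAlgClosed k] in
theorem sep75_unit {O : ValuationSubring F} (hO : Triv k O) {c : k} (hc : c ≠ 0) :
    O.valuation (algebraMap k F c) = 1 :=
  (resb_eq_one_iff O _).2 ⟨hO c, fun h => ((resb_lt_one_iff O _).1 h).elim (by simpa using hc)
    fun h => h (by simpa using hO c⁻¹)⟩

theorem Nv_infinite (hℓ : (ℓ : k) ≠ 0) {d : ℕ} (hF : IsFF k F d) (hd : 1 ≤ d)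
    {w : ValuationSubring F} (hw : w ≠ ⊤) : (Nv ℓ w : Set (V ℓ F)).Infinite := by
  obtain ⟨y, hy, hv⟩ := sep75_step (n := 0) hF hd hw
    (algebraicIndependent_empty_type (x := Fin.elim0))
  have hs := exists_sepChar hℓ hF _ hy
  refine Set.infinite_of_injOn_mapsTo (f := fun c : k => cl ℓ (y - algebraMap k F c)) ?_
    (fun c hc => sep75_mem hv hc.1) ((sep75_inf w).sdiff hs)
  intro c hc c' _ h
  obtain ⟨O, σ, hA, hσ, h1, h2⟩ := not_not.1 hc.2
  by_contra hne
  have h3 := sep75_unit (O := O) (fun c => hA _ (IntermediateField.algebraMap_mem _ c))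
    (sub_ne_zero.2 hne)
  refine h2 (Eq.trans (congrArg σ h) ((mem_Iv_iff O σ).1 hσ _ ?_))
  rw [show y - algebraMap k F c' = y - algebraMap k F c + algebraMap k F (c - c') by
    rw [map_sub]; ring, Valuation.map_add_eq_of_lt_right _ (h3 ▸ h1), h3]

/-- If `w ≠ ⊤` choose a transcendence basis `(y, x)` of `L / l` inside `m_w` (multiply a basis
in `w` by `π`, or by `π` and one more generic move; e.g. if `π ∈ m_w` is constant use `π y_j`,
otherwise extend `π` to a basis in `w` and use `π, π y_j`).  `flag_triv` with all `s j` the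
infinite set `{c ∉ m_w}`, `transport_ff` for `Θ.symm`, `Hs_inf_Uv_le`: all `[x - c]`, `c ∉ m_w`,
lie in `N_O'`, against `ff_cl_ne` in the residue field. -/
theorem triv_lim {l L : Type*} [Field l] [Field L] [Algebra l L] [IsAlgClosed l]
    (hℓ : (ℓ : l) ≠ 0) {r : ℕ} (hL : IsFF l L (r + 2)) {Θ : V ℓ F ≃ₗ[ZMod ℓ] V ℓ L}
    (hΘ : Compat Θ) {B : IntermediateField k F} (hB : Flat B (r + 1)) {w : ValuationSubring L}
    (hw : Nv ℓ w ≤ (Hs ℓ (B : Set F)).map Θ.toLinearMap) : w = ⊤ := by
  by_contra hw'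
  obtain ⟨y, hy, hv⟩ := sep75_basis hL hw' (r + 1 + 1) le_rfl
  have hi : AlgebraicIndependent l
      (Sum.elim (fun j => y (Fin.castAdd 1 j)) fun j => y (Fin.natAdd (r + 1) j)) := by
    convert hy.comp _ finSumFinEquiv.injective using 1
    funext o
    cases o <;> rfl
  obtain ⟨O, c, hc, hT, hI, hcan, hres, hR, hV⟩ :=
    flag_triv (e := 1) hℓ hL hi _ fun _ => sep75_inf w
  have hl : O.valuation (ℓ : L) = 1 := by simpa using sep75_unit hT hℓ
  obtain ⟨O', hc', -⟩ := transport_ff k hΘ.symm hI hcan hl hres le_rfl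
  have hm : ∀ j {c : l}, ¬ w.valuation (algebraMap l L c) < 1 →
      Θ.symm (cl ℓ (y j - algebraMap l L c)) ∈ Hs ℓ (B : Set F) := fun j c hc => by
    obtain ⟨v, hv, he⟩ := hw (sep75_mem (hv j) hc)
    rw [← he]
    simpa using hv
  have hle := Hs_inf_Uv_le B hB.2.le (hc'.VInd hV) fun j => hm _ (hc j)
  have := resK_isAlgClosed l O
  have hx := hR.2.transcendental 0
  have hf := ff_cl_ne (res_ne_zero_of_val hl) hres hx
  refine Set.infinite_of_injOn_mapsTo
    (f := fun c : l => (⟨res O (algebraMap l L c), (mem_resK O _).2 ⟨c, hT c, rfl⟩⟩ : resK l O))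
    ?_ ?_ (sep75_inf w) hf
  · intro a _ b _ h
    by_contra hne
    have := (res_eq_iff O (hT a) (hT b)).1 (congrArg Subtype.val h)
    rw [← map_sub, sep75_unit hT (sub_ne_zero.2 hne)] at this
    exact this.false
  · intro a ha hn
    have hr := res_sub O (hR.1 0) (hT a)
    have hu : O.valuation (y (Fin.natAdd (r + 1) 0) - algebraMap l L a) = 1 := by
      refine resb_unit (O.sub_mem (hR.1 0) (hT a)) fun h => hn ?_
      rw [hr] at h
      exact (congrArg (cl ℓ) h).trans (by simp [cl])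
    have h1 := hle ⟨hm _ ha, hc'.1.le
      (Submodule.mem_map_of_mem ((mem_Uv_iff O _).2 ⟨_, hu, rfl⟩))⟩
    rw [← hc'.2] at h1
    obtain ⟨v, hv, he⟩ := h1
    rw [Θ.symm.injective he] at hv
    exact hn (hr ▸ (cl_mem_Nv_iff O hu).1 hv)

end P019
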