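import Vale.Agent.P019.Ultra
import Vale.Agent.P019.Sep

/-!
P019 Bound: bounded genus and bounded visibility give bounded degrees after a Frobenius twist.
`bound_deg`: five constants `c_j ∈ l` are eventually units with unit differences; if
`g^(p^e) = res b` and `ρ_j^(p^e) = res c_j` then `(g - ρ_j)^(p^e) = res (b - c_j)`, the `Vis` sets
agree (`ord_pow`, `p ≠ ℓ`); `cv_deg_le`.
`bound_twist`: `y_1, ..., y_m` generators of `L / l`; not all are eventually constant.  For good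
`i` let `p` be the characteristic (`cv_char`), `e i` the largest `e` such that all `res y_a` are
`p^e`-th powers (`cv_root`), `q i = p^e`, `f a i` = the `q i`-th root of `res a` when it exists.
The `a` with eventually existing root form a subfield containing `l` and the `y_a`.  Some `y_a`
has `f y_a i` eventually not a `p`-th power; for any `z` one of `f z i`, `f (z + y_a) i` is not a
`p`-th power, so is bounded by `bound_deg`; `cv_pdeg_add`, `cv_pdeg_neg`.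
`bound`: `ultra`; `cl_mem_Nv_iff`, `cl_eq_zero_iff`, and `q i` is prime to `ℓ`.
-/

namespace P019

open IntermediateField

universe u v

variable {ℓ : ℕ} [Fact ℓ.Prime] {l : Type*} {L : Type v} [Field l] [Field L] [Algebra l L]

variable (l) in
/-- eventually constant residue -/
def Cst {ι : Type*} (𝒰 : Ultrafilter ι) (O : ι → ValuationSubring L) (z : L) : Prop :=
  ∀ᶠ i in (𝒰 : Filter ι), ∃ c : l, algebraMap l L c ∈ O i ∧
    (O i).valuation (z - algebraMap l L c) < 1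

theorem cst_iff {ι : Type*} {𝒰 : Ultrafilter ι} {O : ι → ValuationSubring L}
    (hlim : VLim (𝒰 : Filter ι) O ⊤) (z : L) :
    Cst l 𝒰 O z ↔ ∀ᶠ i in (𝒰 : Filter ι), res (O i) z ∈ resK l (O i) := by
  refine Filter.eventually_congr (((hlim z).1 (ValuationSubring.mem_top z)).mono fun i hi => ?_)
  rw [mem_resK]
  exact exists_congr fun c => and_congr_right fun hc => (res_eq_iff _ hi hc).symm

theorem bda_sum {F α : Type*} [Field F] (O : ValuationSubring F) (s : Finset α) (f : α → F)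
    (h : ∀ j ∈ s, f j ∈ O) : res O (∑ j ∈ s, f j) = ∑ j ∈ s, res O (f j) := by
  classical
  induction s using Finset.induction_on with
  | empty => simpa using res_natCast O 0
  | insert a s ha ih =>
    have h' : ∀ j ∈ s, f j ∈ O := fun j hj => h j (Finset.mem_insert_of_mem hj)
    rw [Finset.sum_insert ha, Finset.sum_insert ha,
      res_add O (h a (Finset.mem_insert_self a s)) (sum_mem h'), ih h']

theorem bda_unit {ι : Type*} {𝒰 : Ultrafilter ι} {O : ι → ValuationSubring L}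
    (hlim : VLim (𝒰 : Filter ι) O ⊤) {z : L} (hz : z ≠ 0) :
    ∀ᶠ i in (𝒰 : Filter ι), (O i).valuation z = 1 := by
  filter_upwards [(hlim z).1 (ValuationSubring.mem_top _), (hlim z⁻¹).1
    (ValuationSubring.mem_top _)] with i h1 h2
  rw [resb_eq_one_iff, resb_lt_one_iff]
  exact ⟨h1, fun h => h.elim hz fun h => h h2⟩

theorem bda_alg {F : Type*} [Field F] {κ : Subfield F} [IsAlgClosed κ] {x : F}
    (h : IsAlgebraic κ x) : x ∈ κ := by
  by_contra hx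
  exact (cv_trans_iff (κ := κ) x).2 (fun ⟨c, hc⟩ => hx (hc ▸ c.2)) h

variable [IsAlgClosed l]

theorem exists_cst {ι : Type*} {𝒰 : Ultrafilter ι} {O : ι → ValuationSubring L}
    (hlim : VLim (𝒰 : Filter ι) O ⊤) : ∃ C : IntermediateField l L,
      (∀ z, z ∈ C ↔ Cst l 𝒰 O z) ∧ ∀ z : L, IsAlgebraic C z → z ∈ C := by
  have hm : ∀ z : L, ∀ᶠ i in (𝒰 : Filter ι), z ∈ O i := fun z =>
    (hlim z).1 (ValuationSubring.mem_top z)
  have hc : ∀ c : l, ∀ᶠ i in (𝒰 : Filter ι), res (O i) (algebraMap l L c) ∈ resK l (O i) :=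
    fun c => (hm _).mono fun i hi => (mem_resK _ _).2 ⟨c, hi, rfl⟩
  let C : IntermediateField l L :=
    { carrier := {z | ∀ᶠ i in (𝒰 : Filter ι), res (O i) z ∈ resK l (O i)}
      mul_mem' := fun {a b} ha hb => by
        filter_upwards [ha, hb, hm a, hm b] with i h1 h2 h3 h4
        rw [res_mul _ h3 h4]
        exact mul_mem h1 h2
      add_mem' := fun {a b} ha hb => by
        filter_upwards [ha, hb, hm a, hm b] with i h1 h2 h3 h4
        rw [res_add _ h3 h4]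
        exact add_mem h1 h2
      algebraMap_mem' := hc
      inv_mem' := fun a ha => by
        by_cases h0 : a = 0
        · rwa [h0, inv_zero, ← h0]
        filter_upwards [ha, bda_unit hlim h0] with i h1 h2
        rw [res_inv _ h2]
        exact inv_mem h1 }
  refine ⟨C, fun z => (cst_iff hlim z).symm, fun z hz => ?_⟩
  obtain ⟨p, hp, h0⟩ := hz.isIntegral
  rw [Polynomial.eval₂_eq_sum_range] at h0
  have h1 : ∀ᶠ i in (𝒰 : Filter ι), ∀ j ∈ Finset.range (p.natDegree + 1),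
      algebraMap C L (p.coeff j) ∈ O i ∧ res (O i) (algebraMap C L (p.coeff j)) ∈ resK l (O i) :=
    (Filter.eventually_all_finset _).2 fun j _ => (hm _).and (p.coeff j).2
  filter_upwards [h1, hm z] with i h2 h3
  have := resK_isAlgClosed l (O i)
  choose! ρ hρ using fun j (hj : j ∈ Finset.range (p.natDegree + 1)) =>
    show ∃ ρ : resK l (O i), algebraMap _ (Res (O i)) ρ = res (O i) (algebraMap C L (p.coeff j))
      from ⟨⟨_, (h2 j hj).2⟩, rfl⟩
  refine bda_alg ⟨∑ j ∈ Finset.range (p.natDegree + 1), Polynomial.monomial j (ρ j),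
    fun h => ?_, ?_⟩
  · have h4 := congrArg (Polynomial.coeff · p.natDegree) h
    have h5 := hρ _ (Finset.self_mem_range_succ _)
    simp only [Polynomial.finset_sum_coeff, Polynomial.coeff_monomial, Finset.sum_ite_eq',
      Finset.self_mem_range_succ, if_true, Polynomial.coeff_zero] at h4
    rw [h4, hp.coeff_natDegree, map_zero, map_one, ← Nat.cast_one, res_natCast, Nat.cast_one] at h5
    exact zero_ne_one h5
  · have h4 := congrArg (res (O i)) h0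
    rw [bda_sum _ _ _ fun j hj => mul_mem (h2 j hj).1 (pow_mem h3 j), ← Nat.cast_zero,
      res_natCast, Nat.cast_zero] at h4
    rw [map_sum, ← h4]
    refine Finset.sum_congr rfl fun j hj => ?_
    rw [Polynomial.aeval_monomial, hρ j hj, res_mul _ (h2 j hj).1 (pow_mem h3 j), res_pow _ h3]

theorem bound_deg {ι : Type*} {𝒰 : Ultrafilter ι} {O : ι → ValuationSubring L}
    (hlim : VLim (𝒰 : Filter ι) O ⊤)
    (hc : ∀ᶠ i in (𝒰 : Filter ι), IsFF (resK l (O i)) (Res (O i)) 1 ∧ LocFin (resK l (O i)) ∧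
      (O i).valuation (ℓ : L) = 1) {R : ℕ}
    (hU : ∀ᶠ i in (𝒰 : Filter ι), (Unr ℓ (resK l (O i)) (Res (O i))).Finite ∧
      (Unr ℓ (resK l (O i)) (Res (O i))).ncard ≤ R)
    (hV : ∀ b : L, ∃ n : ℕ, ∀ᶠ i in (𝒰 : Filter ι),
      (Vis ℓ (resK l (O i)) (res (O i) b)).ncard ≤ n) (b : L) :
    ∃ D : ℕ, ∀ᶠ i in (𝒰 : Filter ι), ∀ (p e : ℕ) (g : Res (O i)), p.Prime →
      CharP (resK l (O i)) p → g ^ p ^ e = res (O i) b → (¬ ∃ h : Res (O i), h ^ p = g) →
      pdeg (resK l (O i)) g ≤ D := by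
  obtain ⟨c, hc'⟩ : ∃ c : Fin 5 → L, (∀ j, ∃ a : l, algebraMap l L a = c j) ∧
      Function.Injective c :=
    ⟨fun j => algebraMap l L (Infinite.natEmbedding l j), fun j => ⟨_, rfl⟩,
      (algebraMap l L).injective.comp ((Infinite.natEmbedding l).injective.comp Fin.val_injective)⟩
  choose n hn using fun j => hV (b - c j)
  have hm : ∀ z : L, ∀ᶠ i in (𝒰 : Filter ι), z ∈ O i := fun z =>
    (hlim z).1 (ValuationSubring.mem_top z)
  have h1 : ∀ᶠ i in (𝒰 : Filter ι), ∀ j k, j ≠ k → (O i).valuation (c j - c k) = 1 := by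
    refine Filter.eventually_all.2 fun j => Filter.eventually_all.2 fun k => ?_
    by_cases h : j = k
    · exact Filter.Eventually.of_forall fun _ h' => absurd h h'
    · exact (bda_unit hlim (sub_ne_zero.2 (hc'.2.ne h))).mono fun _ h _ => h
  refine ⟨4 * R + 10 * Finset.univ.sup n, ?_⟩
  filter_upwards [hc, hU, Filter.eventually_all.2 hn, hm b,
    Filter.eventually_all.2 fun j => hm (c j), h1] with i ⟨a1, a2, a3⟩ a4 a5 a6 a7 a8 p e g hp hch
    hg hg'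
  have := resK_isAlgClosed l (O i)
  have := Fact.mk hp
  have := charP_of_injective_algebraMap (algebraMap (resK l (O i)) (Res (O i))).injective p
  have hℓ : (ℓ : resK l (O i)) ≠ 0 := res_ne_zero_of_val a3
  have h2 : ∀ j, ∃ ρ : resK l (O i),
      algebraMap _ (Res (O i)) ρ ^ p ^ e = res (O i) (c j) := fun j => by
    obtain ⟨a, ha⟩ := hc'.1 j
    obtain ⟨ρ, hρ⟩ := IsAlgClosed.exists_pow_nat_eq (k := resK l (O i))
      ⟨res (O i) (c j), (mem_resK _ _).2 ⟨a, ha ▸ a7 j, ha ▸ rfl⟩⟩ (pow_pos hp.pos e)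
    exact ⟨ρ, congrArg Subtype.val hρ⟩
  choose ρ hρ using h2
  have h3 : IsCoprime (ℓ : ℤ) ((p ^ e : ℕ) : ℤ) := Nat.isCoprime_iff_coprime.2
    (Nat.Coprime.pow_right e ((Nat.Prime.coprime_iff_not_dvd hp).2 fun h =>
      hℓ ((CharP.cast_eq_zero_iff _ p ℓ).2 h)).symm)
  refine cv_deg_le a1 a2 hℓ p a4.1 a4.2 hg' ρ (fun j k h => ?_) fun j => ?_
  · by_contra hjk
    refine resb_res_ne (a8 j k hjk) ?_
    rw [res_sub _ (a7 j) (a7 k), ← hρ, ← hρ, h, sub_self]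
  · refine le_trans (le_of_eq (congrArg _ (Set.ext fun P => not_congr ?_)))
      ((a5 j).trans (Finset.le_sup (f := n) (Finset.mem_univ j)))
    rw [res_sub _ a6 (a7 j), ← hg, ← hρ, ← sub_pow_char_pow, ord_pow a1]
    exact ⟨fun h => h.mul_left _, h3.dvd_of_dvd_mul_left⟩

theorem bdt_inj {F : Type*} [Field F] {p : ℕ} (hp : p.Prime) [CharP F p] (e : ℕ) {a b : F}
    (h : a ^ p ^ e = b ^ p ^ e) : a = b := by
  have := Fact.mk hp
  rw [← sub_eq_zero, ← sub_pow_char_pow] at h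
  exact sub_eq_zero.1 (pow_eq_zero_iff (pow_ne_zero e hp.ne_zero) |>.1 h)

theorem bdt_loc {F A : Type*} [Field F] (κ : Subfield F) [IsAlgClosed κ] (h : IsFF κ F 1)
    (hκ : LocFin κ) (r : A → F) (s : Finset A) {y₀ : A} (hy : y₀ ∈ s) (hr : r y₀ ∉ κ) :
    ∃ p e : ℕ, p.Prime ∧ CharP κ p ∧ (∀ y ∈ s, ∃ g, g ^ p ^ e = r y) ∧
      ∃ y ∈ s, ¬ ∃ g, g ^ p ^ (e + 1) = r y := by
  classical
  obtain ⟨p, hp, hc⟩ := cv_char hκ
  have := Fact.mk hp
  have := charP_of_injective_algebraMap (algebraMap κ F).injective p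
  obtain ⟨j, g, h1, h2⟩ := cv_root h p (f := r y₀)
    ((cv_trans_iff _).2 fun ⟨c, hc⟩ => hr (hc ▸ c.2))
  have h3 : ∃ e, ∃ y ∈ s, ¬ ∃ g, g ^ p ^ e = r y := by
    refine ⟨j + 1, y₀, hy, fun ⟨b, hb⟩ => h2 ⟨b, bdt_inj hp j ?_⟩⟩
    rw [← pow_mul, ← pow_succ', hb, h1]
  have h4 := Nat.find_spec h3
  rcases hn : Nat.find h3 with _ | e
  · rw [hn] at h4
    obtain ⟨y, -, h5⟩ := h4
    exact absurd ⟨r y, by simp⟩ h5
  · rw [hn] at h4
    refine ⟨p, e, hp, hc, fun y hy => ?_, h4⟩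
    by_contra h5
    exact Nat.find_min h3 (by omega : e < Nat.find h3) ⟨y, hy, h5⟩

theorem bound_twist {d : ℕ} (hL : IsFF l L d) {ι : Type*} {𝒰 : Ultrafilter ι}
    {O : ι → ValuationSubring L} (hlim : VLim (𝒰 : Filter ι) O ⊤)
    (hc : ∀ᶠ i in (𝒰 : Filter ι), IsFF (resK l (O i)) (Res (O i)) 1 ∧ LocFin (resK l (O i)) ∧
      (O i).valuation (ℓ : L) = 1) {R : ℕ}
    (hU : ∀ᶠ i in (𝒰 : Filter ι), (Unr ℓ (resK l (O i)) (Res (O i))).Finite ∧
      (Unr ℓ (resK l (O i)) (Res (O i))).ncard ≤ R)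
    (hV : ∀ b : L, ∃ n : ℕ, ∀ᶠ i in (𝒰 : Filter ι),
      (Vis ℓ (resK l (O i)) (res (O i) b)).ncard ≤ n) (hx : ∃ x, ¬ Cst l 𝒰 O x) :
    ∃ (f : L → ∀ i, Res (O i)) (q : ι → ℕ),
      (∀ a b, ∀ᶠ i in (𝒰 : Filter ι), f (a + b) i = f a i + f b i) ∧
      (∀ a b, ∀ᶠ i in (𝒰 : Filter ι), f (a * b) i = f a i * f b i) ∧
      (∀ᶠ i in (𝒰 : Filter ι), f 1 i = 1) ∧
      (∀ a, ∃ D : ℕ, ∀ᶠ i in (𝒰 : Filter ι), pdeg (resK l (O i)) (f a i) ≤ D) ∧
      (∀ᶠ i in (𝒰 : Filter ι), (q i).Coprime ℓ) ∧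
      ∀ a, ∀ᶠ i in (𝒰 : Filter ι), f a i ^ q i = res (O i) a := by
  classical
  obtain ⟨s, hs⟩ := hL.fg
  obtain ⟨C, hC, -⟩ := exists_cst (l := l) hlim
  obtain ⟨y₀, hy₀, hn⟩ : ∃ y ∈ s, ¬ Cst l 𝒰 O y := by
    by_contra h
    obtain ⟨x, hx⟩ := hx
    have h1 : adjoin l (s : Set L) ≤ C := adjoin_le_iff.2 fun y hy => (hC y).2 (by
      by_contra h2
      exact h ⟨y, hy, h2⟩)
    exact hx ((hC x).1 (h1 (hs ▸ mem_top)))
  rw [cst_iff hlim, ← Ultrafilter.eventually_not] at hn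
  have hκ : ∀ i, IsAlgClosed (resK l (O i)) := fun i => resK_isAlgClosed l (O i)
  have key : ∀ i, ∃ p e : ℕ, (IsFF (resK l (O i)) (Res (O i)) 1 ∧ LocFin (resK l (O i)) ∧
      (O i).valuation (ℓ : L) = 1) → res (O i) y₀ ∉ resK l (O i) →
      p.Prime ∧ CharP (resK l (O i)) p ∧ (∀ y ∈ s, ∃ g, g ^ p ^ e = res (O i) y) ∧
        ∃ y ∈ s, ¬ ∃ g, g ^ p ^ (e + 1) = res (O i) y := by
    intro i
    by_cases h : (IsFF (resK l (O i)) (Res (O i)) 1 ∧ LocFin (resK l (O i)) ∧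
        (O i).valuation (ℓ : L) = 1) ∧ res (O i) y₀ ∉ resK l (O i)
    · obtain ⟨p, e, h1⟩ := bdt_loc (resK l (O i)) h.1.1 h.1.2.1 (res (O i)) s hy₀ h.2
      exact ⟨p, e, fun _ _ => h1⟩
    · exact ⟨0, 0, fun h1 h2 => absurd ⟨h1, h2⟩ h⟩
  choose p e hpe using key
  have hg := (hc.and hn).mono fun i h => hpe i h.1 h.2
  have hp : ∀ᶠ i in (𝒰 : Filter ι), (p i).Prime ∧ CharP (Res (O i)) (p i) := hg.mono fun i h => by
    have := h.2.1
    exact ⟨h.1, charP_of_injective_algebraMap (algebraMap (resK l (O i)) _).injective _⟩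
  have hm : ∀ a : L, ∀ᶠ i in (𝒰 : Filter ι), a ∈ O i := fun a => (hlim a).1 trivial
  have hroot : ∀ a : L, ∀ᶠ i in (𝒰 : Filter ι), ∃ g, g ^ p i ^ e i = res (O i) a := by
    intro a
    have ha : a ∈ adjoin l (s : Set L) := hs ▸ mem_top
    induction ha using adjoin_induction with
    | mem y hy => exact hg.mono fun i h => h.2.2.1 y hy
    | algebraMap c =>
      filter_upwards [hp, hm (algebraMap l L c)] with i h1 h2
      obtain ⟨z, hz⟩ := IsAlgClosed.exists_pow_nat_eq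
        (⟨_, (mem_resK (O i) _).2 ⟨c, h2, rfl⟩⟩ : resK l (O i)) (pow_pos h1.1.pos (e i))
      exact ⟨z, congrArg Subtype.val hz⟩
    | add a b _ _ ha hb =>
      filter_upwards [hp, hm a, hm b, ha, hb] with i ⟨h1, _⟩ h2 h3 ⟨g, h4⟩ ⟨g', h5⟩
      have := Fact.mk h1
      exact ⟨g + g', by rw [add_pow_char_pow, h4, h5, res_add _ h2 h3]⟩
    | inv a _ ha =>
      by_cases h0 : a = 0
      · rwa [h0, inv_zero, ← h0]
      · filter_upwards [hm a, hm a⁻¹, ha] with i h2 h3 ⟨g, h4⟩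
        refine ⟨g⁻¹, ?_⟩
        rw [inv_pow, h4, res_inv _ ((resb_eq_one_iff _ _).2 ⟨h2, fun h => ?_⟩)]
        exact ((resb_lt_one_iff _ _).1 h).elim h0 fun h => h h3
    | mul a b _ _ ha hb =>
      filter_upwards [hm a, hm b, ha, hb] with i h2 h3 ⟨g, h4⟩ ⟨g', h5⟩
      exact ⟨g * g', by rw [mul_pow, h4, h5, res_mul _ h2 h3]⟩
  have hex : ∀ (a : L) (i : ι), ∃ g : Res (O i), (∃ g, g ^ p i ^ e i = res (O i) a) →
      g ^ p i ^ e i = res (O i) a := fun a i => by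
    by_cases h : ∃ g, g ^ p i ^ e i = res (O i) a
    · exact ⟨h.choose, fun _ => h.choose_spec⟩
    · exact ⟨0, fun h1 => absurd h1 h⟩
  choose f hf' using hex
  have hf : ∀ a, ∀ᶠ i in (𝒰 : Filter ι), f a i ^ p i ^ e i = res (O i) a := fun a =>
    (hroot a).mono fun i h => hf' a i h
  have hadd : ∀ a b, ∀ᶠ i in (𝒰 : Filter ι), f (a + b) i = f a i + f b i := by
    intro a b
    filter_upwards [hp, hm a, hm b, hf a, hf b, hf (a + b)] with i ⟨h1, _⟩ h2 h3 h4 h5 h6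
    have := Fact.mk h1
    exact bdt_inj h1 (e i) (by rw [add_pow_char_pow, h4, h5, h6, res_add _ h2 h3])
  refine ⟨f, fun i => p i ^ e i, hadd, fun a b => ?_, ?_, fun z => ?_, ?_, hf⟩
  · filter_upwards [hp, hm a, hm b, hf a, hf b, hf (a * b)] with i ⟨h1, _⟩ h2 h3 h4 h5 h6
    exact bdt_inj h1 (e i) (by rw [mul_pow, h4, h5, h6, res_mul _ h2 h3])
  · filter_upwards [hp, hf 1] with i ⟨h1, _⟩ h2
    exact bdt_inj h1 (e i) (by rw [h2, one_pow, res_one])
  · obtain ⟨y, -, hy⟩ := (Ultrafilter.eventually_exists_mem_iff s.finite_toSet).1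
      (hg.mono fun i h => h.2.2.2)
    obtain ⟨D1, k1⟩ := bound_deg hlim hc hU hV z
    obtain ⟨D2, k2⟩ := bound_deg hlim hc hU hV (z + y)
    obtain ⟨D3, k3⟩ := bound_deg hlim hc hU hV y
    refine ⟨D1 + (D2 + D3), ?_⟩
    filter_upwards [hc, hg, hp, hy, k1, k2, k3, hf z, hf (z + y), hf y, hadd z y] with i h0 h1
      ⟨_, _⟩ h2 k1 k2 k3 f1 f2 f3 h3
    have := Fact.mk h1.1
    have h4 : ¬ ∃ b, b ^ p i = f y i := fun ⟨b, hb⟩ =>
      h2 ⟨b, by rw [pow_succ', pow_mul, hb, f3]⟩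
    by_cases h5 : ∃ b, b ^ p i = f z i
    · obtain ⟨b, hb⟩ := h5
      have h6 := k2 _ _ _ h1.1 h1.2.1 f2 fun ⟨c, hc⟩ =>
        h4 ⟨c - b, by rw [sub_pow_char, hc, hb, h3, add_sub_cancel_left]⟩
      have h7 := k3 _ _ _ h1.1 h1.2.1 f3 h4
      have h8 := cv_pdeg_add h0.1 (f (z + y) i) (-f y i)
      rw [cv_pdeg_neg h0.1, h3, add_neg_cancel_right, ← h3] at h8
      omega
    · exact (k1 _ _ _ h1.1 h1.2.1 f1 h5).trans (Nat.le_add_right _ _)
  · filter_upwards [hc, hp] with i h0 ⟨h1, _⟩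
    refine Nat.Coprime.pow_left _ ((Nat.coprime_primes h1 Fact.out).2 fun h => ?_)
    refine resb_res_ne h0.2.2 ?_
    rw [res_natCast, ← h, CharP.cast_eq_zero]

theorem bound {d : ℕ} (hL : IsFF l L d) {ι : Type u} {𝒰 : Ultrafilter ι}
    {O : ι → ValuationSubring L} (hlim : VLim (𝒰 : Filter ι) O ⊤)
    (hc : ∀ᶠ i in (𝒰 : Filter ι), IsFF (resK l (O i)) (Res (O i)) 1 ∧ LocFin (resK l (O i)) ∧
      (O i).valuation (ℓ : L) = 1) {R : ℕ}
    (hU : ∀ᶠ i in (𝒰 : Filter ι), (Unr ℓ (resK l (O i)) (Res (O i))).Finite ∧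
      (Unr ℓ (resK l (O i)) (Res (O i))).ncard ≤ R)
    (hV : ∀ b : L, ∃ n : ℕ, ∀ᶠ i in (𝒰 : Filter ι),
      (Vis ℓ (resK l (O i)) (res (O i) b)).ncard ≤ n) (hx : ∃ x, ¬ Cst l 𝒰 O x) :
    ∃ (M : Type (max u v)) (_ : Field M) (κ : Subfield M) (φ : L →+* M), IsAlgClosed κ ∧
      IsFF κ M 1 ∧ (∀ z, φ z ∈ κ ↔ Cst l 𝒰 O z) ∧
      ∀ b, (∃ g : M, g ^ ℓ = φ b) ↔ ∀ᶠ i in (𝒰 : Filter ι), cl ℓ b ∈ Nv ℓ (O i) := by
  obtain ⟨f, q, f1, f2, f3, f4, f5, f6⟩ := bound_twist hL hlim hc hU hV hx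
  have hℓ : ℓ.Prime := Fact.out
  have hκ : ∀ i, IsAlgClosed (resK l (O i)) := fun i => resK_isAlgClosed l (O i)
  have hq : ∀ i, (q i).Coprime ℓ → q i ≠ 0 := fun i h h0 => by
    rw [h0, Nat.coprime_zero_left] at h
    exact hℓ.ne_one h
  have h1 : ∀ z, (∀ᶠ i in (𝒰 : Filter ι), f z i ∈ resK l (O i)) ↔ Cst l 𝒰 O z := fun z => by
    rw [cst_iff hlim]
    refine Filter.eventually_congr ?_
    filter_upwards [f5, f6 z] with i h2 h3
    rw [← h3]
    exact ⟨fun h => pow_mem h _, fun h => bda_alg (IsAlgebraic.of_pow (Nat.pos_of_ne_zero (hq i h2))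
      (isAlgebraic_algebraMap (⟨_, h⟩ : resK l (O i))))⟩
  obtain ⟨x, hx⟩ := hx
  obtain ⟨B, hB⟩ := f4 x
  obtain ⟨M, _, κ, φ, u1, u2, u3, -, u5, u6⟩ := ultra 𝒰 (fun i => resK l (O i))
    (hc.mono fun i h => h.1) f f1 f2 f3 f4 (Ultrafilter.eventually_not.2 (mt (h1 x).1 hx)) hB
  refine ⟨M, inferInstance, κ, φ, u1, ⟨fun _ => φ x, algebraicIndependent_unique_type_iff.2 u2, ?_⟩,
    fun z => (u5 z).trans (h1 z), fun b => ?_⟩
  · rwa [Set.range_const]
  by_cases hb : b = 0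
  · rw [hb, cl_zero, map_zero]
    exact iff_of_true ⟨0, zero_pow hℓ.ne_zero⟩ (Filter.Eventually.of_forall fun i => zero_mem _)
  rw [u6 b ℓ hℓ.ne_zero]
  refine Filter.eventually_congr ?_
  filter_upwards [f5, f6 b, bda_unit hlim hb] with i h2 h3 h4
  have h5 : f b i ≠ 0 := fun h => resb_res_ne h4 (by rw [← h3, h, zero_pow (hq i h2)])
  have h6 : (q i : ZMod ℓ) ≠ 0 := fun h =>
    (Nat.Prime.coprime_iff_not_dvd hℓ).1 h2.symm ((ZMod.natCast_eq_zero_iff _ _).1 h)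
  rw [cl_mem_Nv_iff _ h4, ← h3, cl_pow, smul_eq_zero_iff_right h6, cl_eq_zero_iff h5]

end P019
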