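import Mathlib

/-!
P019, statement level definitions.
-/

namespace P019.S

open scoped TensorProduct

/-- `V ℓ F = Fˣ / (Fˣ)^ℓ`, written additively. -/
def V (ℓ : ℕ) (F : Type*) [Field F] : Type _ := ModN (Additive Fˣ) ℓ

instance instGroup (ℓ : ℕ) (F : Type*) [Field F] : AddCommGroup (V ℓ F) :=
  Submodule.Quotient.addCommGroup _

noncomputable instance instModule (ℓ : ℕ) (F : Type*) [Field F] : Module (ZMod ℓ) (V ℓ F) :=
  ModN.instModuleZMod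

/-- The class `[u]` of a unit. -/
def cls (ℓ : ℕ) {F : Type*} [Field F] (u : Fˣ) : V ℓ F := Submodule.Quotient.mk (Additive.ofMul u)

/-- The span of the tensors `[x] ⊗ [1 - x]`, `x ≠ 0, 1`. -/
noncomputable def R (ℓ : ℕ) (F : Type*) [Field F] :
    Submodule (ZMod ℓ) (V ℓ F ⊗[ZMod ℓ] V ℓ F) :=
  Submodule.span (ZMod ℓ)
    {z | ∃ x y : Fˣ, (y : F) = 1 - (x : F) ∧ z = cls ℓ x ⊗ₜ[ZMod ℓ] cls ℓ y}

/-- `(Θ ⊗ Θ) (R K) = R L`. -/
def Compatible (ℓ : ℕ) {K L : Type*} [Field K] [Field L] (Θ : V ℓ K ≃ₗ[ZMod ℓ] V ℓ L) : Prop :=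
  (R ℓ K).map (TensorProduct.map Θ.toLinearMap Θ.toLinearMap) = R ℓ L

/-- `φ` is the map `[u] ↦ [f u]`. -/
def Induced (ℓ : ℕ) {F E : Type*} [Field F] [Field E] (f : F →+* E) (φ : V ℓ F → V ℓ E) : Prop :=
  ∀ u : Fˣ, φ (cls ℓ u) = cls ℓ (Units.map (f : F →* E) u)

/-- The perfect closure `K^i` of `K` inside an algebraic closure. -/
abbrev Perf (K : Type*) [Field K] : Type _ := perfectClosure K (AlgebraicClosure K)

end P019.S
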