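import Vale.Agent.P019.E.Final
import Vale.Agent.P019.Stmt

/-!
P019: the statement level definitions agree with the working ones.
-/

namespace P019

theorem br_cls (ℓ : ℕ) {F : Type*} [Field F] (u : Fˣ) : S.cls ℓ u = cl ℓ (u : F) :=
  (bas_cl u).symm

theorem br_R (ℓ : ℕ) (F : Type*) [Field F] : S.R ℓ F = R ℓ F := by
  refine congrArg (Submodule.span (ZMod ℓ)) (Set.ext fun z => ⟨?_, ?_⟩)
  · rintro ⟨x, y, h, rfl⟩
    refine ⟨x, x.ne_zero, fun e => y.ne_zero (by rw [h, e, sub_self]), ?_⟩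
    rw [br_cls, br_cls, h]
    rfl
  · rintro ⟨x, h0, h1, rfl⟩
    refine ⟨Units.mk0 x h0, Units.mk0 (1 - x) (sub_ne_zero.2 h1.symm), rfl, ?_⟩
    rw [br_cls, br_cls]
    rfl

theorem br_ind (ℓ : ℕ) {F E : Type*} [Field F] [Field E] (f : F →+* E) :
    S.Induced ℓ f (vmap ℓ f) := fun u => by
  rw [br_cls, br_cls]
  exact vmap_cl f u

theorem br_compat {ℓ : ℕ} {K L : Type*} [Field K] [Field L] {Θ : V ℓ K ≃ₗ[ZMod ℓ] V ℓ L}
    (h : S.Compatible ℓ Θ) :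
    (R ℓ K).map (TensorProduct.map Θ.toLinearMap Θ.toLinearMap) = R ℓ L := by
  rw [← br_R, ← br_R]
  exact h

end P019
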