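import Vale.Agent.P019.Defs

/-!
P019, working definitions (see notes/P019.md).
-/

namespace P019

open IntermediateField

variable (ℓ : ℕ)

/-- characters of `Fˣ` with values in `ZMod ℓ` -/
abbrev X (F : Type*) [Field F] : Type _ := Module.Dual (ZMod ℓ) (V ℓ F)

variable {ℓ} in
/-- C-pairs -/
def CP {F : Type*} [Field F] (σ τ : X ℓ F) : Prop :=
  ∀ x : F, σ (cl ℓ x) * τ (cl ℓ (1 - x)) = σ (cl ℓ (1 - x)) * τ (cl ℓ x)

variable {ℓ} in
/-- `Θ` preserves C-pairs -/
def Compat {K L : Type*} [Field K] [Field L] (Θ : V ℓ K ≃ₗ[ZMod ℓ] V ℓ L) : Prop :=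
  ∀ σ τ : X ℓ L, CP σ τ ↔ CP (σ ∘ₗ Θ.toLinearMap) (τ ∘ₗ Θ.toLinearMap)

/-- span of the classes of a set -/
def Hs {F : Type*} [Field F] (s : Set F) : Submodule (ZMod ℓ) (V ℓ F) :=
  Submodule.span (ZMod ℓ) (cl ℓ '' s)

/-- classes of units of `O` -/
def Uv {F : Type*} [Field F] (O : ValuationSubring F) : Submodule (ZMod ℓ) (V ℓ F) :=
  Hs ℓ {a | O.valuation a = 1}

/-- classes of principal units of `O` -/
def Nv {F : Type*} [Field F] (O : ValuationSubring F) : Submodule (ZMod ℓ) (V ℓ F) :=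
  Hs ℓ {a | O.valuation (a - 1) < 1}

/-- inertia -/
def Iv {F : Type*} [Field F] (O : ValuationSubring F) : Submodule (ZMod ℓ) (X ℓ F) :=
  (Uv ℓ O).dualAnnihilator

/-- decomposition -/
def Dv {F : Type*} [Field F] (O : ValuationSubring F) : Submodule (ZMod ℓ) (X ℓ F) :=
  (Nv ℓ O).dualAnnihilator

variable {ℓ} in
def Valuative {F : Type*} [Field F] (σ : X ℓ F) : Prop := ∃ O, σ ∈ Iv ℓ O

variable {ℓ} in
/-- `O` is the coarsest valuation ring whose units are killed by `σ` -/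
def IsCanon {F : Type*} [Field F] (σ : X ℓ F) (O : ValuationSubring F) : Prop :=
  σ ∈ Iv ℓ O ∧ ∀ O', σ ∈ Iv ℓ O' → O' ≤ O

variable {ℓ} in
/-- noncommutative centralizer -/
def NC {F : Type*} [Field F] (τ : X ℓ F) : Prop :=
  ∃ ρ₁ ρ₂ : X ℓ F, CP τ ρ₁ ∧ CP τ ρ₂ ∧ ¬ CP ρ₁ ρ₂

variable {ℓ} in
/-- pointwise limit of characters with noncommutative centralizer -/
def InCl {F : Type*} [Field F] (τ : X ℓ F) : Prop :=
  ∀ s : Finset (V ℓ F), ∃ τ' : X ℓ F, NC τ' ∧ ∀ v ∈ s, τ' v = τ v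

/-- the classes of `b j` are independent modulo units of `O` -/
def VInd {F : Type*} [Field F] (O : ValuationSubring F) {r : ℕ} (b : Fin r → V ℓ F) : Prop :=
  LinearIndependent (ZMod ℓ) fun j => (Uv ℓ O).mkQ (b j)

/-- `V / U_O` has dimension `r` -/
def IRank {F : Type*} [Field F] (O : ValuationSubring F) (r : ℕ) : Prop :=
  Module.Finite (ZMod ℓ) (V ℓ F ⧸ Uv ℓ O) ∧ Module.finrank (ZMod ℓ) (V ℓ F ⧸ Uv ℓ O) = r

/-- residue field -/
abbrev Res {F : Type*} [Field F] (O : ValuationSubring F) : Type _ := IsLocalRing.ResidueField O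

open Classical in
/-- residue map, `0` outside `O` -/
noncomputable def res {F : Type*} [Field F] (O : ValuationSubring F) (a : F) : Res O :=
  if h : a ∈ O then IsLocalRing.residue O ⟨a, h⟩ else 0

/-- residues of elements of `k` -/
noncomputable def resK (k : Type*) {F : Type*} [Field k] [Field F] [Algebra k F] (O : ValuationSubring F) :
    Subfield (Res O) :=
  Subfield.closure {r | ∃ c : k, r = res O (algebraMap k F c)}

/-- function field of dimension `d` -/
def IsFF (k F : Type*) [Field k] [Field F] [Algebra k F] (d : ℕ) : Prop :=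
  ∃ y : Fin d → F, AlgebraicIndependent k y ∧ FiniteDimensional (adjoin k (Set.range y)) F

/-- the value group of `W` is, up to index prime to `ℓ`, the value group of `F` -/
def IdxOK (F : Type*) {K : Type*} [Field F] [Field K] [Algebra F K] (W : ValuationSubring K) :
    Prop :=
  ∃ N : ℕ, N.Coprime ℓ ∧
    ∀ a : K, ∃ c : F, W.valuation (a ^ N) = W.valuation (algebraMap F K c)

/-- limit of valuation rings along a filter -/
def VLim {ι F : Type*} [Field F] (𝒰 : Filter ι) (O : ι → ValuationSubring F)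
    (W : ValuationSubring F) : Prop :=
  ∀ x, x ∈ W ↔ ∀ᶠ i in 𝒰, x ∈ O i

/-- every nonzero element is a root of unity -/
def LocFin (κ : Type*) [Field κ] : Prop := ∀ a : κ, a ≠ 0 → ∃ n : ℕ, 0 < n ∧ a ^ n = 1

/-- `O` is trivial on `k` -/
def Triv (k : Type*) {F : Type*} [Field k] [Field F] [Algebra k F] (O : ValuationSubring F) :
    Prop :=
  ∀ c : k, algebraMap k F c ∈ O

/-- relatively algebraically closed intermediate field of dimension `a` -/
def Flat {k F : Type*} [Field k] [Field F] [Algebra k F] (A : IntermediateField k F) (a : ℕ) :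
    Prop :=
  (∀ z : F, IsAlgebraic A z → z ∈ A) ∧ Algebra.trdeg k A = a

/-- relative algebraic closure of `k(s)` in `F` -/
noncomputable def acl (k : Type*) {F : Type*} [Field k] [Field F] [Algebra k F] (s : Set F) :
    IntermediateField k F :=
  (algebraicClosure (adjoin k s) F).restrictScalars k

/-- `O` and `O'` correspond under `Θ` -/
def Corr {K L : Type*} [Field K] [Field L] (Θ : V ℓ K ≃ₗ[ZMod ℓ] V ℓ L)
    (O : ValuationSubring K) (O' : ValuationSubring L) : Prop :=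
  (Uv ℓ O).map Θ.toLinearMap = Uv ℓ O' ∧ (Nv ℓ O).map Θ.toLinearMap = Nv ℓ O'

/-! ### curves -/

/-- places of `F / κ` -/
def Place (κ F : Type*) [Field κ] [Field F] [Algebra κ F] : Type _ :=
  {P : ValuationSubring F // P ≠ ⊤ ∧ Triv κ P}

/-- `o` is the normalized order function of `P` -/
def IsOrd {F : Type*} [Field F] (P : ValuationSubring F) (o : F → ℤ) : Prop :=
  o 0 = 0 ∧ (∀ a b, a ≠ 0 → b ≠ 0 → o (a * b) = o a + o b) ∧
    (∀ a, a ≠ 0 → (a ∈ P ↔ 0 ≤ o a)) ∧ ∃ π, π ≠ 0 ∧ o π = 1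

open Classical in
noncomputable def ord {κ F : Type*} [Field κ] [Field F] [Algebra κ F] (P : Place κ F) : F → ℤ :=
  if h : ∃ o, IsOrd P.1 o then h.choose else 0

/-- degree of the pole divisor -/
noncomputable def pdeg (κ : Type*) {F : Type*} [Field κ] [Field F] [Algebra κ F] (f : F) : ℕ :=
  ∑ᶠ P : Place κ F, (-ord P f).toNat

variable {ℓ} in
/-- `σ` is `ord P` modulo `ℓ` -/
def IsPt {κ F : Type*} [Field κ] [Field F] [Algebra κ F] (P : Place κ F) (σ : X ℓ F) : Prop :=
  ∀ f : F, σ (cl ℓ f) = (ord P f : ZMod ℓ)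

/-- unramified classes -/
def Unr (κ F : Type*) [Field κ] [Field F] [Algebra κ F] : Set (V ℓ F) :=
  {v | ∀ (P : Place κ F) (σ : X ℓ F), IsPt P σ → σ v = 0}

/-- places where `f` is visible modulo `ℓ` -/
def Vis (κ : Type*) {F : Type*} [Field κ] [Field F] [Algebra κ F] (f : F) : Set (Place κ F) :=
  {P | ¬ (ℓ : ℤ) ∣ ord P f}

end P019
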