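import Vale.Agent.P019.CvZ

/-!
P019 Cv: interface for function fields of curves (see notes/P019.md, part Cv).
-/

namespace P019

open IntermediateField Polynomial

variable {ℓ : ℕ} {κ F : Type*} [Field κ] [Field F] [Algebra κ F] [IsAlgClosed κ]

variable (κ) in
/-- pole divisor -/
noncomputable def cv_pd (f : F) : Dvs κ F := -dv κ f ⊔ 0

theorem cv_pd_apply (h : IsFF κ F 1) (f : F) (P : Place κ F) :
    cv_pd κ f P = max (-ord P f) 0 := by
  rw [cv_pd, Finsupp.sup_apply, Finsupp.neg_apply, dv_apply h, Finsupp.zero_apply]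

omit [IsAlgClosed κ] in
theorem cv_pdeg_sum (f : F) (s : Finset (Place κ F)) (hs : ∀ P, ord P f < 0 → P ∈ s) :
    (pdeg κ f : ℤ) = ∑ P ∈ s, max (-ord P f) 0 := by
  rw [pdeg, finsum_eq_sum_of_support_subset (s := s) _ fun P hP => hs P (by
    have : (-ord P f).toNat ≠ 0 := hP
    omega), Nat.cast_sum]
  exact Finset.sum_congr rfl fun P _ => Int.ofNat_toNat _

theorem cv_pd_deg (h : IsFF κ F 1) (f : F) : ddeg (cv_pd κ f) = pdeg κ f := by
  rw [cv_pdeg_sum f (cv_pd κ f).support fun P hP => by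
    rw [Finsupp.mem_support_iff, cv_pd_apply h]
    omega, ddeg, Finsupp.liftAddHom_apply, Finsupp.sum]
  exact Finset.sum_congr rfl fun P _ => cv_pd_apply h f P

omit [IsAlgClosed κ] in
theorem cv_pd_nonneg (f : F) : 0 ≤ cv_pd κ f := le_sup_right

theorem cv_mem_pd (h : IsFF κ F 1) (f : F) : f ∈ LSet (cv_pd κ f) :=
  Or.inr fun P => by
    rw [cv_pd_apply h]
    omega

omit [IsAlgClosed κ] in
theorem cv_L_mono {D E : Dvs κ F} (hDE : D ≤ E) {f : F} (hf : f ∈ LSet D) : f ∈ LSet E :=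
  hf.imp id fun h1 P => (neg_le_neg (hDE P)).trans (h1 P)

theorem cv_L_mul (h : IsFF κ F 1) {D E : Dvs κ F} {f g : F} (hf : f ∈ LSet D) (hg : g ∈ LSet E) :
    f * g ∈ LSet (D + E) := by
  by_cases h0 : f * g = 0
  · exact Or.inl h0
  · have h1 := left_ne_zero_of_mul h0
    have h2 := right_ne_zero_of_mul h0
    refine Or.inr fun P => ?_
    rw [(cv_isOrd h P).2.1 f g h1 h2, Finsupp.add_apply, neg_add]
    exact add_le_add (hf.resolve_left h1 P) (hg.resolve_left h2 P)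

theorem cv_ord_one (h : IsFF κ F 1) (P : Place κ F) : ord P (1 : F) = 0 :=
  (cv_val_eq_one h P one_ne_zero).1 (map_one _)

theorem cv_L_pow (h : IsFF κ F 1) (f : F) {a N : ℕ} (ha : a ≤ N) :
    f ^ a ∈ LSet (N • cv_pd κ f) := by
  refine cv_L_mono (nsmul_le_nsmul_left (cv_pd_nonneg f) ha) ?_
  clear ha
  induction a with
  | zero => exact Or.inr fun P => by simp [cv_ord_one h]
  | succ a ih =>
    rw [pow_succ, succ_nsmul]
    exact cv_L_mul h ih (cv_mem_pd h f)

theorem cv_card_le (h : IsFF κ F 1) (D : Dvs κ F) {ι : Type*} [Fintype ι] (v : ι → F)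
    (hv : ∀ i, v i ∈ LSet D) (hl : LinearIndependent κ v) : Fintype.card ι ≤ ldim D := by
  have := LSp_finite h D
  exact (LinearIndependent.of_comp (LSp D).subtype
    (v := fun i => (⟨v i, Submodule.subset_span (hv i)⟩ : LSp D)) hl).fintype_card_le_finrank

omit [IsAlgClosed κ] in
theorem cv_char (hκ : LocFin κ) : ∃ p : ℕ, p.Prime ∧ CharP κ p := by
  obtain ⟨p, hp⟩ := CharP.exists κ
  rcases CharP.char_is_prime_or_zero κ p with h | rfl
  · exact ⟨p, h, hp⟩
  · have := CharP.charP_to_charZero κ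
    obtain ⟨n, hn, h⟩ := hκ 2 two_ne_zero
    have : 2 ^ n = 1 := by exact_mod_cast h
    have := Nat.one_lt_two_pow hn.ne'
    omega

theorem cv_genus_le (h : IsFF κ F 1) {g : ℕ} {W : Dvs κ F} (hRR : IsRR g W)
    {x θ : F} (hx : Transcendental κ x) (hgen : adjoin κ {x, θ} = ⊤) {m : ℕ}
    {G : κ[X][X]} (hG : G ≠ 0) (hd : G.natDegree ≤ m) (hm : ∀ i, (G.coeff i).natDegree ≤ m)
    (hrel : (G.map (aeval x : κ[X] →ₐ[κ] F).toRingHom).eval θ = 0) : g ≤ m ^ 4 := by
  obtain ⟨hn, hfin⟩ := cv_pdeg_eq h hx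
  have he := cv_pdeg_of_rel h hx hG hm hrel
  have htop : κ⟮x⟯⟮θ⟯ = ⊤ := by
    rw [← restrictScalars_eq_top_iff (K := κ), adjoin_simple_adjoin_simple, hgen]
  have hmin := (Field.primitive_element_iff_minpoly_natDegree_eq _ θ).1 htop
  have hx' : Transcendental κ (AdjoinSimple.gen κ x) := by
    rw [← transcendental_algebraMap_iff (A := F) (algebraMap κ⟮x⟯ F).injective]
    exact hx
  have hinj := transcendental_iff_injective.1 hx'
  have hnm : (minpoly κ⟮x⟯ θ).natDegree ≤ m := by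
    refine le_trans (natDegree_le_natDegree (minpoly.degree_le_of_ne_zero κ⟮x⟯ θ
      (p := G.map (aeval (AdjoinSimple.gen κ x) : κ[X] →ₐ[κ] κ⟮x⟯).toRingHom)
      ((Polynomial.map_ne_zero_iff hinj).2 hG) ?_)) (natDegree_map_le.trans hd)
    rw [aeval_def, eval₂_map, ← hrel, eval_map]
    congr 1
    ext <;> simp
  have hpos : 0 < pdeg κ x := by
    rw [hn]
    exact Module.finrank_pos
  rw [← hn] at hmin
  obtain ⟨k, hk⟩ : ∃ k, pdeg κ x = k + 1 := Nat.exists_eq_succ_of_ne_zero hpos.ne'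
  have hb : LinearIndependent κ fun i : Fin (2 * g + 1) => AdjoinSimple.gen κ x ^ i.val := by
    have : LinearIndependent κ fun i : ℕ => AdjoinSimple.gen κ x ^ i := by
      have h1 := (basisMonomials κ).linearIndependent.map' (aeval (AdjoinSimple.gen κ x)).toLinearMap
        (LinearMap.ker_eq_bot.2 hinj)
      simpa [Function.comp_def, aeval_monomial] using h1
    exact this.comp _ Fin.val_injective
  have h1 := cv_card_le h ((2 * g) • cv_pd κ x + k • cv_pd κ θ) _ (fun q => by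
    have h2 := q.2.2
    exact cv_L_mul h (cv_L_pow h x (Nat.lt_succ_iff.1 q.1.2))
      (cv_L_pow h θ (a := q.2.val) (by omega)))
    (linearIndependent_smul hb (linearIndependent_pow (K := κ⟮x⟯) θ))
  have h2 := hRR ((2 * g) • cv_pd κ x + k • cv_pd κ θ)
  have h3 : ddeg ((2 * g) • cv_pd κ x + k • cv_pd κ θ) =
      ((2 * g * (k + 1) + k * pdeg κ θ : ℕ) : ℤ) := by
    rw [map_add, map_nsmul, map_nsmul, cv_pd_deg h, cv_pd_deg h, hk]
    simp
  rw [ldim_neg h (W - _) (by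
    rw [map_sub, h3, (hRR.deg h).1, mul_add, mul_one]
    omega), h3] at h2
  rw [Fintype.card_prod, Fintype.card_fin, Fintype.card_fin, hmin, hk, add_mul, one_mul] at h1
  rw [hmin, hk] at hnm
  rw [hk] at he
  calc g ≤ k * pdeg κ θ := by omega
    _ ≤ m * (m * m) := Nat.mul_le_mul (by omega) (he.trans (Nat.mul_le_mul_left _ hnm))
    _ = m ^ 3 := by ring
    _ ≤ m ^ 4 := Nat.pow_le_pow_right (by omega) (by norm_num)

theorem cv_zero_unique (h : IsFF κ F 1) (P : Place κ F) {g : F} {a b : κ}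
    (ha : 0 < ord P (g - algebraMap κ F a)) (hb : 0 < ord P (g - algebraMap κ F b)) : a = b := by
  have key : ∀ u : F, 0 < ord P u → P.1.valuation u < 1 := fun u hu => by
    have h0 : u ≠ 0 := by
      rintro rfl
      rw [(cv_isOrd h P).1] at hu
      exact lt_irrefl _ hu
    refine lt_of_le_of_ne ((P.1.valuation_le_one_iff u).2 (((cv_isOrd h P).2.2.1 u h0).2 hu.le))
      fun e => hu.ne' ((cv_val_eq_one h P h0).1 e)
  by_contra hne
  have h1 := P.1.valuation.map_sub_lt (key _ hb) (key _ ha)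
  rw [sub_sub_sub_cancel_left, ← map_sub] at h1
  have h2 := (P.1.valuation_le_one_iff _).2 (P.2.2 (a - b)⁻¹)
  have h3 := mul_lt_one_of_nonneg_of_lt_one_left zero_le h1 h2
  rw [← map_mul, ← map_mul, mul_inv_cancel₀ (sub_ne_zero.2 hne), map_one, map_one] at h3
  exact lt_irrefl _ h3

/-- bounded linear relation: the `g ^ a * f j` lie in one space `L(D)`, `l(D) ≤ deg D + 1` -/
theorem cv_rel (h : IsFF κ F 1) {B D : ℕ} {g : F} (hg : pdeg κ g ≤ B) (f : Fin (B + 1) → F)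
    (hf : ∀ j, pdeg κ (f j) ≤ D) :
    ∃ p : Fin (B + 1) → κ[X], p ≠ 0 ∧ (∀ j, (p j).natDegree ≤ (B + 1) * D + 1) ∧
      ∑ j, aeval g (p j) * f j = 0 := by
  have hl : ¬ LinearIndependent κ
      fun q : Fin (B + 1) × Fin ((B + 1) * D + 1 + 1) => g ^ q.2.val * f q.1 := fun hl => by
    have h0 : ∀ j, f j ∈ LSet (∑ j, cv_pd κ (f j)) := fun j => cv_L_mono
      (Finset.single_le_sum (f := fun j => cv_pd κ (f j)) (fun j _ => cv_pd_nonneg _)
        (Finset.mem_univ j)) (cv_mem_pd h _)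
    have h1 := cv_card_le h (((B + 1) * D + 1) • cv_pd κ g + ∑ j, cv_pd κ (f j))
      (fun q : Fin (B + 1) × Fin ((B + 1) * D + 1 + 1) => g ^ q.2.val * f q.1)
      (fun q => cv_L_mul h (cv_L_pow h g (a := q.2.val) (Nat.lt_succ_iff.1 q.2.2)) (h0 q.1)) hl
    have h3 : ddeg (((B + 1) * D + 1) • cv_pd κ g + ∑ j, cv_pd κ (f j)) =
        ((((B + 1) * D + 1) * pdeg κ g + ∑ j, pdeg κ (f j) : ℕ) : ℤ) := by
      simp [cv_pd_deg h]
    have h2 := ldim_le h _ (h3 ▸ Nat.cast_nonneg _)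
    have h4 : ∑ j, pdeg κ (f j) ≤ (B + 1) * D := by
      simpa using Finset.sum_le_card_nsmul Finset.univ _ D fun j _ => hf j
    have h5 := Nat.mul_le_mul_left ((B + 1) * D + 1) hg
    rw [h3] at h2
    rw [Fintype.card_prod, Fintype.card_fin, Fintype.card_fin] at h1
    generalize (B + 1) * D = M at *
    have : (B + 1) * (M + 1 + 1) = (M + 1) * B + B + M + 2 := by ring
    omega
  obtain ⟨c, hc, q, hq⟩ := Fintype.not_linearIndependent_iff.1 hl
  refine ⟨fun j => ∑ a : Fin ((B + 1) * D + 1 + 1), monomial a.val (c (j, a)), fun h0 => hq ?_,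
    fun j => ?_, ?_⟩
  · have := congrArg (coeff · q.2.val) (congrFun h0 q.1)
    simpa [finsetSum_coeff, coeff_monomial, Fin.val_inj] using this
  · exact natDegree_sum_le_of_forall_le _ _ fun a _ =>
      (natDegree_monomial_le _).trans (Nat.lt_succ_iff.1 a.2)
  · rw [← hc, Fintype.sum_prod_type]
    refine Finset.sum_congr rfl fun j _ => ?_
    rw [map_sum, Finset.sum_mul]
    refine Finset.sum_congr rfl fun a _ => ?_
    rw [aeval_monomial, Algebra.smul_def, mul_assoc]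
/-- upper bound for the unramified classes of a curve with a plane model of bidegree `≤ m`
(genus `≤ m ^ 4`, and there are exactly `ℓ ^ (2 g)` unramified classes) -/
theorem cv_unr_le [Fact ℓ.Prime] (h : IsFF κ F 1) (hκ : LocFin κ) (hℓ : (ℓ : κ) ≠ 0)
    {x θ : F} (hx : Transcendental κ x) (hgen : adjoin κ {x, θ} = ⊤) {m : ℕ}
    {G : κ[X][X]} (hG : G ≠ 0) (hd : G.natDegree ≤ m) (hm : ∀ i, (G.coeff i).natDegree ≤ m)
    (hrel : (G.map (aeval x : κ[X] →ₐ[κ] F).toRingHom).eval θ = 0) :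
    (Unr ℓ κ F).Finite ∧ (Unr ℓ κ F).ncard ≤ ℓ ^ (2 * m ^ 4) := by
  obtain ⟨p, hp, _⟩ := cv_char hκ
  have := Fact.mk hp
  obtain ⟨j, y, -, hy⟩ := cv_root h p hx
  obtain ⟨h1, h2⟩ := cv_separating h p hy
  obtain ⟨g, W, hRR, -⟩ := exists_isRR h h1
  obtain ⟨h3, h4⟩ := cv_unr_card h hκ hℓ hRR
  refine ⟨h3, h4 ▸ Nat.pow_le_pow_right (Fact.out : ℓ.Prime).pos ?_⟩
  exact Nat.mul_le_mul_left 2 (cv_genus_le h hRR hx hgen hG hd hm hrel)

/-- few unramified classes (small genus) and few visible points over five values bound the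
degree of a separating function (Riemann-Hurwitz inequality) -/
theorem cv_deg_le [Fact ℓ.Prime] (h : IsFF κ F 1) (hκ : LocFin κ) (hℓ : (ℓ : κ) ≠ 0)
    (p : ℕ) [Fact p.Prime] [CharP κ p] {R n : ℕ} (hU : (Unr ℓ κ F).Finite)
    (hR : (Unr ℓ κ F).ncard ≤ R) {g : F} (hg : ¬ ∃ b : F, b ^ p = g) (ρ : Fin 5 → κ)
    (hρ : Function.Injective ρ)
    (hv : ∀ j, (Vis ℓ κ (g - algebraMap κ F (ρ j))).ncard ≤ n) :
    pdeg κ g ≤ 4 * R + 10 * n := by
  classical
  obtain ⟨h1, h2⟩ := cv_separating h p hg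
  obtain ⟨γ, W, hRR, hH⟩ := exists_isRR h h1
  have hγ : 2 * γ ≤ R := by
    rw [(cv_unr_card h hκ hℓ hRR).2] at hR
    exact (Nat.lt_pow_self (Fact.out : ℓ.Prime).one_lt).le.trans hR
  let u : Fin 5 → F := fun j => g - algebraMap κ F (ρ j)
  have hu : ∀ j, u j ≠ 0 := fun j e => h1 (sub_eq_zero.1 e ▸ isAlgebraic_algebraMap _)
  let Z : Fin 5 → Finset (Place κ F) := fun j =>
    (cv_finite h (u j)).toFinset.filter fun P => 0 < ord P (u j)
  have hZ : ∀ j P, P ∈ Z j ↔ 0 < ord P (u j) := fun j P => by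
    simp only [Z, Finset.mem_filter, Set.Finite.mem_toFinset, Set.mem_ofPred_eq]
    exact ⟨fun h => h.2, fun h => ⟨h.ne', h⟩⟩
  have hc : ∀ P : Place κ F, ∃ c, ∀ j, P ∈ Z j → c = ρ j := fun P => by
    by_cases h3 : ∃ j, P ∈ Z j
    · obtain ⟨j, hj⟩ := h3
      exact ⟨ρ j, fun k hk => cv_zero_unique h P ((hZ _ _).1 hj) ((hZ _ _).1 hk)⟩
    · exact ⟨0, fun j hj => absurd ⟨j, hj⟩ h3⟩
  choose c hc using hc
  have h4 := hH (Finset.univ.biUnion Z) c fun P hP => by
    obtain ⟨j, -, hj⟩ := Finset.mem_biUnion.1 hP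
    rw [hc P j hj]
    exact (hZ _ _).1 hj
  rw [Finset.sum_biUnion fun j _ k _ hjk => Finset.disjoint_left.2 fun P hj hk =>
    hjk (hρ ((hc P j hj).symm.trans (hc P k hk)))] at h4
  have h5 : ∀ j, (pdeg κ g : ℤ) - n ≤
      2 * ∑ P ∈ Z j, (ord P (g - algebraMap κ F (c P)) - 1) := fun j => by
    have e1 : ∀ P : Place κ F, ord P (u j)⁻¹ = -ord P (u j) := fun P => by
      have := (cv_isOrd h P).2.1 _ _ (hu j) (inv_ne_zero (hu j))
      rw [mul_inv_cancel₀ (hu j), cv_ord_one h] at this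
      omega
    have e2 : pdeg κ g ≤ pdeg κ (u j)⁻¹ := by
      have := cv_pdeg_add h (u j) (algebraMap κ F (ρ j))
      rwa [cv_pdeg_const h, add_zero, sub_add_cancel, ← cv_pdeg_inv h (u j)] at this
    have e3 := cv_pdeg_sum (κ := κ) (u j)⁻¹ (Z j) fun P hP => (hZ _ _).2 (by
      rw [e1] at hP
      omega)
    have e4 : ((Z j).filter fun P => P ∈ Vis ℓ κ (u j)).card ≤ n := by
      refine le_trans ?_ (hv j)
      rw [← Set.ncard_coe_finset]
      refine Set.ncard_le_ncard (fun P hP => (Finset.mem_filter.1 hP).2)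
        ((cv_finite h (u j)).subset fun P hP e => hP ?_)
      rw [e]
      exact dvd_zero _
    have e5 : ∑ P ∈ Z j, max (-ord P (u j)⁻¹) 0 ≤
        ∑ P ∈ Z j, (2 * (ord P (g - algebraMap κ F (c P)) - 1) +
          if P ∈ Vis ℓ κ (u j) then 1 else 0) := Finset.sum_le_sum fun P hP => by
      have e6 := (hZ _ _).1 hP
      rw [e1, hc P j hP]
      change _ ≤ 2 * (ord P (u j) - 1) + _
      split_ifs with e7
      · omega
      · have := Int.le_of_dvd e6 (not_not.1 e7)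
        have := (Fact.out : ℓ.Prime).two_le
        omega
    rw [Finset.sum_add_distrib, Finset.sum_boole, ← Finset.mul_sum] at e5
    omega
  have h6 := Finset.sum_le_sum fun j (_ : j ∈ (Finset.univ : Finset (Fin 5))) => h5 j
  rw [← Finset.mul_sum, Finset.sum_const, Finset.card_univ, Fintype.card_fin, nsmul_eq_mul] at h6
  push_cast at h6
  omega

end P019
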