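import Vale.Agent.P019.CvA

/-!
P019 CvS: separating elements.
PLAN. `x` is transcendental (`cv_trans_iff`, constants are `p`-th powers). For `y : F` take an irreducible `G ∈ κ[X, Y]` with `G(x, y) = 0`
(minimal polynomial over `κ⟮x⟯`; alternatively work with `[F : F^p] = p`): Frobenius `F → F^p` maps `κ⟮x⟯` onto `κ⟮x ^ p⟯`, so
`[F^p : κ(x^p)] = [F : κ(x)] = n`, `[F : κ(x^p)] = n p`, hence `[F : F^p] = p`; since `x ∉ F^p`, `F = F^p(x) = F^p κ(x)`, and a finite extension
with `F = K F^p` is separable (a basis `b` of `F / K` has `b ^ p` spanning, `Field.isSeparable_of_span_pow`-type lemmas in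
`Mathlib.FieldTheory.PurelyInseparable.PerfectClosure`, `Mathlib.FieldTheory.Relrank`; or: the separable closure `S` of `K` in `F` has
`F ^ (p ^ k) ⊆ S` and `F = K F ^ (p ^ k)`).
-/

namespace P019

open IntermediateField Polynomial

variable {κ F : Type*} [Field κ] [Field F] [Algebra κ F] [IsAlgClosed κ]

theorem cvs_div (p : ℕ) (hp : 1 < p) (a : F) : a ^ (p - 1) * a⁻¹ ^ p = a⁻¹ := by
  obtain ⟨n, rfl⟩ : ∃ n, p = n + 1 := ⟨p - 1, by omega⟩
  by_cases ha : a = 0
  · simp [ha]
  · rw [Nat.add_sub_cancel, pow_succ, ← mul_assoc, ← mul_pow, mul_inv_cancel₀ ha, one_pow, one_mul]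

theorem cvs_ker (p : ℕ) [Fact p.Prime] [CharP F p] {x : F} (hx : ¬ ∃ b : F, b ^ p = x) {q : F[X]}
    (hq : q.degree < p) (h0 : eval₂ (frobenius F p) x q = 0) : q = 0 := by
  have hp : p.Prime := Fact.out
  have hi := X_pow_sub_C_irreducible_of_prime hp fun b hb => hx ⟨b, hb⟩
  refine eq_zero_of_dvd_of_degree_lt (p := Polynomial.X ^ p - C x) ?_
    (by rwa [degree_X_pow_sub_C hp.pos])
  by_contra hd
  obtain ⟨a, b, e⟩ := hi.coprime_iff_not_dvd.2 hd
  have h1 := congrArg (eval₂ (frobenius F p) x) e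
  simp [eval₂_add, eval₂_mul, eval₂_sub, h0, frobenius_def] at h1

theorem cvs_coef (p : ℕ) [Fact p.Prime] [CharP F p] (x : F) (c : κ⟮x⟯) :
    ∃ q : κ⟮x⟯[X], q.degree < p ∧
      eval₂ ((frobenius F p).comp (algebraMap κ⟮x⟯ F)) x q = c := by
  have hp : p.Prime := Fact.out
  set ψ := (frobenius F p).comp (algebraMap κ⟮x⟯ F) with hψ
  have h1 : ∀ r : κ[X], aeval x r ∈ (eval₂RingHom ψ x).range := by
    intro r
    induction r using Polynomial.induction_on' with
    | add r s hr hs => rw [map_add]; exact add_mem hr hs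
    | monomial n a =>
      obtain ⟨d, rfl⟩ := IsAlgClosed.exists_pow_nat_eq a hp.pos
      refine ⟨monomial n (algebraMap κ _ d), ?_⟩
      rw [coe_eval₂RingHom, eval₂_monomial, aeval_monomial, map_pow]
      rfl
  obtain ⟨q, hq⟩ : (c : F) ∈ (eval₂RingHom ψ x).range := by
    obtain ⟨r, s, e⟩ := (mem_adjoin_simple_iff κ (c : F)).1 c.2
    have h2 : (aeval x s)⁻¹ ^ p ∈ (eval₂RingHom ψ x).range :=
      ⟨C ⟨_, inv_mem (algebra_adjoin_le_adjoin κ _ (aeval_mem_adjoin_singleton κ x))⟩,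
        eval₂_C _ _⟩
    have h3 := mul_mem (mul_mem (h1 r) (pow_mem (h1 s) (p - 1))) h2
    rwa [mul_assoc, cvs_div p hp.one_lt, ← div_eq_mul_inv, ← e] at h3
  have hm : (Polynomial.X ^ p - C (AdjoinSimple.gen κ x)).Monic := monic_X_pow_sub_C _ hp.ne_zero
  refine ⟨q %ₘ (Polynomial.X ^ p - C (AdjoinSimple.gen κ x)), ?_, ?_⟩
  · have h2 := degree_modByMonic_lt q hm
    rwa [degree_X_pow_sub_C hp.pos] at h2
  · rw [eval₂_modByMonic_eq_self_of_root]
    · exact hq
    · rw [eval₂_sub, eval₂_X_pow, eval₂_C]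
      exact sub_self _

/-- an element that is not a `p`-th power is separating -/
theorem cv_separating (h : IsFF κ F 1) (p : ℕ) [Fact p.Prime] [CharP κ p] {x : F}
    (hx : ¬ ∃ b : F, b ^ p = x) : Transcendental κ x ∧ Algebra.IsSeparable κ⟮x⟯ F := by
  have hp : p.Prime := Fact.out
  have : CharP F p := charP_of_injective_algebraMap (algebraMap κ F).injective p
  have ht : Transcendental κ x := by
    rw [cv_trans_iff]
    rintro ⟨c, rfl⟩
    obtain ⟨d, rfl⟩ := IsAlgClosed.exists_pow_nat_eq c hp.pos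
    exact hx ⟨_, (map_pow _ _ _).symm⟩
  refine ⟨ht, ⟨fun y => ?_⟩⟩
  have := cv_fin h ht
  have : CharP κ⟮x⟯ p := charP_of_injective_algebraMap (algebraMap κ κ⟮x⟯).injective p
  have hy : IsIntegral κ⟮x⟯ y := .of_finite _ y
  rcases separable_or p (minpoly.irreducible hy) with hs | ⟨-, g, hg, e⟩
  · exact hs
  exfalso
  choose q hq1 hq2 using fun i : Fin (g.natDegree + 1) => cvs_coef (κ := κ) p x (g.coeff i)
  have hd : g.natDegree + 1 ≤ (minpoly κ⟮x⟯ y).natDegree := by
    have h1 := minpoly.natDegree_pos hy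
    rw [← e, natDegree_expand] at h1 ⊢
    have h2 := hp.two_le
    have h3 := Nat.pos_of_mul_pos_right h1
    nlinarith
  have hli := (linearIndependent_pow (K := κ⟮x⟯) y).comp (Fin.castLE hd) (Fin.castLE_injective hd)
  have h0 : ∑ i, (q i).map (algebraMap κ⟮x⟯ F) * C (y ^ (i : ℕ)) = 0 := by
    refine cvs_ker p hx ?_ ?_
    · refine (degree_sum_le _ _).trans_lt ((Finset.sup_lt_iff (WithBot.bot_lt_coe p)).2
        fun i _ => ?_)
      rw [mul_comm, C_mul']
      exact ((degree_smul_le _ _).trans degree_map_le).trans_lt (hq1 i)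
    · have h1 := minpoly.aeval κ⟮x⟯ y
      rw [← e, expand_aeval, aeval_eq_sum_range, Finset.sum_range] at h1
      rw [eval₂_finsetSum, ← h1]
      refine Finset.sum_congr rfl fun i _ => ?_
      rw [eval₂_mul, eval₂_C, eval₂_map, hq2, frobenius_def, ← pow_mul, ← pow_mul, mul_comm p]
      rfl
  have h1 : q (Fin.last _) = 0 := by
    ext1 j
    refine Fintype.linearIndependent_iff.1 hli (fun i => (q i).coeff j) ?_ _
    have h2 := congrArg (coeff · j) h0
    simp only [finsetSum_coeff, coeff_mul_C, coeff_map, coeff_zero] at h2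
    exact h2
  have h2 := hq2 (Fin.last _)
  rw [h1, eval₂_zero] at h2
  exact leadingCoeff_ne_zero.2 hg.ne_zero (Subtype.ext h2.symm)

end P019
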