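import Vale.Agent.P019.CvD
import Vale.Agent.P019.CvS

/-!
P019 Cv0: places, orders, degrees for function fields of curves (see notes/P019.md, part Cv).
The other statements are in CvA, CvB (places, `ord`), CvD (divisors, `cv_pdeg_eq`, `cv_pdeg_inv`), CvS (`cv_separating`).
PLAN. Compare pole divisors (`pdv_apply`, `ddeg_pdv`, `ddeg_mono`): `pdv (f + g) ≤ pdv f + pdv g` etc. `cv_ncard`: the set is contained in
the union of the supports of `pdv f` and `pdv f⁻¹`, and an effective divisor has degree at least the size of its support.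
`cv_pdeg_of_rel`: `a i = (G.coeff i)(g)`, `∑ a i f ^ i = 0`, all nonzero `a i` lie in `L(m • pdv g)`, so `E i = dv (a i) + m • pdv g` is effective of
degree `m * pdeg g`. Let `d` be the top index. At a pole `P` of `f` with `ord P (a d f ^ d)` strictly less than all other terms we get a
contradiction (`ord_add_eq`, `OS`), so some `i < d` has `ord (a i) + i ord f ≤ ord (a d) + d ord f`, hence
`-ord P f ≤ (d - i) (-ord P f) ≤ ord (a d) - ord (a i) ≤ E d P`. So `pdv f ≤ E d`.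
`cv_root`: take `j` maximal with `f` a `p ^ j`-th power (`p ^ j ≤ pdeg f`, `cv_pdeg_pow`, `cv_pdeg_eq`, `pdeg > 0`).
-/

namespace P019

open IntermediateField Polynomial

variable {ℓ : ℕ} {κ F : Type*} [Field κ] [Field F] [Algebra κ F] [IsAlgClosed κ]

theorem cv_ncard (h : IsFF κ F 1) (f : F) :
    {P : Place κ F | ord P f ≠ 0}.ncard ≤ 2 * pdeg κ f := by
  have h1 : ∀ P, (pdv κ f + pdv κ f⁻¹) P = |ord P f| := fun P => by
    rw [Finsupp.add_apply, pdv_apply h, pdv_apply h, ord_inv h, abs_eq_max_neg]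
    omega
  have h2 : {P : Place κ F | ord P f ≠ 0} = (pdv κ f + pdv κ f⁻¹).support := Set.ext fun P => by
    rw [Finset.mem_coe, Finsupp.mem_support_iff, h1, abs_ne_zero]
    rfl
  have h3 := Finset.card_nsmul_le_sum (pdv κ f + pdv κ f⁻¹).support (pdv κ f + pdv κ f⁻¹) 1
    fun P hP => by
      rw [Finsupp.mem_support_iff, h1, abs_ne_zero] at hP
      rw [h1]
      exact Int.one_le_abs hP
  rw [← cvd_ddeg, map_add, ddeg_pdv h, ddeg_pdv h, cv_pdeg_inv h, nsmul_eq_mul] at h3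
  rw [h2, Set.ncard_coe_finset]
  omega

theorem cv_pdeg_const (h : IsFF κ F 1) (c : κ) : pdeg κ (algebraMap κ F c) = 0 := cvd_const h c

theorem cv0_le (h : IsFF κ F 1) {D : Dvs κ F} (hD : 0 ≤ D) {f : F} (hf : f ∈ LSp D) :
    (pdeg κ f : ℤ) ≤ ddeg D := by
  rw [← ddeg_pdv h]
  refine ddeg_mono fun P => ?_
  rw [pdv_apply h]
  refine max_le ?_ (hD P)
  rcases (mem_LSp_iff h D f).1 hf P with h1 | h1
  · rw [h1, ord_zero h]
    exact hD P
  · exact neg_le.1 h1

theorem cv_pdeg_add (h : IsFF κ F 1) (f g : F) : pdeg κ (f + g) ≤ pdeg κ f + pdeg κ g := by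
  have h1 := cv0_le h (add_nonneg (cvd_pdv h f) (cvd_pdv h g)) (add_mem
    (LSp_mono h (le_add_of_nonneg_right (cvd_pdv h g)) (mem_LSp_pdv h f))
    (LSp_mono h (le_add_of_nonneg_left (cvd_pdv h f)) (mem_LSp_pdv h g)))
  rw [map_add, ddeg_pdv h, ddeg_pdv h] at h1
  exact_mod_cast h1

theorem cv_pdeg_mul (h : IsFF κ F 1) (f g : F) : pdeg κ (f * g) ≤ pdeg κ f + pdeg κ g := by
  have h1 := cv0_le h (add_nonneg (cvd_pdv h f) (cvd_pdv h g))
    (LSp_mul h (mem_LSp_pdv h f) (mem_LSp_pdv h g))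
  rw [map_add, ddeg_pdv h, ddeg_pdv h] at h1
  exact_mod_cast h1

theorem cv_pdeg_neg (h : IsFF κ F 1) (f : F) : pdeg κ (-f) = pdeg κ f := by
  simp only [pdeg, ord_neg h]

theorem cv_pdeg_pow (h : IsFF κ F 1) (f : F) (n : ℕ) : pdeg κ (f ^ n) = n * pdeg κ f := by
  have h1 : pdv κ (f ^ n) = n • pdv κ f := Finsupp.ext fun P => by
    rw [Finsupp.smul_apply, pdv_apply h, pdv_apply h, ord_pow h, nsmul_eq_mul,
      mul_max_of_nonneg _ _ (Int.natCast_nonneg n), mul_zero, mul_neg]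
  have h2 := ddeg_pdv h (f ^ n)
  rw [h1, map_nsmul, ddeg_pdv h, nsmul_eq_mul] at h2
  exact_mod_cast h2.symm

theorem cv0_aeval (h : IsFF κ F 1) (g : F) {m : ℕ} {q : κ[X]} (hq : q.natDegree ≤ m) :
    aeval g q ∈ LSp (m • pdv κ g) := by
  rw [aeval_eq_sum_range]
  exact Submodule.sum_mem _ fun i hi => Submodule.smul_mem _ _
    (LSp_mono h (nsmul_le_nsmul_left (cvd_pdv h g)
      ((Nat.lt_succ_iff.1 (Finset.mem_range.1 hi)).trans hq)) (cvd_pow h (mem_LSp_pdv h g) i))

/-- an algebraic relation bounds the degree -/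
theorem cv_pdeg_of_rel (h : IsFF κ F 1) {g f : F} (hg : Transcendental κ g) {m : ℕ}
    {G : κ[X][X]} (hG : G ≠ 0) (hm : ∀ i, (G.coeff i).natDegree ≤ m)
    (hrel : (G.map (aeval g : κ[X] →ₐ[κ] F).toRingHom).eval f = 0) :
    pdeg κ f ≤ m * pdeg κ g := by
  have ha : ∀ i P, aeval g (G.coeff i) ∈ OS h P (-(m • pdv κ g) P) := fun i =>
    (mem_LSp_iff h _ _).1 (cv0_aeval h g (hm i))
  have h0 : aeval g (G.coeff G.natDegree) ≠ 0 := fun h0 =>
    leadingCoeff_ne_zero.2 hG (transcendental_iff.1 hg _ h0)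
  rw [eval_eq_sum_range' (Nat.lt_succ_of_le natDegree_map_le), Finset.sum_range_succ,
    add_eq_zero_iff_neg_eq] at hrel
  simp only [coeff_map, AlgHom.toRingHom_eq_coe, RingHom.coe_coe] at hrel
  have h1 : pdv κ f ≤ dv κ (aeval g (G.coeff G.natDegree)) + m • pdv κ g := fun P => by
    rw [pdv_apply h, Finsupp.add_apply, dv_apply h]
    have h2 := ((mem_OS h P _ _).1 (ha G.natDegree P)).resolve_left h0
    by_cases hP : 0 ≤ ord P f
    · exact max_le (by omega) (by omega)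
    have hf : f ≠ 0 := fun hf => hP (by rw [hf, ord_zero h])
    have h3 : aeval g (G.coeff G.natDegree) * f ^ G.natDegree ∈
        OS h P (-(m • pdv κ g) P + ((G.natDegree : ℤ) - 1) * ord P f) := by
      rw [← hrel]
      refine neg_mem (Submodule.sum_mem _ fun i hi => OS_mul h P (ha i P) (Or.inr ?_))
      have h4 : (i : ℤ) + 1 ≤ G.natDegree := by exact_mod_cast Finset.mem_range.1 hi
      rw [ord_pow h]
      exact mul_le_mul_of_nonpos_right (by omega) (by omega)
    have h4 := ((mem_OS h P _ _).1 h3).resolve_left (mul_ne_zero h0 (pow_ne_zero _ hf))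
    rw [ord_mul h P h0 (pow_ne_zero _ hf), ord_pow h, sub_mul, one_mul] at h4
    exact max_le (by omega) (by omega)
  have h2 := ddeg_mono h1
  rw [map_add, ddeg_dv h, zero_add, map_nsmul, ddeg_pdv h, ddeg_pdv h, nsmul_eq_mul] at h2
  exact_mod_cast h2

/-- extraction of the maximal `p`-power root -/
theorem cv_root (h : IsFF κ F 1) (p : ℕ) [Fact p.Prime] [CharP κ p] {f : F}
    (hf : Transcendental κ f) : ∃ (j : ℕ) (g : F), g ^ p ^ j = f ∧ ¬ ∃ b : F, b ^ p = g := by
  have h0 : 0 < pdeg κ f := by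
    obtain ⟨h1, h2⟩ := cv_pdeg_eq h hf
    rw [h1]
    exact Module.finrank_pos
  clear hf
  obtain ⟨n, hn⟩ : ∃ n, pdeg κ f = n := ⟨_, rfl⟩
  induction n using Nat.strong_induction_on generalizing f with
  | _ n ih =>
    by_cases hb : ∃ b : F, b ^ p = f
    · obtain ⟨b, hb⟩ := hb
      have h1 := cv_pdeg_pow h b p
      rw [hb] at h1
      have h2 : 0 < pdeg κ b := Nat.pos_of_mul_pos_left (h1 ▸ h0)
      obtain ⟨j, g, h3, h4⟩ := ih (pdeg κ b) (by
        rw [← hn, h1]
        exact lt_mul_of_one_lt_left h2 (Fact.out : p.Prime).one_lt) h2 rfl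
      exact ⟨j + 1, g, by rw [pow_succ, pow_mul, h3, hb], h4⟩
    · exact ⟨0, f, by rw [pow_zero, pow_one], hb⟩

end P019
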