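import Vale.Agent.P019.ResB

/-!
P019 CvA: places are discrete, residues are constants (helper62).
-/

namespace P019

open IntermediateField Polynomial

variable {ℓ : ℕ} {κ F : Type*} [Field κ] [Field F] [Algebra κ F] [IsAlgClosed κ]

theorem cv_trans_iff (a : F) : Transcendental κ a ↔ ¬ ∃ c : κ, a = algebraMap κ F c := by
  refine not_congr ⟨fun ha => ?_, ?_⟩
  · have h1 : (minpoly κ a).degree = 1 :=
      IsAlgClosed.degree_eq_one_of_irreducible κ (minpoly.irreducible ha.isIntegral)
    obtain ⟨c, hc⟩ := minpoly.degree_eq_one_iff.1 h1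
    exact ⟨c, hc.symm⟩
  · rintro ⟨c, rfl⟩
    exact isAlgebraic_algebraMap c
theorem cv_fin (h : IsFF κ F 1) {x : F} (hx : Transcendental κ x) :
    FiniteDimensional κ⟮x⟯ F := by
  obtain ⟨y, hy, hfin⟩ := h
  have e : Set.range y = {y 0} := by
    ext z
    simp [Fin.exists_fin_one, eq_comm]
  rw [e] at hfin
  have ht : Transcendental κ (y 0) := hy.transcendental 0
  generalize y 0 = t at hfin ht
  have ha : IsAlgebraic κ⟮x⟯ t :=
    isAlgebraic_adjoin_iff.mpr (.adjoin_singleton ht hx
      (isAlgebraic_adjoin_iff.mp (Algebra.IsAlgebraic.isAlgebraic (R := κ⟮t⟯) x)))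
  have h1 : FiniteDimensional κ⟮x⟯ κ⟮x⟯⟮t⟯ := adjoin.finiteDimensional ha.isIntegral
  have h2 : FiniteDimensional κ⟮x⟯⟮t⟯ F := by
    have hle : κ⟮t⟯ ≤ restrictScalars κ κ⟮x⟯⟮t⟯ :=
      adjoin_simple_le_iff.2 (mem_adjoin_simple_self κ⟮x⟯ t)
    obtain ⟨s, hs⟩ := Module.Finite.fg_top (R := κ⟮t⟯) (M := F)
    refine ⟨s, eq_top_iff.2 fun z _ => ?_⟩
    have hz : z ∈ Submodule.span κ⟮t⟯ (s : Set F) := hs ▸ Submodule.mem_top
    induction hz using Submodule.span_induction with
    | mem w hw => exact Submodule.subset_span hw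
    | zero => exact Submodule.zero_mem _
    | add u w _ _ hu hw => exact Submodule.add_mem _ (hu trivial) (hw trivial)
    | smul c w _ hw =>
      exact Submodule.smul_mem _ (⟨c.1, hle c.2⟩ : κ⟮x⟯⟮t⟯) (hw trivial)
  exact .trans κ⟮x⟯ κ⟮x⟯⟮t⟯ F
/-- induction over nonzero polynomials -/
theorem cv_poly_ind {Q : κ[X] → Prop} (hC : ∀ c, c ≠ 0 → Q (C c)) (hX : ∀ c, Q (Polynomial.X - C c))
    (hm : ∀ p q, Q p → Q q → Q (p * q)) {p : κ[X]} (hp : p ≠ 0) : Q p := by
  have h1 := (IsAlgClosed.splits p).eq_prod_roots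
  rw [h1]
  have hc := hC _ (leadingCoeff_ne_zero.2 hp)
  generalize p.roots = s
  induction s using Multiset.induction_on with
  | empty => simpa using hc
  | cons a s ih =>
    rw [Multiset.map_cons, Multiset.prod_cons, mul_left_comm]
    exact hm _ _ (hX a) ih
omit [IsAlgClosed κ] in
/-- common denominators -/
theorem cv_den {x : F} {ι : Type*} [Fintype ι] (g : ι → κ⟮x⟯) :
    ∃ (q : κ[X]) (p : ι → κ[X]), aeval x q ≠ 0 ∧ ∀ i, (g i : F) * aeval x q = aeval x (p i) := by
  classical
  have h1 : ∀ i, ∃ r s : κ[X], aeval x s ≠ 0 ∧ (g i : F) * aeval x s = aeval x r := by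
    intro i
    obtain ⟨r, s, e⟩ := (mem_adjoin_simple_iff κ (g i : F)).1 (g i).2
    by_cases hs : aeval x s = 0
    · exact ⟨0, 1, by simp, by simp [e, hs]⟩
    · exact ⟨r, s, hs, by rw [e, div_mul_cancel₀ _ hs]⟩
  choose r s hs e using h1
  refine ⟨∏ i, s i, fun i => r i * ∏ j ∈ Finset.univ.erase i, s j, ?_, fun i => ?_⟩
  · rw [map_prod]
    exact Finset.prod_ne_zero_iff.2 fun i _ => hs i
  · rw [← Finset.mul_prod_erase _ _ (Finset.mem_univ i), map_mul, map_mul, ← mul_assoc, e]
/-- elements independent modulo `x B` are independent over `κ(x)` -/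
theorem cv_ind (h : IsFF κ F 1) {x : F} (hx : Transcendental κ x) (B : Subalgebra κ F)
    (hxB : x ∈ B) {ι : Type*} [Fintype ι] (u : ι → F) (hu : ∀ i, u i ∈ B)
    (hc : ∀ (c : ι → κ) (b : F), b ∈ B → ∑ i, c i • u i = x * b → c = 0) :
    Fintype.card ι ≤ Module.finrank κ⟮x⟯ F := by
  have := cv_fin h hx
  have hx0 : x ≠ 0 := by
    rintro rfl
    exact hx isAlgebraic_zero
  have key : ∀ n : ℕ, ∀ p : ι → κ[X], ∑ i, aeval x (p i) * u i = 0 →
      ∀ i, Polynomial.X ^ n ∣ p i := by
    intro n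
    induction n with
    | zero => simp
    | succ n ih =>
      intro p hp
      have h1 : ∀ i, aeval x (p i) * u i =
          (p i).coeff 0 • u i + x * (aeval x (p i).divX * u i) := by
        intro i
        conv_lhs => rw [← X_mul_divX_add (p i)]
        rw [map_add, map_mul, aeval_X, aeval_C, Algebra.smul_def]
        ring
      simp only [h1, Finset.sum_add_distrib, ← Finset.mul_sum] at hp
      have h2 := hc (fun i => (p i).coeff 0) (-∑ i, aeval x (p i).divX * u i)
        (B.neg_mem (B.sum_mem fun i _ => B.mul_mem (aeval_mem_adjoin_singleton κ x |> fun hh =>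
          (Algebra.adjoin_le (Set.singleton_subset_iff.2 hxB)) hh) (hu i)))
        (by rw [mul_neg]; exact eq_neg_of_add_eq_zero_left hp)
      have h3 : ∀ i, (p i).coeff 0 = 0 := fun i => congrFun h2 i
      simp only [h3, zero_smul, Finset.sum_const_zero, zero_add] at hp
      have h4 := ih _ ((mul_eq_zero.1 hp).resolve_left hx0)
      intro i
      rw [← X_mul_divX_add (p i), h3, C_0, add_zero, pow_succ']
      exact mul_dvd_mul_left _ (h4 i)
  refine LinearIndependent.fintype_card_le_finrank (b := u) (Fintype.linearIndependent_iff.2 ?_)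
  intro g hg i
  obtain ⟨q, p, hq, hp⟩ := cv_den g
  have h1 : ∑ i, aeval x (p i) * u i = 0 := by
    have h2 : ∀ i, aeval x (p i) * u i = aeval x q * (g i • u i) := by
      intro i
      rw [← hp, IntermediateField.smul_def, smul_eq_mul]
      ring
    simp only [h2, ← Finset.mul_sum, hg, mul_zero]
  have h2 : p i = 0 :=
    eq_zero_of_dvd_of_natDegree_lt (key ((p i).natDegree + 1) p h1 i) (by simp)
  have h3 := hp i
  rw [h2, map_zero] at h3
  exact Subtype.ext ((mul_eq_zero.1 h3).resolve_right hq)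
omit [IsAlgClosed κ] in
theorem cv_val_const (P : Place κ F) {c : κ} (hc : c ≠ 0) :
    P.1.valuation (algebraMap κ F c) = 1 := by
  have h1 := (P.1.valuation_le_one_iff _).2 (P.2.2 c)
  have h2 := (P.1.valuation_le_one_iff _).2 (P.2.2 c⁻¹)
  have h0 : algebraMap κ F c ≠ 0 := by simpa using hc
  rw [map_inv₀, map_inv₀, inv_le_one₀ (zero_lt_iff.2 (by simpa using h0))] at h2
  exact le_antisymm h1 h2
omit [IsAlgClosed κ] in
/-- a nontrivial combination of elements with distinct values has one of these values -/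
theorem cv_sum_val (P : Place κ F) {ι : Type*} [Fintype ι] (u : ι → F)
    (hu : Function.Injective fun i => P.1.valuation (u i)) (hu0 : ∀ i, u i ≠ 0) {c : ι → κ}
    (hc : c ≠ 0) : ∃ i, P.1.valuation (∑ j, c j • u j) = P.1.valuation (u i) := by
  classical
  have hne : (Finset.univ.filter fun i => c i ≠ 0).Nonempty := by
    obtain ⟨i, hi⟩ := Function.ne_iff.1 hc
    exact ⟨i, Finset.mem_filter.2 ⟨Finset.mem_univ _, hi⟩⟩
  obtain ⟨i, hi, hm⟩ := Finset.exists_max_image _ (fun i => P.1.valuation (u i)) hne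
  have hv : ∀ j, c j ≠ 0 → P.1.valuation (c j • u j) = P.1.valuation (u j) := by
    intro j hj
    rw [Algebra.smul_def, map_mul, cv_val_const P hj, one_mul]
  have hi' := (Finset.mem_filter.1 hi).2
  refine ⟨i, ?_⟩
  rw [← hv i hi']
  refine P.1.valuation.map_sum_eq_of_lt (Finset.mem_univ i) fun j hj => ?_
  have hji : j ≠ i := by simpa using hj
  rw [hv i hi']
  by_cases h0 : c j = 0
  · rw [h0, zero_smul, map_zero]
    exact zero_lt_iff.2 (by simpa using hu0 i)
  · rw [hv j h0]
    exact lt_of_le_of_ne (hm j (Finset.mem_filter.2 ⟨Finset.mem_univ _, h0⟩)) fun e => hji (hu e)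
omit [IsAlgClosed κ] in
/-- a place as a subalgebra -/
def cvAlg (P : Place κ F) : Subalgebra κ F :=
  { P.1.toSubring with algebraMap_mem' := P.2.2 }

omit [IsAlgClosed κ] in
theorem mem_cvAlg (P : Place κ F) (a : F) : a ∈ cvAlg P ↔ a ∈ P.1 := Iff.rfl

theorem cv_trans_of_lt (P : Place κ F) {x : F} (hx : x ≠ 0) (h1 : P.1.valuation x < 1) :
    Transcendental κ x := by
  rw [cv_trans_iff]
  rintro ⟨c, rfl⟩
  exact h1.ne (cv_val_const P (by simpa using hx))

omit [IsAlgClosed κ] in
theorem cv_exists_lt (P : Place κ F) : ∃ x : F, x ≠ 0 ∧ P.1.valuation x < 1 := by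
  obtain ⟨a, ha⟩ : ∃ a, a ∉ P.1 := by
    by_contra hh
    push Not at hh
    exact P.2.1 (eq_top_iff.2 fun a _ => hh a)
  have ha0 : a ≠ 0 := by
    rintro rfl
    exact ha P.1.zero_mem
  refine ⟨a⁻¹, inv_ne_zero ha0, ?_⟩
  rw [← P.1.valuation_le_one_iff, not_le] at ha
  rw [map_inv₀]
  exact inv_lt_one_of_one_lt₀ ha

theorem cv_vals_finite (h : IsFF κ F 1) (P : Place κ F) {x : F} (hx : x ≠ 0)
    (h1 : P.1.valuation x < 1) : {γ | P.1.valuation x < γ ∧ γ ≤ 1}.Finite := by
  by_contra hinf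
  obtain ⟨T, hT, hc⟩ := Set.Infinite.exists_subset_card_eq hinf (Module.finrank κ⟮x⟯ F + 1)
  choose u hu using fun γ : T => P.1.valuation_surjective γ.1
  have hu0 : ∀ i, u i ≠ 0 := by
    intro i e
    have h2 := (hT i.2).1
    rw [← hu, e, map_zero] at h2
    exact not_lt_zero h2
  have h2 := cv_ind h (cv_trans_of_lt P hx h1) (cvAlg P) ((P.1.valuation_le_one_iff _).1 h1.le) u
    (fun i => (P.1.valuation_le_one_iff _).1 (by rw [hu]; exact (hT i.2).2)) fun c b hb e => by
      by_contra hc0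
      obtain ⟨i, hi⟩ := cv_sum_val P u (fun i j e => Subtype.ext (by simpa only [hu] using e)) hu0 hc0
      have h3 := (hT i.2).1
      rw [← hu, ← hi, e, map_mul] at h3
      exact absurd (mul_le_of_le_one_right' ((P.1.valuation_le_one_iff _).2 hb)) (not_le.2 h3)
  rw [Fintype.card_coe, hc] at h2
  omega

theorem cv_unif (h : IsFF κ F 1) (P : Place κ F) : ∃ π : F, π ≠ 0 ∧ P.1.valuation π < 1 ∧
    ∀ a : F, a ≠ 0 → ∃ k : ℤ, P.1.valuation a = P.1.valuation π ^ k := by
  obtain ⟨x, hx, h1⟩ := cv_exists_lt P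
  have hfin : {γ | P.1.valuation x ≤ γ ∧ γ < 1}.Finite := by
    refine ((cv_vals_finite h P hx h1).insert (P.1.valuation x)).subset fun γ hγ => ?_
    rcases hγ.1.eq_or_lt with e | e
    · exact Or.inl e.symm
    · exact Or.inr ⟨e, hγ.2.le⟩
  obtain ⟨γ, hγ, hm⟩ := Set.exists_max_image _ id hfin ⟨_, le_rfl, h1⟩
  obtain ⟨π, rfl⟩ := P.1.valuation_surjective γ
  have hx' : 0 < P.1.valuation x := zero_lt_iff.2 (by simpa using hx)
  have hπ : 0 < P.1.valuation π := hx'.trans_le hγ.1
  have hmax : ∀ δ, δ < 1 → δ ≤ P.1.valuation π := by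
    intro δ hδ
    rcases le_total (P.1.valuation x) δ with e | e
    · exact hm δ ⟨e, hδ⟩
    · exact e.trans hγ.1
  have key : ∀ a : F, a ≠ 0 → P.1.valuation a < 1 →
      ∃ k : ℕ, P.1.valuation a = P.1.valuation π ^ k := by
    intro a ha ha1
    have hex : ∃ k : ℕ, P.1.valuation π ^ k ≤ P.1.valuation a := by
      by_contra hh
      push Not at hh
      exact Set.infinite_of_injective_forall_mem (f := fun k : ℕ => P.1.valuation π ^ k)
        (s := {γ | P.1.valuation a < γ ∧ γ ≤ 1})
        (pow_right_strictAnti₀ hπ hγ.2).injective (fun k => ⟨hh k, pow_le_one' hγ.2.le k⟩)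
        (cv_vals_finite h P ha ha1)
    classical
    have h2 := Nat.find_spec hex
    obtain ⟨k, hk⟩ : ∃ k, Nat.find hex = k + 1 := Nat.exists_eq_succ_of_ne_zero fun e => by
      rw [e, pow_zero] at h2
      exact absurd ha1 (not_lt.2 h2)
    have h3 := Nat.find_min hex (m := k) (by omega)
    rw [hk] at h2
    refine ⟨k + 1, le_antisymm ?_ h2⟩
    have h4 : 0 < P.1.valuation π ^ k := pow_pos hπ k
    have h5 := hmax (P.1.valuation a / P.1.valuation π ^ k) ((div_lt_one₀ h4).2 (not_le.1 h3))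
    rw [div_le_iff₀ h4] at h5
    rwa [pow_succ']
  refine ⟨π, by simpa using hπ.ne', hγ.2, fun a ha => ?_⟩
  have ha' : 0 < P.1.valuation a := zero_lt_iff.2 (by simpa using ha)
  rcases lt_trichotomy (P.1.valuation a) 1 with e | e | e
  · obtain ⟨k, hk⟩ := key a ha e
    exact ⟨k, by rw [hk, zpow_natCast]⟩
  · exact ⟨0, by rw [e, zpow_zero]⟩
  · obtain ⟨k, hk⟩ := key a⁻¹ (inv_ne_zero ha) (by rw [map_inv₀]; exact inv_lt_one_of_one_lt₀ e)
    exact ⟨-k, by rw [zpow_neg, zpow_natCast, ← hk, map_inv₀, inv_inv]⟩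

theorem cv_isOrd (h : IsFF κ F 1) (P : Place κ F) : IsOrd P.1 (ord P) := by
  classical
  have hex : ∃ o, IsOrd P.1 o := by
    obtain ⟨π, h0, h1, hk⟩ := cv_unif h P
    have hπ : 0 < P.1.valuation π := zero_lt_iff.2 (by simpa using h0)
    have hanti := zpow_right_strictAnti₀ hπ h1
    choose k hk using hk
    refine ⟨fun a => if ha : a = 0 then 0 else k a ha, by simp, fun a b ha hb => ?_,
      fun a ha => ?_, π, h0, ?_⟩
    · simp only [dif_neg ha, dif_neg hb, dif_neg (mul_ne_zero ha hb)]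
      refine hanti.injective ?_
      rw [zpow_add₀ hπ.ne', ← hk, ← hk, ← hk, map_mul]
    · simp only [dif_neg ha]
      rw [← P.1.valuation_le_one_iff, hk a ha, ← zpow_zero (P.1.valuation π)]
      exact hanti.le_iff_ge
    · simp only [dif_neg h0]
      refine hanti.injective ?_
      rw [← hk, zpow_one]
  unfold ord
  rw [dif_pos hex]
  exact hex.choose_spec
theorem cv_res (h : IsFF κ F 1) (P : Place κ F) {a : F} (ha : a ∈ P.1) :
    ∃ c : κ, P.1.valuation (a - algebraMap κ F c) < 1 := by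
  classical
  obtain ⟨x, hx, h1⟩ := cv_exists_lt P
  by_contra hh
  push Not at hh
  have h2 : ∀ p : κ[X], p ≠ 0 → P.1.valuation (aeval a p) = 1 := by
    intro p hp
    refine cv_poly_ind (Q := fun p => P.1.valuation (aeval a p) = 1) (fun c hc => ?_)
      (fun c => ?_) (fun p q hp hq => ?_) hp
    · rw [aeval_C, cv_val_const P hc]
    · rw [map_sub, aeval_X, aeval_C]
      exact le_antisymm ((P.1.valuation_le_one_iff _).2 (P.1.sub_mem ha (P.2.2 c))) (hh c)
    · rw [map_mul, map_mul, hp, hq, one_mul]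
  have h3 := cv_ind h (cv_trans_of_lt P hx h1) (cvAlg P) ((P.1.valuation_le_one_iff _).1 h1.le)
    (fun i : Fin (Module.finrank κ⟮x⟯ F + 1) => a ^ (i : ℕ)) (fun i => (cvAlg P).pow_mem ha i)
    fun c b hb e => by
      by_contra hc0
      have h4 : aeval a (∑ i : Fin (Module.finrank κ⟮x⟯ F + 1), monomial (i : ℕ) (c i)) =
          x * b := by
        rw [← e, map_sum]
        refine Finset.sum_congr rfl fun i _ => ?_
        rw [aeval_monomial, Algebra.smul_def]
      have h5 : (∑ i : Fin (Module.finrank κ⟮x⟯ F + 1), monomial (i : ℕ) (c i)) ≠ 0 := by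
        intro e0
        refine hc0 (funext fun j => ?_)
        have h6 := congrArg (fun p => coeff p j) e0
        simp only [finsetSum_coeff, coeff_monomial, coeff_zero, Fin.val_inj, Finset.sum_ite_eq',
          Finset.mem_univ, if_true] at h6
        exact h6
      have h6 := h2 _ h5
      rw [h4, map_mul] at h6
      exact absurd ((mul_le_of_le_one_right' ((P.1.valuation_le_one_iff _).2 hb)).trans_lt h1)
        (by rw [h6]; exact lt_irrefl _)
  rw [Fintype.card_fin] at h3
  omega
/-- a function without poles is constant -/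
theorem cv_const_of_mem {f : F} (hf : ∀ P : Place κ F, f ∈ P.1) :
    ∃ c : κ, f = algebraMap κ F c := by
  have h1 : f ∈ (integralClosure (Subring.closure (Set.range (algebraMap κ F))) F).toSubring := by
    rw [← iInf_valuationSubring_superset, Subring.mem_iInf]
    intro W
    by_cases hW : W.1 = ⊤
    · rw [hW]
      trivial
    · exact hf ⟨W.1, hW, fun c => W.2 ⟨c, rfl⟩⟩
  have h2 : IsIntegral (Subring.closure (Set.range (algebraMap κ F))) f := h1
  have e : Subring.closure (Set.range (algebraMap κ F)) = (algebraMap κ F).range := by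
    rw [← RingHom.coe_range, Subring.closure_eq]
  rw [e] at h2
  have h3 : IsIntegral κ f := by
    obtain ⟨p, hp, hp'⟩ := h2
    obtain ⟨q, hq, -, hq'⟩ := lifts_and_degree_eq_and_monic
      (f := (algebraMap κ F).rangeRestrict) (p := p)
      (by
        rw [lifts_iff_coeff_lifts]
        exact fun n => (algebraMap κ F).rangeRestrict_surjective _) hp
    refine ⟨q, hq', ?_⟩
    rw [← hq, eval₂_map] at hp'
    exact hp'
  by_contra hh
  exact (cv_trans_iff f).2 hh h3.isAlgebraic

end P019
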