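import Vale.Agent.P019.CvA

/-!
P019 CvB: API for `ord`, approximation, finiteness of zeros and poles (helper62).
-/

namespace P019

open IntermediateField Polynomial

variable {ℓ : ℕ} {κ F : Type*} [Field κ] [Field F] [Algebra κ F] [IsAlgClosed κ]

theorem ord_zero (h : IsFF κ F 1) (P : Place κ F) : ord P 0 = 0 := by
  exact (cv_isOrd h P).1
theorem ord_mul (h : IsFF κ F 1) (P : Place κ F) {a b : F} (ha : a ≠ 0) (hb : b ≠ 0) :
    ord P (a * b) = ord P a + ord P b := by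
  exact (cv_isOrd h P).2.1 a b ha hb
theorem ord_mem_iff (h : IsFF κ F 1) (P : Place κ F) {a : F} (ha : a ≠ 0) :
    a ∈ P.1 ↔ 0 ≤ ord P a := by
  exact (cv_isOrd h P).2.2.1 a ha
theorem ord_one (h : IsFF κ F 1) (P : Place κ F) : ord P 1 = 0 := by
  have := ord_mul h P one_ne_zero one_ne_zero
  rw [one_mul] at this
  omega
theorem ord_inv (h : IsFF κ F 1) (P : Place κ F) (a : F) : ord P a⁻¹ = -ord P a := by
  by_cases ha : a = 0
  · rw [ha, inv_zero, ord_zero h, neg_zero]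
  have := ord_mul h P ha (inv_ne_zero ha)
  rw [mul_inv_cancel₀ ha, ord_one h] at this
  omega
theorem ord_div (h : IsFF κ F 1) (P : Place κ F) {a b : F} (ha : a ≠ 0) (hb : b ≠ 0) :
    ord P (a / b) = ord P a - ord P b := by
  rw [div_eq_mul_inv, ord_mul h P ha (inv_ne_zero hb), ord_inv h, sub_eq_add_neg]
theorem ord_pow (h : IsFF κ F 1) (P : Place κ F) (a : F) (n : ℕ) :
    ord P (a ^ n) = n * ord P a := by
  by_cases ha : a = 0
  · rcases n with _ | n
    · simp [ord_one h]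
    · simp [ha, ord_zero h]
  induction n with
  | zero => simp [ord_one h]
  | succ n ih =>
    rw [pow_succ, ord_mul h P (pow_ne_zero n ha) ha, ih]
    push_cast
    ring
theorem ord_zpow (h : IsFF κ F 1) (P : Place κ F) (a : F) (n : ℤ) :
    ord P (a ^ n) = n * ord P a := by
  rcases n with n | n
  · simp [ord_pow h]
  · rw [zpow_negSucc, ord_inv h, ord_pow h, Int.negSucc_eq]
    push_cast
    ring
theorem ord_prod (h : IsFF κ F 1) (P : Place κ F) {ι : Type*} (s : Finset ι) (f : ι → F)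
    (hf : ∀ i ∈ s, f i ≠ 0) : ord P (∏ i ∈ s, f i) = ∑ i ∈ s, ord P (f i) := by
  classical
  induction s using Finset.induction_on with
  | empty => simp [ord_one h]
  | insert i s hi ih =>
    have h1 : ∀ j ∈ s, f j ≠ 0 := fun j hj => hf j (Finset.mem_insert_of_mem hj)
    rw [Finset.prod_insert hi, Finset.sum_insert hi,
      ord_mul h P (hf i (Finset.mem_insert_self i s)) (Finset.prod_ne_zero_iff.2 h1), ih h1]
theorem ord_val_le (h : IsFF κ F 1) (P : Place κ F) {a b : F} (ha : a ≠ 0) (hb : b ≠ 0) :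
    P.1.valuation a ≤ P.1.valuation b ↔ ord P b ≤ ord P a := by
  have hb' : 0 < P.1.valuation b := zero_lt_iff.2 (by simpa using hb)
  rw [← div_le_one₀ hb', ← map_div₀, P.1.valuation_le_one_iff, ord_mem_iff h P (div_ne_zero ha hb),
    ord_div h P ha hb, sub_nonneg]
theorem ord_val_lt (h : IsFF κ F 1) (P : Place κ F) {a b : F} (ha : a ≠ 0) (hb : b ≠ 0) :
    P.1.valuation a < P.1.valuation b ↔ ord P b < ord P a := by
  rw [← not_le, ord_val_le h P hb ha, not_le]
theorem ord_val_eq (h : IsFF κ F 1) (P : Place κ F) {a b : F} (ha : a ≠ 0) (hb : b ≠ 0) :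
    P.1.valuation a = P.1.valuation b ↔ ord P a = ord P b := by
  rw [le_antisymm_iff, ord_val_le h P ha hb, ord_val_le h P hb ha, le_antisymm_iff, and_comm]
theorem ord_val_lt_one (h : IsFF κ F 1) (P : Place κ F) {a : F} (ha : a ≠ 0) :
    P.1.valuation a < 1 ↔ 0 < ord P a := by
  rw [← P.1.valuation.map_one, ord_val_lt h P ha one_ne_zero, ord_one h]
theorem cv_val_eq_one (h : IsFF κ F 1) (P : Place κ F) {a : F} (ha : a ≠ 0) :
    P.1.valuation a = 1 ↔ ord P a = 0 := by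
  rw [← P.1.valuation.map_one, ord_val_eq h P ha one_ne_zero, ord_one h]
theorem ord_const (h : IsFF κ F 1) (P : Place κ F) (c : κ) :
    ord P (algebraMap κ F c) = 0 := by
  by_cases hc : c = 0
  · rw [hc, map_zero, ord_zero h]
  exact (cv_val_eq_one h P (by simpa using hc)).1 (cv_val_const P hc)
theorem ord_neg (h : IsFF κ F 1) (P : Place κ F) (a : F) : ord P (-a) = ord P a := by
  by_cases ha : a = 0
  · rw [ha, neg_zero]
  exact (ord_val_eq h P (neg_ne_zero.2 ha) ha).1 (P.1.valuation.map_neg a)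
theorem ord_smul (h : IsFF κ F 1) (P : Place κ F) {c : κ} (hc : c ≠ 0) (a : F) :
    ord P (c • a) = ord P a := by
  by_cases ha : a = 0
  · rw [ha, smul_zero]
  rw [Algebra.smul_def, ord_mul h P (by simpa using hc) ha, ord_const h, zero_add]
theorem exists_ord (h : IsFF κ F 1) (P : Place κ F) (n : ℤ) : ∃ a : F, a ≠ 0 ∧ ord P a = n := by
  obtain ⟨π, h0, h1⟩ := (cv_isOrd h P).2.2.2
  exact ⟨π ^ n, zpow_ne_zero n h0, by rw [ord_zpow h, h1, mul_one]⟩
theorem ord_add_ge (h : IsFF κ F 1) (P : Place κ F) {a b : F} (ha : a ≠ 0) (hb : b ≠ 0)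
    (hab : a + b ≠ 0) : min (ord P a) (ord P b) ≤ ord P (a + b) := by
  rcases le_max_iff.1 (P.1.valuation.map_add a b) with e | e
  · exact min_le_of_left_le ((ord_val_le h P hab ha).1 e)
  · exact min_le_of_right_le ((ord_val_le h P hab hb).1 e)

/-- elements vanishing to order at least `n` at `P` -/
def OS (h : IsFF κ F 1) (P : Place κ F) (n : ℤ) : Submodule κ F where
  carrier := {f | f = 0 ∨ n ≤ ord P f}
  zero_mem' := Or.inl rfl
  add_mem' := by
    intro a b ha hb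
    by_cases hab : a + b = 0
    · exact Or.inl hab
    by_cases ha0 : a = 0
    · rw [ha0, zero_add]
      exact hb
    by_cases hb0 : b = 0
    · rw [hb0, add_zero]
      exact ha
    exact Or.inr ((le_min (ha.resolve_left ha0) (hb.resolve_left hb0)).trans
      (ord_add_ge h P ha0 hb0 hab))
  smul_mem' := by
    intro c a ha
    by_cases hc : c = 0
    · exact Or.inl (by rw [hc, zero_smul])
    rcases ha with ha | ha
    · exact Or.inl (by rw [ha, smul_zero])
    · exact Or.inr (by rw [ord_smul h P hc]; exact ha)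

theorem mem_OS (h : IsFF κ F 1) (P : Place κ F) (n : ℤ) (f : F) :
    f ∈ OS h P n ↔ f = 0 ∨ n ≤ ord P f := Iff.rfl
theorem mem_OS_ord (h : IsFF κ F 1) (P : Place κ F) (f : F) : f ∈ OS h P (ord P f) :=
  Or.inr le_rfl
theorem OS_anti (h : IsFF κ F 1) (P : Place κ F) {n m : ℤ} (hnm : n ≤ m) :
    OS h P m ≤ OS h P n := fun _ hf => hf.imp_right hnm.trans
theorem OS_mul (h : IsFF κ F 1) (P : Place κ F) {n m : ℤ} {f g : F} (hf : f ∈ OS h P n)
    (hg : g ∈ OS h P m) : f * g ∈ OS h P (n + m) := by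
  by_cases hf0 : f = 0
  · exact Or.inl (by rw [hf0, zero_mul])
  by_cases hg0 : g = 0
  · exact Or.inl (by rw [hg0, mul_zero])
  refine Or.inr ?_
  rw [ord_mul h P hf0 hg0]
  exact add_le_add (hf.resolve_left hf0) (hg.resolve_left hg0)
theorem mem_OS_zero (h : IsFF κ F 1) (P : Place κ F) (f : F) : f ∈ OS h P 0 ↔ f ∈ P.1 := by
  by_cases hf : f = 0
  · simp [hf]
  rw [mem_OS, ord_mem_iff h P hf, or_iff_right hf]
theorem mem_OS_one (h : IsFF κ F 1) (P : Place κ F) (f : F) :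
    f ∈ OS h P 1 ↔ P.1.valuation f < 1 := by
  by_cases hf : f = 0
  · simp [hf]
  rw [mem_OS, ord_val_lt_one h P hf, or_iff_right hf]
  exact Iff.rfl
/-- strict triangle inequality -/
theorem ord_add_eq (h : IsFF κ F 1) (P : Place κ F) {a b : F} (ha : a ≠ 0)
    (hb : b ∈ OS h P (ord P a + 1)) : a + b ≠ 0 ∧ ord P (a + b) = ord P a := by
  by_cases hb0 : b = 0
  · rw [hb0, add_zero]
    exact ⟨ha, rfl⟩
  have h1 : P.1.valuation b < P.1.valuation a :=
    (ord_val_lt h P hb0 ha).2 (hb.resolve_left hb0)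
  have h2 := P.1.valuation.map_add_eq_of_lt_left h1
  have h3 : a + b ≠ 0 := by
    intro e
    rw [e, map_zero] at h2
    exact ha (by simpa using h2.symm)
  exact ⟨h3, (ord_val_eq h P h3 ha).1 h2⟩
/-- consecutive `OS` differ by one dimension -/
theorem OS_step (h : IsFF κ F 1) (P : Place κ F) {n : ℤ} {f g : F} (hf : f ∈ OS h P n)
    (hg0 : g ≠ 0) (hg : ord P g = n) : ∃ c : κ, f - c • g ∈ OS h P (n + 1) := by
  have h1 : f * g⁻¹ ∈ OS h P (n + -n) :=
    OS_mul h P hf (Or.inr (by rw [ord_inv h, hg]))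
  rw [add_neg_cancel, mem_OS_zero] at h1
  obtain ⟨c, hc⟩ := cv_res h P h1
  have h2 := OS_mul h P (hg ▸ mem_OS_ord h P g) ((mem_OS_one h P _).2 hc)
  refine ⟨c, ?_⟩
  have e : f - c • g = g * (f * g⁻¹ - algebraMap κ F c) := by
    rw [Algebra.smul_def]
    field_simp
  rw [e]
  exact h2

theorem cv_exists_pt (h : IsFF κ F 1) (P : Place κ F) : ∃ σ : X ℓ F, IsPt P σ := by
  exact exists_char (fun a => (ord P a : ZMod ℓ)) (by simp [ord_zero h]) fun a b ha hb => by
    simp [ord_mul h P ha hb]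
theorem cv_Iv [Fact ℓ.Prime] (h : IsFF κ F 1) (P : Place κ F) {σ τ : X ℓ F} (hσ : IsPt P σ) :
    τ ∈ Iv ℓ P.1 ↔ ∃ c : ZMod ℓ, τ = c • σ := by
  rw [mem_Iv_iff]
  constructor
  · intro hτ
    obtain ⟨π, h0, h1⟩ := exists_ord h P 1
    refine ⟨τ (cl ℓ π), LinearMap.ext fun v => ?_⟩
    obtain ⟨a, ha, rfl⟩ := cl_surj v
    have h2 : π ^ ord P a ≠ 0 := zpow_ne_zero _ h0
    have h3 := hτ (a / π ^ ord P a) ((cv_val_eq_one h P (div_ne_zero ha h2)).2 (by
      rw [ord_div h P ha h2, ord_zpow h, h1, mul_one, sub_self]))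
    rw [cl_div ha h2, cl_zpow, map_sub, map_smul, sub_eq_zero] at h3
    rw [h3, LinearMap.smul_apply, hσ a, smul_eq_mul, smul_eq_mul, mul_comm]
  · rintro ⟨c, rfl⟩ a ha
    have h0 : a ≠ 0 := by
      rintro rfl
      simp at ha
    rw [LinearMap.smul_apply, hσ a, (cv_val_eq_one h P h0).1 ha, Int.cast_zero, smul_zero]

theorem cvb_not_le (h : IsFF κ F 1) {P Q : Place κ F} (hPQ : P ≠ Q) :
    ∃ a : F, a ≠ 0 ∧ 0 ≤ ord P a ∧ ord Q a < 0 := by
  by_contra hh
  push Not at hh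
  have hle : ∀ a, a ∈ P.1 → a ∈ Q.1 := by
    intro a ha
    by_cases h0 : a = 0
    · rw [h0]
      exact Q.1.zero_mem
    exact (ord_mem_iff h Q h0).2 (hh a h0 ((ord_mem_iff h P h0).1 ha))
  obtain ⟨a, haQ, haP⟩ : ∃ a, a ∈ Q.1 ∧ a ∉ P.1 := by
    by_contra h2
    push Not at h2
    exact hPQ (Subtype.ext (le_antisymm hle h2))
  have h0 : a ≠ 0 := by
    rintro rfl
    exact haP P.1.zero_mem
  rw [ord_mem_iff h P h0, not_le] at haP
  rw [ord_mem_iff h Q h0] at haQ
  obtain ⟨b, hb, hb1⟩ := exists_ord h Q (-1)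
  have h3 : a ^ (ord P b).natAbs ≠ 0 := pow_ne_zero _ h0
  have h4 := hh (b / a ^ (ord P b).natAbs) (div_ne_zero hb h3) (by
    rw [ord_div h P hb h3, ord_pow h]
    have : -ord P b ≤ ((ord P b).natAbs : ℤ) := by omega
    nlinarith [Int.natCast_nonneg (ord P b).natAbs])
  rw [ord_div h Q hb h3, ord_pow h, hb1] at h4
  nlinarith [Int.natCast_nonneg (ord P b).natAbs]

theorem cvb_pole (h : IsFF κ F 1) (P : Place κ F) (S : Finset (Place κ F)) (hP : P ∉ S) :
    ∃ u : F, u ≠ 0 ∧ 0 < ord P u ∧ ∀ Q ∈ S, ord Q u < 0 := by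
  classical
  induction S using Finset.induction_on with
  | empty =>
    obtain ⟨u, h0, h1⟩ := exists_ord h P 1
    exact ⟨u, h0, by omega, by simp⟩
  | insert Q S hQ ih =>
    obtain ⟨y, hy0, hyP, hyS⟩ := ih fun hh => hP (Finset.mem_insert_of_mem hh)
    have hPQ : P ≠ Q := fun e => hP (e ▸ Finset.mem_insert_self _ _)
    by_cases hyQ : ord Q y < 0
    · exact ⟨y, hy0, hyP, fun R hR => (Finset.mem_insert.1 hR).elim (fun e => e ▸ hyQ) (hyS R)⟩
    obtain ⟨a, ha0, haP, haQ⟩ := cvb_not_le h hPQ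
    obtain ⟨b, hb0, hbQ, hbP⟩ := cvb_not_le h hPQ.symm
    obtain ⟨z, hz0, hzP, hzQ⟩ : ∃ z : F, z ≠ 0 ∧ 0 < ord P z ∧ ord Q z < 0 :=
      ⟨a / b, div_ne_zero ha0 hb0, by rw [ord_div h P ha0 hb0]; omega,
        by rw [ord_div h Q ha0 hb0]; omega⟩
    obtain ⟨r, hr0, hr⟩ : ∃ r : ℕ, 0 < r ∧ ∀ R ∈ S, -ord R y < r := by
      refine ⟨S.sup (fun R => (ord R y).natAbs) + 1, Nat.succ_pos _, fun R hR => ?_⟩
      have := Finset.le_sup (f := fun R => (ord R y).natAbs) hR
      omega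
    have hr1 : (1 : ℤ) ≤ r := by exact_mod_cast hr0
    have hzr : z ^ r ≠ 0 := pow_ne_zero _ hz0
    have h1 := ord_add_eq h Q hzr (b := y) (Or.inr (by rw [ord_pow h]; nlinarith))
    refine ⟨z ^ r + y, h1.1, ?_, fun R hR => ?_⟩
    · refine lt_of_lt_of_le (lt_min ?_ hyP) (ord_add_ge h P hzr hy0 h1.1)
      rw [ord_pow h]
      nlinarith
    rcases Finset.mem_insert.1 hR with rfl | hR
    · rw [h1.2, ord_pow h]
      nlinarith
    have h2 := hyS R hR
    have h3 := hr R hR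
    by_cases h4 : ord R z < 0
    · have h5 : (r : ℤ) * ord R z < ord R y := by nlinarith
      rw [(ord_add_eq h R hzr (b := y) (Or.inr (by rw [ord_pow h]; omega))).2, ord_pow h]
      omega
    · have h5 : 0 ≤ (r : ℤ) * ord R z := by nlinarith
      rw [add_comm, (ord_add_eq h R hy0 (b := z ^ r) (Or.inr (by rw [ord_pow h]; omega))).2]
      exact h2

theorem cvb_idem (h : IsFF κ F 1) (P : Place κ F) (S : Finset (Place κ F)) (N : ℕ) :
    ∃ w : F, w - 1 ∈ OS h P N ∧ ∀ Q ∈ S, Q ≠ P → w ∈ OS h Q N := by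
  classical
  obtain ⟨u, h0, hP, hS⟩ := cvb_pole h P (S.erase P) (Finset.notMem_erase _ _)
  have h1 : u ^ (N + 1) ≠ 0 := pow_ne_zero _ h0
  have hN : (0 : ℤ) ≤ N := Int.natCast_nonneg N
  have h2 := ord_add_eq h P one_ne_zero (b := u ^ (N + 1)) (Or.inr (by
    rw [ord_one h, ord_pow h]
    push_cast
    nlinarith))
  rw [ord_one h] at h2
  refine ⟨(1 + u ^ (N + 1))⁻¹, Or.inr ?_, fun Q hQ hQP => Or.inr ?_⟩
  · have e : (1 + u ^ (N + 1))⁻¹ - 1 = -(u ^ (N + 1) / (1 + u ^ (N + 1))) := by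
      have := h2.1
      field_simp
      ring
    rw [e, ord_neg h, ord_div h P h1 h2.1, h2.2, ord_pow h]
    push_cast
    nlinarith
  · have h3 := hS Q (Finset.mem_erase.2 ⟨hQP, hQ⟩)
    have h4 := ord_add_eq h Q h1 (b := 1) (Or.inr (by
      rw [ord_one h, ord_pow h]
      push_cast
      nlinarith))
    rw [ord_inv h, add_comm, h4.2, ord_pow h]
    push_cast
    nlinarith

/-- weak approximation -/
theorem cv_approx (h : IsFF κ F 1) (S : Finset (Place κ F)) (a : Place κ F → F)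
    (n : Place κ F → ℤ) : ∃ z : F, ∀ P ∈ S, z - a P ∈ OS h P (n P) := by
  classical
  obtain ⟨N, hN⟩ : ∃ N : ℕ, ∀ P ∈ S, ∀ Q ∈ S, n Q ≤ ord Q (a P) + N := by
    refine ⟨(S ×ˢ S).sup fun t => (n t.2 - ord t.2 (a t.1)).natAbs, fun P hP Q hQ => ?_⟩
    have := Finset.le_sup (f := fun t : Place κ F × Place κ F => (n t.2 - ord t.2 (a t.1)).natAbs)
      (Finset.mk_mem_product hP hQ)
    simp only at this
    omega
  choose w hw hw' using fun P => cvb_idem h P S N
  refine ⟨∑ P ∈ S, a P * w P, fun Q hQ => ?_⟩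
  rw [← Finset.add_sum_erase _ _ hQ, add_sub_right_comm, ← mul_sub_one]
  refine Submodule.add_mem _ (OS_anti h Q (hN Q hQ Q hQ) (OS_mul h Q (mem_OS_ord h Q _) (hw Q)))
    (Submodule.sum_mem _ fun P hP => ?_)
  exact OS_anti h Q (hN P (Finset.mem_of_mem_erase hP) Q hQ)
    (OS_mul h Q (mem_OS_ord h Q _) (hw' P Q hQ (Finset.ne_of_mem_erase hP).symm))
theorem cv_approx_ord (h : IsFF κ F 1) (S : Finset (Place κ F)) (n : Place κ F → ℤ) :
    ∃ z : F, z ≠ 0 ∧ ∀ P ∈ S, ord P z = n P := by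
  choose a ha0 ha using fun P => exists_ord h P (n P)
  obtain ⟨z, hz⟩ := cv_approx h S a fun P => n P + 1
  have key : ∀ P ∈ S, z ≠ 0 ∧ ord P z = n P := by
    intro P hP
    have := ord_add_eq h P (ha0 P) (b := z - a P) (by rw [ha]; exact hz P hP)
    rwa [add_sub_cancel, ha] at this
  rcases S.eq_empty_or_nonempty with rfl | ⟨P, hP⟩
  · exact ⟨1, one_ne_zero, by simp⟩
  · exact ⟨z, (key P hP).1, fun Q hQ => (key Q hQ).2⟩
theorem cv_sep (h : IsFF κ F 1) {P Q : Place κ F} (hPQ : P ≠ Q) :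
    ∃ f : F, f ≠ 0 ∧ ord P f = 1 ∧ ord Q f = 0 := by
  classical
  obtain ⟨z, h0, hz⟩ := cv_approx_ord h {P, Q} fun R => if R = P then 1 else 0
  exact ⟨z, h0, by simpa using hz P (by simp), by simpa [hPQ.symm] using hz Q (by simp)⟩
/-- the zeros of `x` counted with multiplicity are at most the degree -/
theorem cv_sum_le (h : IsFF κ F 1) {x : F} (hx : Transcendental κ x) (S : Finset (Place κ F)) :
    ∑ P ∈ S, (ord P x).toNat ≤ Module.finrank κ⟮x⟯ F := by
  classical
  have hx0 : x ≠ 0 := by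
    rintro rfl
    exact hx isAlgebraic_zero
  rw [← Finset.sum_filter_of_ne (p := fun P => 0 < ord P x) (fun P _ hP => by omega)]
  have hS : ∀ P ∈ S.filter fun P => 0 < ord P x, 0 < ord P x := fun P hP => (Finset.mem_filter.1 hP).2
  generalize (S.filter fun P => 0 < ord P x) = T at hS
  choose u hu0 hu using fun (t : Σ P : T, Fin (ord P.1 x).toNat) =>
    cv_approx_ord h T fun Q => if Q = t.1.1 then (t.2 : ℕ) else ord Q x
  have h1 := cv_ind h hx (⨅ P : T, cvAlg P.1)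
    (Algebra.mem_iInf.2 fun P => (ord_mem_iff h P.1 hx0).2 (hS P.1 P.2).le) u
    (fun t => Algebra.mem_iInf.2 fun P => (ord_mem_iff h P.1 (hu0 t)).2 (by
      rw [hu t P.1 P.2]
      split_ifs
      · exact Int.natCast_nonneg _
      · exact (hS P.1 P.2).le)) fun c b hb e => by
      funext ⟨P, j⟩
      by_contra hc
      have h2 : ∑ i, c ⟨P, i⟩ • u ⟨P, i⟩ ∈ OS h P.1 (ord P.1 x) := by
        rw [Fintype.sum_sigma, ← Finset.add_sum_erase _ _ (Finset.mem_univ P)] at e
        rw [eq_sub_of_add_eq e]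
        refine Submodule.sub_mem _ ?_ (Submodule.sum_mem _ fun Q hQ =>
          Submodule.sum_mem _ fun i _ => Submodule.smul_mem _ _ (Or.inr ?_))
        · have h3 := OS_mul h P.1 (mem_OS_ord h P.1 x)
            ((mem_OS_zero h P.1 b).2 (Algebra.mem_iInf.1 hb P))
          rwa [add_zero] at h3
        · rw [hu _ P.1 P.2, if_neg fun e' => Finset.ne_of_mem_erase hQ (Subtype.ext e').symm]
      have h4 : ∀ i, ord P.1 (u ⟨P, i⟩) = (i : ℕ) := fun i => by rw [hu _ P.1 P.2, if_pos rfl]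
      obtain ⟨i, hi⟩ := cv_sum_val P.1 (fun i => u ⟨P, i⟩) (fun i j e => by
        have h5 := (ord_val_eq h P.1 (hu0 _) (hu0 _)).1 e
        rw [h4, h4] at h5
        exact Fin.ext (by exact_mod_cast h5)) (fun i => hu0 _) (c := fun i => c ⟨P, i⟩)
        (fun e => hc (congrFun e j))
      have h5 : ∑ i, c ⟨P, i⟩ • u ⟨P, i⟩ ≠ 0 := by
        intro e0
        rw [e0, map_zero] at hi
        exact hu0 ⟨P, i⟩ (by simpa using hi.symm)
      have h6 := h2.resolve_left h5
      rw [(ord_val_eq h P.1 h5 (hu0 _)).1 hi, h4] at h6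
      have h7 := i.2
      omega
  rw [Fintype.card_sigma] at h1
  simp only [Fintype.card_fin] at h1
  rwa [Finset.sum_coe_sort T fun P => (ord P x).toNat] at h1
theorem cvb_zeros (h : IsFF κ F 1) (f : F) : {P : Place κ F | 0 < ord P f}.Finite := by
  by_cases hf : Transcendental κ f
  · by_contra hinf
    obtain ⟨T, hT, hc⟩ := Set.Infinite.exists_subset_card_eq hinf (Module.finrank κ⟮f⟯ F + 1)
    have h1 := cv_sum_le h hf T
    have h2 := Finset.card_nsmul_le_sum T (fun P => (ord P f).toNat) 1 fun P hP => by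
      have : 0 < ord P f := hT hP
      omega
    rw [smul_eq_mul, mul_one] at h2
    omega
  · rw [cv_trans_iff, not_not] at hf
    obtain ⟨c, rfl⟩ := hf
    simp [ord_const h]

theorem cv_finite (h : IsFF κ F 1) (f : F) : {P : Place κ F | ord P f ≠ 0}.Finite := by
  refine ((cvb_zeros h f).union (cvb_zeros h f⁻¹)).subset fun P hP => ?_
  have h1 : ord P f ≠ 0 := hP
  simp only [Set.mem_union, Set.mem_ofPred_eq, ord_inv h]
  omega

end P019
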