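import Vale.Agent.P019.CvB

/-!
P019 CvD: divisors and Riemann-Roch spaces (definitions moved here from CvRR).
PLAN (API for `ord`, `OS` in CvB). `LSp D = ⨅ P, OS h P (-D P)`. `LSp_step`: pick `g ∈ L(D + P)` not in `L(D)` if there is one
(then `ord P g = -D P - 1`), `OS_step`. `L(0) = κ` by `cv_const_of_mem`. `ldim_le_of_nonneg`, `LSp_finite`: induction on an effective
divisor (write `D = D' + single P 1`), general `D ≤ D⁺`. `cv_pdeg_eq`: `≤` is `cv_sum_le` for `f⁻¹` (`κ⟮f⁻¹⟯ = κ⟮f⟯`); `≥`: basis `u j` of `F` over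
`κ⟮f⟯`, `C = ∑ pdv (u j)`, the `f ^ i * u j` (`i ≤ r`) are independent over `κ` and lie in `L(r • pdv f + C)`, so
`n (r + 1) ≤ r pdeg f + deg C + 1` for all `r`. `ddeg_dv`: `dv f = pdv f⁻¹ - pdv f`. `ldim_add_dv`: multiply by `f`.
`ldim_neg`, `ldim_le`, `ldim_deg_zero`: for `0 ≠ f ∈ L(D)` the divisor `D + dv f` is effective of the same degree.
`IsRR.deg`: `D = 0`, `D = W`. `IsRR.unique`: `D = n • single P 1` with `n` large (a place exists if `x` is transcendental; `cv_pdeg_eq`).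
-/

namespace P019

open IntermediateField

variable (κ F : Type*) [Field κ] [Field F] [Algebra κ F]

/-- divisors -/
abbrev Dvs : Type _ := Place κ F →₀ ℤ

variable {κ F}

/-- degree of a divisor (all places have degree one) -/
noncomputable def ddeg : Dvs κ F →+ ℤ := Finsupp.liftAddHom fun _ => AddMonoidHom.id ℤ

open Classical in
variable (κ) in
/-- principal divisor -/
noncomputable def dv (f : F) : Dvs κ F :=
  if h : (Function.support fun P : Place κ F => ord P f).Finite then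
    Finsupp.ofSupportFinite _ h else 0

open Classical in
variable (κ) in
/-- pole divisor -/
noncomputable def pdv (f : F) : Dvs κ F :=
  Finsupp.mapRange (fun n : ℤ => max (-n) 0) (by simp) (dv κ f)

/-- the set underlying `L(D)` -/
def LSet (D : Dvs κ F) : Set F := {f | f = 0 ∨ ∀ P, -D P ≤ ord P f}

/-- Riemann-Roch space -/
def LSp (D : Dvs κ F) : Submodule κ F := Submodule.span κ (LSet D)

/-- `l(D)` -/
noncomputable def ldim (D : Dvs κ F) : ℕ := Module.finrank κ (LSp D)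

/-- Riemann-Roch holds with genus `g` and canonical divisor `W` -/
def IsRR (g : ℕ) (W : Dvs κ F) : Prop :=
  ∀ D : Dvs κ F, (ldim D : ℤ) = ddeg D + 1 - g + ldim (W - D)

variable [IsAlgClosed κ]

theorem dv_apply (h : IsFF κ F 1) (f : F) (P : Place κ F) : dv κ f P = ord P f := by
  rw [dv, dif_pos (show (Function.support fun P : Place κ F => ord P f).Finite from
    cv_finite h f), Finsupp.ofSupportFinite_coe]

theorem dv_mul (h : IsFF κ F 1) {f g : F} (hf : f ≠ 0) (hg : g ≠ 0) :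
    dv κ (f * g) = dv κ f + dv κ g :=
  Finsupp.ext fun P => by rw [Finsupp.add_apply, dv_apply h, dv_apply h, dv_apply h, ord_mul h P hf hg]

theorem pdv_apply (h : IsFF κ F 1) (f : F) (P : Place κ F) :
    pdv κ f P = max (-ord P f) 0 := by
  rw [pdv, Finsupp.mapRange_apply, dv_apply h]

omit [IsAlgClosed κ] in
theorem cvd_ddeg (D : Dvs κ F) : ddeg D = ∑ P ∈ D.support, D P := by
  rw [ddeg, Finsupp.liftAddHom_apply]
  rfl

theorem ddeg_pdv (h : IsFF κ F 1) (f : F) : ddeg (pdv κ f) = pdeg κ f := by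
  rw [cvd_ddeg, pdeg, finsum_eq_sum_of_support_subset (s := (pdv κ f).support) _ fun P hP => ?_,
    Nat.cast_sum]
  · exact Finset.sum_congr rfl fun P _ => by rw [pdv_apply h, Int.toNat_eq_max]
  · rw [Finset.mem_coe, Finsupp.mem_support_iff, pdv_apply h, ← Int.toNat_eq_max]
    exact Nat.cast_ne_zero.2 hP

omit [IsAlgClosed κ] in
theorem ddeg_single (P : Place κ F) (n : ℤ) : ddeg (Finsupp.single P n) = n := by
  rw [ddeg, Finsupp.liftAddHom_apply_single]
  rfl

omit [IsAlgClosed κ] in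
theorem cvd_nonneg {D : Dvs κ F} (hD : 0 ≤ D) : 0 ≤ ddeg D := by
  rw [cvd_ddeg]
  exact Finset.sum_nonneg fun P _ => hD P

omit [IsAlgClosed κ] in
theorem ddeg_mono {D E : Dvs κ F} (hDE : D ≤ E) : ddeg D ≤ ddeg E := by
  have h := cvd_nonneg (sub_nonneg.2 hDE)
  rwa [map_sub, sub_nonneg] at h

omit [IsAlgClosed κ] in
theorem ddeg_eq_zero {D : Dvs κ F} (hD : 0 ≤ D) (h0 : ddeg D = 0) : D = 0 := by
  rw [cvd_ddeg, Finset.sum_eq_zero_iff_of_nonneg fun P _ => hD P] at h0
  refine Finsupp.ext fun P => ?_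
  by_contra h
  exact h (h0 P (Finsupp.mem_support_iff.2 h))

theorem cvd_LSp (h : IsFF κ F 1) (D : Dvs κ F) : LSp D = ⨅ P, OS h P (-D P) := by
  have h1 : LSet D = (⨅ P, OS h P (-D P) : Submodule κ F) := Set.ext fun f => by
    rw [SetLike.mem_coe, Submodule.mem_iInf]
    exact forall_or_left.symm
  rw [LSp, h1, Submodule.span_eq]

theorem mem_LSp (h : IsFF κ F 1) (D : Dvs κ F) (f : F) : f ∈ LSp D ↔ f ∈ LSet D := by
  rw [cvd_LSp h, Submodule.mem_iInf]
  exact forall_or_left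

theorem mem_LSp_iff (h : IsFF κ F 1) (D : Dvs κ F) (f : F) :
    f ∈ LSp D ↔ ∀ P, f ∈ OS h P (-D P) := by
  rw [cvd_LSp h, Submodule.mem_iInf]

theorem LSp_mono (h : IsFF κ F 1) {D E : Dvs κ F} (hDE : D ≤ E) : LSp D ≤ LSp E := fun f hf =>
  (mem_LSp_iff h E f).2 fun P => OS_anti h P (neg_le_neg (hDE P)) ((mem_LSp_iff h D f).1 hf P)

theorem LSp_mul (h : IsFF κ F 1) {D E : Dvs κ F} {f g : F} (hf : f ∈ LSp D) (hg : g ∈ LSp E) :
    f * g ∈ LSp (D + E) :=
  (mem_LSp_iff h _ _).2 fun P => by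
    rw [Finsupp.add_apply, neg_add]
    exact OS_mul h P ((mem_LSp_iff h D f).1 hf P) ((mem_LSp_iff h E g).1 hg P)

theorem mem_LSp_pdv (h : IsFF κ F 1) (f : F) : f ∈ LSp (pdv κ f) :=
  (mem_LSp_iff h _ _).2 fun P => Or.inr (by
    rw [pdv_apply h, neg_le]
    exact le_max_left _ _)

theorem LSp_step (h : IsFF κ F 1) (D : Dvs κ F) (P : Place κ F) :
    ∃ g : F, LSp (D + Finsupp.single P 1) ≤ LSp D ⊔ Submodule.span κ {g} := by
  by_cases hle : LSp (D + Finsupp.single P 1) ≤ LSp D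
  · exact ⟨0, hle.trans le_sup_left⟩
  obtain ⟨g, hg, hg'⟩ := SetLike.not_le_iff_exists.1 hle
  have key : ∀ f ∈ LSp (D + Finsupp.single P 1), f ∈ OS h P (-D P - 1) ∧
      (f ∈ OS h P (-D P) → f ∈ LSp D) := fun f hf => by
    rw [mem_LSp_iff h] at hf
    refine ⟨?_, fun h1 => (mem_LSp_iff h _ _).2 fun Q => ?_⟩
    · have h1 := hf P
      rwa [Finsupp.add_apply, Finsupp.single_eq_same, neg_add, ← sub_eq_add_neg] at h1
    · by_cases hQ : Q = P
      · rwa [hQ]
      · have h2 := hf Q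
        rwa [Finsupp.add_apply, Finsupp.single_eq_of_ne hQ, add_zero] at h2
  have h1 : g ∉ OS h P (-D P) := fun h1 => hg' ((key g hg).2 h1)
  rw [mem_OS, not_or, not_le] at h1
  have h2 : ord P g = -D P - 1 :=
    le_antisymm (by omega) (((mem_OS h P _ _).1 (key g hg).1).resolve_left h1.1)
  refine ⟨g, fun f hf => ?_⟩
  obtain ⟨c, hc⟩ := OS_step h P (key f hf).1 h1.1 h2
  rw [sub_add_cancel] at hc
  rw [← sub_add_cancel f (c • g)]
  exact Submodule.add_mem_sup ((key _ (sub_mem hf (Submodule.smul_mem _ c hg))).2 hc)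
    (Submodule.smul_mem _ c (Submodule.mem_span_singleton_self g))

omit [IsAlgClosed κ] in
theorem cvd_ind {Q : Dvs κ F → Prop} (h0 : Q 0)
    (hs : ∀ E P, Q E → Q (E + Finsupp.single P 1)) {E : Dvs κ F} (hE : 0 ≤ E) : Q E := by
  obtain ⟨n, hn⟩ := Int.eq_ofNat_of_zero_le (cvd_nonneg hE)
  induction n generalizing E with
  | zero => rwa [ddeg_eq_zero hE hn]
  | succ n ih =>
    have h1 : E ≠ 0 := fun h1 => by
      rw [h1, map_zero] at hn
      omega
    obtain ⟨P, hP⟩ := Finsupp.ne_iff.1 h1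
    have h2 : 0 ≤ E - Finsupp.single P 1 := fun R => by
      have h3 : (0 : ℤ) ≤ E R := hE R
      show (0 : ℤ) ≤ _
      rw [Finsupp.sub_apply]
      by_cases hR : R = P
      · rw [Finsupp.zero_apply, ← hR] at hP
        rw [← hR, Finsupp.single_eq_same]
        omega
      · rwa [Finsupp.single_eq_of_ne hR, sub_zero]
    rw [← sub_add_cancel E (Finsupp.single P 1)]
    refine hs _ P (ih h2 ?_)
    rw [map_sub, ddeg_single, hn]
    push_cast
    ring

theorem cvd_zero (h : IsFF κ F 1) : LSp (0 : Dvs κ F) = Submodule.span κ {1} := by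
  ext f
  simp only [mem_LSp_iff h, Finsupp.zero_apply, neg_zero, mem_OS_zero,
    Submodule.mem_span_singleton, ← Algebra.algebraMap_eq_smul_one]
  exact ⟨fun hf => (cv_const_of_mem hf).imp fun _ => Eq.symm, fun ⟨c, hc⟩ P => hc ▸ P.2.2 c⟩

theorem LSp_finite (h : IsFF κ F 1) (D : Dvs κ F) : Module.Finite κ (LSp D) := by
  have h1 : Module.Finite κ (LSp (D ⊔ 0)) := by
    refine cvd_ind (Q := fun E => Module.Finite κ (LSp E)) ?_ (fun E P hE => ?_) le_sup_right
    · rw [cvd_zero h]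
      infer_instance
    · obtain ⟨g, hg⟩ := LSp_step h E P
      exact Submodule.finiteDimensional_of_le hg
  exact Submodule.finiteDimensional_of_le (LSp_mono h (le_sup_left : D ≤ D ⊔ 0))

theorem ldim_mono (h : IsFF κ F 1) {D E : Dvs κ F} (hDE : D ≤ E) : ldim D ≤ ldim E :=
  have := LSp_finite h E
  Submodule.finrank_mono (LSp_mono h hDE)

theorem ldim_step (h : IsFF κ F 1) (D : Dvs κ F) (P : Place κ F) :
    ldim (D + Finsupp.single P 1) ≤ ldim D + 1 := by
  obtain ⟨g, hg⟩ := LSp_step h D P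
  have := LSp_finite h D
  refine (Submodule.finrank_mono hg).trans
    ((Submodule.finrank_add_le_finrank_add_finrank _ _).trans (Nat.add_le_add_left ?_ _))
  by_cases h0 : g = 0
  · rw [h0, Submodule.span_zero_singleton, finrank_bot]
    exact zero_le_one
  · exact (finrank_span_singleton h0).le

theorem ldim_zero (h : IsFF κ F 1) : ldim (0 : Dvs κ F) = 1 := by
  rw [ldim, cvd_zero h, finrank_span_singleton one_ne_zero]

theorem ldim_add_le (h : IsFF κ F 1) (D : Dvs κ F) {E : Dvs κ F} (hE : 0 ≤ E) :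
    (ldim (D + E) : ℤ) ≤ ldim D + ddeg E := by
  refine cvd_ind (Q := fun E => (ldim (D + E) : ℤ) ≤ ldim D + ddeg E) ?_ (fun E P ih => ?_) hE
  · simp only [add_zero, map_zero, le_refl]
  · have h1 := ldim_step h (D + E) P
    rw [← add_assoc, map_add, ddeg_single]
    omega

theorem cvd_eff (h : IsFF κ F 1) {E : Dvs κ F} (hE : 0 ≤ E) : (ldim E : ℤ) ≤ ddeg E + 1 := by
  have h1 := ldim_add_le h 0 hE
  rw [zero_add, ldim_zero h] at h1
  omega

theorem cvd_pdv (h : IsFF κ F 1) (f : F) : 0 ≤ pdv κ f := fun P => by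
  rw [pdv_apply h]
  exact le_max_right _ _

theorem cvd_pow (h : IsFF κ F 1) {D : Dvs κ F} {f : F} (hf : f ∈ LSp D) (i : ℕ) :
    f ^ i ∈ LSp (i • D) := by
  induction i with
  | zero =>
    rw [pow_zero, zero_nsmul, cvd_zero h]
    exact Submodule.mem_span_singleton_self _
  | succ i ih =>
    rw [pow_succ, succ_nsmul]
    exact LSp_mul h ih hf

omit [IsAlgClosed κ] in
theorem cvd_adjoin_inv (f : F) : κ⟮f⁻¹⟯ = κ⟮f⟯ := by
  refine le_antisymm (adjoin_simple_le_iff.2 (inv_mem (mem_adjoin_simple_self κ f)))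
    (adjoin_simple_le_iff.2 ?_)
  have := inv_mem (mem_adjoin_simple_self κ f⁻¹)
  rwa [inv_inv] at this

omit [IsAlgClosed κ] in
theorem cvd_indep {f : F} (hf : Transcendental κ f) (r : ℕ) :
    LinearIndependent κ fun i : Fin r => (AdjoinSimple.gen κ f) ^ i.val := by
  refine LinearIndependent.of_comp κ⟮f⟯.val.toLinearMap ?_
  have h1 := ((Polynomial.basisMonomials κ).linearIndependent.map'
    (Polynomial.aeval f).toLinearMap (LinearMap.ker_eq_bot.2
      (transcendental_iff_injective.1 hf))).comp Fin.val (Fin.val_injective (n := r))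
  have h2 : κ⟮f⟯.val.toLinearMap ∘ (fun i : Fin r => (AdjoinSimple.gen κ f) ^ i.val) =
      ((Polynomial.aeval f).toLinearMap ∘ Polynomial.basisMonomials κ) ∘ Fin.val :=
    funext fun i => by simp
  rwa [h2]

omit [IsAlgClosed κ] in
theorem cvd_card {ι : Type*} [Fintype ι] {v : ι → F} (hv : LinearIndependent κ v)
    (L : Submodule κ F) [Module.Finite κ L] (h : ∀ i, v i ∈ L) :
    Fintype.card ι ≤ Module.finrank κ L :=
  (LinearIndependent.of_comp (v := fun i => (⟨v i, h i⟩ : L)) L.subtype hv).fintype_card_le_finrank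

theorem cv_pdeg_eq (h : IsFF κ F 1) {f : F} (hf : Transcendental κ f) :
    pdeg κ f = Module.finrank κ⟮f⟯ F ∧ FiniteDimensional κ⟮f⟯ F := by
  have fd := cv_fin h hf
  refine ⟨le_antisymm ?_ ?_, fd⟩
  · have h1 := cv_sum_le h (x := f⁻¹) (fun h1 => hf (by simpa using h1.inv)) (dv κ f).support
    rw [congrArg (fun E : IntermediateField κ F => Module.finrank E F) (cvd_adjoin_inv f)] at h1
    rw [pdeg, finsum_eq_sum_of_support_subset (s := (dv κ f).support) _ fun P hP => ?_]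
    · simpa only [ord_inv h] using h1
    · rw [Finset.mem_coe, Finsupp.mem_support_iff, dv_apply h]
      intro h2
      exact hP (by simp [h2])
  · let u := Module.finBasis κ⟮f⟯ F
    obtain ⟨C, hC0, hC⟩ : ∃ C : Dvs κ F, 0 ≤ C ∧ ∀ j, u j ∈ LSp C :=
      ⟨∑ j, pdv κ (u j), Finset.sum_nonneg fun j _ => cvd_pdv h _, fun j => LSp_mono h
        (Finset.single_le_sum (f := fun j => pdv κ (u j)) (fun j _ => cvd_pdv h _)
          (Finset.mem_univ j)) (mem_LSp_pdv h _)⟩
    obtain ⟨r, hr⟩ := Int.eq_ofNat_of_zero_le (cvd_nonneg hC0)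
    have h1 := linearIndependent_smul (cvd_indep hf (r + 1 + 1)) u.linearIndependent
    have h2 : ∀ p : Fin (r + 1 + 1) × Fin (Module.finrank κ⟮f⟯ F),
        AdjoinSimple.gen κ f ^ p.1.val • u p.2 ∈ LSp ((r + 1) • pdv κ f + C) := fun p =>
      LSp_mul h (LSp_mono h (nsmul_le_nsmul_left (cvd_pdv h f) (Nat.lt_succ_iff.1 p.1.2))
        (cvd_pow h (mem_LSp_pdv h f) p.1)) (hC p.2)
    have := LSp_finite h ((r + 1) • pdv κ f + C)
    have h3 := cvd_card h1 _ h2
    have h4 := cvd_eff h (add_nonneg (nsmul_nonneg (cvd_pdv h f) (r + 1)) hC0)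
    rw [map_add, map_nsmul, ddeg_pdv h, hr, nsmul_eq_mul, ldim] at h4
    rw [Fintype.card_prod, Fintype.card_fin, Fintype.card_fin] at h3
    have h5 := (Nat.cast_le (α := ℤ).2 h3).trans h4
    by_contra h6
    have h7 : (pdeg κ f : ℤ) + 1 ≤ Module.finrank κ⟮f⟯ F := by exact_mod_cast not_le.1 h6
    push_cast at h5
    nlinarith [Int.natCast_nonneg r, Int.natCast_nonneg (pdeg κ f)]

theorem cvd_const (h : IsFF κ F 1) (c : κ) : pdeg κ (algebraMap κ F c) = 0 := by
  simp only [pdeg, ord_const h, neg_zero, Int.toNat_zero, finsum_zero]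

theorem cv_pdeg_inv (h : IsFF κ F 1) (f : F) : pdeg κ f⁻¹ = pdeg κ f := by
  by_cases hf : Transcendental κ f
  · rw [(cv_pdeg_eq h hf).1, (cv_pdeg_eq h (f := f⁻¹) fun h1 => hf (by simpa using h1.inv)).1]
    exact congrArg (fun E : IntermediateField κ F => Module.finrank E F) (cvd_adjoin_inv f)
  · obtain ⟨c, rfl⟩ := not_not.1 fun h1 => hf ((cv_trans_iff f).2 h1)
    rw [← map_inv₀, cvd_const h, cvd_const h]

theorem ddeg_dv (h : IsFF κ F 1) (f : F) : ddeg (dv κ f) = 0 := by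
  have h1 : dv κ f = pdv κ f⁻¹ - pdv κ f := Finsupp.ext fun P => by
    rw [Finsupp.sub_apply, dv_apply h, pdv_apply h, pdv_apply h, ord_inv h]
    omega
  rw [h1, map_sub, ddeg_pdv h, ddeg_pdv h, cv_pdeg_inv h, sub_self]

theorem dv_eq_zero_iff (h : IsFF κ F 1) {f : F} (hf : f ≠ 0) :
    dv κ f = 0 ↔ ∃ c : κ, f = algebraMap κ F c := by
  refine ⟨fun h0 => cv_const_of_mem fun P => (ord_mem_iff h P hf).2 ?_, ?_⟩
  · rw [← dv_apply h, h0]
    exact le_rfl
  · rintro ⟨c, rfl⟩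
    exact Finsupp.ext fun P => by rw [dv_apply h, ord_const h, Finsupp.zero_apply]

theorem cvd_le (h : IsFF κ F 1) (D : Dvs κ F) {f : F} (hf : f ≠ 0) :
    ldim (D + dv κ f) ≤ ldim D := by
  have := LSp_finite h D
  have h1 : f ∈ LSp (-dv κ f) := (mem_LSp_iff h _ _).2 fun P => by
    rw [Finsupp.neg_apply, neg_neg, dv_apply h]
    exact mem_OS_ord h P f
  refine LinearMap.finrank_le_finrank_of_injective
    (f := (LinearMap.mulRight κ f).restrict (p := LSp (D + dv κ f)) (q := LSp D) fun g hg => ?_)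
    fun a b hab => Subtype.ext (mul_right_cancel₀ hf (congrArg Subtype.val hab))
  have h2 := LSp_mul h hg h1
  rwa [add_neg_cancel_right] at h2

theorem cvd_inv (h : IsFF κ F 1) (f : F) : dv κ f⁻¹ = -dv κ f :=
  Finsupp.ext fun P => by rw [Finsupp.neg_apply, dv_apply h, dv_apply h, ord_inv h]

theorem ldim_add_dv (h : IsFF κ F 1) (D : Dvs κ F) {f : F} (hf : f ≠ 0) :
    ldim (D + dv κ f) = ldim D := by
  refine le_antisymm (cvd_le h D hf) ?_
  have h1 := cvd_le h (D + dv κ f) (inv_ne_zero hf)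
  rwa [cvd_inv h, add_neg_cancel_right] at h1

theorem cvd_sec (h : IsFF κ F 1) {D : Dvs κ F} (hl : ldim D ≠ 0) :
    ∃ f : F, f ≠ 0 ∧ 0 ≤ D + dv κ f ∧ ddeg (D + dv κ f) = ddeg D := by
  have h1 : LSp D ≠ ⊥ := fun h1 => hl (by rw [ldim, h1, finrank_bot])
  obtain ⟨f, hf, h0⟩ := Submodule.exists_mem_ne_zero_of_ne_bot h1
  refine ⟨f, h0, fun P => ?_, by rw [map_add, ddeg_dv h, add_zero]⟩
  have h2 := ((mem_LSp h D f).1 hf).resolve_left h0 P
  show (0 : ℤ) ≤ _
  rw [Finsupp.add_apply, dv_apply h]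
  omega

theorem ldim_le (h : IsFF κ F 1) (D : Dvs κ F) (hD : 0 ≤ ddeg D) :
    (ldim D : ℤ) ≤ ddeg D + 1 := by
  by_cases hl : ldim D = 0
  · omega
  · obtain ⟨f, h0, h1, h2⟩ := cvd_sec h hl
    have h3 := cvd_eff h h1
    rwa [ldim_add_dv h D h0, h2] at h3

theorem ldim_neg (h : IsFF κ F 1) (D : Dvs κ F) (hD : ddeg D < 0) : ldim D = 0 := by
  by_contra hl
  obtain ⟨f, -, h1, h2⟩ := cvd_sec h hl
  exact absurd (h2 ▸ cvd_nonneg h1) (not_le.2 hD)

/-- a degree zero divisor with a section is principal -/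
theorem ldim_deg_zero (h : IsFF κ F 1) (D : Dvs κ F) (hD : ddeg D = 0) (hl : ldim D ≠ 0) :
    ∃ f : F, f ≠ 0 ∧ D = dv κ f := by
  obtain ⟨f, h0, h1, h2⟩ := cvd_sec h hl
  exact ⟨f⁻¹, inv_ne_zero h0, by
    rw [cvd_inv h, eq_neg_iff_add_eq_zero, ddeg_eq_zero h1 (h2.trans hD)]⟩

theorem IsRR.unique (h : IsFF κ F 1) {g g' : ℕ} {W W' : Dvs κ F} (h₁ : IsRR g W)
    (h₂ : IsRR g' W') : g = g' := by
  obtain ⟨P⟩ : Nonempty (Place κ F) := by
    by_contra h0
    obtain ⟨y, hy, -⟩ := h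
    exact (cv_trans_iff (y 0)).1 (hy.transcendental 0) (cv_const_of_mem fun P => absurd ⟨P⟩ h0)
  have h3 := h₁ (Finsupp.single P (max (ddeg W) (ddeg W') + 1))
  have h4 := h₂ (Finsupp.single P (max (ddeg W) (ddeg W') + 1))
  rw [ldim_neg h (W - _) (by rw [map_sub, ddeg_single]; omega)] at h3
  rw [ldim_neg h (W' - _) (by rw [map_sub, ddeg_single]; omega)] at h4
  omega

theorem IsRR.deg (h : IsFF κ F 1) {g : ℕ} {W : Dvs κ F} (h₁ : IsRR g W) :
    ddeg W = 2 * g - 2 ∧ ldim W = g := by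
  have h2 := h₁ 0
  have h3 := h₁ W
  rw [sub_zero, ldim_zero h, map_zero] at h2
  rw [sub_self, ldim_zero h] at h3
  omega

end P019
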