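import Vale.Agent.P019.RRA

/-!
P019 RRB: Riemann's theorem (helper lemma names start with `rrb_`).
PLAN. `n = finrank κ⟮x⟯ F = pdeg x = ddeg H` with `H = pdv κ x` (`cv_pdeg_eq`, `ddeg_pdv`), `n > 0`.
`rrb_lower`: `u` a basis of `F` over `κ⟮x⟯`, `C = ∑ i, pdv κ (u i)`. The elements `x ^ j * u i`, `j ≤ k`, lie in
`LSp (k • H + C)` (`mul_mem_LSp`, `mem_LSp_pdv`, `LSp_mono`, `pdv_nonneg`) and are independent over `κ`
(`linearIndependent_smul` with the powers of `AdjoinSimple.gen κ x`, independent since `x` is transcendental;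
`LinearIndependent.fintype_card_le_finrank` after `LinearIndependent.of_comp`/restriction to the finite space `LSp_finite`).
`rrb_bound`: for any `D` put `D' = D ⊔ 0`; by `ldim_sub_mono`, `ldim (k • H + C - D') ≥ (k + 1) n - ddeg D' > 0` for large `k`, so
(`rr_exists_eff`) `D ≤ D' ≤ k • H + C + dv f` and `ddeg D - ldim D ≤ ddeg C - n` (`ldim_add_dv`, `ddeg_dv`).
`rr_riemann`: `g - 1` is the maximum of `ddeg D - ldim D` (`Int.exists_greatest_of_bdd`; `D = 0` gives `-1` by `ldim_zero`), attained at `D₀`;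
`c = ddeg D₀ + g`: then `ldim (D - D₀) ≥ 1`, so `D₀ ≤ D + dv f`.
-/

namespace P019

open IntermediateField

variable {κ F : Type*} [Field κ] [Field F] [Algebra κ F] [IsAlgClosed κ]

omit [IsAlgClosed κ] in
theorem rrb_mono {D E : Dvs κ F} (hDE : D ≤ E) : LSp D ≤ LSp E :=
  Submodule.span_mono fun _ hf => hf.imp id fun h1 P => (neg_le_neg (hDE P)).trans (h1 P)

theorem rrb_pdv_nonneg (h : IsFF κ F 1) (f : F) : 0 ≤ pdv κ f := fun P => by
  rw [pdv_apply h]
  exact le_max_right _ _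

omit [IsAlgClosed κ] in
theorem rrb_indep {x : F} (hx : Transcendental κ x) :
    LinearIndependent κ fun j : ℕ => AdjoinSimple.gen κ x ^ j := by
  have h1 := (Polynomial.basisMonomials κ).linearIndependent.map'
    (Polynomial.aeval x : Polynomial κ →ₐ[κ] F).toLinearMap
    (LinearMap.ker_eq_bot.2 (transcendental_iff_injective.1 hx))
  refine LinearIndependent.of_comp κ⟮x⟯.val.toLinearMap ?_
  have e : (κ⟮x⟯.val.toLinearMap ∘ fun j : ℕ => AdjoinSimple.gen κ x ^ j) =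
      (Polynomial.aeval x : Polynomial κ →ₐ[κ] F).toLinearMap ∘ Polynomial.basisMonomials κ := by
    funext j
    simp
  rw [e]
  exact h1

theorem rrb_pow_mem (h : IsFF κ F 1) (x : F) (j : ℕ) : x ^ j ∈ LSp (j • pdv κ x) := by
  induction j with
  | zero =>
    rw [pow_zero, zero_smul, rr_mem_LSp h]
    exact Or.inr fun P => by simp [rr_ord_one h]
  | succ j ih =>
    rw [pow_succ, succ_nsmul]
    exact mul_mem_LSp h ih (mem_LSp_pdv h x)

theorem rrb_lower (h : IsFF κ F 1) {x : F} (hx : Transcendental κ x) :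
    ∃ C : Dvs κ F, ∀ k : ℕ, (k + 1) * pdeg κ x ≤ ldim (k • pdv κ x + C) := by
  obtain ⟨hn, hfin⟩ := cv_pdeg_eq h hx
  let u := Module.finBasis κ⟮x⟯ F
  refine ⟨∑ i, pdv κ (u i), fun k => ?_⟩
  have h1 : LinearIndependent κ fun j : Fin (k + 1) => AdjoinSimple.gen κ x ^ (j : ℕ) :=
    (rrb_indep hx).comp (fun j : Fin (k + 1) => (j : ℕ)) Fin.val_injective
  have h2 := linearIndependent_smul h1 u.linearIndependent
  have h3 : ∀ p : Fin (k + 1) × Fin (Module.finrank κ⟮x⟯ F),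
      AdjoinSimple.gen κ x ^ (p.1 : ℕ) • u p.2 ∈ LSp (k • pdv κ x + ∑ i, pdv κ (u i)) := by
    intro p
    have e : AdjoinSimple.gen κ x ^ (p.1 : ℕ) • u p.2 = x ^ (p.1 : ℕ) * u p.2 := by
      rw [IntermediateField.smul_def, smul_eq_mul]
      simp
    rw [e]
    refine rrb_mono (add_le_add ?_ ?_) (mul_mem_LSp h (rrb_pow_mem h x p.1) (mem_LSp_pdv h (u p.2)))
    · exact nsmul_le_nsmul_left (rrb_pdv_nonneg h x) (Nat.lt_succ_iff.1 p.1.2)
    · exact Finset.single_le_sum (f := fun i => pdv κ (u i)) (fun i _ => rrb_pdv_nonneg h _)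
        (Finset.mem_univ p.2)
  have := LSp_finite h (k • pdv κ x + ∑ i, pdv κ (u i))
  have h4 : LinearIndependent κ fun p : Fin (k + 1) × Fin (Module.finrank κ⟮x⟯ F) =>
      (⟨_, h3 p⟩ : LSp (k • pdv κ x + ∑ i, pdv κ (u i))) :=
    LinearIndependent.of_comp (Submodule.subtype _) h2
  have h5 := h4.fintype_card_le_finrank
  rw [Fintype.card_prod, Fintype.card_fin, Fintype.card_fin] at h5
  rw [hn]
  exact h5

/-- comparison with a divisor `E` such that `E - D` has a section -/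
theorem rrb_cmp (h : IsFF κ F 1) {D E : Dvs κ F} (hl : ldim (E - D) ≠ 0) :
    ddeg D - ldim D ≤ ddeg E - ldim E := by
  obtain ⟨f, hf, h0⟩ := rr_exists_eff h hl
  have h1 : D ≤ E + dv κ f := by
    rw [← sub_nonneg, ← sub_add_eq_add_sub]
    exact h0
  have h2 := ldim_sub_mono h h1
  rwa [ldim_add_dv h E hf, map_add, ddeg_dv h, add_zero] at h2

theorem rrb_bound (h : IsFF κ F 1) {x : F} (hx : Transcendental κ x) :
    ∃ b : ℤ, ∀ D : Dvs κ F, ddeg D - ldim D ≤ b := by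
  obtain ⟨C, hC⟩ := rrb_lower h hx
  obtain ⟨hn, hfin⟩ := cv_pdeg_eq h hx
  have hpos : 1 ≤ (pdeg κ x : ℤ) := by
    have h0 : 0 < pdeg κ x := hn ▸ Module.finrank_pos
    exact_mod_cast h0
  refine ⟨ddeg C - pdeg κ x, fun D => ?_⟩
  obtain ⟨k, hk⟩ : ∃ k : ℕ, ddeg (D ⊔ 0) ≤ k := ⟨_, Int.self_le_toNat _⟩
  have h1 : ((k + 1 : ℤ)) * pdeg κ x ≤ ldim (k • pdv κ x + C) := by exact_mod_cast hC k
  have h2 : ddeg (k • pdv κ x + C) = k * pdeg κ x + ddeg C := by
    rw [map_add, map_nsmul, ddeg_pdv h, nsmul_eq_mul]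
  have h3 := ldim_sub_mono h (sub_le_self (k • pdv κ x + C) (le_sup_right : 0 ≤ D ⊔ 0))
  rw [map_sub] at h3
  have h4 : ldim (k • pdv κ x + C - D ⊔ 0) ≠ 0 := by
    intro h0
    rw [h0] at h3
    have h5 : (0 : ℤ) ≤ k := Int.natCast_nonneg k
    push_cast at h3
    nlinarith
  have h5 := rrb_cmp h h4
  have h6 := ldim_sub_mono h (le_sup_left : D ≤ D ⊔ 0)
  linarith

theorem rr_riemann (h : IsFF κ F 1) {x : F} (hx : Transcendental κ x) :
    ∃ (g : ℕ) (c : ℤ), Rie κ F g c := by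
  obtain ⟨b, hb⟩ := rrb_bound h hx
  obtain ⟨m, ⟨D₀, hD₀⟩, hm⟩ := Int.exists_greatest_of_bdd
    (P := fun m => ∃ D : Dvs κ F, ddeg D - ldim D = m) ⟨b, fun z ⟨D, hD⟩ => hD ▸ hb D⟩ ⟨_, 0, rfl⟩
  have hm' : ∀ D : Dvs κ F, ddeg D - ldim D ≤ m := fun D => hm _ ⟨D, rfl⟩
  have h0 := hm' 0
  rw [map_zero, ldim_zero h] at h0
  obtain ⟨g, hg⟩ : ∃ g : ℕ, (g : ℤ) = m + 1 := ⟨(m + 1).toNat, Int.toNat_of_nonneg (by omega)⟩
  refine ⟨g, ddeg D₀ + g, fun D => by linarith [hm' D], fun D hD => ?_⟩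
  have h1 := hm' (D - D₀)
  rw [map_sub] at h1
  have h2 : ldim (D - D₀) ≠ 0 := by omega
  have h3 := rrb_cmp h h2
  linarith [hm' D]

end P019
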