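import Vale.Agent.P019.RRC

/-!
P019 RRD: Weil's proof of the duality (helper lemma names start with `rrd_`).
PLAN. `Ω D = (NSp S D).dualAnnihilator ≤ Module.Dual κ F` is finite dimensional of dimension
`i D = finrank (F ⧸ NSp S D)` (`rr_codim`, `Submodule.dualQuotEquivDualAnnihilator`, `Subspace.dual_finrank_eq`).
For `l : Module.Dual κ F`, `f : F` put `f · l = l ∘ₗ LinearMap.mulLeft κ f`; it is linear in `f`, and `f · l = 0`, `l ≠ 0` give `f = 0`.
If `l ∈ Ω E` and `f ∈ LSp (E - D)` then `f · l ∈ Ω D` (`mul_mem_NSp`).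
`rrd_prop`: with `Q ∈ S`, `D = - single Q k`, `k > 0` large, the linear map `LSp (E - D) × LSp (E - D) → Ω D`,
`(f₁, f₂) ↦ f₁ · l₁ + f₂ · l₂` is not injective: `2 (ddeg E + k + 1 - g) ≤ 2 ldim (E - D)` (`hR.1`) and `i D = k - 1 + g` (`ldim_neg`).
A kernel element has `f₂ ≠ 0`; take `f = - f₁ / f₂`.
`rrd_max`: if `l ≠ 0` lies in `Ω D` then `NSp S D ≠ ⊤`, `i D ≠ 0`, so `ddeg D < c` (`hR.2`). Take `W` of maximal degree
(`Int.exists_greatest_of_bdd`); if `l ∈ Ω D` and `W Q < D Q` then `l ∈ Ω (W + single Q 1)` by `rr_cover`, a contradiction.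
`rr_weil`: `i (- single Q 2) = g + 1 > 0` gives `l ≠ 0`; `W` from `rrd_max`. The map `LSp (W - D) → Ω D`, `f ↦ f · l` is injective; it is onto:
`l' ∈ Ω D`, both in `Ω (D ⊓ W)` (`NSp_mono`), `l' = f · l`; if `f ≠ 0` then `l = f⁻¹ · l'` kills `NSp S (D - dv f)`
(`f⁻¹ ∈ LSp (dv f)` by `rr_ord_inv`, `dv_apply`), so `D - dv f ≤ W`, that is `f ∈ LSp (W - D)`. Hence `ldim (W - D) = i D`.
-/

namespace P019

open IntermediateField

variable {κ F : Type*} [Field κ] [Field F] [Algebra κ F] [IsAlgClosed κ]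
  {g : ℕ} {c : ℤ} {S : Set (Place κ F)}

/-- the action of functions on linear forms -/
noncomputable def rrd_act (l : Module.Dual κ F) : F →ₗ[κ] Module.Dual κ F :=
  (LinearMap.mul κ F).compr₂ l

omit [IsAlgClosed κ] in
theorem rrd_act_apply (l : Module.Dual κ F) (f y : F) : rrd_act l f y = l (f * y) := rfl

omit [IsAlgClosed κ] in
theorem rrd_inj {l : Module.Dual κ F} (h0 : l ≠ 0) {f : F} (hf : rrd_act l f = 0) : f = 0 := by
  by_contra hne
  refine h0 (LinearMap.ext fun y => ?_)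
  have := LinearMap.congr_fun hf (f⁻¹ * y)
  rwa [rrd_act_apply, mul_inv_cancel_left₀ hne] at this

theorem rrd_mem (h : IsFF κ F 1) {E D : Dvs κ F} {l : Module.Dual κ F}
    (hl : l ∈ (NSp S E).dualAnnihilator) {f : F} (hf : f ∈ LSp (E - D)) :
    rrd_act l f ∈ (NSp S D).dualAnnihilator :=
  (Submodule.mem_dualAnnihilator _).2 fun w hw => (Submodule.mem_dualAnnihilator _).1 hl _ (by
    have := mul_mem_NSp h hf hw
    rwa [sub_add_cancel] at this)

theorem rrd_dim (h : IsFF κ F 1) (hR : Rie κ F g c) (hS : S.Nonempty) (hS' : Sᶜ.Nonempty)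
    (D : Dvs κ F) : Module.Finite κ (NSp S D).dualAnnihilator ∧
      (ldim D : ℤ) = ddeg D + 1 - g + Module.finrank κ (NSp S D).dualAnnihilator := by
  obtain ⟨h1, h2⟩ := rr_codim h hR hS hS' D
  have e := Submodule.dualQuotEquivDualAnnihilator (NSp S D)
  exact ⟨Module.Finite.equiv e, by rw [← e.finrank_eq, Subspace.dual_finrank_eq, h2]⟩

theorem rrd_prop (h : IsFF κ F 1) (hR : Rie κ F g c) (hS : S.Nonempty) (hS' : Sᶜ.Nonempty)
    {E : Dvs κ F} {l₁ l₂ : Module.Dual κ F} (h0 : l₁ ≠ 0) (h₁ : l₁ ∈ (NSp S E).dualAnnihilator)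
    (h₂ : l₂ ∈ (NSp S E).dualAnnihilator) : ∃ f : F, ∀ y, l₂ y = l₁ (f * y) := by
  obtain ⟨Q, -⟩ := id hS
  set D : Dvs κ F := -Finsupp.single Q (2 * |ddeg E| + 3 * g + 1) with hD
  have hdeg : ddeg D = -(2 * |ddeg E| + 3 * g + 1) := by rw [hD, map_neg, rr_ddeg_single]
  have habs := abs_nonneg (ddeg E)
  have habs' := neg_abs_le (ddeg E)
  obtain ⟨hfin, hdim⟩ := rrd_dim h hR hS hS' D
  have := LSp_finite h (E - D)
  have h3 := hR.1 (E - D)
  rw [map_sub] at h3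
  rw [ldim_neg h D (by omega)] at hdim
  let Φ : (LSp (E - D) × LSp (E - D)) →ₗ[κ] (NSp S D).dualAnnihilator :=
    LinearMap.codRestrict _ (LinearMap.coprod (rrd_act l₁ ∘ₗ (LSp (E - D)).subtype)
      (rrd_act l₂ ∘ₗ (LSp (E - D)).subtype)) fun x =>
      Submodule.add_mem _ (rrd_mem h h₁ x.1.2) (rrd_mem h h₂ x.2.2)
  have hk : ¬Function.Injective Φ := fun hi => by
    have h5 := LinearMap.finrank_le_finrank_of_injective hi
    rw [Module.finrank_prod] at h5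
    unfold ldim at h3
    omega
  rw [injective_iff_map_eq_zero] at hk
  push Not at hk
  obtain ⟨⟨f₁, f₂⟩, hx, hne⟩ := hk
  have he : rrd_act l₁ f₁ + rrd_act l₂ f₂ = 0 := congrArg Subtype.val hx
  have h2 : (f₂ : F) ≠ 0 := fun h2 => by
    rw [h2, map_zero, add_zero] at he
    exact hne (Prod.ext (Subtype.ext (rrd_inj h0 he)) (Subtype.ext h2))
  refine ⟨-f₁ / f₂, fun y => ?_⟩
  have h4 := LinearMap.congr_fun he ((f₂ : F)⁻¹ * y)
  rw [LinearMap.add_apply, rrd_act_apply, rrd_act_apply, mul_inv_cancel_left₀ h2,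
    LinearMap.zero_apply] at h4
  have e : -(f₁ : F) / f₂ * y = -(f₁ * ((f₂ : F)⁻¹ * y)) := by ring
  rw [e, map_neg]
  exact eq_neg_of_add_eq_zero_right h4

theorem rrd_max (h : IsFF κ F 1) (hR : Rie κ F g c) (hS : S.Nonempty) (hS' : Sᶜ.Nonempty)
    {E : Dvs κ F} {l : Module.Dual κ F} (h0 : l ≠ 0) (h₁ : l ∈ (NSp S E).dualAnnihilator) :
    ∃ W : Dvs κ F, l ∈ (NSp S W).dualAnnihilator ∧
      ∀ D, l ∈ (NSp S D).dualAnnihilator → D ≤ W := by
  have hb : ∀ z : ℤ, (∃ D, l ∈ (NSp S D).dualAnnihilator ∧ ddeg D = z) → z ≤ c := by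
    rintro _ ⟨D, hD, rfl⟩
    by_contra hc
    obtain ⟨hfin, hdim⟩ := rrd_dim h hR hS hS' D
    have h2 := hR.2 D (not_le.1 hc).le
    have h3 : (NSp S D).dualAnnihilator = ⊥ := Submodule.finrank_eq_zero.1 (by omega)
    rw [h3] at hD
    exact h0 hD
  obtain ⟨_, ⟨W, hW, rfl⟩, hmax⟩ := Int.exists_greatest_of_bdd ⟨c, hb⟩ ⟨_, E, h₁, rfl⟩
  refine ⟨W, hW, fun D hD => Finsupp.le_def.2 fun Q => ?_⟩
  by_contra hQ
  have h2 : l ∈ (NSp S (W + Finsupp.single Q 1)).dualAnnihilator :=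
    Submodule.dualAnnihilator_anti (rr_cover h hR hS hS' (not_le.1 hQ)) (by
      rw [Submodule.dualAnnihilator_sup_eq]
      exact ⟨hW, hD⟩)
  have h3 := hmax _ ⟨_, h2, rfl⟩
  rw [map_add, rr_ddeg_single] at h3
  omega

theorem rr_weil (h : IsFF κ F 1) (hR : Rie κ F g c) (hS : S.Nonempty) (hS' : Sᶜ.Nonempty) :
    ∃ W : Dvs κ F, IsRR g W := by
  obtain ⟨Q, -⟩ := id hS
  obtain ⟨hfin, hdim⟩ := rrd_dim h hR hS hS' (-Finsupp.single Q 2)
  have hdeg : ddeg (-Finsupp.single Q 2 : Dvs κ F) = -2 := by rw [map_neg, rr_ddeg_single]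
  rw [ldim_neg h _ (by omega), hdeg] at hdim
  have hne : (NSp S (-Finsupp.single Q 2)).dualAnnihilator ≠ ⊥ := fun hb => by
    rw [hb, finrank_bot] at hdim
    omega
  obtain ⟨l, hl, h0⟩ := Submodule.exists_mem_ne_zero_of_ne_bot hne
  obtain ⟨W, hW, hmax⟩ := rrd_max h hR hS hS' h0 hl
  refine ⟨W, fun D => ?_⟩
  let Φ : LSp (W - D) →ₗ[κ] (NSp S D).dualAnnihilator :=
    LinearMap.codRestrict _ (rrd_act l ∘ₗ (LSp (W - D)).subtype) fun x => rrd_mem h hW x.2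
  have hinj : Function.Injective Φ := (injective_iff_map_eq_zero _).2 fun x hx =>
    Subtype.ext (rrd_inj h0 (congrArg Subtype.val hx))
  have hsurj : Function.Surjective Φ := by
    rintro ⟨l', hl'⟩
    obtain ⟨f, hf⟩ := rrd_prop h hR hS hS' (E := D ⊓ W) h0
      (Submodule.dualAnnihilator_anti (NSp_mono S inf_le_right) hW)
      (Submodule.dualAnnihilator_anti (NSp_mono S inf_le_left) hl')
    refine ⟨⟨f, (rr_mem_LSp h).2 ?_⟩, Subtype.ext (LinearMap.ext fun y => (hf y).symm)⟩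
    by_cases hf0 : f = 0
    · exact Or.inl hf0
    · have h1 : f⁻¹ ∈ LSp (D - (D - dv κ f)) := (rr_mem_LSp h).2 (Or.inr fun P => by
        rw [sub_sub_cancel, dv_apply h, rr_ord_inv h])
      have h2 := rrd_mem h hl' h1
      have h3 : rrd_act l' f⁻¹ = l := LinearMap.ext fun y => by
        rw [rrd_act_apply, hf, mul_inv_cancel_left₀ hf0]
      rw [h3] at h2
      refine Or.inr fun P => ?_
      have h4 := Finsupp.le_def.1 (hmax _ h2) P
      rw [Finsupp.sub_apply, dv_apply h] at h4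
      rw [Finsupp.sub_apply]
      omega
  rw [(rrd_dim h hR hS hS' D).2, ← (LinearEquiv.ofBijective Φ ⟨hinj, hsurj⟩).finrank_eq]
  rfl

end P019
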