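import Vale.Agent.P019.RRA

/-!
P019 RRE: the trace shows that `H¹` of the Hurwitz divisor is nonzero (helper lemma names start with `rre_`).
PLAN. `K = κ⟮x⟯`, `F / K` finite (`cv_pdeg_eq`) separable, `Ω = AlgebraicClosure F` (a `K`-algebra, scalar tower),
`algebraMap K Ω (Algebra.trace K F y) = ∑ σ : F →ₐ[K] Ω, σ y` (`trace_eq_sum_embeddings`), the trace is onto (`Algebra.trace_surjective`).
`rre_val`: `A = (Algebra.adjoin κ {t}).toSubring`, the ideal `(t)` is proper since `t` is transcendental;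
`Ideal.image_subset_nonunits_valuationSubring` (or `exists_val_of_prime` with the kernel of evaluation at `0`).
`rre_trace`: for each `σ` the ring `V.comap σ` is a place `P` of `F` (it contains `κ`, and not `t⁻¹`), with `0 < ord P t` (`rr_lt_one_iff`, `val_comap` or
`ValuationSubring.mem_nonunits_iff_or`); so `σ y` is a nonunit of `V`; nonunits are closed under sums (`Valuation.map_sum_lt`).
`rre_fin`: `trace f = p(x) / q(x)` with `p, q` coprime (`IntermediateField.mem_adjoin_simple_iff`, then divide by the gcd, or induct on the degree of `q`).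
If `q` has a root `a`, use `t = x - a`, `y = (x - a) f`: `(x - a) * trace f` is a nonunit of `V`; `q = (X - a) q₁`, so `p(x) = q₁(x) (x - a) trace f`
is a nonunit, but `p(x) = p(a) + (x - a) p₁(x)` with `p(a) ≠ 0` is a unit. So `q` is a constant (`IsAlgClosed.exists_root`).
`rr_trace`: if `NSp = ⊤`, take `y` with trace `x⁻¹`, `y = f₁ + f₂`; `trace f₁ = p(x)`; with `t = x⁻¹`, `x * f₂` has positive order at all poles of `x`
(`ord f₂ ≥ - 2 ord x`), so `x * trace f₂ = 1 - x p(x)` is a nonunit of `V`, and `x ∉ V`. A polynomial `q` with `q(x) ∈ V` is constant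
(induction with `Polynomial.divX`, or `mem_of_monic`), so `X * p` is constant, `p = 0`, and `1` is a nonunit: contradiction.
-/

namespace P019

open IntermediateField Polynomial

variable {κ F : Type*} [Field κ] [Field F] [Algebra κ F] [IsAlgClosed κ]

section aux

variable {Ω : Type*} [Field Ω] [Algebra κ Ω] {W : ValuationSubring Ω}

omit [Algebra κ Ω] in
theorem rre_comap (f : F →+* Ω) (a : F) :
    (W.comap f).valuation a < 1 ↔ W.valuation (f a) < 1 := by
  rw [← ValuationSubring.mem_nonunits_iff, ← ValuationSubring.mem_nonunits_iff,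
    ValuationSubring.mem_nonunits_iff_or, ValuationSubring.mem_nonunits_iff_or,
    ValuationSubring.mem_comap, map_inv₀, map_eq_zero]

omit [IsAlgClosed κ] in
theorem rre_const (hW : Triv κ W) {c : κ} (hc : c ≠ 0) : W.valuation (algebraMap κ Ω c) = 1 := by
  have h1 := (W.valuation_le_one_iff _).2 (hW c)
  have h2 := (W.valuation_le_one_iff _).2 (hW c⁻¹)
  have h3 : W.valuation (algebraMap κ Ω c) ≠ 0 := by simpa using hc
  rw [map_inv₀, map_inv₀, inv_le_one₀ (zero_lt_iff.2 h3)] at h2
  exact le_antisymm h1 h2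

omit [IsAlgClosed κ] in
theorem rre_aeval (hW : Triv κ W) {x : Ω} (hx : x ∈ W) (p : κ[X]) :
    W.valuation (aeval x p) ≤ 1 := by
  rw [W.valuation_le_one_iff]
  induction p using Polynomial.induction_on' with
  | add p q hp hq =>
    rw [map_add]
    exact add_mem hp hq
  | monomial n c =>
    rw [aeval_monomial]
    exact mul_mem (hW c) (pow_mem hx n)

theorem rre_poly {x g : Ω} (hx : Transcendental κ x)
    (H : ∀ a : κ, ∃ W : ValuationSubring Ω, Triv κ W ∧ W.valuation (x - algebraMap κ Ω a) < 1 ∧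
      W.valuation ((x - algebraMap κ Ω a) * g) < 1) (n : ℕ) :
    ∀ p q : κ[X], q ≠ 0 → q.natDegree = n → g * aeval x q = aeval x p →
      ∃ r : κ[X], g = aeval x r := by
  induction n with
  | zero =>
    intro p q h0 hn e
    rw [eq_C_of_natDegree_eq_zero hn] at h0 e
    have h1 : q.coeff 0 ≠ 0 := fun h => h0 (by rw [h, C_0])
    refine ⟨p * C (q.coeff 0)⁻¹, ?_⟩
    rw [map_mul, ← e, mul_assoc, ← map_mul, ← C_mul, mul_inv_cancel₀ h1, C_1, map_one, mul_one]
  | succ n ih =>
    intro p q h0 hn e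
    obtain ⟨a, ha⟩ := IsAlgClosed.exists_root q (degree_ne_of_natDegree_ne (by rw [hn]; simp))
    obtain ⟨q₁, rfl⟩ := dvd_iff_isRoot.2 ha
    obtain ⟨p₁, hp⟩ := X_sub_C_dvd_sub_C_eval (p := p) (a := a)
    obtain ⟨W, hW, h1, h2⟩ := H a
    have hq : q₁ ≠ 0 := right_ne_zero_of_mul h0
    have hxW : x ∈ W := by
      simpa using add_mem ((W.valuation_le_one_iff _).1 h1.le) (hW a)
    have e1 := congrArg (aeval x) hp
    simp only [map_sub, map_mul, aeval_X, aeval_C] at e e1
    have h3 : p.eval a = 0 := by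
      by_contra h4
      have e2 : algebraMap κ Ω (p.eval a) = (x - algebraMap κ Ω a) * g * aeval x q₁ -
          (x - algebraMap κ Ω a) * aeval x p₁ := by linear_combination -e - e1
      refine (rre_const hW h4).not_lt ?_
      rw [e2]
      refine W.valuation.map_sub_lt ?_ ?_
      · rw [map_mul]
        exact mul_lt_one_of_lt_of_le h2 (rre_aeval hW hxW _)
      · rw [map_mul]
        exact mul_lt_one_of_lt_of_le h1 (rre_aeval hW hxW _)
    have h5 : x - algebraMap κ Ω a ≠ 0 := fun h =>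
      hx ((sub_eq_zero.1 h).symm ▸ isAlgebraic_algebraMap a)
    rw [h3, map_zero, sub_zero] at e1
    rw [natDegree_mul (X_sub_C_ne_zero a) hq, natDegree_X_sub_C] at hn
    exact ih p₁ q₁ hq (by omega) (mul_left_cancel₀ h5 (by linear_combination e + e1))

theorem rre_inf (hW : Triv κ W) {x : Ω} (h0 : x ≠ 0) (hx : W.valuation x⁻¹ < 1) (p : κ[X]) :
    ¬ W.valuation (1 - x * aeval x p) < 1 := by
  have h1 : 1 < W.valuation x := by
    rwa [map_inv₀, inv_lt_one₀ (zero_lt_iff.2 (by simpa using h0))] at hx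
  by_cases hp : p = 0
  · simp [hp]
  have h2 : 1 ≤ W.valuation (aeval x p) := by
    refine cv_poly_ind (Q := fun p => 1 ≤ W.valuation (aeval x p)) (fun c hc => ?_) (fun c => ?_)
      (fun p q h h' => ?_) hp
    · rw [aeval_C, rre_const hW hc]
    · rw [map_sub, aeval_X, aeval_C, W.valuation.map_sub_eq_of_lt_left
        (((W.valuation_le_one_iff _).2 (hW c)).trans_lt h1)]
      exact h1.le
    · rw [map_mul, map_mul]
      exact one_le_mul h h'
  have h3 : 1 < W.valuation (x * aeval x p) := by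
    rw [map_mul]
    exact h1.trans_le (le_mul_of_one_le_right' h2)
  rw [W.valuation.map_sub_eq_of_lt_right (by rwa [map_one])]
  exact h3.le.not_gt

end aux

theorem rre_val {Ω : Type*} [Field Ω] [Algebra κ Ω] {t : Ω} (ht : Transcendental κ t) :
    ∃ V : ValuationSubring Ω, Triv κ V ∧ V.valuation t < 1 := by
  have hm : t ∈ (aeval t : κ[X] →ₐ[κ] Ω).range.toSubring := ⟨Polynomial.X, aeval_X t⟩
  obtain ⟨W, h1, h2⟩ := Ideal.image_subset_nonunits_valuationSubring
    (A := (aeval t : κ[X] →ₐ[κ] Ω).range.toSubring) (Ideal.span {⟨t, hm⟩}) (by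
      rw [Ne, Ideal.span_singleton_eq_top, isUnit_iff_exists_inv]
      rintro ⟨⟨_, p, rfl⟩, e⟩
      have e1 : t * aeval t p = 1 := congrArg Subtype.val e
      have e2 := transcendental_iff.1 ht (Polynomial.X * p - 1) (by simp [e1])
      simpa using congrArg (eval 0) e2)
  exact ⟨W, fun c => h1 ⟨C c, aeval_C t c⟩,
    W.mem_nonunits_iff.1 (h2 ⟨_, Ideal.subset_span rfl, rfl⟩)⟩

theorem rre_trace (h : IsFF κ F 1) {x : F} (hx : Transcendental κ x) [Algebra.IsSeparable κ⟮x⟯ F]
    {t : κ⟮x⟯} (ht : t ≠ 0) {V : ValuationSubring (AlgebraicClosure F)} (hV : Triv κ V)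
    (htV : V.valuation (algebraMap F _ (t : F)) < 1) {y : F}
    (hy : y = 0 ∨ ∀ P : Place κ F, 0 < ord P (t : F) → 0 < ord P y) :
    V.valuation (algebraMap F _ (Algebra.trace κ⟮x⟯ F y : F)) < 1 := by
  have := cv_fin h hx
  have e : ∀ s : κ⟮x⟯, algebraMap F (AlgebraicClosure F) (s : F) = algebraMap κ⟮x⟯ _ s :=
    fun s => (IsScalarTower.algebraMap_apply κ⟮x⟯ F _ s).symm
  rw [e, trace_eq_sum_embeddings (AlgebraicClosure F)]
  refine V.valuation.map_sum_lt one_ne_zero fun σ _ => ?_
  have ht' : (t : F) ≠ 0 := fun h0 => ht (Subtype.ext h0)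
  have h1 : (V.comap (σ : F →+* AlgebraicClosure F)).valuation (t : F) < 1 := by
    rw [rre_comap]
    exact (congrArg V.valuation ((σ.commutes t).trans (e t).symm)).trans_lt htV
  have h2 : V.comap (σ : F →+* AlgebraicClosure F) ≠ ⊤ := fun h0 =>
    ((ValuationSubring.mem_nonunits_iff_or _).1
      ((ValuationSubring.mem_nonunits_iff _).2 h1)).resolve_left ht' (h0 ▸ trivial)
  have h3 : Triv κ (V.comap (σ : F →+* AlgebraicClosure F)) := fun c => by
    have e1 : σ (algebraMap κ F c) = algebraMap κ _ c := by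
      rw [IsScalarTower.algebraMap_apply κ κ⟮x⟯ F, σ.commutes, ← IsScalarTower.algebraMap_apply]
    exact ValuationSubring.mem_comap.2 (e1.symm ▸ hV c : σ (algebraMap κ F c) ∈ V)
  refine (rre_comap (σ : F →+* AlgebraicClosure F) y).1
    ((rr_lt_one_iff h ⟨_, h2, h3⟩ y).2 (hy.imp_right fun hy => hy _ ?_))
  exact ((rr_lt_one_iff h ⟨_, h2, h3⟩ t).1 h1).resolve_left ht'

theorem rre_fin (h : IsFF κ F 1) {x : F} (hx : Transcendental κ x) [Algebra.IsSeparable κ⟮x⟯ F]
    {f : F} (hf : f = 0 ∨ ∀ (P : Place κ F) (a : κ), 0 < ord P (x - algebraMap κ F a) →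
      0 < ord P (x - algebraMap κ F a) + ord P f) :
    ∃ p : κ[X], (Algebra.trace κ⟮x⟯ F f : F) = aeval x p := by
  have inj := (algebraMap F (AlgebraicClosure F)).injective
  have hx' : Transcendental κ (algebraMap F (AlgebraicClosure F) x) :=
    (transcendental_algebraMap_iff inj).2 hx
  obtain ⟨q, p, hq, e⟩ := cv_den (x := x) fun _ : Unit => Algebra.trace κ⟮x⟯ F f
  have e1 := congrArg (algebraMap F (AlgebraicClosure F)) (e ())
  rw [map_mul, ← aeval_algebraMap_apply, ← aeval_algebraMap_apply] at e1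
  refine (rre_poly hx' (fun a => ?_) _ _ q (fun h0 => hq (by rw [h0, map_zero])) rfl e1).imp
    fun r hr => inj (by rw [hr, aeval_algebraMap_apply])
  have h5 : x - algebraMap κ F a ≠ 0 := fun h =>
    hx ((sub_eq_zero.1 h).symm ▸ isAlgebraic_algebraMap a)
  have h6 : Transcendental κ (x - algebraMap κ F a) := by
    have h7 := hx.aeval (Polynomial.X - C a) (by simp) (by simp)
    rwa [_root_.map_sub, aeval_X, aeval_C] at h7
  obtain ⟨W, hW, h1⟩ := rre_val ((transcendental_algebraMap_iff inj).2 h6)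
  let t : κ⟮x⟯ := ⟨x - algebraMap κ F a,
    sub_mem (mem_adjoin_simple_self κ x) (IntermediateField.algebraMap_mem _ a)⟩
  have h2 := rre_trace h hx (t := t) (fun h0 => h5 (congrArg Subtype.val h0)) hW h1 (y := t • f) ?_
  · rw [map_smul, smul_eq_mul, IntermediateField.coe_mul, map_mul] at h2
    have e2 : algebraMap F (AlgebraicClosure F) (t : F) =
        algebraMap F _ x - algebraMap κ _ a := by
      rw [IsScalarTower.algebraMap_apply κ F (AlgebraicClosure F), ← map_sub]
    exact ⟨W, hW, e2 ▸ h1, e2 ▸ h2⟩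
  · by_cases h0 : f = 0
    · exact Or.inl (by rw [h0, smul_zero])
    · refine Or.inr fun P hP => ?_
      change 0 < ord P ((x - algebraMap κ F a) * f)
      rw [rr_ord_mul h P h5 h0]
      exact hf.resolve_left h0 P a hP

theorem rr_trace (h : IsFF κ F 1) {x : F} (hx : Transcendental κ x) [Algebra.IsSeparable κ⟮x⟯ F]
    {D : Dvs κ F} (h₁ : ∀ (P : Place κ F) (a : κ), 0 < ord P (x - algebraMap κ F a) →
      D P < ord P (x - algebraMap κ F a))
    (h₂ : ∀ P : Place κ F, x ∉ P.1 → D P ≤ 2 * ord P x) : NSp {P | x ∈ P.1} D ≠ ⊤ := by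
  intro hN
  have := cv_fin h hx
  have inj := (algebraMap F (AlgebraicClosure F)).injective
  have h0 : x ≠ 0 := fun e => hx (e ▸ isAlgebraic_zero)
  let s : κ⟮x⟯ := ⟨x, mem_adjoin_simple_self κ x⟩
  have hs : s ≠ 0 := fun e => h0 (congrArg Subtype.val e)
  obtain ⟨y, hy⟩ := Algebra.trace_surjective κ⟮x⟯ F s⁻¹
  obtain ⟨f₁, hf₁, f₂, hf₂, rfl⟩ := Submodule.mem_sup.1
    (show y ∈ MSp {P | x ∈ P.1} D ⊔ MSp {P | x ∈ P.1}ᶜ D from hN.ge trivial)
  rw [mem_MSp h] at hf₁ hf₂
  obtain ⟨p, hp⟩ := rre_fin h hx (f := f₁) (hf₁.imp_right fun hf P a hP => by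
    have h3 : x ∈ P.1 := by simpa using add_mem ((rr_mem_iff h P _).2 hP.le) (P.2.2 a)
    linarith [hf P h3, h₁ P a hP])
  have h6 : Transcendental κ x⁻¹ := fun e => hx (by simpa using e.inv)
  obtain ⟨W, hW, h1⟩ := rre_val ((transcendental_algebraMap_iff inj).2 h6)
  have h2 := rre_trace h hx (t := s⁻¹) (inv_ne_zero hs) hW h1 (y := s • f₂) ?_
  · have e : ((Algebra.trace κ⟮x⟯ F (s • f₂) : κ⟮x⟯) : F) = 1 - x * aeval x p := by
      rw [map_add, ← eq_sub_iff_add_eq'] at hy
      rw [map_smul, hy, smul_eq_mul, mul_sub, mul_inv_cancel₀ hs, ← hp]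
      rfl
    rw [e, map_sub, map_one, map_mul, ← aeval_algebraMap_apply] at h2
    rw [map_inv₀] at h1
    exact rre_inf hW ((_root_.map_ne_zero _).2 h0) h1 p h2
  · by_cases h3 : f₂ = 0
    · exact Or.inl (by rw [h3, smul_zero])
    · refine Or.inr fun P hP => ?_
      change 0 < ord P x⁻¹ at hP
      change 0 < ord P (x * f₂)
      rw [rr_ord_inv h] at hP
      have h4 : x ∉ P.1 := fun e => by linarith [(rr_mem_iff h P x).1 e]
      rw [rr_ord_mul h P h0 h3]
      linarith [hf₂.resolve_left h3 P h4, h₂ P h4]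

end P019
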