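import Vale.Agent.P019.Cv0
import Vale.Agent.P019.RRB
import Vale.Agent.P019.RRD
import Vale.Agent.P019.RRE

/-!
P019 CvRR: Riemann-Roch, Riemann-Hurwitz inequality (owner helper23; definitions are in CvD).
-/

namespace P019

open IntermediateField

variable {κ F : Type*} [Field κ] [Field F] [Algebra κ F] [IsAlgClosed κ]

/-- Riemann-Roch together with the Riemann-Hurwitz inequality for a separating `x`:
the sum of `e - 1` over any finite set of places where `x` is finite is at most
`2 g - 2 + 2 deg x`. -/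
theorem exists_isRR (h : IsFF κ F 1) {x : F} (hx : Transcendental κ x)
    [Algebra.IsSeparable κ⟮x⟯ F] :
    ∃ (g : ℕ) (W : Dvs κ F), IsRR g W ∧ ∀ (s : Finset (Place κ F)) (c : Place κ F → κ),
      (∀ P ∈ s, 0 < ord P (x - algebraMap κ F (c P))) →
      ∑ P ∈ s, (ord P (x - algebraMap κ F (c P)) - 1) ≤ 2 * g - 2 + 2 * (pdeg κ x : ℤ) := by
  classical
  obtain ⟨g, b, hR⟩ := rr_riemann h hx
  have hS : {P : Place κ F | x ∈ P.1}.Nonempty := by
    obtain ⟨P, hP⟩ := rr_exists_pole h (x := x⁻¹) (by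
      simpa only [Transcendental, IsAlgebraic.inv_iff] using hx)
    rw [rr_ord_inv h] at hP
    exact ⟨P, (rr_mem_iff h P x).2 (by omega)⟩
  have hS' : {P : Place κ F | x ∈ P.1}ᶜ.Nonempty := by
    obtain ⟨P, hP⟩ := rr_exists_pole h hx
    exact ⟨P, fun hm => absurd ((rr_mem_iff h P x).1 hm) (by omega)⟩
  obtain ⟨W, hW⟩ := rr_weil h hR hS hS'
  refine ⟨g, W, hW, fun s c hc => ?_⟩
  set D : Dvs κ F := ∑ P ∈ s, Finsupp.single P (ord P (x - algebraMap κ F (c P)) - 1) -
    2 • pdv κ x with hD
  have hDP : ∀ P, D P = (if P ∈ s then ord P (x - algebraMap κ F (c P)) - 1 else 0) -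
      2 * max (-ord P x) 0 := by
    intro P
    by_cases hP : P ∈ s <;> simp [hD, Finsupp.single_apply, pdv_apply h, hP]
  have hfin : ∀ (P : Place κ F) (a : κ), 0 < ord P (x - algebraMap κ F a) → x ∈ P.1 := by
    intro P a ha
    rw [← sub_add_cancel x (algebraMap κ F a)]
    exact P.1.add_mem _ _ ((rr_mem_iff h P _).2 ha.le) (P.2.2 a)
  have hN : NSp {P | x ∈ P.1} D ≠ ⊤ := by
    refine rr_trace h hx (fun P a ha => ?_) fun P hP => ?_
    · have h1 := (rr_mem_iff h P x).1 (hfin P a ha)
      rw [hDP]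
      split_ifs with hP
      · have e : c P = a := by
          by_contra hne
          have h2 := (rr_lt_one_iff h P _).2 (Or.inr ha)
          have h3 := (rr_lt_one_iff h P _).2 (Or.inr (hc P hP))
          have h4 := Valuation.map_sub_lt _ h2 h3
          rw [sub_sub_sub_cancel_left, ← map_sub, rr_lt_one_iff h, rr_ord_const h, map_eq_zero,
            sub_eq_zero] at h4
          exact h4.elim hne (lt_irrefl _)
        rw [e]
        omega
      · omega
    · have h1 : P ∉ s := fun hs => hP (hfin P _ (hc P hs))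
      rw [rr_mem_iff h] at hP
      rw [hDP, if_neg h1]
      omega
  obtain ⟨h1, h2⟩ := rr_codim h hR hS hS' D
  have h3 : Nontrivial (F ⧸ NSp {P | x ∈ P.1} D) := Submodule.Quotient.nontrivial_iff.2 hN
  have h4 := Module.finrank_pos (R := κ) (M := F ⧸ NSp {P | x ∈ P.1} D)
  have h5 := hW D
  have h6 : 0 ≤ ddeg (W - D) := by
    by_contra hn
    have := ldim_neg h _ (not_le.1 hn)
    omega
  rw [map_sub, (hW.deg h).1, hD, map_sub, map_sum, map_nsmul, ddeg_pdv h] at h6
  simp only [rr_ddeg_single, nsmul_eq_mul, Nat.cast_ofNat] at h6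
  omega

end P019
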