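import Vale.Agent.P019.CvRR
import Vale.Agent.P019.Z.Brg
import Vale.Agent.P019.Z.ZetaB

/-!
P019 CvZ: over a locally finite algebraically closed field there are exactly `ℓ ^ (2 g)`
unramified classes (notes/P019.md, part Z).
-/

namespace P019

variable {ℓ : ℕ} {κ F : Type*} [Field κ] [Field F] [Algebra κ F] [IsAlgClosed κ]

theorem cv_unr_card [Fact ℓ.Prime] (h : IsFF κ F 1) (hκ : LocFin κ) (hℓ : (ℓ : κ) ≠ 0)
    {g : ℕ} {W : Dvs κ F} (hRR : IsRR g W) :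
    (Unr ℓ κ F).Finite ∧ (Unr ℓ κ F).ncard = ℓ ^ (2 * g) := by
  obtain ⟨ψ₀, q₀, hψ₀, hq₀⟩ := Z.exists_frob (Fact.out : ℓ.Prime) h hκ hℓ
  obtain ⟨σ₀, hσ₀⟩ := Z.exists_act h hψ₀
  obtain ⟨P₀⟩ := Z.exists_place h
  obtain ⟨a, ha, h1⟩ := hσ₀.per h hψ₀ P₀
  obtain ⟨b, hb, h2⟩ := Z.sD_per (hσ₀.per h hψ₀) W
  have hψ := hψ₀.pow (Nat.mul_pos ha hb)
  have hσ := hσ₀.pow (a * b)
  have hP : (σ₀ ^ (a * b)) P₀ = P₀ := by
    rw [pow_mul]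
    exact Equiv.Perm.pow_apply_eq_self_of_apply_eq_self h1 b
  have hW : Z.sD (σ₀ ^ (a * b)) W = W := by
    rw [mul_comm, pow_mul]
    exact Z.sD_pow h2 a
  have hq := hq₀.pow_left (a * b)
  generalize ψ₀ ^ (a * b) = ψ, q₀ ^ (a * b) = q, σ₀ ^ (a * b) = σ at hψ hσ hP hW hq
  obtain ⟨τ, hτ⟩ := Z.exists_tau h hσ hP
  have hτ' : ∀ (m : ℕ) D, Z.pj P₀ (Z.sD (σ ^ m) D) = (τ ^ m) (Z.pj P₀ D) := fun m => by
    induction m with
    | zero => intro D; rw [pow_zero, pow_zero, Z.sD_one, Module.End.one_apply]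
    | succ m ih => intro D; rw [pow_succ', Z.sD_mul, hτ, ih, pow_succ', Module.End.mul_apply]
  obtain ⟨h3, h4⟩ := Z.zd_tors (Fact.out : ℓ.Prime) hq (fun m hm =>
    Z.zd_of_frob h (hψ.pow hm) (hσ.pow m) (hτ' m) hRR (Z.sD_pow hW m)) fun y => by
      obtain ⟨D, rfl, -⟩ := Z.exists_rep y 0
      obtain ⟨m, hm, h5⟩ := Z.sD_per (hσ.per h hψ) D
      exact ⟨m, hm, by rw [← hτ', h5]⟩
  rw [← h4]
  exact Z.unr_card h P₀ h3

end P019
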