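import Vale.Agent.P019.Sep

/-!
P019 Deep: infinitely many valuative characters with the same value at one element.
-/

namespace P019

open IntermediateField

variable {ℓ : ℕ} [Fact ℓ.Prime] {k F : Type*} [Field k] [Field F] [Algebra k F]

theorem deep_lt {O : ValuationSubring F} {c : k} (h : (O.comap (algebraMap k F)).valuation c < 1) :
    O.valuation (algebraMap k F c) < 1 := by
  refine lt_of_not_ge fun h1 => h.not_ge ?_
  have := (val_comap (algebraMap k F) O 1 c).2 (by simpa using h1)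
  simpa using this

theorem deep_pi {ω : ValuationSubring k} (h : LocFin (Res ω)) (hk : ¬ LocFin k) :
    ∃ π : k, π ≠ 0 ∧ ω.valuation π < 1 := by
  obtain ⟨a, ha, h1⟩ : ∃ a : k, a ≠ 0 ∧ ∀ n : ℕ, 0 < n → a ^ n ≠ 1 := by
    by_contra h2
    push Not at h2
    exact hk h2
  rcases lt_trichotomy (ω.valuation a) 1 with h2 | h2 | h2
  · exact ⟨a, ha, h2⟩
  · obtain ⟨n, hn, h3⟩ := h _ (resb_res_ne h2)
    refine ⟨a ^ n - 1, sub_ne_zero.2 (h1 n hn), ?_⟩
    rw [← res_eq_iff ω (pow_mem (resb_mem h2) n) ω.one_mem, res_pow ω (resb_mem h2), h3, res_one]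
  · refine ⟨a⁻¹, inv_ne_zero ha, ?_⟩
    rw [map_inv₀]
    exact inv_lt_one_of_one_lt₀ h2

omit [Field F] in
theorem deep_range (z : F) :
    Set.range (Sum.elim (fun _ : Fin (0 + 1) => z) fun i : Empty => (i.elim : F)) = {z} := by
  ext a
  simp [eq_comm]

theorem deep_indep {z : F} (hz : Transcendental k z) :
    AlgebraicIndependent k (Sum.elim (fun _ : Fin (0 + 1) => z) fun i : Empty => (i.elim : F)) := by
  have : Unique (Fin (0 + 1) ⊕ Empty) :=
    ⟨⟨Sum.inl 0⟩, fun a => by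
      rcases a with a | a
      · exact congrArg Sum.inl (Fin.fin_one_eq_zero a)
      · exact a.elim⟩
  rw [algebraicIndependent_singleton_iff (Sum.inl 0)]
  exact hz

variable [IsAlgClosed k]

theorem deep_key (ω : ValuationSubring k) {z : F} (hz : Transcendental k z)
    (hI : ∀ O : ValuationSubring F, O.comap (algebraMap k F) = ω → O.valuation z < 1 →
      IdxOK ℓ k⟮z⟯ O) {c : k} (hc : c ≠ 0) (hc1 : ω.valuation c < 1) :
    ∃ τ : X ℓ F, (∃ O : ValuationSubring F, O.comap (algebraMap k F) = ω ∧ τ ∈ Iv ℓ O) ∧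
      τ (cl ℓ z) = 1 ∧ τ (cl ℓ (z - algebraMap k F c)) = 0 ∧
      ∀ c' : k, ω.valuation (c' / c) < 1 → τ (cl ℓ (z - algebraMap k F c')) = 1 := by
  have hc' : algebraMap k F c ≠ 0 := (map_ne_zero _).2 hc
  have hz0 : z ≠ 0 := fun h => hz (h ▸ isAlgebraic_zero)
  have e : z / algebraMap k F c * algebraMap k F c = z := div_mul_cancel₀ _ hc'
  have hs : Transcendental k (z / algebraMap k F c) := fun h =>
    hz (e ▸ h.mul (isAlgebraic_algebraMap c))
  obtain ⟨O, Om, hle, h1, h2, ⟨h3, h4, h5, -⟩, -, h6, h7⟩ := exists_flag2 ω (deep_indep hs)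
  have h8 : O.valuation (z / algebraMap k F c) < 1 := h4 0
  have h9 : O.valuation (algebraMap k F c) < 1 := deep_lt (h1 ▸ hc1)
  have h10 : O.valuation z < 1 := by
    rw [← e, map_mul]
    exact mul_lt_one_of_lt_of_le h8 h9.le
  have ea : k⟮z / algebraMap k F c⟯ = k⟮z⟯ := by
    refine le_antisymm (adjoin_simple_le_iff.2 (div_mem (mem_adjoin_simple_self k z)
      (IntermediateField.algebraMap_mem _ c))) (adjoin_simple_le_iff.2 ?_)
    have := mul_mem (mem_adjoin_simple_self k (z / algebraMap k F c))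
      (IntermediateField.algebraMap_mem _ c)
    rwa [e] at this
  obtain ⟨τ, hτ, ht⟩ := exists_Iv_of_VInd
    (vInd_of_idx (ℓ := ℓ) h3 h5 (by rw [deep_range, ea]; exact hI O h1 h10)).1 fun _ => 1
  have ht1 : τ (cl ℓ z) = 1 := by
    have := ht 0
    rwa [cl_div hz0 hc', cl_algebraMap, sub_zero] at this
  refine ⟨τ, ⟨O, h1, hτ⟩, ht1, ?_, fun c' h => ?_⟩
  · rw [map_div₀, div_lt_one₀ (zero_lt_iff.2 ((map_ne_zero _).2 hc'))] at h8
    rw [Iv_val_eq hτ (O.valuation.map_sub_eq_of_lt_right h8), cl_algebraMap, map_zero]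
  · have hu : Om.valuation (z / algebraMap k F c) = 1 :=
      resb_unit (h6 none) (h7.ne_zero none)
    have h11 : Om.valuation (algebraMap k F (c' / c)) < 1 := deep_lt (h2 ▸ h)
    have h12 : Om.valuation (algebraMap k F c' / z) < 1 := by
      have e2 : algebraMap k F c' / z = algebraMap k F (c' / c) / (z / algebraMap k F c) := by
        rw [map_div₀]
        field_simp
      rwa [e2, map_div₀, hu, div_one]
    have h13 := val_lt_one_of_le hle h12
    rw [map_div₀, div_lt_one₀ (zero_lt_iff.2 ((map_ne_zero _).2 hz0))] at h13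
    rw [Iv_val_eq hτ (O.valuation.map_sub_eq_of_lt_left h13), ht1]

theorem deep (hℓ : (ℓ : k) ≠ 0) (hF : IsFF k F 1) (hk : ¬ LocFin k) :
    ∃ y : F, {τ : X ℓ F | τ (cl ℓ y) = 1 ∧ ∃ u : ValuationSubring F,
      τ ∈ Iv ℓ u ∧ u.valuation (ℓ : F) = 1}.Infinite := by
  classical
  obtain ⟨y, hy, -⟩ := id hF
  have hy0 : Transcendental k (y 0) := hy.transcendental 0
  have h := deep_indep hy0
  have := hF.finite h (by simp)
  obtain ⟨Δ, hΔ, h1⟩ := gm_idx hℓ h
  obtain ⟨c, -, hc⟩ := exists_eval_ne hΔ (fun _ => Set.univ) fun _ => Set.infinite_univ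
  obtain ⟨T, hT, h2⟩ := h1 c hc
  obtain ⟨ω, hω, hL⟩ := exists_omega (insert (ℓ : k) T) (by simpa [hℓ] using hT)
  obtain ⟨π, hπ, hπ1⟩ := deep_pi hL hk
  have hz : Transcendental k (y 0 - algebraMap k F (c 0)) := fun h =>
    hy0 (by simpa using h.add (isAlgebraic_algebraMap (c 0)))
  have ea : k⟮y 0 - algebraMap k F (c 0)⟯ = k⟮y 0⟯ := by
    have := adjoin_shift (t := fun _ : Fin (0 + 1) => y 0) (x := fun i : Empty => (i.elim : F))
      fun _ => c 0
    rwa [deep_range, deep_range] at this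
  have hI : ∀ O : ValuationSubring F, O.comap (algebraMap k F) = ω →
      O.valuation (y 0 - algebraMap k F (c 0)) < 1 →
      IdxOK ℓ k⟮y 0 - algebraMap k F (c 0)⟯ O := by
    intro O hO h3
    have := h2 O (fun a ha => (m2b_comap _ O a).1 (hO ▸ hω a (Finset.mem_insert_of_mem ha)))
      (fun i => by rwa [Fin.fin_one_eq_zero i]) ⟨fun i => i.elim, algebraicIndependent_empty_type⟩
    rwa [deep_range, ← ea] at this
  have hp : ∀ n : ℕ, ω.valuation (π ^ (n + 1)) < 1 := fun n => by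
    rw [map_pow]
    exact pow_lt_one₀ zero_le hπ1 n.succ_ne_zero
  choose τ h3 h4 h5 h6 using fun n : ℕ => deep_key ω hz hI (pow_ne_zero (n + 1) hπ) (hp n)
  refine ⟨y 0 - algebraMap k F (c 0), Set.infinite_of_injective_forall_mem (f := τ)
    (Function.Injective.of_lt_imp_ne fun m n hmn e => ?_) fun n => ⟨h4 n, ?_⟩⟩
  · obtain ⟨d, rfl⟩ := Nat.exists_eq_add_of_lt hmn
    have h7 := h6 m (π ^ (m + d + 1 + 1)) (by
      rw [show π ^ (m + d + 1 + 1) / π ^ (m + 1) = π ^ (d + 1) by field_simp; ring]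
      exact hp d)
    rw [e, h5] at h7
    exact zero_ne_one h7
  · obtain ⟨O, hO, h7⟩ := h3 n
    refine ⟨O, h7, ?_⟩
    have := (m2b_comap _ O _).1 (hO ▸ hω _ (Finset.mem_insert_self _ _))
    rwa [map_natCast] at this

end P019
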