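import Mathlib

/-!
P019, definitions.  Statement level: `V`, `cl`, `R`, `vmap`, `Perf`.
-/

namespace P019

open scoped TensorProduct

/-- `V ℓ F = Fˣ / (Fˣ)^ℓ`, written additively; a `ZMod ℓ`-module. -/
abbrev V (ℓ : ℕ) (F : Type*) [Field F] : Type _ := ModN (Additive Fˣ) ℓ

open Classical in
/-- The class `[a]` in `V ℓ F` of a nonzero `a : F` (junk value `0` at `a = 0`). -/
noncomputable def cl (ℓ : ℕ) {F : Type*} [Field F] (a : F) : V ℓ F :=
  if h : a = 0 then 0 else ModN.mkQ ℓ (Additive.ofMul (Units.mk0 a h))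

/-- The span of the Steinberg tensors `[x] ⊗ [1 - x]`, `x ≠ 0, 1`. -/
def R (ℓ : ℕ) (F : Type*) [Field F] : Submodule (ZMod ℓ) (V ℓ F ⊗[ZMod ℓ] V ℓ F) :=
  Submodule.span (ZMod ℓ) {z | ∃ x : F, x ≠ 0 ∧ x ≠ 1 ∧ z = cl ℓ x ⊗ₜ[ZMod ℓ] cl ℓ (1 - x)}

/-- The map `[x] ↦ [f x]` induced on `V` by a homomorphism of fields. -/
noncomputable def vmap (ℓ : ℕ) {F E : Type*} [Field F] [Field E] (f : F →+* E) :
    V ℓ F →ₗ[ZMod ℓ] V ℓ E :=
  ModN.liftEquiv'.symm
    ⟨(ModN.mkQ ℓ).comp (MonoidHom.toAdditive (Units.map (f : F →* E))), fun g => by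
      rw [← Nat.cast_smul_eq_nsmul (ZMod ℓ), ZMod.natCast_self, zero_smul]⟩

/-- The perfect closure `K^i` of `K` (inside an algebraic closure; it is `K` in characteristic
zero). -/
abbrev Perf (K : Type*) [Field K] : Type _ := perfectClosure K (AlgebraicClosure K)

end P019
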