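import Vale.Agent.P019.Loc3

/-!
P019 Loc4A: incomparable valuation rings, comparability, `NC`, `InCl` (plan in `Loc4`).
-/

namespace P019

variable {ℓ : ℕ} {F : Type*} [Field F]

theorem l4a_sup {O₁ O₂ : ValuationSubring F} {t₀ : F} (h₁ : O₁.valuation t₀ < 1)
    (h₂ : 1 < O₂.valuation t₀) {y : F} (hy : y ∈ O₁ ⊔ O₂) :
    ∃ t, O₁.valuation t < 1 ∧ 1 < O₂.valuation t ∧ y * t ∈ O₁ := by
  have hm : ∀ t, O₁.valuation t < 1 → t ∈ O₁ := fun t ht => (O₁.valuation_le_one_iff t).1 ht.le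
  have hS : ∀ t t', O₁.valuation t < 1 → 1 < O₂.valuation t → O₁.valuation t' < 1 →
      1 < O₂.valuation t' → O₁.valuation (t * t') < 1 ∧ 1 < O₂.valuation (t * t') := by
    intro t t' a b c d
    rw [map_mul, map_mul]
    exact ⟨mul_lt_one' a c, one_lt_mul'' b d⟩
  let A : Subring F :=
    { carrier := {y | ∃ t, O₁.valuation t < 1 ∧ 1 < O₂.valuation t ∧ y * t ∈ O₁}
      one_mem' := ⟨t₀, h₁, h₂, by rw [one_mul]; exact hm _ h₁⟩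
      zero_mem' := ⟨t₀, h₁, h₂, by rw [zero_mul]; exact O₁.zero_mem⟩
      mul_mem' := by
        rintro a b ⟨t, c1, c2, c3⟩ ⟨t', d1, d2, d3⟩
        refine ⟨t * t', (hS t t' c1 c2 d1 d2).1, (hS t t' c1 c2 d1 d2).2, ?_⟩
        rw [mul_mul_mul_comm]
        exact O₁.mul_mem _ _ c3 d3
      add_mem' := by
        rintro a b ⟨t, c1, c2, c3⟩ ⟨t', d1, d2, d3⟩
        refine ⟨t * t', (hS t t' c1 c2 d1 d2).1, (hS t t' c1 c2 d1 d2).2, ?_⟩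
        rw [show (a + b) * (t * t') = a * t * t' + b * t' * t by ring]
        exact O₁.add_mem _ _ (O₁.mul_mem _ _ c3 (hm _ d1)) (O₁.mul_mem _ _ d3 (hm _ c1))
      neg_mem' := by
        rintro a ⟨t, c1, c2, c3⟩
        refine ⟨t, c1, c2, ?_⟩
        rw [neg_mul]
        exact O₁.neg_mem _ c3 }
  have a1 : O₁.toSubring ≤ A := fun y hy => ⟨t₀, h₁, h₂, O₁.mul_mem _ _ hy (hm _ h₁)⟩
  have a2 : O₂.toSubring ≤ A := by
    intro y hy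
    by_cases h : y ∈ O₁
    · exact a1 h
    have h0 : y ≠ 0 := by
      rintro rfl
      exact h O₁.zero_mem
    have h3 : 1 < O₁.valuation y := lt_of_not_ge fun h' => h ((O₁.valuation_le_one_iff y).1 h')
    have h4 : O₂.valuation y ≤ 1 := (O₂.valuation_le_one_iff y).2 hy
    have h5 : 0 < O₂.valuation y := zero_lt_iff.2 ((map_ne_zero _).2 h0)
    refine ⟨t₀ / y, ?_, ?_, ?_⟩
    · rw [map_div₀, div_lt_one₀ (zero_lt_one.trans h3)]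
      exact h₁.trans h3
    · rw [map_div₀, one_lt_div₀ h5]
      exact h4.trans_lt h₂
    · rw [mul_div_cancel₀ _ h0]
      exact hm _ h₁
  exact (sup_le a1 a2 : O₁.toSubring ⊔ O₂.toSubring ≤ A) hy

theorem l4a_prin {O : ValuationSubring F} {p q : F} (hp : O.valuation p < 1)
    (hq : O.valuation q < 1) : 1 + q ≠ 0 ∧ O.valuation ((1 + p) / (1 + q) - 1) < 1 := by
  have h1 : O.valuation (1 + q) = 1 := O.valuation.map_one_add_of_lt hq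
  have h0 : 1 + q ≠ 0 := by
    intro h
    rw [h, map_zero] at h1
    exact zero_ne_one h1
  refine ⟨h0, ?_⟩
  rw [show (1 + p) / (1 + q) - 1 = (p - q) / (1 + q) by field_simp; ring, map_div₀, h1, div_one]
  exact O.valuation.map_sub_lt hp hq

theorem exists_join {O₁ O₂ : ValuationSubring F} (h₁ : ¬ O₁ ≤ O₂) (h₂ : ¬ O₂ ≤ O₁) :
    ∃ O₃ : ValuationSubring F, O₁ ≤ O₃ ∧ O₂ ≤ O₃ ∧ ∀ x, O₃.valuation x = 1 →
      ∃ a b, O₁.valuation (a - 1) < 1 ∧ O₂.valuation (b - 1) < 1 ∧ x = a * b := by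
  obtain ⟨a, ha1, ha2⟩ := SetLike.not_le_iff_exists.1 h₁
  obtain ⟨b, hb1, hb2⟩ := SetLike.not_le_iff_exists.1 h₂
  have key : ∀ {O O' : ValuationSubring F} {a b : F}, a ∈ O → a ∉ O' → b ∈ O' → b ∉ O →
      O.valuation (a / b) < 1 ∧ 1 < O'.valuation (a / b) := by
    intro O O' a b ha1 ha2 hb1 hb2
    have h0 : b ≠ 0 := by
      rintro rfl
      exact hb2 O.zero_mem
    have h3 : 1 < O.valuation b := lt_of_not_ge fun h' => hb2 ((O.valuation_le_one_iff b).1 h')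
    have h4 : 1 < O'.valuation a := lt_of_not_ge fun h' => ha2 ((O'.valuation_le_one_iff a).1 h')
    rw [map_div₀, map_div₀, div_lt_one₀ (zero_lt_one.trans h3),
      one_lt_div₀ (zero_lt_iff.2 ((map_ne_zero _).2 h0))]
    exact ⟨((O.valuation_le_one_iff a).2 ha1).trans_lt h3,
      ((O'.valuation_le_one_iff b).2 hb1).trans_lt h4⟩
  refine ⟨O₁ ⊔ O₂, le_sup_left, le_sup_right, fun x hx => ?_⟩
  have hx0 : x ≠ 0 := by
    rintro rfl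
    rw [map_zero] at hx
    exact zero_ne_one hx
  have hx1 : x ∈ O₁ ⊔ O₂ := (ValuationSubring.valuation_le_one_iff _ x).1 hx.le
  have hx2 : x⁻¹ ∈ O₂ ⊔ O₁ := by
    rw [sup_comm, ← ValuationSubring.valuation_le_one_iff, map_inv₀, hx, inv_one]
  obtain ⟨t, c1, c2, c3⟩ := l4a_sup (key ha1 ha2 hb1 hb2).1 (key ha1 ha2 hb1 hb2).2 hx1
  obtain ⟨s, d1, d2, d3⟩ := l4a_sup (key hb1 hb2 ha1 ha2).1 (key hb1 hb2 ha1 ha2).2 hx2
  have ht0 : t ≠ 0 := by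
    rintro rfl
    simp at c2
  have hs0 : s ≠ 0 := by
    rintro rfl
    simp at d2
  have c4 : O₂.valuation t⁻¹ < 1 := by
    rw [map_inv₀]
    exact inv_lt_one_of_one_lt₀ c2
  have d4 : O₁.valuation s⁻¹ < 1 := by
    rw [map_inv₀]
    exact inv_lt_one_of_one_lt₀ d2
  have e1 : O₁.valuation (t * s⁻¹) < 1 := by
    rw [map_mul]
    exact mul_lt_one' c1 d4
  have e2 : O₁.valuation (x * t * s⁻¹) < 1 := by
    rw [map_mul]
    exact (mul_le_of_le_one_left' ((O₁.valuation_le_one_iff _).2 c3)).trans_lt d4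
  have e3 : O₂.valuation (s * t⁻¹) < 1 := by
    rw [map_mul]
    exact mul_lt_one' d1 c4
  have e4 : O₂.valuation (x⁻¹ * s * t⁻¹) < 1 := by
    rw [map_mul]
    exact (mul_le_of_le_one_left' ((O₂.valuation_le_one_iff _).2 d3)).trans_lt c4
  obtain ⟨f1, f2⟩ := l4a_prin e2 e1
  obtain ⟨g1, g2⟩ := l4a_prin e3 e4
  refine ⟨_, _, f2, g2, ?_⟩
  rw [div_mul_div_comm, eq_div_iff (mul_ne_zero f1 g1)]
  field_simp
  ring

theorem exists_Iv_of_Dv {O₁ O₂ : ValuationSubring F} (h₁ : ¬ O₁ ≤ O₂) (h₂ : ¬ O₂ ≤ O₁) :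
    ∃ O₃ : ValuationSubring F, O₁ ≤ O₃ ∧ O₂ ≤ O₃ ∧
      ∀ τ : X ℓ F, τ ∈ Dv ℓ O₁ → τ ∈ Dv ℓ O₂ → τ ∈ Iv ℓ O₃ := by
  obtain ⟨O₃, h3, h4, h5⟩ := exists_join h₁ h₂
  refine ⟨O₃, h3, h4, fun τ t1 t2 => (mem_Iv_iff _ _).2 fun x hx => ?_⟩
  obtain ⟨a, b, ha, hb, rfl⟩ := h5 x hx
  have h0 : a * b ≠ 0 := by
    intro h
    rw [h, map_zero] at hx
    exact zero_ne_one hx
  rw [cl_mul (left_ne_zero_of_mul h0) (right_ne_zero_of_mul h0), map_add,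
    (mem_Dv_iff _ _).1 t1 a ha, (mem_Dv_iff _ _).1 t2 b hb, add_zero]

theorem IsCanon.comparable {σ : X ℓ F} {O O₂ : ValuationSubring F} (h : IsCanon σ O)
    (h₂ : σ ∈ Dv ℓ O₂) : O ≤ O₂ ∨ O₂ ≤ O := by
  by_contra hn
  rw [not_or] at hn
  obtain ⟨O₃, -, h4, h5⟩ := exists_Iv_of_Dv (ℓ := ℓ) hn.1 hn.2
  exact hn.2 (h4.trans (h.2 O₃ (h5 σ (Iv_le_Dv O h.1) h₂)))

variable [Fact ℓ.Prime]

theorem l4a_back {σ τ ρ : X ℓ F} {a b : ZMod ℓ} (hb : b ≠ 0) (h : CP σ (a • τ + b • ρ))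
    (h' : CP σ τ) : CP σ ρ := by
  have h1 := (h.add (h'.smul (-a))).smul b⁻¹
  have e : a • τ + b • ρ + -a • τ = b • ρ := by module
  rwa [e, inv_smul_smul₀ hb] at h1

theorem NC.valuative (k : Type*) [Field k] [Algebra k F] [IsAlgClosed k] {τ : X ℓ F}
    (h : NC τ) : Valuative τ := by
  by_contra hτ
  have key : ∀ ρ : X ℓ F, CP τ ρ → ∃ (a b : ZMod ℓ) (u : ValuationSubring F), b ≠ 0 ∧
      a • τ + b • ρ ∈ Iv ℓ u ∧ CP (a • τ + b • ρ) τ ∧ τ ∈ Dv ℓ u := by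
    intro ρ hρ
    obtain ⟨a, b, hab, hv⟩ := exists_valuative_comb k hρ
    have hb : b ≠ 0 := by
      rintro rfl
      obtain ⟨O, hO⟩ := hv
      rw [zero_smul, add_zero] at hO
      exact hτ ⟨O, (Submodule.smul_mem_iff _ (hab.resolve_right fun h => h rfl)).1 hO⟩
    obtain ⟨u, hu⟩ := hv.exists_canon k
    have hc : CP (a • τ + b • ρ) τ := (((CP_refl τ).smul a).add (hρ.smul b)).symm
    exact ⟨a, b, u, hb, hu.1, hc, hu.mem_Dv k hc⟩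
  obtain ⟨ρ₁, ρ₂, h1, h2, h3⟩ := h
  obtain ⟨a₁, b₁, u₁, p1, p2, p3, p4⟩ := key ρ₁ h1
  obtain ⟨a₂, b₂, u₂, q1, q2, q3, q4⟩ := key ρ₂ h2
  have hn : ¬ CP (a₁ • τ + b₁ • ρ₁) (a₂ • τ + b₂ • ρ₂) := fun hc =>
    h3 (l4a_back p1 (l4a_back q1 hc p3).symm h2.symm).symm
  by_cases c1 : u₁ ≤ u₂
  · exact hn (CP_of_Iv_Dv k p2 (Iv_le_Dv _ (Iv_anti c1 q2)))
  by_cases c2 : u₂ ≤ u₁
  · exact hn (CP_of_Iv_Dv k q2 (Iv_le_Dv _ (Iv_anti c2 p2))).symm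
  obtain ⟨O₃, -, -, h5⟩ := exists_Iv_of_Dv (ℓ := ℓ) c1 c2
  exact hτ ⟨O₃, h5 τ p4 q4⟩

/-- the conditions of `valuative_iff` involve finitely many values -/
theorem InCl.valuative (k : Type*) [Field k] [Algebra k F] [IsAlgClosed k] {τ : X ℓ F}
    (h : InCl τ) : Valuative τ := by
  classical
  refine (valuative_iff k τ).2 ⟨fun x => ?_, fun x y => ?_⟩
  · obtain ⟨τ', h1, h2⟩ := h {cl ℓ x, cl ℓ (1 + x)}
    rw [← h2 (cl ℓ x) (by simp), ← h2 (cl ℓ (1 + x)) (by simp)]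
    exact ((valuative_iff k τ').1 (h1.valuative k)).1 x
  · obtain ⟨τ', h1, h2⟩ :=
      h {cl ℓ x, cl ℓ y, cl ℓ (1 + x), cl ℓ (1 + y), cl ℓ (1 + x * (1 + y))}
    rw [← h2 (cl ℓ x) (by simp), ← h2 (cl ℓ y) (by simp), ← h2 (cl ℓ (1 + x)) (by simp),
      ← h2 (cl ℓ (1 + y)) (by simp), ← h2 (cl ℓ (1 + x * (1 + y))) (by simp)]
    exact ((valuative_iff k τ').1 (h1.valuative k)).2 x y

end P019
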