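import Vale.Agent.P019.FamA

/-!
P019 Fam: the transported family on `L`, and the transport of flats.
`fam_sep`: `famK`, `transport_ff` for `O i` and `Om i`; the limit `w` of the `O' i` has
`N_w ≤ Θ H_B` (`VLim.lt_one`, `fam_exact`), so `w = ⊤` (`triv_lim`); eventually `ℓ` is a unit;
`pt_transport`, `fam_unr`, `fam_vis`, `bound` (a class outside `Θ H_B` gives a non-constant
element; `H_B ≠ ⊤` by `le_of_Hs_le`).  `fam`: extend `t` by `x`, replace `K` by the separable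
closure `K'` of `k(t,x)` (`compat_of_pi`, `Compat.trans`; `vmap` maps `H` of `acl t` in `K'` onto
`H_B`).
`weak_step`: `A ≤ A₁` flat of dimension `a + 1`, `A₁'` from `Strong`.  For each flat `B ⊇ A` of
dimension `r + 1` take `fam` for a basis of `B` extending a basis of `A`.  Fix `B₀ ⊉ A₁`
(`le_of_Hs_le`, `flat_inter`).  `key` on the field `A₁'` with the rings of `B₀` restricted
(`VInd.res`), `H` = preimage of `Θ H_A`, and `(M, κ, φ)` of `B₀` or of another `B ⊉ A₁`; also with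
rings and `φ` both of `B`.  All resulting flats agree (`Flat.eq_of_le`), call it `A'`
(`Flat.lift`); `z ∈ A'` has `φ_B z ∈ κ_B`, so `[z] ∈ Θ H_B`, for all `B ⊇ A`; `flat_inter`.
-/

namespace P019

open IntermediateField

universe u v

variable {ℓ : ℕ} [Fact ℓ.Prime] {k l : Type*} {K : Type u} {L : Type v} [Field k] [Field K]
  [Algebra k K] [IsAlgClosed k] [Field l] [Field L] [Algebra l L] [IsAlgClosed l]

variable (k l) in
def Weak (Θ : V ℓ K ≃ₗ[ZMod ℓ] V ℓ L) (a : ℕ) : Prop :=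
  ∀ A : IntermediateField k K, Flat A a → ∃ A' : IntermediateField l L, Flat A' a ∧
    Hs ℓ (A' : Set L) ≤ (Hs ℓ (A : Set K)).map Θ.toLinearMap

variable (k l) in
def Strong (Θ : V ℓ K ≃ₗ[ZMod ℓ] V ℓ L) (a : ℕ) : Prop :=
  ∀ A : IntermediateField k K, Flat A a → ∃ A' : IntermediateField l L, Flat A' a ∧
    (Hs ℓ (A : Set K)).map Θ.toLinearMap = Hs ℓ (A' : Set L)

omit [IsAlgClosed k] in
theorem fs_basis {d r a : ℕ} (hK : IsFF k K d) {A B : IntermediateField k K} (hA : Flat A a)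
    (hB : Flat B r) (hAB : A ≤ B) : ∃ (t : Fin r → K) (e : Fin a → Fin r),
      AlgebraicIndependent k t ∧ B = acl k (Set.range t) ∧ Function.Injective e ∧
        ∀ j, t (e j) ∈ A := by
  obtain ⟨y, hy, hm⟩ := hA.exists_basis
  have hB' := hB.isFF hK
  have hy' : AlgebraicIndependent k fun j => (⟨y j, hAB (hm j)⟩ : B) :=
    AlgebraicIndependent.of_comp B.val hy
  have hle := hB'.card_le hy'
  rw [Fintype.card_fin] at hle
  obtain ⟨s, rfl⟩ := Nat.exists_eq_add_of_le hle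
  obtain ⟨z, hz⟩ := hB'.extend hy' (Fintype.card_fin a)
  have ht := (hz.map' (f := B.val) Subtype.val_injective).comp _
    (finSumFinEquiv (m := a) (n := s)).symm.injective
  refine ⟨_, fun j => finSumFinEquiv (Sum.inl j), ht, ?_,
    finSumFinEquiv.injective.comp Sum.inl_injective, fun j => ?_⟩
  · exact Flat.eq_acl (by rwa [Fintype.card_fin]) ht fun i => Subtype.property _
  · simp only [Function.comp_apply, Equiv.symm_apply_apply, Sum.elim_inl]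
    exact hm j

omit [Fact ℓ.Prime] [IsAlgClosed l] in
theorem fs_cst {ι : Type*} (𝒰 : Ultrafilter ι) (O : ι → ValuationSubring L)
    (E : IntermediateField l L) (z : E) :
    Cst l 𝒰 (fun i => (O i).comap (algebraMap E L)) z ↔ Cst l 𝒰 O (z : L) := by
  refine Filter.eventually_congr (Filter.Eventually.of_forall fun i => exists_congr fun c => ?_)
  rw [gb_lt, map_sub]
  rfl

omit [IsAlgClosed l] in
theorem fs_root {M : Type*} [Field M] {κ : Subfield M} [IsAlgClosed κ] {w : M} (hw : w ∈ κ) :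
    ∃ g : M, g ^ ℓ = w := by
  obtain ⟨g, hg⟩ := IsAlgClosed.exists_pow_nat_eq (⟨w, hw⟩ : κ) (Fact.out : ℓ.Prime).pos
  exact ⟨g, congrArg Subtype.val hg⟩

theorem fs_data (hk : (ℓ : k) ≠ 0) (hl : (ℓ : l) ≠ 0) {r : ℕ} (hK : IsFF k K (r + 2))
    (hL : IsFF l L (r + 2)) {Θ : V ℓ K ≃ₗ[ZMod ℓ] V ℓ L} (hΘ : Compat Θ) {a : ℕ}
    {A A₁ B : IntermediateField k K} {E : IntermediateField l L} (hA : Flat A a)
    (hB : Flat B (r + 1)) (hAB : A ≤ B) (h₁ : A ≤ A₁) (h₂ : ¬ A₁ ≤ B)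
    (hE : (Hs ℓ (A₁ : Set K)).map Θ.toLinearMap = Hs ℓ (E : Set L)) :
    ∃ (ι : Type u) (𝒰 : Ultrafilter ι) (O : ι → ValuationSubring E) (M : Type (max u v))
      (_ : Field M) (κ : Subfield M) (φ : E →+* M), VLim (𝒰 : Filter ι) O ⊤ ∧
      (∀ᶠ i in (𝒰 : Filter ι), ∃ b : Fin a → V ℓ E, (∀ j, b j ∈
        ((Hs ℓ (A : Set K)).map Θ.toLinearMap).comap (vmap ℓ (algebraMap E L))) ∧
          VInd ℓ (O i) b) ∧
      IsAlgClosed κ ∧ IsFF κ M 1 ∧ (∀ z, φ z ∈ κ ↔ Cst l 𝒰 O z) ∧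
      (∀ c : l, φ (algebraMap l E c) ∈ κ) ∧ (∃ y, φ y ∉ κ) ∧
      (∀ b : E, cl ℓ b ∈ ((Hs ℓ (A : Set K)).map Θ.toLinearMap).comap (vmap ℓ (algebraMap E L)) →
        ∃ g : M, g ^ ℓ = φ b) ∧
      ∀ b : E, φ b ∈ κ → cl ℓ (b : L) ∈ (Hs ℓ (B : Set K)).map Θ.toLinearMap := by
  obtain ⟨t, e, ht, hBt, he, hte⟩ := fs_basis hK hA hB hAB
  obtain ⟨ι, 𝒰, O, M, _, κ, φ, hlim, hv, hκ, hM, hc, hp⟩ := fam hk hl hK hL hΘ ht
  rw [← hBt] at hp
  have hmem : ∀ v ∈ Hs ℓ (E : Set L), ∃ y : E, cl ℓ (y : L) = v := fun v hv => by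
    obtain ⟨y, hy, -, rfl⟩ :=
      (mem_Hs_iff (s := (E : Set L)) (one_mem E) (fun _ ha _ hb => mul_mem ha hb) v).1 hv
    exact ⟨⟨y, hy⟩, rfl⟩
  refine ⟨ι, 𝒰, fun i => (O i).comap (algebraMap E L), M, inferInstance, κ,
    φ.comp (algebraMap E L), fun x => ?_, Filter.Eventually.of_forall fun i => ?_, hκ, hM,
    fun z => (hc z).trans (fs_cst 𝒰 O E z).symm, fun c => ?_, ?_, fun b hb => ?_, fun b hb => ?_⟩
  · exact ⟨fun _ => (hlim x).1 (ValuationSubring.mem_top _), fun _ => ValuationSubring.mem_top _⟩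
  · obtain ⟨c, hc'⟩ := hv i
    have hin : ∀ j, Θ (cl ℓ (t (e j) - algebraMap k K (c (e j)))) ∈
        (Hs ℓ (A : Set K)).map Θ.toLinearMap := fun j =>
      Submodule.mem_map_of_mem (cl_mem_Hs (sub_mem (hte j) (A.algebraMap_mem _)))
    choose y hy using fun j => hmem _ (hE ▸ Submodule.map_mono (Hs_mono h₁) (hin j))
    have hy' : ∀ j, vmap ℓ (algebraMap E L) (cl ℓ (y j)) =
        Θ (cl ℓ (t (e j) - algebraMap k K (c (e j)))) := fun j => (vmap_cl _ _).trans (hy j)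
    refine ⟨fun j => cl ℓ (y j), fun j => ?_, VInd.res _ ?_⟩
    · rw [Submodule.mem_comap, hy']
      exact hin j
    · simp only [hy']
      exact LinearIndependent.comp hc' e he
  · refine (hc _).2 (((hlim (algebraMap l L c)).1 (ValuationSubring.mem_top _)).mono
      fun i hi => ⟨c, hi, ?_⟩)
    rw [show algebraMap E L (algebraMap l E c) = algebraMap l L c from rfl, sub_self, map_zero]
    exact zero_lt_one
  · obtain ⟨v, hv1, hv2⟩ := SetLike.not_le_iff_exists.1 (mt (le_of_Hs_le hk hK hB) h₂)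
    obtain ⟨y, hy⟩ := hmem (Θ v) (hE ▸ Submodule.mem_map_of_mem hv1)
    refine ⟨y, fun hh => hv2 ?_⟩
    obtain ⟨w, hw, hw'⟩ := (hp y).1 (fs_root hh)
    rwa [← Θ.injective (hw'.trans hy)]
  · rw [Submodule.mem_comap, vmap_cl] at hb
    exact (hp b).2 (Submodule.map_mono (Hs_mono hAB) hb)
  · exact (hp b).1 (fs_root hb)

theorem weak_step (hk : (ℓ : k) ≠ 0) (hl : (ℓ : l) ≠ 0) {r : ℕ} (hK : IsFF k K (r + 2))
    (hL : IsFF l L (r + 2)) {Θ : V ℓ K ≃ₗ[ZMod ℓ] V ℓ L} (hΘ : Compat Θ) {a : ℕ}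
    (ha : a ≤ r + 1) (hs : Strong k l Θ (a + 1)) : Weak k l Θ a := by
  intro A hA
  obtain ⟨y, hy, hm⟩ := hA.exists_basis
  obtain ⟨x, -, hx⟩ := SetLike.not_le_iff_exists.1
    (mt top_le_iff.1 (hA.ne_top hK (by omega)))
  have hA₁ := flat_acl (hA.indep_option hy hm hx)
  rw [Fintype.card_option, Fintype.card_fin] at hA₁
  have hxA : x ∈ acl k (Set.range fun o : Option (Fin a) => o.elim x y) :=
    subset_acl _ ⟨none, rfl⟩
  have h₁ : A ≤ acl k (Set.range fun o : Option (Fin a) => o.elim x y) := by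
    rw [Flat.eq_acl (A := A) (by rwa [Fintype.card_fin]) hy hm]
    exact acl_le_of_flat hA₁ (by rintro _ ⟨j, rfl⟩; exact subset_acl _ ⟨some j, rfl⟩)
  generalize acl k (Set.range fun o : Option (Fin a) => o.elim x y) = A₁ at hA₁ hxA h₁
  obtain ⟨E, hEf, hE⟩ := hs A₁ hA₁
  have hEF := hEf.isFF hL
  obtain ⟨v, hv1, hv2⟩ := SetLike.not_le_iff_exists.1
    (mt (le_of_Hs_le hk hK hA (A := A₁)) fun h => hx (h hxA))
  obtain ⟨f, -, rfl⟩ := cl_surj v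
  obtain ⟨B₀, hAB₀, hB₀, hf₀⟩ := flat_inter hk hK ha hA hv2
  obtain ⟨ι₀, 𝒰₀, O₀, M₀, _, κ₀, φ₀, a1, a2, a3, a4, a5, a6, a7, a8, -⟩ :=
    fs_data hk hl hK hL hΘ hA hB₀ hAB₀ h₁ (fun h => hf₀ (Hs_mono h hv1)) hE
  have ax : ∃ x, ¬ Cst l 𝒰₀ O₀ x := a7.imp fun y hy => mt (a5 y).2 hy
  obtain ⟨C, hC, hC', -⟩ := key hl hEF a1 _ a2 ax κ₀ a4 φ₀ a6 a7 a8
  refine ⟨C.map E.val, hEf.lift hC, Submodule.span_le.2 ?_⟩
  rintro _ ⟨_, ⟨z, hz, rfl⟩, rfl⟩
  obtain ⟨w, hw⟩ := Θ.surjective (cl ℓ (z : L))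
  obtain ⟨g, -, rfl⟩ := cl_surj w
  refine ⟨cl ℓ g, ?_, hw⟩
  by_contra hg
  obtain ⟨B, hAB, hB, hgB⟩ := flat_inter hk hK ha hA hg
  have hz' : cl ℓ (z : L) ∈ (Hs ℓ (B : Set K)).map Θ.toLinearMap := by
    by_cases h₂ : A₁ ≤ B
    · exact Submodule.map_mono (Hs_mono h₂) (hE ▸ cl_mem_Hs z.2)
    obtain ⟨ι, 𝒰, O, M, _, κ, φ, b1, b2, b3, b4, b5, b6, b7, b8, b9⟩ :=
      fs_data hk hl hK hL hΘ hA hB hAB h₁ h₂ hE
    obtain ⟨C₁, hC₁, hC₁', hC₁''⟩ := key hl hEF a1 _ a2 ax κ b4 φ b6 b7 b8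
    obtain ⟨C₂, hC₂, hC₂', -⟩ :=
      key hl hEF b1 _ b2 (b7.imp fun y hy => mt (b5 y).2 hy) κ b4 φ b6 b7 b8
    have he : C₂ = C₁ := hC₂.eq_of_le hC₁ fun u hu => hC₁'' u ((b5 u).2 ((hC₂' u).1 hu))
    exact b9 z ((b5 z).2 ((hC₂' z).1 (he ▸ (hC₁' z).2 ((hC' z).1 hz))))
  obtain ⟨u, hu, hu'⟩ := hz'
  exact hgB (Θ.injective (hu'.trans hw.symm) ▸ hu)

theorem strong_of_weak (hk : (ℓ : k) ≠ 0) {d : ℕ} (hK : IsFF k K d)
    {Θ : V ℓ K ≃ₗ[ZMod ℓ] V ℓ L} {a : ℕ} (h₁ : Weak k l Θ a) (h₂ : Weak l k Θ.symm a) :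
    Strong k l Θ a := by
  intro A hA
  obtain ⟨A', hA', h'⟩ := h₁ A hA
  obtain ⟨A'', hA'', h''⟩ := h₂ A' hA'
  have he : A'' = A := hA''.eq_of_le hA (le_of_Hs_le hk hK hA fun v hv => by
    obtain ⟨w, hw, rfl⟩ := h'' hv
    obtain ⟨u, hu, rfl⟩ := h' hw
    exact (Θ.symm_apply_apply u).symm ▸ hu)
  refine ⟨A', hA', le_antisymm ?_ h'⟩
  rintro _ ⟨v, hv, rfl⟩
  obtain ⟨w, hw, rfl⟩ := h'' (he ▸ hv)
  exact (Θ.apply_symm_apply w).symm ▸ hw

omit [IsAlgClosed k] [IsAlgClosed l] in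
theorem fs_top {d : ℕ} (hK : IsFF k K d) (hL : IsFF l L d) (Θ : V ℓ K ≃ₗ[ZMod ℓ] V ℓ L) :
    Strong k l Θ d := by
  intro A hA
  refine ⟨⊤, flat_top hL, ?_⟩
  rw [hA.eq_top hK, coe_top, coe_top, Hs_univ, Hs_univ, Submodule.map_top, LinearEquiv.range]

theorem strong_all (hk : (ℓ : k) ≠ 0) (hl : (ℓ : l) ≠ 0) {r : ℕ} (hK : IsFF k K (r + 2))
    (hL : IsFF l L (r + 2)) {Θ : V ℓ K ≃ₗ[ZMod ℓ] V ℓ L} (hΘ : Compat Θ) (a : ℕ) :
    Strong k l Θ a := by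
  have h : ∀ n a : ℕ, a + n = r + 2 → Strong k l Θ a ∧ Strong l k Θ.symm a := by
    intro n
    induction n with
    | zero =>
      rintro a rfl
      exact ⟨fs_top hK hL Θ, fs_top hL hK Θ.symm⟩
    | succ n ih =>
      intro a ha
      obtain ⟨i1, i2⟩ := ih (a + 1) (by omega)
      have w1 := weak_step hk hl hK hL hΘ (by omega) i1
      have w2 := weak_step hl hk hL hK hΘ.symm (by omega) i2
      exact ⟨strong_of_weak hk hK w1 w2, strong_of_weak hl hL w2 w1⟩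
  by_cases ha : a ≤ r + 2
  · exact (h (r + 2 - a) a (by omega)).1
  · intro A hA
    obtain ⟨y, hy, -⟩ := hA.exists_basis
    have := hK.card_le hy
    rw [Fintype.card_fin] at this
    exact absurd this ha

end P019
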