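import Vale.Agent.P019.Core

/-!
P019 FFa: function fields, elementary facts (transcendence bases, `Algebra.trdeg`).
-/

namespace P019

open IntermediateField

variable {k F : Type*} [Field k] [Field F] [Algebra k F]

theorem ffa_finite [Algebra.EssFiniteType k F] {ι : Type*} {y : ι → F}
    (hy : IsTranscendenceBasis k y) : FiniteDimensional (adjoin k (Set.range y)) F := by
  have := hy.isAlgebraic_field
  have : Algebra.EssFiniteType (adjoin k (Set.range y)) F := .of_comp k _ _
  exact Algebra.finite_of_essFiniteType_of_isAlgebraic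

theorem ffa_basis {ι : Type*} {y : ι → F} (hy : AlgebraicIndependent k y)
    [FiniteDimensional (adjoin k (Set.range y)) F] : IsTranscendenceBasis k y :=
  hy.isTranscendenceBasis_iff_isAlgebraic.2 (isAlgebraic_adjoin_iff_top.1 inferInstance)

theorem IsFF.ess {d : ℕ} (h : IsFF k F d) : Algebra.EssFiniteType k F := by
  obtain ⟨y, -, hf⟩ := h
  have : Algebra.EssFiniteType k (adjoin k (Set.range y)) :=
    essFiniteType_iff.2 (fg_adjoin_of_finite (Set.finite_range y))
  exact .comp k (adjoin k (Set.range y)) F

open scoped algebraAdjoinAdjoin in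
theorem ffa_lin {A B : Type*} [Field A] [Field B] [Algebra A B] [Algebra A F] [Algebra B F]
    [IsScalarTower A B F] {ι κ : Type*} {y : ι → F} (hy : AlgebraicIndependent B y) {b : κ → B}
    (hb : LinearIndependent A b) :
    LinearIndependent (adjoin A (Set.range y)) fun i => algebraMap B F (b i) := by
  rw [← LinearIndependent.iff_fractionRing (Algebra.adjoin A (Set.range y)), linearIndependent_iff']
  intro s g hg i hi
  have e : ∀ j, ∃ p : MvPolynomial ι A, MvPolynomial.aeval y p = g j := fun j =>
    (Algebra.adjoin_range_eq_range_aeval A y).le (g j).2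
  choose p hp using e
  have h1 := algebraicIndependent_iff.1 hy
    (∑ j ∈ s, MvPolynomial.map (algebraMap A B) (p j) * MvPolynomial.C (b j)) (by
      rw [← hg, map_sum]
      refine Finset.sum_congr rfl fun j _ => ?_
      rw [map_mul, MvPolynomial.aeval_map_algebraMap, MvPolynomial.aeval_C, hp]
      rfl)
  have h2 : p i = 0 := MvPolynomial.ext _ _ fun m => by
    refine linearIndependent_iff'.1 hb s (fun j => (p j).coeff m) ?_ i hi
    have := congrArg (MvPolynomial.coeff m) h1
    simpa only [MvPolynomial.coeff_sum, mul_comm _ (MvPolynomial.C _), MvPolynomial.coeff_C_mul,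
      MvPolynomial.coeff_map, MvPolynomial.coeff_zero, Algebra.smul_def, mul_comm (b _)] using this
  exact Subtype.ext (by rw [← hp, h2, map_zero]; rfl)

theorem ffa_fin (A B F : Type*) [Field A] [Field B] [Field F] [Algebra A B] [Algebra A F]
    [Algebra B F] [IsScalarTower A B F] [Algebra.EssFiniteType A F] [Algebra.IsAlgebraic A B] :
    FiniteDimensional A B := by
  obtain ⟨s, hs⟩ := exists_isTranscendenceBasis A F
  have := ffa_finite hs
  have := (ffa_lin (hs.1.extendScalars B) (Module.Free.chooseBasis A B).linearIndependent).finite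
  exact Module.Finite.of_basis (Module.Free.chooseBasis A B)

theorem IsFF.fg {d : ℕ} (h : IsFF k F d) : (⊤ : IntermediateField k F).FG := fg_top_iff.2 h.ess

theorem IsFF.trdeg {d : ℕ} (h : IsFF k F d) : Algebra.trdeg k F = d := by
  obtain ⟨y, hy, hf⟩ := h
  simpa using (ffa_basis hy).lift_cardinalMk_eq_trdeg.symm

theorem IsFF.card_le {d : ℕ} (h : IsFF k F d) {ι : Type*} [Fintype ι] {y : ι → F}
    (hy : AlgebraicIndependent k y) : Fintype.card ι ≤ d := by
  simpa [h.trdeg] using hy.lift_cardinalMk_le_trdeg

theorem IsFF.finite {d : ℕ} (h : IsFF k F d) {ι : Type*} [Fintype ι] {y : ι → F}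
    (hy : AlgebraicIndependent k y) (hc : Fintype.card ι = d) :
    FiniteDimensional (adjoin k (Set.range y)) F := by
  have := h.ess
  exact ffa_finite (hy.isTranscendenceBasis_of_lift_trdeg_le_of_finite (by simp [h.trdeg, hc]))

theorem isFF_of_finite {ι : Type*} [Fintype ι] {y : ι → F} (hy : AlgebraicIndependent k y)
    (hf : FiniteDimensional (adjoin k (Set.range y)) F) : IsFF k F (Fintype.card ι) :=
  ⟨y ∘ (Fintype.equivFin ι).symm, hy.comp _ (Equiv.injective _),
    by rwa [(Equiv.surjective _).range_comp]⟩

theorem isFF_of_fg (h : (⊤ : IntermediateField k F).FG) :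
    ∃ d : ℕ, IsFF k F d ∧ Algebra.trdeg k F = d := by
  have := fg_top_iff.1 h
  obtain ⟨s, hs⟩ := exists_finset_isTranscendenceBasis k F
  have h1 := isFF_of_finite hs.1 (ffa_finite hs)
  exact ⟨_, h1, h1.trdeg⟩

theorem IsFF.extend {r s : ℕ} (h : IsFF k F (r + s)) {ι : Type*} [Fintype ι] {y : ι → F}
    (hy : AlgebraicIndependent k y) (hc : Fintype.card ι = r) :
    ∃ z : Fin s → F, AlgebraicIndependent k (Sum.elim y z) := by
  classical
  obtain ⟨t, hyt, ht⟩ := exists_isTranscendenceBasis_superset (R := k) (s := Set.range y)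
    hy.to_subtype_range
  have := h.ess
  have := finite_of_isTranscendenceBasis ht
  have := Fintype.ofFinite t
  have h1 : Fintype.card t = r + s := by
    have := ht.cardinalMk_eq_trdeg
    rw [h.trdeg, Cardinal.mk_fintype] at this
    exact_mod_cast this
  let f : ι → t := fun i => ⟨y i, hyt ⟨i, rfl⟩⟩
  have hf : Function.Injective f := fun i j e => hy.injective (congrArg Subtype.val e)
  have h2 : Fintype.card ((Set.range f)ᶜ : Set t) = s := by
    rw [Fintype.card_compl_set, Set.card_range_of_injective hf, h1, hc, Nat.add_sub_cancel_left]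
  let e := (Fintype.equivFinOfCardEq h2).symm
  refine ⟨fun j => (e j).1.1, ?_⟩
  have h3 := ht.1.comp (Sum.elim f fun j => (e j).1)
    (hf.sumElim (Subtype.val_injective.comp e.injective) fun i j h => (e j).2 ⟨i, h⟩)
  rwa [Sum.comp_elim] at h3

theorem IsFF.of_finite {d : ℕ} (h : IsFF k F d) (E : Type*) [Field E] [Algebra F E] [Algebra k E]
    [IsScalarTower k F E] [FiniteDimensional F E] : IsFF k E d := by
  have := h.ess
  have : Algebra.EssFiniteType k E := .comp k F E
  obtain ⟨y, hy, hf⟩ := h
  have h1 := (ffa_basis hy).algebraMap_comp (A := E)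
  exact ⟨_, h1.1, ffa_finite h1⟩

/-- a subfield over which `F` is finite (or even any subfield) is a function field -/
theorem IsFF.sub {d : ℕ} (h : IsFF k F d) (A : IntermediateField k F) :
    ∃ a : ℕ, a ≤ d ∧ IsFF k A a := by
  have := h.ess
  obtain ⟨s, hs⟩ := exists_isTranscendenceBasis k A
  have h1 := hs.1.map' (f := A.val) Subtype.val_injective
  have := finite_of_algebraicIndependent h1
  have := Fintype.ofFinite s
  have := hs.isAlgebraic_field
  have : Algebra.EssFiniteType (adjoin k (Set.range ((↑) : s → A))) F := .of_comp k _ _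
  exact ⟨_, h.card_le h1, isFF_of_finite hs.1 (ffa_fin _ A F)⟩

/-- `[A^alg : A] ≤ [F : A(y)]` for a transcendence basis `y` of `F / A` -/
theorem IsFF.finite_algebraicClosure {d : ℕ} (h : IsFF k F d) (A : IntermediateField k F) :
    FiniteDimensional A (algebraicClosure A F) := by
  have := h.ess
  have : Algebra.EssFiniteType A F := .of_comp k _ _
  exact ffa_fin A _ F

/-- a function field of dimension one is finite over `k(h)` for every transcendental `h` -/
theorem IsFF.finite_one (h : IsFF k F 1) {x : F} (hx : Transcendental k x) :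
    FiniteDimensional k⟮x⟯ F := by
  have := h.finite (y := fun _ : Unit => x) (algebraicIndependent_unique_type_iff.2 hx) rfl
  rwa [Set.range_const] at this

end P019
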