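import Vale.Agent.P019.ResB
import Vale.Agent.P019.FFa

/-!
P019 FFb: function fields and flats, elementary facts (transcendence bases, `Algebra.trdeg`).
-/

namespace P019

open IntermediateField

variable {k F : Type*} [Field k] [Field F] [Algebra k F]

theorem ffb_mono {A B : IntermediateField k F} (h : A ≤ B) {z : F} (hz : IsAlgebraic A z) :
    IsAlgebraic B z :=
  IsAlgebraic.tower_top_of_subalgebra_le (A := A.toSubalgebra) (B := B.toSubalgebra) h hz

theorem ffb_trans {A B : IntermediateField k F} (h : ∀ b ∈ B, IsAlgebraic A b) {z : F}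
    (hz : IsAlgebraic B z) : IsAlgebraic A z := by
  have h1 : B ≤ (algebraicClosure A F).restrictScalars k := fun b hb =>
    mem_algebraicClosure_iff.2 (h b hb)
  have h2 : IsAlgebraic (algebraicClosure A F) z := ffb_mono h1 hz
  exact h2.restrictScalars A

theorem ffb_option {ι : Type*} {y : ι → F} (hy : AlgebraicIndependent k y) (x : F) :
    AlgebraicIndependent k (fun o : Option ι => o.elim x y) ↔
      ¬ IsAlgebraic (adjoin k (Set.range y)) x :=
  (hy.option_iff_transcendental x).trans transcendental_adjoin_iff.symm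

theorem ffb_card_le {A : IntermediateField k F} {a : ℕ} (hA : Algebra.trdeg k A = a) {ι : Type*}
    [Fintype ι] {y : ι → F} (hy : AlgebraicIndependent k y) (hm : ∀ i, y i ∈ A) :
    Fintype.card ι ≤ a := by
  have h1 : AlgebraicIndependent k (fun i => (⟨y i, hm i⟩ : A)) := .of_comp A.val hy
  simpa [hA] using h1.lift_cardinalMk_le_trdeg

theorem ffb_alg {A : IntermediateField k F} {ι : Type*} [Fintype ι]
    (hA : Algebra.trdeg k A = Fintype.card ι) {y : ι → F} (hy : AlgebraicIndependent k y)
    (hm : ∀ i, y i ∈ A) {z : F} (hz : z ∈ A) : IsAlgebraic (adjoin k (Set.range y)) z := by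
  by_contra h
  have := ffb_card_le hA ((ffb_option hy z).2 h) (fun o => by
    cases o with
    | none => exact hz
    | some i => exact hm i)
  simp at this

theorem ffb_trdeg {A : IntermediateField k F} {ι : Type*} [Fintype ι] {y : ι → F}
    (hy : AlgebraicIndependent k y) (hm : ∀ i, y i ∈ A)
    (h : ∀ z ∈ A, IsAlgebraic (adjoin k (Set.range y)) z) :
    Algebra.trdeg k A = Fintype.card ι := by
  have h1 : AlgebraicIndependent k (fun i => (⟨y i, hm i⟩ : A)) := .of_comp A.val hy
  have h2 : IsTranscendenceBasis k (fun i => (⟨y i, hm i⟩ : A)) := by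
    refine h1.isTranscendenceBasis_iff_isAlgebraic.2 ⟨fun z => ?_⟩
    by_contra hz
    have h3 := ((h1.option_iff_transcendental z).2 hz).map' (f := A.val) Subtype.val_injective
    refine (ffb_option hy z.1).1 ((congrArg (fun v => AlgebraicIndependent k v)
      (funext fun o => ?_)).mp h3) (h z.1 z.2)
    cases o <;> rfl
  simpa using h2.lift_cardinalMk_eq_trdeg.symm

theorem mem_acl_iff (s : Set F) (z : F) : z ∈ acl k s ↔ IsAlgebraic (adjoin k s) z := by
  exact mem_algebraicClosure_iff
theorem subset_acl (s : Set F) : s ⊆ acl k s := by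
  intro z hz
  exact (mem_acl_iff s z).2 (isAlgebraic_algebraMap (⟨z, subset_adjoin k s hz⟩ : adjoin k s))
theorem acl_le_of_flat {A : IntermediateField k F} {a : ℕ} (hA : Flat A a) {s : Set F}
    (hs : s ⊆ A) : acl k s ≤ A := by
  intro z hz
  exact hA.1 z (ffb_mono (adjoin_le_iff.2 hs) ((mem_acl_iff s z).1 hz))
theorem flat_acl {ι : Type*} [Fintype ι] {y : ι → F} (hy : AlgebraicIndependent k y) :
    Flat (acl k (Set.range y)) (Fintype.card ι) := by
  refine ⟨fun z hz => (mem_acl_iff _ z).2 (ffb_trans (fun b hb => (mem_acl_iff _ b).1 hb) hz), ?_⟩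
  exact ffb_trdeg hy (fun i => subset_acl _ ⟨i, rfl⟩) fun z hz => (mem_acl_iff _ z).1 hz
theorem flat_acl_one {x : F} (hx : Transcendental k x) : Flat (acl k {x}) 1 := by
  have := flat_acl (y := fun _ : Unit => x) (algebraicIndependent_unique_type_iff.2 hx)
  rwa [Set.range_const] at this
theorem ffb_eq_acl {A : IntermediateField k F} {ι : Type*} [Fintype ι]
    (hA : Flat A (Fintype.card ι)) {y : ι → F} (hy : AlgebraicIndependent k y)
    (hm : ∀ i, y i ∈ A) : A = acl k (Set.range y) :=
  le_antisymm (fun z hz => (mem_acl_iff _ z).2 (ffb_alg hA.2 hy hm hz))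
    (acl_le_of_flat hA (Set.range_subset_iff.2 hm))

theorem ffb_basis {A : IntermediateField k F} {a : ℕ} (hA : Algebra.trdeg k A = a) :
    ∃ y : Fin a → F, AlgebraicIndependent k y ∧ ∀ i, y i ∈ A := by
  obtain ⟨s, hs⟩ := exists_isTranscendenceBasis k A
  have h1 := hs.cardinalMk_eq_trdeg
  rw [hA] at h1
  obtain ⟨e⟩ := Cardinal.mk_eq_nat_iff.1 h1
  exact ⟨fun i => (e.symm i).1.1,
    (hs.1.comp _ e.symm.injective).map' (f := A.val) Subtype.val_injective,
    fun i => (e.symm i).1.2⟩

theorem Flat.eq_of_le {A B : IntermediateField k F} {a : ℕ} (hA : Flat A a) (hB : Flat B a)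
    (h : A ≤ B) : A = B := by
  obtain ⟨y, hy, hm⟩ := ffb_basis hA.2
  rw [ffb_eq_acl (by simpa using hA) hy hm, ffb_eq_acl (by simpa using hB) hy fun i => h (hm i)]
theorem Flat.eq_acl {A : IntermediateField k F} {ι : Type*} [Fintype ι]
    (hA : Flat A (Fintype.card ι)) {y : ι → F} (hy : AlgebraicIndependent k y)
    (hm : ∀ i, y i ∈ A) : A = acl k (Set.range y) := by
  exact ffb_eq_acl hA hy hm
theorem Flat.eq_acl_one {A : IntermediateField k F} (hA : Flat A 1) {x : F}
    (hx : Transcendental k x) (hm : x ∈ A) : A = acl k {x} := by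
  have := ffb_eq_acl (y := fun _ : Unit => x) hA (algebraicIndependent_unique_type_iff.2 hx)
    fun _ => hm
  rwa [Set.range_const] at this
theorem Flat.exists_basis {A : IntermediateField k F} {a : ℕ} (hA : Flat A a) :
    ∃ y : Fin a → F, AlgebraicIndependent k y ∧ ∀ i, y i ∈ A := by
  exact ffb_basis hA.2
theorem Flat.isFF {d : ℕ} (h : IsFF k F d) {A : IntermediateField k F} {a : ℕ} (hA : Flat A a) :
    IsFF k A a := by
  obtain ⟨b, -, hb⟩ := h.sub A
  have : (b : Cardinal) = a := hb.trdeg.symm.trans hA.2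
  have h1 : b = a := by exact_mod_cast this
  exact h1 ▸ hb
theorem flat_top {d : ℕ} (h : IsFF k F d) : Flat (⊤ : IntermediateField k F) d := by
  exact ⟨fun _ _ => mem_top, (topEquiv (F := k) (E := F)).trdeg_eq.trans h.trdeg⟩
theorem Flat.eq_top {d : ℕ} (h : IsFF k F d) {A : IntermediateField k F} (hA : Flat A d) :
    A = ⊤ := by
  exact hA.eq_of_le (flat_top h) le_top
theorem Flat.ne_top {d a : ℕ} (h : IsFF k F d) {A : IntermediateField k F} (hA : Flat A a)
    (ha : a < d) : A ≠ ⊤ := by
  rintro rfl
  have : (a : Cardinal) = d := hA.2.symm.trans (flat_top h).2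
  have h1 : a = d := by exact_mod_cast this
  omega
/-- adding an element outside a flat keeps independence -/
theorem Flat.indep_option {A : IntermediateField k F} {a : ℕ} (hA : Flat A a) {ι : Type*}
    {y : ι → F} (hy : AlgebraicIndependent k y) (hm : ∀ i, y i ∈ A) {x : F} (hx : x ∉ A) :
    AlgebraicIndependent k (fun o : Option ι => o.elim x y) := by
  exact (ffb_option hy x).2 fun h =>
    hx (hA.1 x (ffb_mono (adjoin_le_iff.2 (Set.range_subset_iff.2 hm)) h))
theorem indep_pair_iff {x y : F} :
    AlgebraicIndependent k ![x, y] ↔ Transcendental k x ∧ y ∉ acl k {x} := by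
  have e : AlgebraicIndependent k ![x, y] ↔
      AlgebraicIndependent k (fun o : Option Unit => o.elim y fun _ => x) := by
    refine (algebraicIndependent_equiv' ((finSuccEquivLast (n := 1)).trans
      (Equiv.optionCongr (Equiv.ofUnique (Fin 1) Unit))) ?_)
    funext i
    fin_cases i <;> rfl
  rw [e, AlgebraicIndependent.option_iff, algebraicIndependent_unique_type_iff, Set.range_const,
    mem_acl_iff, ← transcendental_adjoin_iff]
  rfl
theorem indep_pair_symm {x y : F} (h : AlgebraicIndependent k ![x, y]) :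
    AlgebraicIndependent k ![y, x] := by
  refine (congrArg (fun v => AlgebraicIndependent k v) (funext fun i => ?_)).mp
    (h.comp _ (Equiv.swap (0 : Fin 2) 1).injective)
  fin_cases i <;> rfl
/-- a flat of a flat is a flat -/
theorem Flat.lift {A : IntermediateField k F} {a c : ℕ} (hA : Flat A a)
    {C : IntermediateField k A} (hC : Flat C c) : Flat (C.map A.val) c := by
  let e := IntermediateField.equivMap C A.val
  refine ⟨fun z hz => ?_, e.trdeg_eq.symm.trans hC.2⟩
  have hle : C.map A.val ≤ A := by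
    rintro _ ⟨w, -, rfl⟩
    exact w.2
  have hzA : z ∈ A := hA.1 z (ffb_mono hle hz)
  refine ⟨⟨z, hzA⟩, hC.1 _ ?_, rfl⟩
  exact (isAlgebraic_ringHom_iff_of_comp_eq e.toRingEquiv (A.val : A →+* F)
    Subtype.val_injective (by ext; rfl)).1 hz

end P019
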