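import Vale.Agent.P019.P3
import Vale.Agent.P019.Cv

/-!
P019 PtTr: the points of the residue curve are transported.
`Lim O` = characters of the residue field with a lift in `InCl`.  `lim_sub`: `InCl.valuative`,
`exists_le_of_valuative`, `exists_quot`.  `mem_lim`: `exists_comp`, `exists_liftChar`, `p3`.
`lim_iff`: over a `LocFin` field every valuation ring is trivial on the constants and `ℓ` is a
unit; `cv_Iv`, `cv_exists_pt`.  `pt_transport`: `Ψ` from `Corr.exists_res` matches the sets `Lim`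
(`Compat.InCl`, `Corr.mem_Dv`).  If the constants on the right are not `LocFin`, `deep` gives
infinitely many elements of `Lim` with value `1` at one class, against `cv_finite`.  `Unr` is the
common kernel of `Lim`, and `Vis f` is in bijection with `{ρ ∈ Lim | ρ [f] = 1}` (`cv_sep`).
-/

namespace P019

variable {ℓ : ℕ} [Fact ℓ.Prime] {k K l L : Type*} [Field k] [Field K] [Algebra k K]
  [IsAlgClosed k] [Field l] [Field L] [Algebra l L] [IsAlgClosed l]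

variable (ℓ) in
def Lim (O : ValuationSubring K) : Set (X ℓ (Res O)) :=
  {ρ | ∃ τ ∈ Dv ℓ O, InCl τ ∧ ∀ a, O.valuation a = 1 → ρ (cl ℓ (res O a)) = τ (cl ℓ a)}

variable (k) in
include k in
theorem lim_sub {O : ValuationSubring K} (hcan : ∃ σ : X ℓ K, IsCanon σ O) {ρ : X ℓ (Res O)}
    (h : ρ ∈ Lim ℓ O) : Valuative ρ := by
  obtain ⟨τ, hD, hC, hρ⟩ := h
  obtain ⟨W, hW, hτ⟩ : ∃ W, W ≤ O ∧ τ ∈ Iv ℓ W := by
    by_cases hI : τ ∈ Iv ℓ O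
    · exact ⟨O, le_rfl, hI⟩
    · exact exists_le_of_valuative k hcan (hC.valuative k) hD hI
  obtain ⟨u, hu⟩ := exists_quot hW
  refine ⟨u, (mem_Iv_iff u ρ).2 fun x hx => ?_⟩
  obtain ⟨a, ha, rfl⟩ := res_surj O x
  have h1 := (comp_val_eq_one hW hu ha).2 hx
  rw [hρ a (val_eq_one_of_le hW h1)]
  exact (mem_Iv_iff W τ).1 hτ a h1

theorem mem_lim {r : ℕ} (hK : IsFF k K (r + 2)) {O Om : ValuationSubring K} (hle : O ≤ Om)
    (hO : IRank ℓ O (r + 1)) (hOm : IRank ℓ Om r) {ρ : X ℓ (Res O)} (h0 : ρ ≠ 0)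
    {u : ValuationSubring (Res O)} (hu : ρ ∈ Iv ℓ u) (hℓ : u.valuation (ℓ : Res O) = 1) :
    ρ ∈ Lim ℓ O := by
  obtain ⟨W, hW, hWu⟩ := exists_comp O u
  obtain ⟨τ, hD, hρ⟩ := exists_liftChar O ρ
  have h1 : τ ∈ Iv ℓ W := (mem_Iv_iff W τ).2 fun a ha => by
    have h2 := val_eq_one_of_le hW ha
    rw [← hρ a h2]
    exact (mem_Iv_iff u ρ).1 hu _ ((comp_val_eq_one hW hWu (resb_mem h2)).1 ha)
  have h2 : τ ∉ Iv ℓ O := fun hI => h0 (LinearMap.ext fun v => by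
    obtain ⟨x, x0, rfl⟩ := cl_surj v
    obtain ⟨a, ha, rfl⟩ := res_surj O x
    rw [hρ a (resb_unit ha x0)]
    exact (mem_Iv_iff O τ).1 hI a (resb_unit ha x0))
  have h3 : W.valuation (ℓ : K) = 1 := by
    rw [comp_val_eq_one hW hWu (natCast_mem O ℓ), res_natCast]
    exact hℓ
  obtain ⟨ρ', hρ', hC⟩ := p3 hK hW hle hO hOm h3 h1 h2
  refine ⟨τ + ρ', add_mem hD (Iv_le_Dv O hρ'), hC, fun a ha => ?_⟩
  rw [LinearMap.add_apply, (mem_Iv_iff O ρ').1 hρ' a ha, add_zero, hρ a ha]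

theorem lim_iff {r : ℕ} (hK : IsFF k K (r + 2)) {O Om : ValuationSubring K} (hle : O ≤ Om)
    (hO : IRank ℓ O (r + 1)) (hOm : IRank ℓ Om r) (hcan : ∃ σ : X ℓ K, IsCanon σ O)
    (hℓ : O.valuation (ℓ : K) = 1) (hF : IsFF (resK k O) (Res O) 1) (hf : LocFin (resK k O))
    {ρ : X ℓ (Res O)} (h0 : ρ ≠ 0) : ρ ∈ Lim ℓ O ↔
      ∃ (P : Place (resK k O) (Res O)) (σ : X ℓ (Res O)) (c : ZMod ℓ), IsPt P σ ∧ ρ = c • σ := by
  have := resK_isAlgClosed k O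
  constructor
  · intro h
    obtain ⟨u, hu⟩ := lim_sub k hcan h
    have h1 : u ≠ ⊤ := fun e => h0 (by
      rw [e, Iv_top] at hu
      exact hu)
    have h2 : Triv (resK k O) u := fun c => by
      by_cases c0 : c = 0
      · rw [c0, map_zero]
        exact zero_mem u
      · obtain ⟨n, hn, e⟩ := hf c c0
        refine resb_mem (val_eq_one_of_pow u hn.ne' ?_)
        rw [← map_pow, e, map_one, map_one]
    obtain ⟨σ, hσ⟩ := cv_exists_pt (ℓ := ℓ) hF ⟨u, h1, h2⟩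
    obtain ⟨c, hc⟩ := (cv_Iv hF ⟨u, h1, h2⟩ hσ).1 hu
    exact ⟨_, σ, c, hσ, hc⟩
  · rintro ⟨P, σ, c, hσ, hc⟩
    refine mem_lim hK hle hO hOm h0 ((cv_Iv hF P hσ).2 ⟨c, hc⟩) ?_
    have := cv_val_const P (res_ne_zero_of_val (k := k) hℓ)
    rwa [map_natCast] at this

omit [IsAlgClosed k] in
theorem pttr_unr {S : Set (X ℓ K)} (hS : ∀ ρ ≠ 0, ρ ∈ S ↔
    ∃ (P : Place k K) (σ : X ℓ K) (c : ZMod ℓ), IsPt P σ ∧ ρ = c • σ) (v : V ℓ K) :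
    v ∈ Unr ℓ k K ↔ ∀ ρ ∈ S, ρ v = 0 := by
  constructor
  · intro h ρ hρ
    by_cases h0 : ρ = 0
    · rw [h0, LinearMap.zero_apply]
    · obtain ⟨P, σ, c, hσ, rfl⟩ := (hS ρ h0).1 hρ
      rw [LinearMap.smul_apply, h P σ hσ, smul_zero]
  · intro h P σ hσ
    by_cases h0 : σ = 0
    · rw [h0, LinearMap.zero_apply]
    · exact h σ ((hS σ h0).2 ⟨P, σ, 1, hσ, (one_smul _ _).symm⟩)

theorem pttr_vis (hF : IsFF k K 1) {S : Set (X ℓ K)} (hS : ∀ ρ ≠ 0, ρ ∈ S ↔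
    ∃ (P : Place k K) (σ : X ℓ K) (c : ZMod ℓ), IsPt P σ ∧ ρ = c • σ) (f : K) :
    {ρ | ρ ∈ S ∧ ρ (cl ℓ f) = 1}.Finite ∧
      {ρ | ρ ∈ S ∧ ρ (cl ℓ f) = 1}.ncard = (Vis ℓ k f).ncard := by
  choose σ hσ using fun P : Place k K => cv_exists_pt (ℓ := ℓ) hF P
  have hV : ∀ P : Place k K, P ∈ Vis ℓ k f ↔ ((ord P f : ℤ) : ZMod ℓ) ≠ 0 := fun P =>
    (ZMod.intCast_zmod_eq_zero_iff_dvd _ _).not.symm
  have h0 : ∀ ρ : X ℓ K, ρ (cl ℓ f) = 1 → ρ ≠ 0 := fun ρ h e => by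
    rw [e, LinearMap.zero_apply] at h
    exact zero_ne_one h
  have e : {ρ | ρ ∈ S ∧ ρ (cl ℓ f) = 1} =
      (fun P : Place k K => ((ord P f : ℤ) : ZMod ℓ)⁻¹ • σ P) '' Vis ℓ k f := by
    ext ρ
    constructor
    · rintro ⟨h1, h2⟩
      obtain ⟨P, τ, c, hτ, rfl⟩ := (hS ρ (h0 ρ h2)).1 h1
      obtain rfl : τ = σ P := LinearMap.ext fun v => by
        obtain ⟨x, -, rfl⟩ := cl_surj v
        rw [hτ, hσ]
      rw [LinearMap.smul_apply, hτ, smul_eq_mul] at h2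
      exact ⟨P, (hV P).2 (right_ne_zero_of_mul_eq_one h2), by rw [eq_inv_of_mul_eq_one_left h2]⟩
    · rintro ⟨P, hP, rfl⟩
      have h2 : (((ord P f : ℤ) : ZMod ℓ)⁻¹ • σ P) (cl ℓ f) = 1 := by
        rw [LinearMap.smul_apply, hσ, smul_eq_mul, inv_mul_cancel₀ ((hV P).1 hP)]
      exact ⟨(hS _ (h0 _ h2)).2 ⟨P, σ P, _, hσ P, rfl⟩, h2⟩
  rw [e]
  refine ⟨Set.Finite.image _ ((cv_finite hF f).subset fun P hP c => (hV P).1 hP ?_),
    Set.InjOn.ncard_image fun P hP Q _ h => ?_⟩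
  · rw [c, Int.cast_zero]
  · by_contra hn
    obtain ⟨g, -, h1, h2⟩ := cv_sep hF hn
    have := LinearMap.congr_fun h (cl ℓ g)
    rw [LinearMap.smul_apply, LinearMap.smul_apply, hσ, hσ, h1, h2] at this
    exact (hV P).1 hP (by simpa using this)

theorem pttr_lim {Θ : V ℓ K ≃ₗ[ZMod ℓ] V ℓ L} (hΘ : Compat Θ) {O : ValuationSubring K}
    {O' : ValuationSubring L} (hc : Corr ℓ Θ O O') {Ψ : V ℓ (Res O) ≃ₗ[ZMod ℓ] V ℓ (Res O')}
    (hΨ : ∀ (a : K) (b : L), O.valuation a = 1 → O'.valuation b = 1 → Θ (cl ℓ a) = cl ℓ b →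
      Ψ (cl ℓ (res O a)) = cl ℓ (res O' b)) (ρ : X ℓ (Res O')) :
    ρ ∈ Lim ℓ O' ↔ ρ ∘ₗ Ψ.toLinearMap ∈ Lim ℓ O := by
  constructor
  · rintro ⟨τ, h1, h2, h3⟩
    refine ⟨τ ∘ₗ Θ.toLinearMap, (hc.mem_Dv τ).1 h1, (hΘ.InCl τ).1 h2, fun a ha => ?_⟩
    have : Θ (cl ℓ a) ∈ Uv ℓ O' := by
      rw [← hc.1]
      exact Submodule.mem_map_of_mem ((mem_Uv_iff O _).2 ⟨a, ha, rfl⟩)
    obtain ⟨b, hb, e⟩ := (mem_Uv_iff O' _).1 this
    change ρ (Ψ _) = τ (Θ _)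
    rw [hΨ a b ha hb e.symm, h3 b hb, e]
  · rintro ⟨τ, h1, h2, h3⟩
    rw [← bas_cs Θ τ] at h1 h2
    refine ⟨τ ∘ₗ Θ.symm.toLinearMap, (hc.mem_Dv _).2 h1, (hΘ.InCl _).2 h2, fun b hb => ?_⟩
    have : cl ℓ b ∈ (Uv ℓ O).map Θ.toLinearMap := by
      rw [hc.1]
      exact (mem_Uv_iff O' _).2 ⟨b, hb, rfl⟩
    obtain ⟨v, hv, e⟩ := this
    obtain ⟨a, ha, rfl⟩ := (mem_Uv_iff O _).1 hv
    rw [← hΨ a b ha hb e, ← e]
    simpa using h3 a ha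

theorem pt_transport {r : ℕ} (hK : IsFF k K (r + 2)) (hL : IsFF l L (r + 2))
    {Θ : V ℓ K ≃ₗ[ZMod ℓ] V ℓ L} (hΘ : Compat Θ) {O Om : ValuationSubring K}
    {O' Om' : ValuationSubring L} (hle : O ≤ Om) (hO : IRank ℓ O (r + 1)) (hOm : IRank ℓ Om r)
    (hc : Corr ℓ Θ O O') (hm : Corr ℓ Θ Om Om') (hcan : ∃ σ : X ℓ K, IsCanon σ O)
    (hcan' : ∃ σ : X ℓ L, IsCanon σ O') (hℓ : O.valuation (ℓ : K) = 1)
    (hℓ' : O'.valuation (ℓ : L) = 1) (hF : IsFF (resK k O) (Res O) 1) (hf : LocFin (resK k O)) :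
    IsFF (resK l O') (Res O') 1 ∧ LocFin (resK l O') ∧
      ((Unr ℓ (resK k O) (Res O)).Finite → (Unr ℓ (resK l O') (Res O')).Finite) ∧
      (Unr ℓ (resK l O') (Res O')).ncard = (Unr ℓ (resK k O) (Res O)).ncard ∧
      ∀ (a : K) (b : L), O.valuation a = 1 → O'.valuation b = 1 → Θ (cl ℓ a) = cl ℓ b →
        (Vis ℓ (resK l O') (res O' b)).ncard = (Vis ℓ (resK k O) (res O a)).ncard := by
  have := resK_isAlgClosed k O
  have := resK_isAlgClosed l O'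
  have hle' := corr_le_of_le hc hm hle hO hOm hcan'
  have hO' := hc.IRank hO
  have hOm' := hm.IRank hOm
  have hne : Nv ℓ O' ≠ Uv ℓ O' := fun e => (nc_of_res hℓ hF le_rfl).2.1
    (Submodule.map_injective_of_injective (f := Θ.toLinearMap) Θ.injective
      (hc.2.trans (e.trans hc.1.symm)))
  have hF' : IsFF (resK l O') (Res O') 1 := IRank.res_isFF_one hL hO' hne
  obtain ⟨Ψ, hΨ⟩ := hc.exists_res
  have hL1 : ∀ ρ ≠ 0, ρ ∈ Lim ℓ O ↔ _ := fun ρ h0 => lim_iff hK hle hO hOm hcan hℓ hF hf h0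
  have him : ∀ v : V ℓ (Res O), (fun ρ : X ℓ (Res O') => ρ ∘ₗ Ψ.toLinearMap) ''
      {ρ | ρ ∈ Lim ℓ O' ∧ ρ (Ψ v) = 1} = {ρ | ρ ∈ Lim ℓ O ∧ ρ v = 1} := by
    intro v
    ext ρ
    constructor
    · rintro ⟨ρ', ⟨h1, h2⟩, rfl⟩
      exact ⟨(pttr_lim hΘ hc hΨ ρ').1 h1, h2⟩
    · rintro ⟨h1, h2⟩
      refine ⟨ρ ∘ₗ Ψ.symm.toLinearMap, ⟨(pttr_lim hΘ hc hΨ _).2 ?_, by simpa using h2⟩, bas_cs Ψ ρ⟩
      rwa [bas_cs]
  have hinj : Function.Injective fun ρ : X ℓ (Res O') => ρ ∘ₗ Ψ.toLinearMap := by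
    intro ρ ρ' e
    refine LinearMap.ext fun v => ?_
    simpa using LinearMap.congr_fun e (Ψ.symm v)
  have hf' : LocFin (resK l O') := by
    by_contra hn
    obtain ⟨y, hy⟩ := deep (res_ne_zero_of_val (k := l) hℓ') hF' hn
    obtain ⟨f, -, e⟩ := cl_surj (Ψ.symm (cl ℓ y))
    have h1 := (pttr_vis hF hL1 f).1
    rw [← him] at h1
    refine hy ((h1.of_finite_image hinj.injOn).subset ?_)
    rintro τ ⟨h2, u, h3, h4⟩
    refine ⟨mem_lim hL hle' hO' hOm' (fun e0 => ?_) h3 h4, ?_⟩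
    · rw [e0, LinearMap.zero_apply] at h2
      exact zero_ne_one h2
    · rw [e, LinearEquiv.apply_symm_apply]
      exact h2
  have hL2 : ∀ ρ ≠ 0, ρ ∈ Lim ℓ O' ↔ _ := fun ρ h0 => lim_iff hL hle' hO' hOm' hcan' hℓ' hF' hf' h0
  have hU : Unr ℓ (resK l O') (Res O') = Ψ '' Unr ℓ (resK k O) (Res O) := by
    ext v
    obtain ⟨v, rfl⟩ := Ψ.surjective v
    rw [Ψ.injective.mem_set_image, pttr_unr hL1, pttr_unr hL2]
    constructor
    · intro h ρ hρ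
      have := h (ρ ∘ₗ Ψ.symm.toLinearMap) ((pttr_lim hΘ hc hΨ _).2 (by rwa [bas_cs]))
      simpa using this
    · intro h ρ hρ
      exact h _ ((pttr_lim hΘ hc hΨ ρ).1 hρ)
  refine ⟨hF', hf', fun h => ?_, ?_, fun a b ha hb e => ?_⟩
  · rw [hU]
    exact h.image _
  · rw [hU, Set.ncard_image_of_injective _ Ψ.injective]
  · rw [← (pttr_vis hF hL1 _).2, ← (pttr_vis hF' hL2 _).2, ← him, hΨ a b ha hb e,
      Set.ncard_image_of_injective _ hinj]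

end P019
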