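import Vale.Agent.P019.FamK
import Vale.Agent.P019.PtTr

/-! P019 FamA: the transported family on `L` (plan in Fam.lean). -/

namespace P019

open IntermediateField

universe u v

variable {ℓ : ℕ} [Fact ℓ.Prime] {k l : Type*} {K : Type u} {L : Type v} [Field k] [Field K]
  [Algebra k K] [IsAlgClosed k] [Field l] [Field L] [Algebra l L] [IsAlgClosed l]

variable (k l) in
def FamOut (Θ : V ℓ K ≃ₗ[ZMod ℓ] V ℓ L) {r : ℕ} (t : Fin r → K) : Prop :=
  ∃ (ι : Type u) (𝒰 : Ultrafilter ι) (O : ι → ValuationSubring L) (M : Type (max u v))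
    (_ : Field M) (κ : Subfield M) (φ : L →+* M), VLim (𝒰 : Filter ι) O ⊤ ∧
    (∀ i, ∃ c : Fin r → k, VInd ℓ (O i) fun j => Θ (cl ℓ (t j - algebraMap k K (c j)))) ∧
    IsAlgClosed κ ∧ IsFF κ M 1 ∧ (∀ z, φ z ∈ κ ↔ Cst l 𝒰 O z) ∧
    ∀ b, (∃ g : M, g ^ ℓ = φ b) ↔
      cl ℓ b ∈ (Hs ℓ (acl k (Set.range t) : Set K)).map Θ.toLinearMap

theorem fama_top {F : Type*} [Field F] {ι : Type*} {𝒰 : Ultrafilter ι}
    {O : ι → ValuationSubring F} (h : VLim (𝒰 : Filter ι) O ⊤) {a : F} (ha : a ≠ 0) :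
    ∀ᶠ i in (𝒰 : Filter ι), (O i).valuation a = 1 := by
  refine (h.eq_one a).1 ((resb_eq_one_iff _ _).2 ⟨trivial, fun c => ?_⟩)
  exact ((resb_lt_one_iff _ _).1 c).elim ha fun c => c trivial

theorem fam_sep (hk : (ℓ : k) ≠ 0) (hl : (ℓ : l) ≠ 0) {r : ℕ} (hK : IsFF k K (r + 2))
    (hL : IsFF l L (r + 2)) {Θ : V ℓ K ≃ₗ[ZMod ℓ] V ℓ L} (hΘ : Compat Θ) {t : Fin (r + 1) → K}
    {x : K} (h : AlgebraicIndependent k (Sum.elim t fun _ : Unit => x))
    [Algebra.IsSeparable (acl k (Set.range t))⟮x⟯ K] : FamOut k l Θ t := by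
  have hB : Flat (acl k (Set.range t)) (r + 1) := by
    simpa using flat_acl (y := t) (h.comp Sum.inl Sum.inl_injective)
  obtain ⟨𝒰, O, Om, hO, hi⟩ := famK hk hK h
  choose O' hc hcan using fun i => transport_ff l hΘ (hi i).2.1 (hi i).2.2.2.1
    (hO.2 i).2.2.1 (hO.2 i).1 le_rfl
  choose Om' hm hcan' using fun i => transport_ff l hΘ (hi i).2.2.1 (hi i).2.2.2.2.1
    (val_eq_one_of_le (hi i).1 (hO.2 i).2.2.1) (hi i).2.2.2.2.2 one_le_two
  have hex : ∀ b : L, (∀ᶠ i in (𝒰 : Filter (Finset K)), cl ℓ b ∈ Nv ℓ (O' i)) ↔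
      cl ℓ b ∈ (Hs ℓ (acl k (Set.range t) : Set K)).map Θ.toLinearMap := by
    intro b
    obtain ⟨a, -, ha⟩ := cl_surj (Θ.symm (cl ℓ b))
    rw [Submodule.mem_map_equiv, ← ha, ← fam_exact hk hK h hO a]
    refine Filter.eventually_congr (Filter.Eventually.of_forall fun i => ?_)
    rw [← (hc i).2, Submodule.mem_map_equiv, ha]
  obtain ⟨w, hw⟩ := exists_VLim 𝒰 O'
  obtain rfl : w = ⊤ := triv_lim hl hL hΘ hB fun v hv => by
    obtain ⟨a, ha, rfl⟩ := (mem_Nv_iff _ _).1 hv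
    exact (hex a).1 (((hw.lt_one _).1 ha).mono fun i hi => cl_mem_Hs hi)
  have hl' : (ℓ : L) ≠ 0 := by
    rw [← map_natCast (algebraMap l L)]
    exact (map_ne_zero _).2 hl
  have hp := (fama_top hw hl').mono fun i h1 => And.intro h1 (pt_transport hK hL hΘ (hi i).1
    (hi i).2.1 (hi i).2.2.1 (hc i) (hm i) (hi i).2.2.2.1 (hcan i) (hO.2 i).2.2.1 h1 (hO.2 i).1
    (hO.2 i).2.1)
  obtain ⟨R, hR⟩ := fam_unr hK h hO
  obtain ⟨M, _, κ, φ, h1, h2, h3, h4⟩ := bound hL hw (hp.mono fun i h => ⟨h.2.1, h.2.2.1, h.1⟩)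
    (R := R) ((hp.and hR).mono fun i h => ⟨h.1.2.2.2.1 h.2.1, h.1.2.2.2.2.1.trans_le h.2.2⟩)
    (fun b => by
      by_cases hb : b = 0
      · refine ⟨0, hp.mono fun i h => ?_⟩
        have e : res (O' i) b = 0 := by
          rw [hb]
          exact_mod_cast res_natCast (O' i) 0
        have := resK_isAlgClosed l (O' i)
        rw [e, show Vis ℓ (resK l (O' i)) (0 : Res (O' i)) = ∅ from
          Set.eq_empty_of_forall_notMem fun P hP => hP (by rw [ord_zero h.2.1]; exact dvd_zero _),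
          Set.ncard_empty]
      · obtain ⟨a, ha0, ha⟩ := cl_surj (Θ.symm (cl ℓ b))
        obtain ⟨n, hn⟩ := fam_vis hK h hO a
        refine ⟨n, ?_⟩
        filter_upwards [hp, hn, fama_top hO.1 ha0, fama_top hw hb] with i p1 p2 p3 p4
        rw [p1.2.2.2.2.2 a b p3 p4 (by rw [ha, Θ.apply_symm_apply])]
        exact p2)
    (by
      by_contra hx
      refine hB.ne_top hK (Nat.lt_succ_self _) (top_le_iff.1 (le_of_Hs_le hk hK hB fun v _ => ?_))
      obtain ⟨b, hb0, hb⟩ := cl_surj (Θ v)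
      have h5 : cl ℓ b ∈ (Hs ℓ (acl k (Set.range t) : Set K)).map Θ.toLinearMap := by
        refine (hex b).1 ?_
        filter_upwards [not_not.1 (not_exists.1 hx b), fama_top hw hb0] with i ⟨c, p1, p2⟩ p3
        have p4 : res (O' i) b = res (O' i) (algebraMap l L c) :=
          (res_eq_iff _ (resb_mem p3) p1).2 p2
        have p5 := resb_unit p1 (p4 ▸ resb_res_ne p3)
        have p6 : cl ℓ (b / algebraMap l L c) ∈ Nv ℓ (O' i) := cl_mem_Hs (resb_div p3 p5 p4)
        rwa [cl_div hb0 (resb_ne p5), cl_algebraMap, sub_zero] at p6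
      rwa [Submodule.mem_map_equiv, hb, Θ.symm_apply_apply] at h5)
  exact ⟨Finset K, 𝒰, O', M, inferInstance, κ, φ, hw,
    fun i => (hO.2 i).2.2.2.2.imp fun c h5 => (hc i).VInd h5, h1, h2, h3,
    fun b => (h4 b).trans (hex b)⟩

omit [IsAlgClosed k] in
theorem fama_acl {K' : Type*} [Field K'] [Algebra k K'] (f : K' →ₐ[k] K) {ι : Type*} {t : ι → K'}
    (h : AlgebraicIndependent k t) (y : K') :
    y ∈ acl k (Set.range t) ↔ f y ∈ acl k (Set.range (f ∘ t)) := by
  rw [mem_acl_iff, mem_acl_iff, ← not_iff_not, ← ffb_option h,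
    ← ffb_option (h.map' f.toRingHom.injective), ← f.algebraicIndependent_iff f.toRingHom.injective]
  refine iff_of_eq (congrArg (fun v => AlgebraicIndependent k v) (funext fun o => ?_))
  cases o <;> rfl

omit [IsAlgClosed k] [IsAlgClosed l] in
theorem fama_pi {K' : Type u} [Field K'] [Algebra k K'] [Algebra K' K]
    [IsScalarTower k K' K] [IsPurelyInseparable K' K] (hk' : (ℓ : K') ≠ 0) {r : ℕ}
    {Θ : V ℓ K ≃ₗ[ZMod ℓ] V ℓ L} {t : Fin r → K'} (h : AlgebraicIndependent k t)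
    (H : FamOut k l ((LinearEquiv.ofBijective _ (vmap_bijective_of_pi hk' K)).trans Θ) t) :
    FamOut k l Θ (IsScalarTower.toAlgHom k K' K ∘ t) := by
  obtain ⟨ι, 𝒰, O, M, _, κ, φ, h1, h2, h3, h4, h5, h6⟩ := H
  refine ⟨ι, 𝒰, O, M, inferInstance, κ, φ, h1, fun i => (h2 i).imp fun c hc => ?_, h3, h4, h5,
    fun b => (h6 b).trans ?_⟩
  · simpa only [LinearEquiv.trans_apply, LinearEquiv.ofBijective_apply, vmap_cl, map_sub,
      ← IsScalarTower.algebraMap_apply, Function.comp_apply, IsScalarTower.coe_toAlgHom'] using hc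
  · have e : (Hs ℓ (acl k (Set.range t) : Set K')).map (vmap ℓ (algebraMap K' K)) =
        Hs ℓ (acl k (Set.range (IsScalarTower.toAlgHom k K' K ∘ t)) : Set K) := by
      refine le_antisymm (Submodule.map_le_iff_le_comap.2 (Submodule.span_le.2 ?_))
        (Submodule.span_le.2 ?_)
      · rintro _ ⟨y, hy, rfl⟩
        rw [SetLike.mem_coe, Submodule.mem_comap, vmap_cl]
        exact cl_mem_Hs ((fama_acl (IsScalarTower.toAlgHom k K' K) h y).1 hy)
      · rintro _ ⟨a, ha, rfl⟩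
        obtain ⟨N, y, hN, hy, -⟩ := bas_pi hk' K a
        have hy' : y ∈ acl k (Set.range t) := (fama_acl (IsScalarTower.toAlgHom k K' K) h y).2 (by
          rw [IsScalarTower.coe_toAlgHom', hy]
          exact pow_mem ha N)
        have h7 := Submodule.mem_map_of_mem (f := vmap ℓ (algebraMap K' K))
          (cl_mem_Hs (ℓ := ℓ) (s := (acl k (Set.range t) : Set K')) hy')
        rw [vmap_cl, hy, cl_pow] at h7
        exact (Submodule.smul_mem_iff _ hN).1 h7
    rw [← e, ← Submodule.map_comp]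
    rfl

omit [IsAlgClosed k] in
theorem fama_sep {E K' : IntermediateField k K} {s : Set K} (hE : E = adjoin k s) (hle : E ≤ K')
    (h : ∀ y ∈ K', IsSeparable E y) (A : IntermediateField k K') (x : K')
    (hs : ∀ y : K', (y : K) ∈ s → y ∈ A ∨ y = x) : Algebra.IsSeparable A⟮x⟯ K' := by
  have h1 : E ≤ (A⟮x⟯.restrictScalars k).map K'.val := by
    rw [hE, adjoin_le_iff]
    intro y hy
    have hy' : y ∈ K' := hle (hE ▸ subset_adjoin _ _ hy)
    refine ⟨⟨y, hy'⟩, (mem_restrictScalars k).2 ?_, rfl⟩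
    rcases hs ⟨y, hy'⟩ hy with h0 | h0
    · exact IntermediateField.algebraMap_mem A⟮x⟯ ⟨_, h0⟩
    · rw [h0]
      exact mem_adjoin_simple_self _ _
  generalize A⟮x⟯ = E' at h1 ⊢
  have h2 : ∀ e : E, (IntermediateField.inclusion hle).toRingHom e ∈ E' := by
    intro e
    obtain ⟨y, hy, he⟩ := h1 e.2
    have h3 : (IntermediateField.inclusion hle).toRingHom e = y := Subtype.ext he.symm
    rw [h3]
    exact hy
  let _ : Algebra E E' :=
    (((IntermediateField.inclusion hle).toRingHom).codRestrict E' h2).toAlgebra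
  have : IsScalarTower E E' K := IsScalarTower.of_algebraMap_eq fun _ => rfl
  exact ⟨fun y => IsSeparable.tower_bot (K := K') (E := K) (IsSeparable.tower_top E' (h y y.2))⟩

theorem fam (hk : (ℓ : k) ≠ 0) (hl : (ℓ : l) ≠ 0) {r : ℕ} (hK : IsFF k K (r + 2))
    (hL : IsFF l L (r + 2)) {Θ : V ℓ K ≃ₗ[ZMod ℓ] V ℓ L} (hΘ : Compat Θ) {t : Fin (r + 1) → K}
    (h : AlgebraicIndependent k t) : FamOut k l Θ t := by
  obtain ⟨z, hz⟩ := IsFF.extend (r := r + 1) (s := 1) hK h (Fintype.card_fin _)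
  have hx : AlgebraicIndependent k (Sum.elim t fun _ : Unit => z 0) := by
    have := hz.comp (Sum.map id fun _ : Unit => (0 : Fin 1))
      (Function.Injective.sumMap Function.injective_id fun _ _ _ => rfl)
    refine (congrArg (fun v => AlgebraicIndependent k v) (funext fun o => ?_)).mp this
    cases o <;> rfl
  obtain ⟨E, hE⟩ : ∃ E, E = adjoin k (Set.range (Sum.elim t fun _ : Unit => z 0)) := ⟨_, rfl⟩
  have hfin : FiniteDimensional E K := hE ▸ hK.finite hx (by simp)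
  obtain ⟨K', hK'⟩ : ∃ K' : IntermediateField k K, ∀ y, y ∈ K' ↔ IsSeparable E y :=
    ⟨(separableClosure E K).restrictScalars k, fun y => mem_separableClosure_iff⟩
  have hle : E ≤ K' := fun y hy => (hK' y).2 (isSeparable_algebraMap (⟨y, hy⟩ : E))
  have hmem : ∀ o, Sum.elim t (fun _ : Unit => z 0) o ∈ K' := fun o =>
    hle (hE ▸ subset_adjoin _ _ ⟨o, rfl⟩)
  have hpi : IsPurelyInseparable K' K := by
    refine (isPurelyInseparable_iff_pow_mem K' (ringExpChar K)).2 fun y => ?_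
    obtain ⟨n, ⟨w, hw⟩, e⟩ := IsPurelyInseparable.pow_mem (separableClosure E K) (ringExpChar K) y
    exact ⟨n, ⟨w, (hK' w).2 hw⟩, e⟩
  obtain ⟨t', ht'⟩ : ∃ t' : Fin (r + 1) → K', ∀ j, (t' j : K) = t j :=
    ⟨fun j => ⟨t j, hmem (Sum.inl j)⟩, fun _ => rfl⟩
  obtain ⟨x', hx0⟩ : ∃ x' : K', (x' : K) = z 0 := ⟨⟨z 0, hmem (Sum.inr ())⟩, rfl⟩
  have hx' : AlgebraicIndependent k (Sum.elim t' fun _ : Unit => x') := by
    refine AlgebraicIndependent.of_comp K'.val
      ((congrArg (fun v => AlgebraicIndependent k v) (funext fun o => ?_)).mp hx)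
    rcases o with j | _
    · exact (ht' j).symm
    · exact hx0.symm
  have hF : IsFF k K' (r + 2) := by
    obtain ⟨a, h1, h2⟩ := hK.sub K'
    have h3 := h2.card_le hx'
    simp only [Fintype.card_sum, Fintype.card_fin, Fintype.card_unit] at h3
    rwa [show r + 2 = a by omega]
  have hk' : (ℓ : K') ≠ 0 := by
    rw [← map_natCast (algebraMap k K')]
    exact (map_ne_zero _).2 hk
  have hsep := fama_sep hE hle (fun y hy => (hK' y).1 hy) (acl k (Set.range t')) x' (by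
    rintro y ⟨j | _, e⟩
    · exact Or.inl (subset_acl _ ⟨j, Subtype.ext ((ht' j).trans e)⟩)
    · exact Or.inr (Subtype.ext (hx0.trans e).symm))
  have h1 := fam_sep hk hl hF hL ((compat_of_pi hk' K).trans hΘ) hx'
  have h2 := fama_pi hk' (hx'.comp Sum.inl Sum.inl_injective) h1
  rw [show t = IsScalarTower.toAlgHom k K' K ∘ t' from funext fun j => (ht' j).symm]
  exact h2

end P019
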