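import Vale.Agent.P019.FamKA

/-!
P019 FamK: the family on `K` attached to a flat `B = acl t` of codimension one.
`IsFam`: the common hypotheses.  `fam_res`: `VInd.zInd`, `res_const` for `A = B` show that
`resK B O = resK k O`; so `RInd B O x`, and `mono_res` over the base `B` (no value variables).
`fam_deg`: `res_finite` for `E = B(x)`, `cv_pdeg_eq`.  `fam_bdd`: a fixed relation
`G(x, a) = 0` over `B`, whose nonzero coefficients are eventually units; `cv_pdeg_of_rel`.
`fam_unr`: `θ` primitive over `B(x)`, `res_gen`, `cv_unr_le`.  `fam_vis`: `cv_ncard`.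
`fam_exact`: `ultra` with `f a i = res (O i) a` and `B = [K : B(x)]`, `kd_sep` with `n = 1`.
`famK`: `fam_data` for each finite set `S` (drop `0`), an ultrafilter finer than `atTop`.
-/

namespace P019

open IntermediateField

variable {ℓ : ℕ} [Fact ℓ.Prime] {k K : Type*} [Field k] [Field K] [Algebra k K] [IsAlgClosed k]

variable {r : ℕ} {t : Fin (r + 1) → K} {x : K} {ι : Type*} {𝒰 : Ultrafilter ι}
  {O : ι → ValuationSubring K}

omit [IsAlgClosed k] in
theorem famx_trans (h : AlgebraicIndependent k (Sum.elim t fun _ : Unit => x)) :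
    Transcendental (acl k (Set.range t)) x := by
  have ht : AlgebraicIndependent k t := h.comp Sum.inl Sum.inl_injective
  intro ha
  refine (ffb_option ht x).1 ?_ ((mem_acl_iff _ _).1 ((flat_acl ht).1 x ha))
  have h1 := h.comp (fun o : Option (Fin (r + 1)) => o.elim (Sum.inr ()) Sum.inl) (by
    rintro (_ | a) (_ | b) e <;> simp_all)
  convert h1 using 1
  ext o
  cases o <;> rfl

omit [IsAlgClosed k] in
theorem famx_fin (hK : IsFF k K (r + 2))
    (h : AlgebraicIndependent k (Sum.elim t fun _ : Unit => x)) :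
    FiniteDimensional (acl k (Set.range t))⟮x⟯ K := by
  have h1 := hK.finite h (by simp)
  have h2 : adjoin k (Set.range (Sum.elim t fun _ : Unit => x)) ≤
      (acl k (Set.range t))⟮x⟯.restrictScalars k := by
    rw [adjoin_le_iff]
    rintro _ ⟨j | j, rfl⟩
    · exact (acl k (Set.range t))⟮x⟯.algebraMap_mem ⟨t j, subset_acl _ ⟨j, rfl⟩⟩
    · exact mem_adjoin_simple_self _ x
  let _ : Algebra (adjoin k (Set.range (Sum.elim t fun _ : Unit => x)))
      (acl k (Set.range t))⟮x⟯ :=
    ((adjoin k (Set.range (Sum.elim t fun _ : Unit => x))).val.toRingHom.codRestrict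
      (acl k (Set.range t))⟮x⟯ fun z => h2 z.2).toAlgebra
  have : IsScalarTower (adjoin k (Set.range (Sum.elim t fun _ : Unit => x)))
      (acl k (Set.range t))⟮x⟯ K := IsScalarTower.of_algebraMap_eq fun _ => rfl
  exact Module.Finite.of_restrictScalars_finite
    (adjoin k (Set.range (Sum.elim t fun _ : Unit => x))) _ K

open Polynomial in
theorem famx_rel {B K : Type*} [Field B] [Field K] [Algebra B K] {x θ : K}
    (h : IsAlgebraic B⟮x⟯ θ) :
    ∃ G : B[X][X], G ≠ 0 ∧ (G.map (aeval x : B[X] →ₐ[B] K).toRingHom).eval θ = 0 := by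
  obtain ⟨p, hp, h0⟩ := isAlgebraic_adjoin_iff.1 h
  let φ : B[X] →+* Algebra.adjoin B {x} :=
    (aeval x : B[X] →ₐ[B] K).toRingHom.codRestrict (Algebra.adjoin B {x})
      fun q => aeval_mem_adjoin_singleton B x
  have hφ : Function.Surjective φ := fun z => by
    obtain ⟨q, hq⟩ := (Algebra.adjoin_singleton_eq_range_aeval B x).le z.2
    exact ⟨q, Subtype.ext hq⟩
  obtain ⟨G, rfl⟩ := map_surjective φ hφ p
  refine ⟨G, fun e => hp (by rw [e, Polynomial.map_zero]), ?_⟩
  rw [aeval_def, eval₂_map] at h0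
  rw [eval_map]
  exact h0

open Polynomial in
theorem famx_red {B K : Type*} [Field B] [Field K] [Algebra B K] (O : ValuationSubring K)
    {x θ : K} (hx : x ∈ O) (hθ : θ ∈ O) {G : B[X][X]} (hG : G ≠ 0)
    (hu : ∀ n j, (G.coeff n).coeff j ≠ 0 →
      O.valuation (algebraMap B K ((G.coeff n).coeff j)) = 1)
    (hrel : (G.map (aeval x : B[X] →ₐ[B] K).toRingHom).eval θ = 0) :
    ∃ H : (resK B O)[X][X], H ≠ 0 ∧ H.natDegree ≤ G.natDegree ∧
      (∀ n, (H.coeff n).natDegree ≤ (G.coeff n).natDegree) ∧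
      (H.map (aeval (res O x) : (resK B O)[X] →ₐ[resK B O] Res O).toRingHom).eval
        (res O θ) = 0 := by
  have hi : Function.Injective (O.comap (algebraMap B K)).subtype := Subtype.val_injective
  have hl : G ∈ lifts (mapRingHom (O.comap (algebraMap B K)).subtype) := by
    rw [lifts_iff_coeff_lifts]
    intro n
    have : G.coeff n ∈ lifts (O.comap (algebraMap B K)).subtype := by
      rw [lifts_iff_coeff_lifts]
      intro j
      refine ⟨⟨(G.coeff n).coeff j, ?_⟩, rfl⟩
      by_cases e : (G.coeff n).coeff j = 0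
      · rw [e]
        exact zero_mem _
      · exact ValuationSubring.mem_comap.2 (resb_mem (hu n j e))
    exact this
  obtain ⟨G₀, rfl⟩ := (mem_lifts _).1 hl
  refine ⟨G₀.map (mapRingHom (monoPhi B O)), fun e => hG ?_, ?_, fun n => ?_, ?_⟩
  · ext n j
    by_contra e'
    have h1 := resb_res_ne (hu n j e')
    have h2 := congrArg (fun H => ((coeff (coeff H n) j : resK B O) : Res O)) e
    simp only [coeff_map, coe_mapRingHom, coeff_zero] at h1 h2
    exact h1 h2
  · exact natDegree_map_le.trans (natDegree_map_eq_of_injective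
      (f := mapRingHom (O.comap (algebraMap B K)).subtype) (map_injective _ hi) G₀).ge
  · simp only [coeff_map, coe_mapRingHom]
    rw [natDegree_map_eq_of_injective hi]
    exact natDegree_map_le
  · let j : O.comap (algebraMap B K) →+* O :=
      ((algebraMap B K).comp (O.comap (algebraMap B K)).subtype).codRestrict O fun c => c.2
    have h1 : G₀.eval₂ (eval₂RingHom j ⟨x, hx⟩) ⟨θ, hθ⟩ = 0 := by
      apply Subtype.val_injective
      have e : O.subtype.comp (eval₂RingHom j ⟨x, hx⟩) = (aeval x : B[X] →ₐ[B] K).toRingHom.comp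
          (mapRingHom (O.comap (algebraMap B K)).subtype) := by
        refine Polynomial.ringHom_ext (fun c => ?_) ?_
        · simp only [RingHom.comp_apply, coe_eval₂RingHom, eval₂_C, coe_mapRingHom, map_C,
            AlgHom.toRingHom_eq_coe, RingHom.coe_coe, aeval_C]
          rfl
        · simp
      have h2 := hom_eval₂ G₀ (eval₂RingHom j ⟨x, hx⟩) O.subtype ⟨θ, hθ⟩
      rw [e] at h2
      rw [Polynomial.map_map, eval_map] at hrel
      exact h2.trans hrel
    have e : (IsLocalRing.residue O).comp (eval₂RingHom j ⟨x, hx⟩) =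
        (aeval (res O x) : (resK B O)[X] →ₐ[resK B O] Res O).toRingHom.comp
          (mapRingHom (monoPhi B O)) := by
      refine Polynomial.ringHom_ext (fun c => ?_) ?_
      · simp only [RingHom.comp_apply, coe_eval₂RingHom, eval₂_C, coe_mapRingHom, map_C,
          AlgHom.toRingHom_eq_coe, RingHom.coe_coe, aeval_C]
        exact (resb_coe O (j c)).symm
      · simp only [RingHom.comp_apply, coe_eval₂RingHom, eval₂_X, coe_mapRingHom, map_X,
          AlgHom.toRingHom_eq_coe, RingHom.coe_coe, aeval_X]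
        exact (resb_coe O ⟨x, hx⟩).symm
    have h2 := hom_eval₂ G₀ (eval₂RingHom j ⟨x, hx⟩) (IsLocalRing.residue O) ⟨θ, hθ⟩
    rw [h1, map_zero, e, ← resb_coe O ⟨θ, hθ⟩] at h2
    rw [Polynomial.map_map, eval_map]
    exact h2.symm

theorem famx_unit {K : Type*} [Field K] {ι : Type*} {𝒰 : Ultrafilter ι}
    {O : ι → ValuationSubring K} (h : VLim (𝒰 : Filter ι) O ⊤) {a : K} (ha : a ≠ 0) :
    ∀ᶠ i in (𝒰 : Filter ι), (O i).valuation a = 1 := by
  refine (h.eq_one a).1 ((resb_eq_one_iff _ a).2 ⟨ValuationSubring.mem_top a, ?_⟩)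
  rw [resb_lt_one_iff]
  rintro (e | e)
  · exact ha e
  · exact e (ValuationSubring.mem_top _)

theorem fam_unr (hK : IsFF k K (r + 2))
    (h : AlgebraicIndependent k (Sum.elim t fun _ : Unit => x))
    [Algebra.IsSeparable (acl k (Set.range t))⟮x⟯ K] (hO : IsFam ℓ k t x 𝒰 O) :
    ∃ R : ℕ, ∀ᶠ i in (𝒰 : Filter ι), (Unr ℓ (resK k (O i)) (Res (O i))).Finite ∧
      (Unr ℓ (resK k (O i)) (Res (O i))).ncard ≤ R := by
  have := famx_fin hK h
  obtain ⟨θ, hθ⟩ := Field.exists_primitive_element (acl k (Set.range t))⟮x⟯ K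
  obtain ⟨S, hS⟩ := res_gen hθ
  obtain ⟨G, hG, hrel⟩ := famx_rel
    (Algebra.IsAlgebraic.isAlgebraic (R := (acl k (Set.range t))⟮x⟯) θ)
  refine ⟨ℓ ^ (2 * (max G.natDegree (G.support.sup fun n => (G.coeff n).natDegree)) ^ 4), ?_⟩
  have h1 : ∀ᶠ i in (𝒰 : Filter ι), ∀ a ∈ S, algebraMap _ K a ∈ O i :=
    (Filter.eventually_all_finset S).2 fun a _ => (hO.1 _).1 (ValuationSubring.mem_top _)
  have h2 : ∀ᶠ i in (𝒰 : Filter ι), ∀ n ∈ G.support, ∀ j ∈ (G.coeff n).support,
      (O i).valuation (algebraMap _ K ((G.coeff n).coeff j)) = 1 :=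
    (Filter.eventually_all_finset _).2 fun n _ => (Filter.eventually_all_finset _).2 fun j hj =>
      famx_unit hO.1 ((map_ne_zero _).2 (Polynomial.mem_support_iff.1 hj))
  filter_upwards [h1, h2] with i h1 h2
  obtain ⟨hff, hlf, hl, hx, -⟩ := hO.2 i
  obtain ⟨e, hr⟩ := fam_res h hO i
  obtain ⟨hθO, hgen⟩ := hS (O i) h1
  obtain ⟨H, hH, hd, hm, hz⟩ := famx_red (O i) (hx.1 ()) hθO hG (fun n j hj => h2 n
    (Polynomial.mem_support_iff.2 fun e => hj (by rw [e, Polynomial.coeff_zero])) j
    (Polynomial.mem_support_iff.2 hj)) hrel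
  have := resK_isAlgClosed k (O i)
  have hg : adjoin (resK k (O i)) {res (O i) x, res (O i) θ} = ⊤ := by
    rw [eq_top_iff]
    intro z _
    have hz : z ∈ (resK (acl k (Set.range t))⟮x⟯ (O i))⟮res (O i) θ⟯.toSubfield := by
      rw [hgen]
      trivial
    rw [adjoin_toSubfield] at hz
    refine (Subfield.closure_le
      (t := (adjoin (resK k (O i)) {res (O i) x, res (O i) θ}).toSubfield)).2 ?_ hz
    rintro w (⟨c, rfl⟩ | rfl)
    · obtain ⟨a, ha, ea⟩ := (mem_resK (O i) _).1 c.2
      have h3 := hr a a.2 ha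
      change c.1 ∈ adjoin (resK k (O i)) {res (O i) x, res (O i) θ}
      rw [ea]
      exact adjoin.mono _ _ _ (by simp) h3
    · exact subset_adjoin _ _ (by simp)
  have htr : Transcendental (resK k (O i)) (res (O i) x) := hx.2.transcendental ()
  have hl' : (ℓ : resK k (O i)) ≠ 0 := res_ne_zero_of_val hl
  revert this
  revert hff hlf hg htr hl'
  rw [← e]
  intro hff hlf hg htr hl' _
  refine cv_unr_le hff hlf hl' htr hg hH (hd.trans (le_max_left _ _)) (fun n => ?_) hz
  refine (hm n).trans ?_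
  by_cases hn : n ∈ G.support
  · exact (Finset.le_sup (f := fun n => (G.coeff n).natDegree) hn).trans (le_max_right _ _)
  · rw [Polynomial.notMem_support_iff.1 hn, Polynomial.natDegree_zero]
    exact Nat.zero_le _

theorem fam_exact (hℓ : (ℓ : k) ≠ 0) (hK : IsFF k K (r + 2))
    (h : AlgebraicIndependent k (Sum.elim t fun _ : Unit => x))
    [Algebra.IsSeparable (acl k (Set.range t))⟮x⟯ K] (hO : IsFam ℓ k t x 𝒰 O) (a : K) :
    (∀ᶠ i in (𝒰 : Filter ι), cl ℓ a ∈ Nv ℓ (O i)) ↔
      cl ℓ a ∈ Hs ℓ (acl k (Set.range t) : Set K) := by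
  have ht : AlgebraicIndependent k t := h.comp Sum.inl Sum.inl_injective
  have hB := flat_acl ht
  by_cases ha : a = 0
  · subst ha
    rw [cl_zero]
    exact iff_of_true (Filter.Eventually.of_forall fun _ => zero_mem _) (zero_mem _)
  have hu := famx_unit hO.1 ha
  refine ⟨fun hN => ?_, fun hH => ?_⟩
  · by_contra hn
    have := famx_fin hK h
    have := fun i => resK_isAlgClosed k (O i)
    have hm : ∀ b : K, ∀ᶠ i in (𝒰 : Filter ι), b ∈ O i := fun b =>
      (hO.1 b).1 (ValuationSubring.mem_top _)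
    obtain ⟨M, _, κ, φ, _, htr, _, hle, hκ, hroot⟩ := ultra 𝒰 (fun i => resK k (O i))
      (Filter.Eventually.of_forall fun i => (hO.2 i).1) (fun b i => res (O i) b)
      (fun b c => by filter_upwards [hm b, hm c] with i hb hc using res_add _ hb hc)
      (fun b c => by filter_upwards [hm b, hm c] with i hb hc using res_mul _ hb hc)
      (Filter.Eventually.of_forall fun i => res_one _) (fam_bdd hK h hO) (x := x)
      (Filter.Eventually.of_forall fun i hi => (hO.2 i).2.2.2.1.2.transcendental ()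
        (isAlgebraic_algebraMap (⟨_, hi⟩ : resK k (O i))))
      (Filter.Eventually.of_forall (fam_deg hK h hO))
    have h1 := kd_sep k hℓ (C := acl k (Set.range t)) (fun z hz => ⟨⟨z, hB.1 z hz⟩, rfl⟩)
      (famx_trans h) κ φ (fun c => (hκ _).2 (Filter.Eventually.of_forall fun i =>
        (fam_res h hO i).1 ▸ Subfield.subset_closure ⟨c, rfl⟩)) htr (n := 1) (a := fun _ => a)
      (by
        rw [linearIndependent_unique_iff]
        intro e
        rw [Submodule.mkQ_apply, Submodule.Quotient.mk_eq_zero] at e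
        refine hn (Hs_mono ?_ e)
        rintro _ ⟨c, rfl⟩
        exact c.2)
      (fun _ => (hroot a ℓ (Fact.out : ℓ.Prime).ne_zero).2 (by
        filter_upwards [hN, hu] with i h1 h2
        exact (cl_eq_zero_iff (resb_res_ne h2)).1 ((cl_mem_Nv_iff _ h2).1 h1)))
    have h2 : 0 < Module.finrank (acl k (Set.range t))⟮x⟯ K := Module.finrank_pos
    have h3 := (Fact.out : ℓ.Prime).two_le
    rw [pow_one] at h1
    nlinarith
  · filter_upwards [hu] with i hi
    obtain ⟨c, hc⟩ := (hO.2 i).2.2.2.2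
    exact Hs_inf_Uv_le (acl k (Set.range t)) (hB.2.trans (by simp)).le hc
      (fun j => cl_mem_Hs (sub_mem (subset_acl _ ⟨j, rfl⟩) (IntermediateField.algebraMap_mem _ _)))
      ⟨hH, (mem_Uv_iff _ _).2 ⟨a, hi, rfl⟩⟩

end P019
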