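import Vale.Agent.P019.Key

/-!
P019 FamKA: the family on `K` attached to a flat `B = acl t` of codimension one.
`IsFam`: the common hypotheses.  `fam_res`: `VInd.zInd`, `res_const` for `A = B` show that
`resK B O = resK k O`; so `RInd B O x`, and `mono_res` over the base `B` (no value variables).
`fam_deg`: `res_finite` for `E = B(x)`, `cv_pdeg_eq`.  `fam_bdd`: a fixed relation
`G(x, a) = 0` over `B`, whose nonzero coefficients are eventually units; `cv_pdeg_of_rel`.
`fam_unr`: `θ` primitive over `B(x)`, `res_gen`, `cv_unr_le`.  `fam_vis`: `cv_ncard`.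
`fam_exact`: `ultra` with `f a i = res (O i) a` and `B = [K : B(x)]`, `kd_sep` with `n = 1`.
`famK`: `fam_data` for each finite set `S` (drop `0`), an ultrafilter finer than `atTop`.
-/

namespace P019

open IntermediateField

variable {ℓ : ℕ} [Fact ℓ.Prime] {k K : Type*} [Field k] [Field K] [Algebra k K] [IsAlgClosed k]

variable (ℓ k) in
def IsFam {r : ℕ} (t : Fin (r + 1) → K) (x : K) {ι : Type*} (𝒰 : Ultrafilter ι)
    (O : ι → ValuationSubring K) : Prop :=
  VLim (𝒰 : Filter ι) O ⊤ ∧ ∀ i, IsFF (resK k (O i)) (Res (O i)) 1 ∧ LocFin (resK k (O i)) ∧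
    (O i).valuation (ℓ : K) = 1 ∧ RInd k (O i) (fun _ : Unit => x) ∧
    ∃ c : Fin (r + 1) → k, VInd ℓ (O i) fun j => cl ℓ (t j - algebraMap k K (c j))

variable {r : ℕ} {t : Fin (r + 1) → K} {x : K} {ι : Type*} {𝒰 : Ultrafilter ι}
  {O : ι → ValuationSubring K}

/-- comparison of dimensions over two base fields -/
theorem fk_fin {A T E : Type*} [Field A] [Field T] [Field E] [Algebra A E] [Algebra T E]
    (h : ∀ z : T, ∃ a : A, algebraMap A E a = algebraMap T E z) [FiniteDimensional T E] :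
    FiniteDimensional A E ∧ Module.finrank A E ≤ Module.finrank T E := by
  let b := Module.finBasis T E
  have hs : Submodule.span A (Set.range b) = ⊤ := by
    refine eq_top_iff.2 fun v _ => ?_
    rw [← b.sum_repr v]
    refine Submodule.sum_mem _ fun i _ => ?_
    obtain ⟨a, ha⟩ := h (b.repr v i)
    rw [Algebra.smul_def, ← ha, ← Algebra.smul_def]
    exact Submodule.smul_mem _ _ (Submodule.subset_span ⟨i, rfl⟩)
  refine ⟨⟨Submodule.fg_def.2 ⟨_, Set.finite_range b, hs⟩⟩, ?_⟩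
  simpa using finrank_le_of_span_eq_top hs

omit [IsAlgClosed k] in
theorem fk_finE (hK : IsFF k K (r + 2))
    (h : AlgebraicIndependent k (Sum.elim t fun _ : Unit => x)) :
    FiniteDimensional (acl k (Set.range t))⟮x⟯ K := by
  have := hK.finite h (by simp)
  have h1 : adjoin k (Set.range (Sum.elim t fun _ : Unit => x)) ≤
      (acl k (Set.range t))⟮x⟯.restrictScalars k := by
    refine adjoin_le_iff.2 ?_
    rintro _ ⟨j | j, rfl⟩
    · exact (acl k (Set.range t))⟮x⟯.algebraMap_mem ⟨t j, subset_acl _ ⟨j, rfl⟩⟩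
    · exact mem_adjoin_simple_self _ x
  exact (fk_fin (T := adjoin k (Set.range (Sum.elim t fun _ : Unit => x)))
    fun z => ⟨⟨z.1, h1 z.2⟩, rfl⟩).1

open Polynomial in
/-- a relation between `x` and `a` -/
theorem fk_rel {B : Type*} [Field B] [Algebra B K] {x a : K} (h : IsAlgebraic B⟮x⟯ a) :
    ∃ G : B[X][X], G ≠ 0 ∧ (G.map (aeval x : B[X] →ₐ[B] K).toRingHom).eval a = 0 := by
  obtain ⟨p, hp, hpa⟩ := isAlgebraic_adjoin_iff.1 h
  obtain ⟨G, hG⟩ := (mem_lifts _).1 ((lifts_iff_coeff_lifts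
    (f := (aeval x : B[X] →ₐ[B] K).toRingHom) (p.map (algebraMap _ K))).2 fun n => by
      rw [coeff_map]
      exact (Algebra.adjoin_singleton_eq_range_aeval B x).le (p.coeff n).2)
  refine ⟨G, fun h0 => hp ?_, ?_⟩
  · rw [h0, Polynomial.map_zero] at hG
    exact (Polynomial.map_eq_zero_iff Subtype.val_injective).1 hG.symm
  · rw [hG, eval_map, ← aeval_def, hpa]

open Polynomial in
/-- reduction of a relation -/
theorem fk_red {B : Type*} [Field B] [Algebra B K] (O : ValuationSubring K) {x a : K} (hx : x ∈ O)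
    (ha : a ∈ O) {G : B[X][X]} (hG : G ≠ 0)
    (hu : ∀ n m, (G.coeff n).coeff m ≠ 0 → O.valuation (algebraMap B K ((G.coeff n).coeff m)) = 1)
    (hrel : (G.map (aeval x : B[X] →ₐ[B] K).toRingHom).eval a = 0) :
    ∃ G' : (resK B O)[X][X], G' ≠ 0 ∧ (∀ n, (G'.coeff n).natDegree ≤ (G.coeff n).natDegree) ∧
      (G'.map (aeval (res O x) : (resK B O)[X] →ₐ[resK B O] Res O).toRingHom).eval (res O a) = 0 := by
  let O' := O.comap (algebraMap B K)
  obtain ⟨G₀, h0⟩ := (mem_lifts _).1 ((lifts_iff_coeff_lifts (f := mapRingHom O'.subtype) G).2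
    fun n => (mem_lifts _).1 ((lifts_iff_coeff_lifts (f := O'.subtype) _).2 fun m => by
      by_cases hc : (G.coeff n).coeff m = 0
      · exact ⟨0, hc.symm⟩
      · exact ⟨⟨_, resb_mem (O := O) (hu n m hc)⟩, rfl⟩))
  have hc : ∀ n, (G₀.coeff n).map O'.subtype = G.coeff n := fun n => by
    rw [← h0, coeff_map, coe_mapRingHom]
  refine ⟨G₀.map (mapRingHom (monoPhi B O)), fun h1 => hG ?_, fun n => ?_, ?_⟩
  · ext n m
    by_contra h2
    have h3 := congrArg (fun p => ((p.coeff n).coeff m : Res O)) h1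
    simp only [coeff_map, coe_mapRingHom, coeff_zero] at h3
    refine resb_res_ne (hu n m h2) ?_
    rw [← hc, coeff_map]
    exact h3
  · rw [coeff_map, coe_mapRingHom, ← hc, natDegree_map_eq_of_injective O'.subtype_injective]
    exact natDegree_map_le
  · let j : O' →+* O := ((algebraMap B K).comp O'.subtype).codRestrict O fun c => c.2
    let ψ : O'[X] →+* O := eval₂RingHom j ⟨x, hx⟩
    have e1 : O.subtype.comp ψ =
        (aeval x : B[X] →ₐ[B] K).toRingHom.comp (mapRingHom O'.subtype) := by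
      ext c
      · simp only [ψ, RingHom.comp_apply, coe_eval₂RingHom, eval₂_C, coe_mapRingHom, map_C]
        exact (aeval_C x (c : B)).symm
      · simp [ψ]
    have e2 : (IsLocalRing.residue O).comp ψ =
        (aeval (res O x) : (resK B O)[X] →ₐ[resK B O] Res O).toRingHom.comp
          (mapRingHom (monoPhi B O)) := by
      ext c
      · simp only [ψ, RingHom.comp_apply, coe_eval₂RingHom, eval₂_C, coe_mapRingHom, map_C]
        rw [← resb_coe]
        exact (aeval_C (res O x) (monoPhi B O c)).symm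
      · simp only [ψ, RingHom.comp_apply, coe_eval₂RingHom, eval₂_X, coe_mapRingHom, map_X]
        rw [← resb_coe]
        exact (aeval_X (R := resK B O) (res O x)).symm
    have h1 : G₀.eval₂ ψ ⟨a, ha⟩ = 0 := by
      refine O.subtype_injective ?_
      rw [hom_eval₂, e1, map_zero, ← hrel, ← h0, Polynomial.map_map, eval_map]
      rfl
    have h2 := congrArg (IsLocalRing.residue O) h1
    rw [hom_eval₂, e2, map_zero, ← resb_coe] at h2
    rw [Polynomial.map_map, eval_map]
    exact h2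

theorem fam_res (h : AlgebraicIndependent k (Sum.elim t fun _ : Unit => x))
    (hO : IsFam ℓ k t x 𝒰 O) (i : ι) :
    resK (acl k (Set.range t)) (O i) = resK k (O i) ∧
      ∀ a ∈ (acl k (Set.range t))⟮x⟯, a ∈ O i → res (O i) a ∈ (resK k (O i))⟮res (O i) x⟯ := by
  obtain ⟨-, -, -, hx, c, hc⟩ := hO.2 i
  have ht : AlgebraicIndependent k t := h.comp Sum.inl Sum.inl_injective
  have hB : Algebra.trdeg k (acl k (Set.range t)) ≤ (r + 1 : ℕ) := by
    rw [(flat_acl ht).2, Fintype.card_fin]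
  have e : resK (acl k (Set.range t)) (O i) = resK k (O i) := by
    ext z
    rw [mem_resK, mem_resK]
    constructor
    · rintro ⟨b, hb, rfl⟩
      obtain ⟨d, hd, h1⟩ := res_const _ hB (hc.zInd (k := k))
        (fun j => sub_mem (subset_acl _ ⟨j, rfl⟩) (IntermediateField.algebraMap_mem _ _)) b.2 hb
      exact ⟨d, hd, (res_eq_iff _ hb hd).2 h1⟩
    · rintro ⟨d, hd, rfl⟩
      exact ⟨⟨_, IntermediateField.algebraMap_mem _ d⟩, hd, rfl⟩
  refine ⟨e, fun a ha hOa => ?_⟩
  have h1 : RInd (acl k (Set.range t)) (O i) fun _ : Unit => x := by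
    unfold RInd
    rw [e]
    exact hx
  have h2 := mono_res (mono_zind (O i)) h1 (a := a)
    (adjoin.mono _ _ _ (Set.singleton_subset_iff.2 (Set.mem_range.2 ⟨Sum.inr (), rfl⟩)) ha) hOa
  rw [Set.range_const] at h2
  change res (O i) a ∈ ((resK k (O i))⟮res (O i) x⟯).toSubfield
  rw [← e]
  exact h2

theorem fam_deg (hK : IsFF k K (r + 2))
    (h : AlgebraicIndependent k (Sum.elim t fun _ : Unit => x)) (hO : IsFam ℓ k t x 𝒰 O) (i : ι) :
    pdeg (resK k (O i)) (res (O i) x) ≤ Module.finrank (acl k (Set.range t))⟮x⟯ K := by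
  have := fk_finE hK h
  have := resK_isAlgClosed k (O i)
  obtain ⟨h1, -, -, hx, -⟩ := hO.2 i
  obtain ⟨h2, h3⟩ := res_finite (acl k (Set.range t))⟮x⟯ (O i)
  rw [(cv_pdeg_eq h1 (hx.2.transcendental ())).1]
  refine le_trans (fk_fin (T := resK (acl k (Set.range t))⟮x⟯ (O i)) fun z => ?_).2 h3
  obtain ⟨a, ha, hz⟩ := (mem_resK _ _).1 z.2
  exact ⟨⟨_, (fam_res h hO i).2 a.1 a.2 ha⟩, hz.symm⟩

theorem fam_bdd (hK : IsFF k K (r + 2))
    (h : AlgebraicIndependent k (Sum.elim t fun _ : Unit => x)) (hO : IsFam ℓ k t x 𝒰 O) (a : K) :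
    ∃ D : ℕ, ∀ᶠ i in (𝒰 : Filter ι), pdeg (resK k (O i)) (res (O i) a) ≤ D := by
  have := fk_finE hK h
  obtain ⟨G, hG, hrel⟩ := fk_rel (Algebra.IsAlgebraic.isAlgebraic (R := (acl k (Set.range t))⟮x⟯) a)
  refine ⟨(G.support.sup fun n => (G.coeff n).natDegree) *
    Module.finrank (acl k (Set.range t))⟮x⟯ K, ?_⟩
  have h1 : ∀ᶠ i in (𝒰 : Filter ι), ∀ n ∈ G.support, ∀ m ∈ (G.coeff n).support,
      (O i).valuation (algebraMap _ K ((G.coeff n).coeff m)) = 1 :=
    (Filter.eventually_all_finset _).2 fun n _ => (Filter.eventually_all_finset _).2 fun m hm =>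
      (hO.1.eq_one _).1 (by
        have h0 := (map_ne_zero (algebraMap _ K)).2 (Polynomial.mem_support_iff.1 hm)
        rw [resb_eq_one_iff, resb_lt_one_iff]
        exact ⟨trivial, fun h' => h'.elim h0 fun h'' => h'' trivial⟩)
  filter_upwards [h1, (hO.1 a).1 trivial] with i h2 h3
  have := resK_isAlgClosed k (O i)
  obtain ⟨h4, -, -, hx, -⟩ := hO.2 i
  have h5 := fk_red (O i) (hx.1 ()) h3 hG (fun n m hm => h2 n (Polynomial.mem_support_iff.2
    fun h0 => hm (by rw [h0, Polynomial.coeff_zero])) m (Polynomial.mem_support_iff.2 hm)) hrel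
  rw [(fam_res h hO i).1] at h5
  obtain ⟨G', g1, g2, g3⟩ := h5
  refine (cv_pdeg_of_rel h4 (hx.2.transcendental ()) g1 (fun n => (g2 n).trans ?_) g3).trans
    (Nat.mul_le_mul_left _ (fam_deg hK h hO i))
  by_cases hn : n ∈ G.support
  · exact Finset.le_sup (f := fun n => (G.coeff n).natDegree) hn
  · rw [Polynomial.notMem_support_iff.1 hn]
    exact Nat.zero_le _

theorem fam_vis (hK : IsFF k K (r + 2))
    (h : AlgebraicIndependent k (Sum.elim t fun _ : Unit => x)) (hO : IsFam ℓ k t x 𝒰 O) (a : K) :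
    ∃ n : ℕ, ∀ᶠ i in (𝒰 : Filter ι), (Vis ℓ (resK k (O i)) (res (O i) a)).ncard ≤ n := by
  obtain ⟨D, hD⟩ := fam_bdd hK h hO a
  refine ⟨2 * D, hD.mono fun i hi => ?_⟩
  have := resK_isAlgClosed k (O i)
  have h1 := (hO.2 i).1
  refine le_trans (Set.ncard_le_ncard (fun P hP => ?_) (cv_finite h1 (res (O i) a)))
    ((cv_ncard h1 (res (O i) a)).trans (Nat.mul_le_mul_left 2 hi))
  intro h0
  refine hP ?_
  rw [h0]
  exact dvd_zero _

theorem famK (hℓ : (ℓ : k) ≠ 0) (hK : IsFF k K (r + 2))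
    (h : AlgebraicIndependent k (Sum.elim t fun _ : Unit => x)) :
    ∃ (𝒰 : Ultrafilter (Finset K)) (O Om : Finset K → ValuationSubring K), IsFam ℓ k t x 𝒰 O ∧
      ∀ i, O i ≤ Om i ∧ IRank ℓ (O i) (r + 1) ∧ IRank ℓ (Om i) r ∧
        (∃ σ : X ℓ K, IsCanon σ (O i)) ∧ (∃ σ : X ℓ K, IsCanon σ (Om i)) ∧
        IsFF (resK k (Om i)) (Res (Om i)) 2 := by
  classical
  choose O Om h1 h2 h3 h4 h5 h6 h7 h8 h9 h10 h11 h12 using fun S : Finset K =>
    fam_data hℓ hK h (S.erase 0) fun a ha => Finset.ne_of_mem_erase ha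
  refine ⟨Ultrafilter.of Filter.atTop, O, Om, ⟨fun a => ⟨fun _ => ?_, fun _ => trivial⟩,
    fun i => ⟨h6 i, h9 i, h8 i, h11 i, h12 i⟩⟩, fun i => ⟨h1 i, h2 i, h3 i, h4 i, h5 i, h7 i⟩⟩
  refine ((Filter.eventually_ge_atTop {a}).mono fun S hS => ?_).filter_mono (Ultrafilter.of_le _)
  by_cases h0 : a = 0
  · rw [h0]
    exact zero_mem _
  · exact resb_mem (h10 S a (Finset.mem_erase.2 ⟨h0, hS (Finset.mem_singleton_self a)⟩))

end P019
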