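import Vale.Agent.P019.Loc4A

/-!
P019 Loc4: incomparable valuation rings, comparability, `NC`, `InCl`, transport.
`exists_join`: let `S = {t | v₁ t < 1 < v₂ t}` (nonempty: `a/b`; closed under products).
`O₃ = {y | ∃ t ∈ S, y t ∈ O₁}` and `O₃' = {y | ∃ t ∈ S, y/t ∈ O₂}` are rings containing `O₁` and
`O₂` (if `y ∈ O₂ \ O₁` then `t₀/y ∈ S`), so valuation rings, comparable (both contain `O₁`); take
the smaller one.  For a unit `x` choose `t ∈ S` with `t, t x, t/x ∈ m₁`, `1/t, x/t, 1/(x t) ∈ m₂`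
(products/squares of elements of `S`), `e = 1/(1+t)`, `a = e + x (1 - e)`, `b = x/a`.
`NC.valuative`: if `τ` is not valuative, replace `ρ_i` by valuative `ρ_i + a_i τ`
(`exists_valuative_comb`), with canonical rings `u_i`, `τ ∈ D u_i`; comparable `u_i` give a C-pair,
incomparable ones give `τ ∈ I O₃`.
`transport`: `I' = {τ | τ ∘ Θ ∈ I O}`, `D'` likewise.  Elements of `I'` are `NC`, so valuative,
pairwise C-pairs, so their canonical rings (finitely many, include `τ = 0`) are comparable; `O'` is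
the smallest, `O' = O_τ₀`.  `D' ⊆ D O'` by `mem_Dv`; `D O' ⊆ D O_σ' ⊆ D'` since `D O` is the
centralizer of `σ`; `I O' ⊆` center.  Pass to `U`, `N` with `mem_Uv_of_forall`, `mem_Nv_of_forall`.
-/

namespace P019

variable {ℓ : ℕ} {F : Type*} [Field F]

variable [Fact ℓ.Prime]

theorem loc4_finite {O : ValuationSubring F} {r : ℕ} (hr : IRank ℓ O r) : Finite (Iv ℓ O) := by
  have := hr.finite_Iv.1
  exact Module.finite_of_finite (ZMod ℓ)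

theorem loc4_min {ι α : Type*} [Finite ι] [Nonempty ι] [PartialOrder α] (c : ι → α)
    (h : ∀ i j, c i ≤ c j ∨ c j ≤ c i) : ∃ i, ∀ j, c i ≤ c j := by
  obtain ⟨i, hi⟩ := (Set.toFinite (Set.univ : Set ι)).exists_minimalFor c _ Set.univ_nonempty
  exact ⟨i, fun j => (h i j).elim id fun h' => hi.2 (Set.mem_univ j) h'⟩

/-- the smallest of the canonical rings of the elements of `I O` (all contain `O`) -/
theorem exists_canon_hull (k : Type*) [Field k] [Algebra k F] [IsAlgClosed k]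
    {O : ValuationSubring F} {r : ℕ} (hr : IRank ℓ O r) :
    ∃ Oc : ValuationSubring F, O ≤ Oc ∧ Uv ℓ Oc = Uv ℓ O ∧ ∃ σ : X ℓ F, IsCanon σ Oc := by
  have := loc4_finite hr
  choose c hc using fun σ : Iv ℓ O => Valuative.exists_canon k (σ := σ.1) ⟨O, σ.2⟩
  have hO : ∀ σ, O ≤ c σ := fun σ => (hc σ).2 O σ.2
  obtain ⟨σ₀, h₀⟩ := loc4_min c fun σ τ =>
    le_total (α := {S // O ≤ S}) ⟨c σ, hO σ⟩ ⟨c τ, hO τ⟩
  refine ⟨c σ₀, hO σ₀, le_antisymm (fun v hv => ?_) (Uv_mono (hO σ₀)), σ₀.1, hc σ₀⟩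
  exact mem_Uv_of_forall O v fun σ hσ =>
    (Submodule.mem_dualAnnihilator _).1 (Iv_anti (h₀ ⟨σ, hσ⟩) (hc ⟨σ, hσ⟩).1) v hv

/-- a valuative character in `D O \ I O`, `O` canonical, comes from a refinement of `O` -/
theorem exists_le_of_valuative (k : Type*) [Field k] [Algebra k F] [IsAlgClosed k]
    {O : ValuationSubring F} (hcan : ∃ σ : X ℓ F, IsCanon σ O) {τ : X ℓ F} (hτ : Valuative τ)
    (hD : τ ∈ Dv ℓ O) (hI : τ ∉ Iv ℓ O) : ∃ W, W ≤ O ∧ τ ∈ Iv ℓ W := by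
  obtain ⟨W, hW⟩ := hτ.exists_canon k
  obtain ⟨_, _⟩ := hcan
  exact ⟨W, (hW.comparable hD).resolve_right fun h => hI (Iv_anti h hW.1), hW.1⟩

theorem transport (k l : Type*) {K L : Type*} [Field k] [Field K] [Algebra k K] [IsAlgClosed k]
    [Field l] [Field L] [Algebra l L] [IsAlgClosed l] {Θ : V ℓ K ≃ₗ[ZMod ℓ] V ℓ L}
    (hΘ : Compat Θ) {O : ValuationSubring K} {r : ℕ} (hr : IRank ℓ O r)
    (hcan : ∃ σ : X ℓ K, IsCanon σ O)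
    (hnc : ∃ ρ₁ ∈ Dv ℓ O, ∃ ρ₂ ∈ Dv ℓ O, ¬ CP ρ₁ ρ₂)
    (hz : ∀ τ ∈ Dv ℓ O, (∀ ρ ∈ Dv ℓ O, CP τ ρ) → τ ∈ Iv ℓ O) :
    ∃ O' : ValuationSubring L, Corr ℓ Θ O O' ∧ ∃ τ : X ℓ L, IsCanon τ O' := by
  have := loc4_finite hr
  obtain ⟨σ, hσ⟩ := hcan
  obtain ⟨ρ₁, h₁, ρ₂, h₂, h₁₂⟩ := hnc
  have hTS : ∀ τ : X ℓ L, (τ ∘ₗ Θ.toLinearMap) ∘ₗ Θ.symm.toLinearMap = τ := fun τ =>
    LinearMap.ext fun v => congrArg τ (Θ.apply_symm_apply v)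
  have hcp : ∀ a : Iv ℓ O, ∀ ρ ∈ Dv ℓ O,
      CP (a.1 ∘ₗ Θ.symm.toLinearMap) (ρ ∘ₗ Θ.symm.toLinearMap) := fun a ρ hρ =>
    (hΘ.symm _ _).1 (CP_of_Iv_Dv k a.2 hρ)
  choose c hc using fun a : Iv ℓ O => Valuative.exists_canon l (NC.valuative l
    ((hΘ.symm.NC a.1).1 ⟨ρ₁, ρ₂, CP_of_Iv_Dv k a.2 h₁, CP_of_Iv_Dv k a.2 h₂, h₁₂⟩))
  obtain ⟨a₀, h₀⟩ := loc4_min c fun a b =>
    (hc a).comparable ((hc b).mem_Dv l (hcp b a.1 (Iv_le_Dv O a.2)))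
  have I1 : ∀ a ∈ Iv ℓ O, a ∘ₗ Θ.symm.toLinearMap ∈ Iv ℓ (c a₀) := fun a ha =>
    Iv_anti (h₀ ⟨a, ha⟩) (hc ⟨a, ha⟩).1
  have D1 : ∀ ρ ∈ Dv ℓ O, ρ ∘ₗ Θ.symm.toLinearMap ∈ Dv ℓ (c a₀) := fun ρ hρ =>
    (hc a₀).mem_Dv l (hcp a₀ ρ hρ)
  have D2 : ∀ ρ ∈ Dv ℓ (c a₀), ρ ∘ₗ Θ.toLinearMap ∈ Dv ℓ O := fun ρ hρ => by
    refine hσ.mem_Dv k ((hΘ.symm _ _).2 ?_)
    rw [hTS]
    exact CP_of_Iv_Dv l (I1 σ hσ.1) hρ
  have I2 : ∀ τ ∈ Iv ℓ (c a₀), τ ∘ₗ Θ.toLinearMap ∈ Iv ℓ O := fun τ hτ => by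
    refine hz _ (D2 τ (Iv_le_Dv _ hτ)) fun ρ hρ => (hΘ.symm _ _).2 ?_
    rw [hTS]
    exact CP_of_Iv_Dv l hτ (D1 ρ hρ)
  refine ⟨c a₀, ⟨le_antisymm ?_ fun w hw => ?_, le_antisymm ?_ fun w hw => ?_⟩, _, hc a₀⟩
  · rintro _ ⟨v, hv, rfl⟩
    exact mem_Uv_of_forall _ _ fun τ hτ => (Submodule.mem_dualAnnihilator _).1 (I2 τ hτ) v hv
  · exact ⟨Θ.symm w, mem_Uv_of_forall _ _ fun a ha =>
      (Submodule.mem_dualAnnihilator _).1 (I1 a ha) w hw, Θ.apply_symm_apply w⟩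
  · rintro _ ⟨v, hv, rfl⟩
    exact mem_Nv_of_forall _ _ fun τ hτ => (Submodule.mem_dualAnnihilator _).1 (D2 τ hτ) v hv
  · exact ⟨Θ.symm w, mem_Nv_of_forall _ _ fun a ha =>
      (Submodule.mem_dualAnnihilator _).1 (D1 a ha) w hw, Θ.apply_symm_apply w⟩

end P019
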