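import Vale.Agent.P019.GM
import Vale.Agent.P019.Loc4

/-!
P019 Flag: flag valuations above a valuation ring `ω` of the constants.
`exists_flag2`: Gauss ring `G` above `ω` for all variables, refine at `init s` (gives `Om`), then
refine at `last s` over the residue variables (gives `O`; apply `exists_refine` with base field
`k(init s)`, or argue in the residue field).  Minimality: a nonzero `a ∈ k(s, x)` has the value
of `c s^n` (`mono_val`); if it is not a unit of `Om` then `a / s_last ∈ m_Om`; else `init n = 0`,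
`c` is a unit of `ω`, and `n_last > 0`.
`IsFlag.canon`: take `σ ∈ I O` with `σ [s_last] ≠ 0`, and its canonical ring `O_σ ≥ O`; if
`a ∈ O_σ \ O` then `a^(-N) ~ c ∈ k(s,x)`, `c / s_last ∈ O`, so `s_last` is a unit of `O_σ`.
`fam_data`: `c` off the polynomials of `gm_unit`, `gm_idx`, then `ω` from `exists_omega` for
`T ∪ {ℓ}`; `vInd_of_idx`, `res_isFF`; replace `Om` by `exists_canon_hull`, `res_isFF_of_le`.
`flag_triv`: the same with `ω = ⊤`.
-/

namespace P019

open IntermediateField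

variable {ℓ : ℕ} [Fact ℓ.Prime] {k F : Type*} [Field k] [Field F] [Algebra k F]

variable (k) in
def IsFlag (O : ValuationSubring F) {r : ℕ} {ι : Type*} (s : Fin (r + 1) → F) (x : ι → F) : Prop :=
  ZInd k O s ∧ (∀ j, O.valuation (s j) < 1) ∧ RInd k O x ∧
    ∀ a ∈ adjoin k (Set.range (Sum.elim s x)), O.valuation a < 1 →
      O.valuation a ≤ O.valuation (s (Fin.last r))

theorem flg_eq {O O' : ValuationSubring F} (h : O ≤ O') {a b : F}
    (e : O.valuation a = O.valuation b) : O'.valuation a = O'.valuation b := by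
  rw [← ValuationSubring.mapOfLE_valuation_apply O O' h, e,
    ValuationSubring.mapOfLE_valuation_apply]

theorem flg_le {O O' : ValuationSubring F} (h : O ≤ O') {a b : F}
    (e : O.valuation a ≤ O.valuation b) : O'.valuation a ≤ O'.valuation b := by
  rw [← ValuationSubring.mapOfLE_valuation_apply O O' h,
    ← ValuationSubring.mapOfLE_valuation_apply O O' h b]
  exact ValuationSubring.monotone_mapOfLE O O' h e

theorem flg_lt {O O' : ValuationSubring F} (h : O ≤ O') {a : F} (e : O'.valuation a < 1) :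
    O.valuation a < 1 :=
  O.mem_nonunits_iff.1 (ValuationSubring.nonunits_le_nonunits.2 h (O'.mem_nonunits_iff.2 e))

theorem flg_fn {O : ValuationSubring F} {ι : Type*} [Fintype ι] {x : ι → F} (h : ZInd k O x)
    (n : ι → ℤ) (c : k) (e : O.valuation (∏ i, x i ^ n i) = O.valuation (algebraMap k F c)) :
    n = 0 := by
  have h1 := h.2 (Finsupp.equivFunOnFinite.symm n) c (by
    rw [Finsupp.prod_fintype _ _ fun i => zpow_zero _]
    exact e)
  funext i
  exact DFunLike.congr_fun h1 i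

theorem flg_unit {O : ValuationSubring F} {ι : Type*} {y : ι → F} (h : RInd k O y) (i : ι) :
    O.valuation (y i) = 1 := by
  refine (resb_eq_one_iff O _).2 ⟨h.1 i, fun hl => h.2.ne_zero i ?_⟩
  rw [show res O (y i) = IsLocalRing.residue O ⟨y i, h.1 i⟩ from resb_coe O ⟨y i, h.1 i⟩,
    IsLocalRing.residue_eq_zero_iff]
  exact (O.valuation_lt_one_iff ⟨y i, h.1 i⟩).2 hl

theorem flg_comp {O : ValuationSubring F} {ι ι' : Type*} {y : ι → F} (h : RInd k O y)
    (g : ι' → ι) (hg : Function.Injective g) {z : ι' → F} (e : ∀ i, z i = y (g i)) :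
    RInd k O z := by
  obtain rfl : z = fun i => y (g i) := funext e
  exact ⟨fun i => h.1 (g i), h.2.comp g hg⟩

theorem flg_prod {r : ℕ} (s : Fin (r + 1) → F) (n : Fin (r + 1) →₀ ℤ) :
    (n.prod fun i e => s i ^ e) =
      (∏ j : Fin r, Fin.init s j ^ n j.castSucc) * s (Fin.last r) ^ n (Fin.last r) := by
  rw [Finsupp.prod_fintype _ _ fun i => zpow_zero _, Fin.prod_univ_castSucc]
  rfl

theorem flg_range {r : ℕ} {ι : Type*} (s : Fin (r + 1) → F) (x : ι → F) :
    Set.range (Sum.elim (Fin.init s) fun o : Option ι => o.elim (s (Fin.last r)) x) =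
      Set.range (Sum.elim s x) := by
  ext a
  constructor
  · rintro ⟨j | _ | i, rfl⟩
    exacts [⟨Sum.inl j.castSucc, rfl⟩, ⟨Sum.inl (Fin.last r), rfl⟩, ⟨Sum.inr i, rfl⟩]
  · rintro ⟨j | i, rfl⟩
    · refine Fin.lastCases ⟨Sum.inr none, rfl⟩ (fun j => ⟨Sum.inl j, rfl⟩) j
    · exact ⟨Sum.inr (some i), rfl⟩

theorem flg_idx {E E' : IntermediateField k F} (e : E = E') {O O' : ValuationSubring F}
    (h : O ≤ O') (hI : IdxOK ℓ E O) : IdxOK ℓ E' O' := by
  subst e
  obtain ⟨N, h1, h2⟩ := hI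
  exact ⟨N, h1, fun a => (h2 a).imp fun c hc => flg_eq h hc⟩

theorem exists_flag2 (ω : ValuationSubring k) {r : ℕ} {ι : Type*} {s : Fin (r + 1) → F}
    {x : ι → F} (h : AlgebraicIndependent k (Sum.elim s x)) :
    ∃ O Om : ValuationSubring F, O ≤ Om ∧ O.comap (algebraMap k F) = ω ∧
      Om.comap (algebraMap k F) = ω ∧ IsFlag k O s x ∧ ZInd k Om (Fin.init s) ∧
      RInd k Om (fun o : Option ι => o.elim (s (Fin.last r)) x) := by
  have h1 : AlgebraicIndependent k
      (Sum.elim (Fin.init s) fun o : Option ι => o.elim (s (Fin.last r)) x) := by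
    have h2 := h.comp (Sum.elim (fun j : Fin r => Sum.inl j.castSucc)
      fun o : Option ι => o.elim (Sum.inl (Fin.last r)) Sum.inr) (by
        rintro (a | _ | a) (b | _ | b) e <;> simp_all [Fin.castSucc_ne_last,
          (Fin.castSucc_ne_last _).symm])
    have e : (Sum.elim (Fin.init s) fun o : Option ι => o.elim (s (Fin.last r)) x) =
        Sum.elim s x ∘ Sum.elim (fun j : Fin r => Sum.inl j.castSucc)
          fun o : Option ι => o.elim (Sum.inl (Fin.last r)) Sum.inr := by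
      funext i
      rcases i with a | _ | a <;> rfl
    rw [e]
    exact h2
  obtain ⟨G, hG, hG'⟩ := exists_gauss ω h1
  obtain ⟨Om, -, m1, m2, m3, m4⟩ := exists_refine hG'
  have h3 : RInd k Om (Sum.elim (fun _ : Unit => s (Fin.last r)) x) :=
    flg_comp m4 (Sum.elim (fun _ => none) some) (by
      rintro (a | a) (b | b) e <;> simp_all) (by rintro (a | a) <;> rfl)
  obtain ⟨O, hle, o1, o2, o3, o4⟩ := exists_refine h3
  have hu : Om.valuation (s (Fin.last r)) = 1 := flg_unit m4 none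
  have hinit : ∀ (n : Fin (r + 1) →₀ ℤ) (c : k),
      Om.valuation (n.prod fun i e => s i ^ e) = Om.valuation (algebraMap k F c) →
        (n.prod fun i e => s i ^ e) = s (Fin.last r) ^ n (Fin.last r) ∧
          ∀ j : Fin r, n j.castSucc = 0 := by
    intro n c e
    rw [flg_prod, map_mul, map_zpow₀, hu, one_zpow, mul_one] at e
    have h4 := fun j => congrFun (flg_fn m2 (fun j => n j.castSucc) c e) j
    simp only [Pi.zero_apply] at h4
    refine ⟨?_, h4⟩
    rw [flg_prod]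
    simp [h4]
  have hz : ZInd k O s := by
    refine ⟨Fin.lastCases (o2.1 ()) m2.1, fun n c e => ?_⟩
    obtain ⟨h4, h5⟩ := hinit n c (flg_eq hle e)
    rw [h4] at e
    have h6 := congrFun (flg_fn o2 (fun _ => n (Fin.last r)) c (by simpa using e)) ()
    ext j
    exact Fin.lastCases h6 h5 j
  refine ⟨O, Om, hle, o1.trans (m1.trans hG), m1.trans hG,
    ⟨hz, Fin.lastCases (o3 ()) fun j => flg_lt hle (m3 j), o4, fun a ha hl => ?_⟩, m2, m4⟩
  by_cases h0 : a = 0
  · rw [h0, map_zero]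
    exact zero_le
  have hs0 : s (Fin.last r) ≠ 0 := hz.1 _
  by_cases hm : Om.valuation a < 1
  · have h4 : Om.valuation (a / s (Fin.last r)) < 1 := by rwa [map_div₀, hu, div_one]
    have h5 := flg_lt hle h4
    rw [map_div₀, div_lt_one₀ (zero_lt_iff.2 ((map_ne_zero _).2 hs0))] at h5
    exact h5.le
  have h4 : Om.valuation a = 1 := (resb_eq_one_iff Om a).2 ⟨hle (resb_mem' hl), hm⟩
  obtain ⟨n, c, hc, e⟩ := mono_val hz o4 ha h0
  have hc' : algebraMap k F c ≠ 0 := (map_ne_zero _).2 hc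
  have h5 := flg_eq hle e
  rw [h4, map_mul] at h5
  obtain ⟨h6, -⟩ := hinit n c⁻¹ (by
    rw [map_inv₀, map_inv₀]
    exact eq_inv_of_mul_eq_one_right h5.symm)
  rw [h6, map_zpow₀, hu, one_zpow, mul_one] at h5
  have h7 : O.valuation (algebraMap k F c) = 1 := by
    have h8 : ∀ d : k, algebraMap k F d ∈ Om → algebraMap k F d ∈ O := fun d hd => by
      have : d ∈ Om.comap (algebraMap k F) := hd
      rw [← o1] at this
      exact this
    refine (resb_eq_one_iff O _).2 ⟨h8 c (resb_mem h5.symm), fun hl => ?_⟩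
    rcases (resb_lt_one_iff O _).1 hl with h9 | h9
    · exact hc' h9
    · refine h9 ?_
      rw [← map_inv₀]
      refine h8 _ ?_
      rw [map_inv₀]
      exact resb_mem (resb_inv h5.symm)
  rw [h6, map_mul, h7, one_mul, map_zpow₀] at e
  rw [e] at hl ⊢
  have h8 : 0 < O.valuation (s (Fin.last r)) := zero_lt_iff.2 ((map_ne_zero _).2 hs0)
  have h9 : 0 < n (Fin.last r) := (zpow_lt_one_iff_right_of_lt_one₀ h8 (o3 ())).1 hl
  have h10 := zpow_le_zpow_right_of_le_one₀ h8 (o3 ()).le (show (1 : ℤ) ≤ n (Fin.last r) from h9)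
  rwa [zpow_one] at h10

variable [IsAlgClosed k]

theorem IsFlag.canon {O : ValuationSubring F} {r : ℕ} {ι : Type*} {s : Fin (r + 1) → F}
    {x : ι → F} (h : IsFlag k O s x) (hI : IdxOK ℓ (adjoin k (Set.range (Sum.elim s x))) O) :
    ∃ σ : X ℓ F, IsCanon σ O := by
  obtain ⟨σ, hσ, hv⟩ := exists_Iv_of_VInd (vInd_of_idx h.1 h.2.2.1 hI).1 fun _ => 1
  obtain ⟨W, hW⟩ := Valuative.exists_canon k ⟨O, hσ⟩
  have hle : O ≤ W := hW.2 O hσ
  refine ⟨σ, hσ, fun O' h' => (hW.2 O' h').trans fun a ha => ?_⟩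
  by_contra hn
  obtain ⟨N, hN, hc⟩ := hI
  have hN0 : N ≠ 0 := by
    rintro rfl
    exact (Fact.out : ℓ.Prime).one_lt.ne' (Nat.coprime_zero_left ℓ |>.1 hN)
  have h0 : a ≠ 0 := fun e => hn (e ▸ O.zero_mem)
  have h1 : O.valuation a⁻¹ < 1 := (resb_lt_one_iff O _).2 (Or.inr (by rwa [inv_inv]))
  obtain ⟨c, e⟩ := hc a⁻¹
  have h2 : O.valuation (c : F) < 1 := by
    change O.valuation (algebraMap _ F c) < 1
    rw [← e, map_pow]
    exact pow_lt_one₀ zero_le h1 hN0
  have h3 := h.2.2.2 c c.2 h2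
  have h4 : W.valuation (a⁻¹ ^ N) ≤ W.valuation (s (Fin.last r)) := flg_le hle (e.le.trans h3)
  have h5 : 1 ≤ W.valuation (a⁻¹ ^ N) := by
    rw [map_pow, map_inv₀]
    refine one_le_pow₀ ((one_le_inv₀ (zero_lt_iff.2 ((map_ne_zero _).2 h0))).2 ?_)
    exact (W.valuation_le_one_iff a).2 ha
  have h6 : W.valuation (s (Fin.last r)) = 1 :=
    le_antisymm ((W.valuation_le_one_iff _).2 (hle (resb_mem' (h.2.1 _)))) (h5.trans h4)
  have h7 := (mem_Iv_iff W σ).1 hW.1 _ h6
  rw [hv] at h7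
  exact one_ne_zero h7

/-- one member of the family -/
theorem fam_data (hℓ : (ℓ : k) ≠ 0) {r : ℕ} (hF : IsFF k F (r + 2)) {t : Fin (r + 1) → F} {x : F}
    (h : AlgebraicIndependent k (Sum.elim t fun _ : Unit => x)) (S : Finset F)
    (hS : ∀ a ∈ S, a ≠ 0) :
    ∃ O Om : ValuationSubring F, O ≤ Om ∧ IRank ℓ O (r + 1) ∧ IRank ℓ Om r ∧
      (∃ σ : X ℓ F, IsCanon σ O) ∧ (∃ σ : X ℓ F, IsCanon σ Om) ∧
      IsFF (resK k O) (Res O) 1 ∧ IsFF (resK k Om) (Res Om) 2 ∧ O.valuation (ℓ : F) = 1 ∧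
      LocFin (resK k O) ∧ (∀ a ∈ S, O.valuation a = 1) ∧ RInd k O (fun _ : Unit => x) ∧
      ∃ c : Fin (r + 1) → k, VInd ℓ O fun j => cl ℓ (t j - algebraMap k F (c j)) := by
  classical
  have := hF.finite h (by simp)
  obtain ⟨Δ₁, n1, g1⟩ := gm_unit h S fun a ha => ⟨hS a ha, Algebra.IsAlgebraic.isAlgebraic a⟩
  obtain ⟨Δ₂, n2, g2⟩ := gm_idx hℓ h
  obtain ⟨c, -, hc⟩ := exists_eval_ne (mul_ne_zero n1 n2) (fun _ => Set.univ)
    fun _ => Set.infinite_univ
  rw [map_mul] at hc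
  obtain ⟨T₁, t1, u1⟩ := g1 c (left_ne_zero_of_mul hc)
  obtain ⟨T₂, t2, u2⟩ := g2 c (right_ne_zero_of_mul hc)
  obtain ⟨ω, hω, hl⟩ := exists_omega (insert (ℓ : k) (T₁ ∪ T₂)) fun a ha => by
    rcases Finset.mem_insert.1 ha with rfl | ha
    · exact hℓ
    · exact (Finset.mem_union.1 ha).elim (t1 a) (t2 a)
  obtain ⟨O, Om, hle, o1, -, hf, m1, m2⟩ := exists_flag2 ω (indep_shift h c)
  subst o1
  have hv : ∀ a ∈ insert (ℓ : k) (T₁ ∪ T₂), O.valuation (algebraMap k F a) = 1 := fun a ha =>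
    (m2b_comap _ O a).1 (hω a ha)
  have hI := flg_idx (adjoin_shift c).symm le_rfl (u2 O
    (fun a ha => hv a (Finset.mem_insert_of_mem (Finset.mem_union_right _ ha))) hf.2.1 hf.2.2.1)
  have h1 := vInd_of_idx hf.1 hf.2.2.1 hI
  have h2 := (vInd_of_idx m1 m2 (flg_idx (congrArg _ (flg_range _ _).symm) hle hI)).2
  obtain ⟨Oc, hle', hU, hcan⟩ := exists_canon_hull k h2
  have h3 : IRank ℓ Oc r := by
    unfold IRank
    rw [hU]
    exact h2
  refine ⟨O, Oc, hle.trans hle', h1.2, h3, hf.canon hI, hcan, ?_, ?_, ?_, locFin_resK hl,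
    u1 O (fun a ha => hv a (Finset.mem_insert_of_mem (Finset.mem_union_left _ ha))) hf.2.1 hf.2.2.1,
    hf.2.2.1, c, h1.1⟩
  · simpa using res_isFF hF hf.1 hf.2.2.1 (by simp)
  · refine res_isFF_of_le hF hle' h3 ?_
    simpa using res_isFF hF m1 m2 (by simp)
  · rw [← map_natCast (algebraMap k F)]
    exact hv _ (Finset.mem_insert_self _ _)

/-- a flag trivial on the constants, centered at a point chosen in an infinite box -/
theorem flag_triv (hℓ : (ℓ : k) ≠ 0) {r e : ℕ} (hF : IsFF k F (r + 1 + e))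
    {t : Fin (r + 1) → F} {x : Fin e → F} (h : AlgebraicIndependent k (Sum.elim t x))
    (s : Fin (r + 1) → Set k) (hs : ∀ j, (s j).Infinite) :
    ∃ (O : ValuationSubring F) (c : Fin (r + 1) → k), (∀ j, c j ∈ s j) ∧ Triv k O ∧
      IRank ℓ O (r + 1) ∧ (∃ σ : X ℓ F, IsCanon σ O) ∧ IsFF (resK k O) (Res O) e ∧ RInd k O x ∧
      VInd ℓ O fun j => cl ℓ (t j - algebraMap k F (c j)) := by
  have := hF.finite h (by simp)
  obtain ⟨Δ, n1, g1⟩ := gm_idx_triv hℓ h
  obtain ⟨c, hs', hc⟩ := exists_eval_ne n1 s hs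
  obtain ⟨O, Om, -, o1, -, hf, -, -⟩ := exists_flag2 ⊤ (indep_shift h c)
  have ht : Triv k O := fun a => by
    have : a ∈ O.comap (algebraMap k F) := o1 ▸ trivial
    exact this
  have hI := flg_idx (adjoin_shift c).symm le_rfl (g1 c hc O ht hf.2.1 hf.2.2.1)
  have h1 := vInd_of_idx hf.1 hf.2.2.1 hI
  refine ⟨O, c, hs', ht, h1.2, hf.canon hI, ?_, hf.2.2.1, h1.1⟩
  simpa using res_isFF hF hf.1 hf.2.2.1 (by simp)

end P019
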