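import Vale.Agent.P019.Gauss

/-!
P019 GMa: polynomial facts used for generic centers.
-/

namespace P019

open IntermediateField

variable {k F : Type*} [Field k] [Field F] [Algebra k F]
  {ι ι' : Type*} {t : ι → F} {x : ι' → F}

theorem exists_eval_ne {Δ : MvPolynomial ι k} (hΔ : Δ ≠ 0) (s : ι → Set k)
    (hs : ∀ i, (s i).Infinite) : ∃ c : ι → k, (∀ i, c i ∈ s i) ∧ MvPolynomial.eval c Δ ≠ 0 := by
  by_contra h
  push Not at h
  refine hΔ (MvPolynomial.funext_set s hs fun c hc => ?_)
  rw [map_zero]
  exact h c fun i => hc i trivial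

theorem cof_eval_GMa {p : Polynomial k} (hp : p ≠ 0) :
    ∀ᶠ b in Filter.cofinite, p.eval b ≠ 0 := by
  rw [Filter.eventually_cofinite]
  refine (Polynomial.finite_setOfPred_isRoot hp).subset fun b hb => ?_
  simpa using hb

theorem cof_two_GMa {P : Polynomial (Polynomial k)} (hP : P ≠ 0) :
    ∀ᶠ a in Filter.cofinite, ∀ᶠ b in Filter.cofinite,
      (P.map (Polynomial.evalRingHom a)).eval b ≠ 0 := by
  filter_upwards [cof_eval_GMa (Polynomial.leadingCoeff_ne_zero.2 hP)] with a ha
  refine cof_eval_GMa fun h => ha ?_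
  have := congrArg (fun q => Polynomial.coeff q P.natDegree) h
  simpa using this

theorem eval_aeval_GMa (Δ : MvPolynomial (Fin 2) k) (f : Fin 2 → Polynomial (Polynomial k))
    (a b : k) :
    ((MvPolynomial.aeval f Δ).map (Polynomial.evalRingHom a)).eval b =
      MvPolynomial.eval (fun i => ((f i).map (Polynomial.evalRingHom a)).eval b) Δ := by
  induction Δ using MvPolynomial.induction_on with
  | C c => simp
  | add p q hp hq => simp [hp, hq]
  | mul_X p i hp => simp [hp]

/-- off a plane curve: for cofinitely many `a`, cofinitely many `b` -/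
theorem eval_two_cofinite {Δ : MvPolynomial (Fin 2) k} (hΔ : Δ ≠ 0) :
    (∀ᶠ a in Filter.cofinite, ∀ᶠ b in Filter.cofinite, MvPolynomial.eval ![a, b] Δ ≠ 0) ∧
    ∀ᶠ b in Filter.cofinite, ∀ᶠ a in Filter.cofinite, MvPolynomial.eval ![a, b] Δ ≠ 0 := by
  rcases finite_or_infinite k with hk | hk
  · simp [Filter.cofinite_eq_bot]
  obtain ⟨c, -, hc⟩ := exists_eval_ne hΔ (fun _ => Set.univ) fun _ => Set.infinite_univ
  have hc' : c = ![c 0, c 1] := by
    funext i
    fin_cases i <;> rfl
  constructor
  · have e : ∀ a b : k, ((MvPolynomial.aeval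
        (![Polynomial.C Polynomial.X, Polynomial.X] : Fin 2 → Polynomial (Polynomial k)) Δ).map
        (Polynomial.evalRingHom a)).eval b = MvPolynomial.eval ![a, b] Δ := by
      intro a b
      rw [eval_aeval_GMa]
      congr 2
      funext i
      fin_cases i <;> simp
    simp only [← e]
    refine cof_two_GMa fun h => hc ?_
    rw [hc', ← e, h]
    simp
  · have e : ∀ a b : k, ((MvPolynomial.aeval
        (![Polynomial.X, Polynomial.C Polynomial.X] : Fin 2 → Polynomial (Polynomial k)) Δ).map
        (Polynomial.evalRingHom b)).eval a = MvPolynomial.eval ![a, b] Δ := by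
      intro a b
      rw [eval_aeval_GMa]
      congr 2
      funext i
      fin_cases i <;> simp
    simp only [← e]
    refine cof_two_GMa fun h => hc ?_
    rw [hc', ← e, h]
    simp

open Polynomial in
theorem coeff_line_GMa (a c : k) {i j d : ℕ} (h : i + j ≤ d) :
    ((Polynomial.C a - Polynomial.C c * Polynomial.X) ^ i * Polynomial.X ^ j).coeff d =
      if i + j = d then (-c) ^ i else 0 := by
  have h1 : (Polynomial.C a - Polynomial.C c * Polynomial.X : k[X]).natDegree ≤ 1 := by
    compute_degree
  split_ifs with h2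
  · subst h2
    have h3 := coeff_pow_of_natDegree_le (m := i) h1
    rw [mul_one] at h3
    rw [coeff_mul_X_pow, h3]
    simp [coeff_C]
  · refine coeff_eq_zero_of_natDegree_lt (lt_of_le_of_lt natDegree_mul_le ?_)
    have h3 := natDegree_pow_le_of_le i h1
    have h4 : (Polynomial.X ^ j : k[X]).natDegree ≤ j := natDegree_X_pow_le j
    omega

/-- all but finitely many directions are not directions of lines contained in the curve -/
theorem eval_line_cofinite [Infinite k] {Δ : MvPolynomial (Fin 2) k} (hΔ : Δ ≠ 0) :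
    ∀ᶠ c in Filter.cofinite, ∀ a : k, ∀ᶠ b in Filter.cofinite,
      MvPolynomial.eval ![a - c * b, b] Δ ≠ 0 := by
  classical
  obtain ⟨m, hm, hmax⟩ := Δ.support.exists_max_image (fun n => n 0 + n 1)
    (MvPolynomial.support_nonempty.2 hΔ)
  set Q : Polynomial k := ∑ n ∈ Δ.support with n 0 + n 1 = m 0 + m 1,
    Polynomial.monomial (n 0) (MvPolynomial.coeff n Δ * (-1) ^ (n 0)) with hQ
  have hQ0 : Q ≠ 0 := by
    intro h
    have h1 : Q.coeff (m 0) = MvPolynomial.coeff m Δ * (-1) ^ (m 0) := by
      rw [hQ, Polynomial.finsetSum_coeff, Finset.sum_eq_single m]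
      · simp
      · intro n hn hne
        rw [Polynomial.coeff_monomial, if_neg]
        intro h0
        have h2 := (Finset.mem_filter.1 hn).2
        refine hne (Finsupp.ext fun i => ?_)
        fin_cases i
        · exact h0
        · change n 1 = m 1
          omega
      · intro h0
        exact (h0 (Finset.mem_filter.2 ⟨hm, rfl⟩)).elim
    rw [h, Polynomial.coeff_zero] at h1
    exact mul_ne_zero (MvPolynomial.mem_support_iff.1 hm) (pow_ne_zero _ (by simp)) h1.symm
  filter_upwards [cof_eval_GMa hQ0] with c hc a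
  set p : Polynomial k := ∑ n ∈ Δ.support, Polynomial.C (MvPolynomial.coeff n Δ) *
    ((Polynomial.C a - Polynomial.C c * Polynomial.X) ^ (n 0) * Polynomial.X ^ (n 1)) with hp
  have e : ∀ b, MvPolynomial.eval ![a - c * b, b] Δ = p.eval b := by
    intro b
    rw [MvPolynomial.eval_eq', hp, Polynomial.eval_finsetSum]
    refine Finset.sum_congr rfl fun n _ => ?_
    simp [Fin.prod_univ_two]
  simp only [e]
  refine cof_eval_GMa fun h => hc ?_
  have h1 : p.coeff (m 0 + m 1) = Q.eval c := by
    rw [hp, hQ, Polynomial.finsetSum_coeff, Polynomial.eval_finsetSum, Finset.sum_filter]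
    refine Finset.sum_congr rfl fun n hn => ?_
    rw [Polynomial.coeff_C_mul, coeff_line_GMa a c (hmax n hn)]
    split_ifs
    · rw [Polynomial.eval_monomial, neg_pow c, mul_assoc]
    · simp
  rw [← h1, h, Polynomial.coeff_zero]

/-- shifting the variables does not change the field -/
theorem adjoin_shift (c : ι → k) :
    adjoin k (Set.range (Sum.elim (fun i => t i - algebraMap k F (c i)) x)) =
      adjoin k (Set.range (Sum.elim t x)) := by
  apply le_antisymm
  · rw [adjoin_le_iff]
    rintro _ ⟨i | i, rfl⟩
    · exact sub_mem (subset_adjoin k _ ⟨Sum.inl i, rfl⟩) (IntermediateField.algebraMap_mem _ _)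
    · exact subset_adjoin k _ ⟨Sum.inr i, rfl⟩
  · rw [adjoin_le_iff]
    rintro _ ⟨i | i, rfl⟩
    · have h := add_mem (subset_adjoin k
        (Set.range (Sum.elim (fun i => t i - algebraMap k F (c i)) x)) ⟨Sum.inl i, rfl⟩)
        (IntermediateField.algebraMap_mem _ (c i))
      simpa using h
    · exact subset_adjoin k _ ⟨Sum.inr i, rfl⟩

theorem indep_shift (h : AlgebraicIndependent k (Sum.elim t x)) (c : ι → k) :
    AlgebraicIndependent k (Sum.elim (fun i => t i - algebraMap k F (c i)) x) := by
  let f : k → ι ⊕ ι' → MvPolynomial (ι ⊕ ι') k := fun e =>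
    Sum.elim (fun i => MvPolynomial.X (Sum.inl i) + MvPolynomial.C (e * c i))
      fun i => MvPolynomial.X (Sum.inr i)
  have h1 : (MvPolynomial.aeval (f 1)).comp (MvPolynomial.aeval (f (-1))) =
      AlgHom.id k (MvPolynomial (ι ⊕ ι') k) := by
    refine MvPolynomial.algHom_ext fun i => ?_
    rcases i with i | i <;> simp [f]
  have h2 : AlgebraicIndependent k (f (-1)) := by
    rw [algebraicIndependent_iff_injective_aeval]
    exact Function.LeftInverse.injective (g := MvPolynomial.aeval (f 1))
      fun p => by rw [← AlgHom.comp_apply, h1, AlgHom.id_apply]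
  have e : Sum.elim (fun i => t i - algebraMap k F (c i)) x =
      fun i => MvPolynomial.aeval (Sum.elim t x) (f (-1) i) := by
    funext i
    rcases i with i | i <;> simp [f, sub_eq_add_neg]
  rw [e]
  exact h.aeval_of_algebraicIndependent h2

end P019
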