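import Vale.Agent.P019.VG4
import Vale.Agent.P019.Gauss
import Vale.Agent.P019.GMa

/-!
P019 GM: generic centers.
`gm_mem`: first for `a = P(t,x)/Q(t,x)`; `Δ` = a nonzero coefficient (a polynomial in `t`) of
`Q` seen as a polynomial in `x`; `T` = the nonzero coefficients of `P(s+c,x)`, `Q(s+c,x)`;
`mono_unit` with `s = t - c`.  For algebraic `a` apply this to the coefficients of the minimal
polynomial (`mem_of_monic`).  `gm_unit`: apply `gm_mem` to `a, a⁻¹`.  `gm_idx`: `lemU`.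
The `_triv` versions drop `T`.  `exists_eval_ne`: `MvPolynomial.funext_set` style.
-/

namespace P019

open IntermediateField

variable {ℓ : ℕ} {k F : Type*} [Field k] [Field F] [Algebra k F]
  {ι ι' : Type*} {t : ι → F} {x : ι' → F}

/-- `P` holds for all valuation rings with a generic center -/
def GMp (k : Type*) [Field k] [Algebra k F] (t : ι → F) (x : ι' → F)
    (P : ValuationSubring F → Prop) : Prop :=
  ∃ Δ : MvPolynomial ι k, Δ ≠ 0 ∧ ∀ c : ι → k, MvPolynomial.eval c Δ ≠ 0 →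
    ∃ T : Finset k, (∀ a ∈ T, a ≠ 0) ∧ ∀ O : ValuationSubring F,
      (∀ a ∈ T, O.valuation (algebraMap k F a) = 1) →
      (∀ i, O.valuation (t i - algebraMap k F (c i)) < 1) → RInd k O x → P O

theorem GMp.mono {P P' : ValuationSubring F → Prop} (h : GMp k t x P) (h' : ∀ O, P O → P' O) :
    GMp k t x P' := by
  obtain ⟨Δ, h0, h⟩ := h
  refine ⟨Δ, h0, fun c hc => ?_⟩
  obtain ⟨T, hT, h⟩ := h c hc
  exact ⟨T, hT, fun O h1 h2 h3 => h' O (h O h1 h2 h3)⟩

theorem gmp_of_forall {P : ValuationSubring F → Prop} (h : ∀ O, P O) : GMp k t x P :=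
  ⟨1, one_ne_zero, fun _ _ => ⟨∅, fun _ ha => absurd ha (Finset.notMem_empty _),
    fun O _ _ _ => h O⟩⟩

theorem GMp.and {P P' : ValuationSubring F → Prop} (h : GMp k t x P) (h' : GMp k t x P') :
    GMp k t x fun O => P O ∧ P' O := by
  classical
  obtain ⟨Δ, h0, h⟩ := h
  obtain ⟨Δ', h0', h'⟩ := h'
  refine ⟨Δ * Δ', mul_ne_zero h0 h0', fun c hc => ?_⟩
  rw [map_mul] at hc
  obtain ⟨T, hT, h⟩ := h c (left_ne_zero_of_mul hc)
  obtain ⟨T', hT', h'⟩ := h' c (right_ne_zero_of_mul hc)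
  refine ⟨T ∪ T', fun a ha => (Finset.mem_union.1 ha).elim (hT a) (hT' a), fun O h1 h2 h3 => ?_⟩
  exact ⟨h O (fun a ha => h1 a (Finset.mem_union_left _ ha)) h2 h3,
    h' O (fun a ha => h1 a (Finset.mem_union_right _ ha)) h2 h3⟩

theorem gmp_finset {α : Type*} (S : Finset α) {P : α → ValuationSubring F → Prop}
    (h : ∀ a ∈ S, GMp k t x (P a)) : GMp k t x fun O => ∀ a ∈ S, P a O := by
  classical
  induction S using Finset.induction_on with
  | empty => exact gmp_of_forall fun _ _ ha => absurd ha (Finset.notMem_empty _)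
  | insert a S _ ih =>
    refine ((h a (Finset.mem_insert_self a S)).and
      (ih fun b hb => h b (Finset.mem_insert_of_mem hb))).mono fun O hO b hb => ?_
    rcases Finset.mem_insert.1 hb with rfl | hb
    · exact hO.1
    · exact hO.2 b hb

theorem gmp_poly {G : MvPolynomial (ι ⊕ ι') k} (hG : G ≠ 0) :
    GMp k t x fun O => O.valuation (MvPolynomial.aeval (Sum.elim t x) G) = 1 := by
  let ψ : MvPolynomial (ι ⊕ ι') k ≃ₐ[k] MvPolynomial ι' (MvPolynomial ι k) :=
    (MvPolynomial.renameEquiv k (Equiv.sumComm ι ι')).trans (MvPolynomial.sumAlgEquiv k ι' ι)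
  obtain ⟨n, hn⟩ := MvPolynomial.ne_zero_iff.1 ((map_ne_zero_iff ψ ψ.injective).2 hG)
  refine ⟨_, hn, fun c hc => ?_⟩
  let sh : MvPolynomial (ι ⊕ ι') k →ₐ[k] MvPolynomial (ι ⊕ ι') k := MvPolynomial.aeval
    (Sum.elim (fun i => MvPolynomial.X (Sum.inl i) + MvPolynomial.C (c i))
      fun j => MvPolynomial.X (Sum.inr j))
  have e1 : (MvPolynomial.aeval (Sum.elim (fun i => t i - algebraMap k F (c i)) x)).comp sh =
      MvPolynomial.aeval (Sum.elim t x) := by
    refine MvPolynomial.algHom_ext fun i => ?_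
    cases i with
    | inl i => simp [sh]
    | inr i => simp [sh]
  have k1 : ∀ i : ι, MvPolynomial.killCompl (R := k) (Sum.inr_injective (α := ι) (β := ι'))
      (MvPolynomial.X (Sum.inl i)) = 0 := fun i => by
    simp [MvPolynomial.killCompl]
  have k2 : ∀ j : ι', MvPolynomial.killCompl (R := k) (Sum.inr_injective (α := ι) (β := ι'))
      (MvPolynomial.X (Sum.inr j)) = MvPolynomial.X j := fun j => by
    have := MvPolynomial.killCompl_rename_app (R := k) (Sum.inr_injective (α := ι))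
      (MvPolynomial.X j)
    rwa [MvPolynomial.rename_X] at this
  have e2 : ∀ H, MvPolynomial.map (MvPolynomial.eval c) (ψ H) =
      MvPolynomial.killCompl Sum.inr_injective (sh H) := by
    intro H
    induction H using MvPolynomial.induction_on with
    | C a => simp [ψ, sh]
    | add p q hp hq => simp only [map_add, hp, hq]
    | mul_X p i hp =>
      simp only [map_mul, hp]
      refine congrArg _ ?_
      cases i with
      | inl i => simp [ψ, sh, k1]
      | inr i => simp [ψ, sh, k2]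
  have e3 : (sh G).coeff (n.mapDomain Sum.inr) = MvPolynomial.eval c ((ψ G).coeff n) := by
    rw [← MvPolynomial.coeff_killCompl Sum.inr_injective, ← e2, MvPolynomial.coeff_map]
  refine ⟨(sh G).coeffs, fun a ha h0 => MvPolynomial.zero_notMem_coeffs _ (h0 ▸ ha),
    fun O h1 h2 h3 => ?_⟩
  rw [← e1, AlgHom.comp_apply]
  refine mono_unit h2 h3 (fun m => ?_) ⟨n.mapDomain Sum.inr, fun i => ?_, ?_⟩
  · by_cases hm : (sh G).coeff m = 0
    · rw [hm, map_zero]
      exact zero_mem O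
    · exact resb_mem (h1 _ (MvPolynomial.coeff_mem_coeffs m hm))
  · exact Finsupp.mapDomain_notin_range _ _ (by simp)
  · exact h1 _ (MvPolynomial.coeff_mem_coeffs _ (by rwa [e3]))

theorem gmp_adjoin {a : F} (ha : a ∈ adjoin k (Set.range (Sum.elim t x))) :
    GMp k t x fun O => a ∈ O := by
  obtain ⟨r, s, rfl⟩ := (mem_adjoin_range_iff k _ a).1 ha
  by_cases hr : r = 0
  · refine gmp_of_forall fun O => ?_
    rw [hr, map_zero, zero_div]
    exact zero_mem O
  by_cases hs : s = 0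
  · refine gmp_of_forall fun O => ?_
    rw [hs, map_zero, div_zero]
    exact zero_mem O
  refine ((gmp_poly hr).and (gmp_poly hs)).mono fun O hO => resb_mem ?_
  rw [map_div₀, hO.1, hO.2, div_one]

theorem gmp_alg {a : F} (ha : IsAlgebraic (adjoin k (Set.range (Sum.elim t x))) a) :
    GMp k t x fun O => a ∈ O := by
  have hi := ha.isIntegral
  refine (gmp_finset (minpoly (adjoin k (Set.range (Sum.elim t x))) a).support fun i _ =>
    gmp_adjoin ((minpoly (adjoin k (Set.range (Sum.elim t x))) a).coeff i).2).mono fun O hO => ?_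
  refine mem_of_monic O
    ((minpoly.monic hi).map (algebraMap (adjoin k (Set.range (Sum.elim t x))) F)) (fun i => ?_) ?_
  · rw [Polynomial.coeff_map]
    by_cases h : i ∈ (minpoly (adjoin k (Set.range (Sum.elim t x))) a).support
    · exact hO i h
    · rw [Polynomial.notMem_support_iff.1 h, map_zero]
      exact zero_mem O
  · rw [Polynomial.eval_map, ← Polynomial.aeval_def, minpoly.aeval]

theorem gmp_unit {a : F} (h0 : a ≠ 0) (ha : IsAlgebraic (adjoin k (Set.range (Sum.elim t x))) a) :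
    GMp k t x fun O => O.valuation a = 1 := by
  refine ((gmp_alg ha).and (gmp_alg ha.inv)).mono fun O hO => ?_
  refine (resb_eq_one_iff O a).2 ⟨hO.1, fun h => ?_⟩
  exact ((resb_lt_one_iff O a).1 h).elim h0 fun h' => h' hO.2

theorem gm_triv_val {O : ValuationSubring F} (hO : Triv k O) {a : k} (ha : a ≠ 0) :
    O.valuation (algebraMap k F a) = 1 := by
  refine (resb_eq_one_iff O _).2 ⟨hO a, fun h => ?_⟩
  refine ((resb_lt_one_iff O _).1 h).elim ((map_ne_zero _).2 ha) fun h' => h' ?_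
  rw [← map_inv₀]
  exact hO _

theorem GMp.triv {P : ValuationSubring F → Prop} (h : GMp k t x P) :
    ∃ Δ : MvPolynomial ι k, Δ ≠ 0 ∧ ∀ c : ι → k, MvPolynomial.eval c Δ ≠ 0 →
      ∀ O : ValuationSubring F, Triv k O →
        (∀ i, O.valuation (t i - algebraMap k F (c i)) < 1) → RInd k O x → P O := by
  obtain ⟨Δ, h0, h⟩ := h
  refine ⟨Δ, h0, fun c hc O hO h2 h3 => ?_⟩
  obtain ⟨T, hT, h⟩ := h c hc
  exact h O (fun a ha => gm_triv_val hO (hT a ha)) h2 h3

theorem gm_mem (h : AlgebraicIndependent k (Sum.elim t x)) (S : Finset F)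
    (hS : ∀ a ∈ S, IsAlgebraic (adjoin k (Set.range (Sum.elim t x))) a) :
    ∃ Δ : MvPolynomial ι k, Δ ≠ 0 ∧ ∀ c : ι → k, MvPolynomial.eval c Δ ≠ 0 →
      ∃ T : Finset k, (∀ a ∈ T, a ≠ 0) ∧ ∀ O : ValuationSubring F,
        (∀ a ∈ T, O.valuation (algebraMap k F a) = 1) →
        (∀ i, O.valuation (t i - algebraMap k F (c i)) < 1) → RInd k O x → ∀ a ∈ S, a ∈ O := by
  have _ := h
  exact gmp_finset S fun a ha => gmp_alg (hS a ha)

theorem gm_unit (h : AlgebraicIndependent k (Sum.elim t x)) (S : Finset F)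
    (hS : ∀ a ∈ S, a ≠ 0 ∧ IsAlgebraic (adjoin k (Set.range (Sum.elim t x))) a) :
    ∃ Δ : MvPolynomial ι k, Δ ≠ 0 ∧ ∀ c : ι → k, MvPolynomial.eval c Δ ≠ 0 →
      ∃ T : Finset k, (∀ a ∈ T, a ≠ 0) ∧ ∀ O : ValuationSubring F,
        (∀ a ∈ T, O.valuation (algebraMap k F a) = 1) →
        (∀ i, O.valuation (t i - algebraMap k F (c i)) < 1) → RInd k O x →
        ∀ a ∈ S, O.valuation a = 1 := by
  have _ := h
  exact gmp_finset S fun a ha => gmp_unit (hS a ha).1 (hS a ha).2

theorem gm_idx [Fact ℓ.Prime] (hℓ : (ℓ : k) ≠ 0) (h : AlgebraicIndependent k (Sum.elim t x))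
    [FiniteDimensional (adjoin k (Set.range (Sum.elim t x))) F] :
    ∃ Δ : MvPolynomial ι k, Δ ≠ 0 ∧ ∀ c : ι → k, MvPolynomial.eval c Δ ≠ 0 →
      ∃ T : Finset k, (∀ a ∈ T, a ≠ 0) ∧ ∀ O : ValuationSubring F,
        (∀ a ∈ T, O.valuation (algebraMap k F a) = 1) →
        (∀ i, O.valuation (t i - algebraMap k F (c i)) < 1) → RInd k O x →
        IdxOK ℓ (adjoin k (Set.range (Sum.elim t x))) O := by
  have _ := h
  have h1 : (ℓ : adjoin k (Set.range (Sum.elim t x))) ≠ 0 := by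
    rw [← map_natCast (algebraMap k (adjoin k (Set.range (Sum.elim t x))))]
    exact (map_ne_zero _).2 hℓ
  obtain ⟨S, hS⟩ := lemU (K := F) h1
  exact (gmp_finset S fun a _ => gmp_adjoin a.2).mono hS

theorem gm_unit_triv (h : AlgebraicIndependent k (Sum.elim t x)) (S : Finset F)
    (hS : ∀ a ∈ S, a ≠ 0 ∧ IsAlgebraic (adjoin k (Set.range (Sum.elim t x))) a) :
    ∃ Δ : MvPolynomial ι k, Δ ≠ 0 ∧ ∀ c : ι → k, MvPolynomial.eval c Δ ≠ 0 →
      ∀ O : ValuationSubring F, Triv k O →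
        (∀ i, O.valuation (t i - algebraMap k F (c i)) < 1) → RInd k O x →
        ∀ a ∈ S, O.valuation a = 1 := GMp.triv (gm_unit h S hS)

theorem gm_idx_triv [Fact ℓ.Prime] (hℓ : (ℓ : k) ≠ 0)
    (h : AlgebraicIndependent k (Sum.elim t x))
    [FiniteDimensional (adjoin k (Set.range (Sum.elim t x))) F] :
    ∃ Δ : MvPolynomial ι k, Δ ≠ 0 ∧ ∀ c : ι → k, MvPolynomial.eval c Δ ≠ 0 →
      ∀ O : ValuationSubring F, Triv k O →
        (∀ i, O.valuation (t i - algebraMap k F (c i)) < 1) → RInd k O x →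
        IdxOK ℓ (adjoin k (Set.range (Sum.elim t x))) O := GMp.triv (gm_idx hℓ h)

/-- two variables, no residue variables -/
theorem gm_unit_two {α β u : F} (h : AlgebraicIndependent k ![α, β]) (hu0 : u ≠ 0)
    (hu : u ∈ acl k {α, β}) :
    ∃ Δ : MvPolynomial (Fin 2) k, Δ ≠ 0 ∧ ∀ a b : k, MvPolynomial.eval ![a, b] Δ ≠ 0 →
      ∀ O : ValuationSubring F, Triv k O → O.valuation (α - algebraMap k F a) < 1 →
        O.valuation (β - algebraMap k F b) < 1 → O.valuation u = 1 := by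
  have _ := h
  have h1 : IsAlgebraic (adjoin k (Set.range (Sum.elim ![α, β] (Empty.elim : Empty → F)))) u := by
    refine ffb_mono (adjoin.mono _ _ _ ?_) ((mem_acl_iff _ u).1 hu)
    rintro z (rfl | rfl)
    · exact ⟨Sum.inl 0, rfl⟩
    · exact ⟨Sum.inl 1, rfl⟩
  obtain ⟨Δ, h0, hΔ⟩ := (gmp_unit hu0 h1).triv
  refine ⟨Δ, h0, fun a b hab O hO ha hb => hΔ ![a, b] hab O hO (fun i => ?_)
    ⟨fun i => i.elim, algebraicIndependent_empty_type⟩⟩
  fin_cases i
  · exact ha
  · exact hb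

end P019
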