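import Vale.Agent.P019.Mono2

/-!
P019 GaussA: Gauss extensions, monomial valuations and refinements.
-/

namespace P019

open IntermediateField

variable {k F : Type*} [Field k] [Field F] [Algebra k F]

theorem ga_hom {R L : Type*} [CommRing R] [CommRing L] [IsDomain L] (f : R →+* F)
    (hf : Function.Injective f) (g : R →+* L) :
    ∃ W : ValuationSubring F, (∀ r, f r ∈ W) ∧ ∀ r, W.valuation (f r) < 1 ↔ g r = 0 := by
  let e : R ≃+* f.range := RingEquiv.ofBijective f.rangeRestrict
    ⟨fun a b h => hf (congrArg Subtype.val h), f.rangeRestrict_surjective⟩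
  have := RingHom.ker_isPrime (g.comp e.symm.toRingHom)
  obtain ⟨W, h1, h2⟩ := exists_val_of_prime f.range (RingHom.ker (g.comp e.symm.toRingHom))
  refine ⟨W, fun r => h1 (e r), fun r => (h2 (e r)).trans ?_⟩
  simp [RingHom.mem_ker]

theorem ga_rind {O : ValuationSubring F} {ι : Type*} {y : ι → F} (hy : ∀ i, y i ∈ O)
    (h : ∀ H : MvPolynomial ι (O.comap (algebraMap k F)), O.valuation (MvPolynomial.aeval y
      (MvPolynomial.map (O.comap (algebraMap k F)).subtype H)) < 1 →
      ∀ m, O.valuation (algebraMap k F (H.coeff m : O.comap (algebraMap k F))) < 1) :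
    RInd k O y := by
  refine ⟨hy, algebraicIndependent_iff.2 fun P hP => ?_⟩
  obtain ⟨H, rfl⟩ := MvPolynomial.map_surjective (monoPhi k O) (fun r => by
    obtain ⟨c, hc, h⟩ := (mem_resK O r.1).1 r.2
    exact ⟨⟨c, hc⟩, Subtype.ext h.symm⟩) P
  obtain ⟨h1, h2⟩ := mono_red' O hy H
  refine MvPolynomial.ext _ _ fun m => ?_
  rw [MvPolynomial.coeff_map, MvPolynomial.coeff_zero]
  exact Subtype.ext ((res_eq_zero_iff O (H.coeff m).2).2
    (h H ((res_eq_zero_iff O h1).1 (h2.trans hP)) m))

theorem exists_gauss (O₁ : ValuationSubring k) {ι : Type*} {z : ι → F}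
    (hz : AlgebraicIndependent k z) :
    ∃ O : ValuationSubring F, O.comap (algebraMap k F) = O₁ ∧ RInd k O z := by
  obtain ⟨W, h1, h2⟩ := ga_hom
    ((MvPolynomial.aeval z : MvPolynomial ι k →ₐ[k] F).toRingHom.comp
      (MvPolynomial.map O₁.subtype))
    (fun a b h => MvPolynomial.map_injective _ O₁.subtype_injective (hz h))
    (MvPolynomial.map (IsLocalRing.residue O₁))
  have e : ∀ c : O₁, ((MvPolynomial.aeval z : MvPolynomial ι k →ₐ[k] F).toRingHom.comp
      (MvPolynomial.map O₁.subtype)) (MvPolynomial.C c) = algebraMap k F c := fun c => by simp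
  have h3 : ∀ c : O₁, W.valuation (algebraMap k F c) < 1 ↔ IsLocalRing.residue O₁ c = 0 :=
    fun c => by rw [← e, h2, MvPolynomial.map_C, MvPolynomial.C_eq_zero]
  have h4 : W.comap (algebraMap k F) = O₁ := by
    refine le_antisymm (fun c hc => ?_) fun c hc => ?_
    · by_contra hO
      have h5 : O₁.valuation c⁻¹ < 1 := (resb_lt_one_iff O₁ _).2 (Or.inr (by rwa [inv_inv]))
      have h6 := (h3 ⟨c⁻¹, resb_mem' h5⟩).2
        ((resb_coe O₁ _).symm.trans ((res_eq_zero_iff O₁ (resb_mem' h5)).2 h5))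
      rw [resb_lt_one_iff, map_eq_zero, ← map_inv₀, inv_inv] at h6
      exact h6.elim (fun h => hO (inv_eq_zero.1 h ▸ zero_mem O₁)) fun h => h hc
    · exact ValuationSubring.mem_comap.2 (e ⟨c, hc⟩ ▸ h1 _)
  refine ⟨W, h4, ?_⟩
  subst h4
  refine ga_rind (fun i => by simpa using h1 (MvPolynomial.X i)) fun H hH m => (h3 _).2 ?_
  rw [← MvPolynomial.coeff_map, (h2 H).1 hH, MvPolynomial.coeff_zero]

theorem ga_lin {ι : Type*} {u : ι → F} (hu : AlgebraicIndependent k u) :
    LinearIndependent k (monoX u) := by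
  have h0 : ∀ i, u i ≠ 0 := hu.ne_zero
  refine linearIndependent_iff_finset_linearIndependent.2 fun s => ?_
  obtain ⟨b, hb⟩ := s.finite_toSet.bddBelow
  have h1 : ∀ n : s, ((n.1 - b).mapRange Int.toNat rfl).mapRange Nat.cast Nat.cast_zero =
      n.1 - b := fun n => Finsupp.ext fun i => Int.toNat_of_nonneg (sub_nonneg.2 (hb n.2 i))
  have h2 := (((MvPolynomial.basisMonomials ι k).linearIndependent.map'
    (MvPolynomial.aeval u).toLinearMap (LinearMap.ker_eq_bot.2 hu)).comp
    (fun n : s => (n.1 - b).mapRange Int.toNat rfl) fun n n' h => Subtype.ext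
      (sub_left_injective ((h1 n).symm.trans ((congrArg _ h).trans (h1 n'))))).map'
    (LinearMap.mulRight k (monoX u b))
    (LinearMap.ker_eq_bot.2 (mul_left_injective₀ (monoX_ne h0 b)))
  refine (congrArg (fun v : s → F => LinearIndependent k v) (funext fun n => ?_)).mp h2
  simp only [Function.comp_apply, MvPolynomial.coe_basisMonomials, AlgHom.toLinearMap_apply,
    MvPolynomial.aeval_monomial, map_one, one_mul, LinearMap.mulRight_apply, Finsupp.prod]
  rw [← monoX_nat, h1, ← monoX_add h0, sub_add_cancel]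

theorem ga_triv {O : ValuationSubring F} (h : Triv k O) {c : k}
    (hc : O.valuation (algebraMap k F c) < 1) : c = 0 := by
  rw [resb_lt_one_iff, map_eq_zero, ← map_inv₀] at hc
  exact hc.resolve_right fun h' => h' (h _)

theorem exists_mono {ι : Type*} {u : ι → F} (hu : AlgebraicIndependent k u) :
    ∃ O : ValuationSubring F, Triv k O ∧ ZInd k O u ∧ ∀ i, O.valuation (u i) < 1 := by
  classical
  obtain ⟨_, -⟩ := exists_wellFoundedLT ι
  have h0 : ∀ i, u i ≠ 0 := hu.ne_zero
  let M : AddSubmonoid (ι →₀ ℤ) :=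
    { carrier := {n | 0 ≤ toLex n}
      add_mem' := fun {a b} ha hb => add_nonneg (a := toLex a) (b := toLex b) ha hb
      zero_mem' := le_refl (toLex (0 : ι →₀ ℤ)) }
  let φ : Multiplicative M →* F :=
    { toFun := fun n => monoX u n.toAdd
      map_one' := Finsupp.prod_zero_index
      map_mul' := fun a b => monoX_add h0 _ _ }
  let ψ : Multiplicative M →* k :=
    { toFun := fun n => if toLex (n.toAdd : ι →₀ ℤ) = 0 then 1 else 0
      map_one' := if_pos rfl
      map_mul' := fun a b => by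
        rw [ite_zero_mul_ite_zero, mul_one]
        exact if_congr (add_eq_zero_iff_of_nonneg (a := toLex (a.toAdd : ι →₀ ℤ))
          (b := toLex (b.toAdd : ι →₀ ℤ)) a.toAdd.2 b.toAdd.2) rfl rfl }
  obtain ⟨W, h1, h2⟩ := ga_hom (AddMonoidAlgebra.lift k F M φ).toRingHom
    ((injective_iff_map_eq_zero _).2 fun p hp => AddMonoidAlgebra.coeff_eq_zero.1
      (linearIndependent_iff.1 ((ga_lin hu).comp _ (Subtype.val_injective (p := (· ∈ M)))) _
        ((AddMonoidAlgebra.lift_apply φ p).symm.trans hp)))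
    (AddMonoidAlgebra.lift k k M ψ).toRingHom
  have h3 : Triv k W := fun c => (AddMonoidAlgebra.lift k F M φ).commutes c ▸ h1 _
  have h4 : ∀ n : ι →₀ ℤ, 0 < toLex n → W.valuation (monoX u n) < 1 := fun n hn => by
    have h5 := (h2 (AddMonoidAlgebra.single ⟨n, hn.le⟩ 1)).2
      ((AddMonoidAlgebra.lift_single ψ _ _).trans ((one_smul _ _).trans (if_neg hn.ne')))
    exact (congrArg W.valuation
      ((AddMonoidAlgebra.lift_single φ _ _).trans (one_smul _ _))).symm.trans_lt h5
  refine ⟨W, h3, ⟨h0, fun n c hn => ?_⟩, fun i => ?_⟩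
  · change W.valuation (monoX u n) = _ at hn
    have hc : c ≠ 0 := by
      rintro rfl
      rw [map_zero, map_zero, map_eq_zero] at hn
      exact monoX_ne h0 n hn
    have h5 : W.valuation (monoX u n) = 1 :=
      hn.trans ((resb_eq_one_iff W _).2 ⟨h3 c, fun h => hc (ga_triv h3 h)⟩)
    rcases lt_trichotomy 0 (toLex n) with h | h | h
    · exact absurd h5 (h4 n h).ne
    · exact h.symm
    · have h6 := h4 ((0 : ι →₀ ℤ) - n) (sub_pos.2 h)
      rw [monoX_sub h0, map_div₀, h5, show monoX u 0 = 1 from Finsupp.prod_zero_index, map_one,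
        div_one] at h6
      exact absurd h6 (lt_irrefl _)
  · have h5 := h4 (Finsupp.single i 1) (Finsupp.toLex_monotone.strictMono_of_injective
      toLex.injective (show (0 : ι →₀ ℤ) < Finsupp.single i 1 from lt_of_le_of_ne
        (Finsupp.single_nonneg.2 zero_le_one) (Finsupp.single_ne_zero.2 one_ne_zero).symm))
    rwa [monoX, Finsupp.prod_single_index (zpow_zero _), zpow_one] at h5

theorem ga_monoX {G : ValuationSubring F} {ι : Type*} {u : ι → F}
    (hu : ∀ i, G.valuation (u i) = 1) (n : ι →₀ ℤ) : G.valuation (monoX u n) = 1 ∧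
      res G (monoX u n) = monoX (fun i => res G (u i)) n := by
  refine Finset.prod_hom_rel (r := fun a r => G.valuation a = 1 ∧ res G a = r)
    ⟨map_one _, res_one G⟩ fun i a r h => ?_
  have h1 : G.valuation (u i ^ n i) = 1 := by rw [map_zpow₀, hu, one_zpow]
  refine ⟨by rw [map_mul, h1, h.1, one_mul], ?_⟩
  rw [res_mul G (resb_mem h1) (resb_mem h.1), h.2]
  congr 1
  beta_reduce
  obtain ⟨m, e | e⟩ := (n i).eq_nat_or_neg
  · rw [e, zpow_natCast, zpow_natCast, res_pow G (resb_mem (hu i))]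
  · rw [e, zpow_neg, zpow_neg, zpow_natCast, zpow_natCast,
      res_inv G (by rw [map_pow, hu, one_pow]), res_pow G (resb_mem (hu i))]

theorem exists_refine {G : ValuationSubring F} {ι ι' : Type*} {u : ι → F} {z : ι' → F}
    (h : RInd k G (Sum.elim u z)) :
    ∃ W : ValuationSubring F, W ≤ G ∧ W.comap (algebraMap k F) = G.comap (algebraMap k F) ∧
      ZInd k W u ∧ (∀ i, W.valuation (u i) < 1) ∧ RInd k W z := by
  have e : (fun i => res G (Sum.elim u z i)) =
      Sum.elim (fun i => res G (u i)) fun i => res G (z i) := funext fun i => by cases i <;> rfl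
  obtain ⟨hz, hu⟩ := AlgebraicIndependent.sumElim_iff.1 (e ▸ h.2)
  obtain ⟨U, u1, u2, u3⟩ := exists_mono (algebraicIndependent_adjoin_iff.2 hu)
  obtain ⟨W, w1, w2⟩ := exists_comp G U
  have hE : ∀ c : k, res G (algebraMap k F c) ∈
      adjoin (resK k G) (Set.range fun i => res G (z i)) := fun c =>
    IntermediateField.algebraMap_mem _ (⟨_, Subfield.subset_closure ⟨c, rfl⟩⟩ : resK k G)
  have hz' : ∀ i, z i ∈ G := fun i => h.1 (Sum.inr i)
  have hu' : ∀ i, G.valuation (u i) = 1 := fun i => resb_unit (h.1 (Sum.inl i)) (u2.1 i)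
  refine ⟨W, w1, le_antisymm (fun c hc => w1 hc) fun c hc => (w2 _ hc).2 (u1 ⟨_, hE c⟩),
    ⟨fun i => resb_ne (hu' i), fun n c hn => ?_⟩,
    fun i => (comp_val_lt_one w1 w2 (resb_mem (hu' i))).2 (u3 i),
    ga_rind (fun i => (w2 _ (hz' i)).2 (u1 ⟨_, subset_adjoin _ _ ⟨i, rfl⟩⟩)) fun H hH m => ?_⟩
  · change W.valuation (monoX u n) = _ at hn
    obtain ⟨m1, m2⟩ := ga_monoX hu' n
    have h1 : W.valuation (algebraMap k F c * (monoX u n)⁻¹) = 1 := by
      rw [map_mul, map_inv₀, ← hn, mul_inv_cancel₀ ((map_ne_zero _).2 (resb_ne m1))]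
    have h2 := val_eq_one_of_le w1 h1
    have h3 : G.valuation (algebraMap k F c) = 1 := by
      rwa [map_mul, resb_inv m1, mul_one] at h2
    have h4 := (comp_val_eq_one w1 w2 (resb_mem h2)).1 h1
    rw [res_mul G (resb_mem h3) (resb_mem (resb_inv m1)), res_inv G m1, m2, map_mul, map_inv₀,
      mul_inv_eq_one₀ ((map_ne_zero _).2 (monoX_ne u2.1 n))] at h4
    exact u2.2 n ⟨_, hE c⟩ h4.symm
  · obtain ⟨H', h1, h2, h3⟩ := mono_red G hz'
      (H := MvPolynomial.map (W.comap (algebraMap k F)).subtype H) fun m => by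
        rw [MvPolynomial.coeff_map]
        exact w1 (H.coeff m).2
    have h4 := (comp_val_lt_one w1 w2 h2).1 hH
    rw [h3] at h4
    have h5 := ga_triv u1 (c := ⟨MvPolynomial.aeval (fun i => res G (z i)) H',
      (mem_adjoin_range_iff _ _ _).2 ⟨H', 1, by simp⟩⟩) h4
    have h6 := h1 m
    rw [hz.eq_zero_of_aeval_eq_zero H' (congrArg Subtype.val h5), MvPolynomial.coeff_map] at h6
    exact val_lt_one_of_le w1 ((res_eq_zero_iff G (w1 (H.coeff m).2)).1 h6.symm)

end P019
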