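import Vale.Agent.P019.Mono2

/-!
P019 GaussB: valuation rings with locally finite residue field; archimedean property.
-/

namespace P019

open IntermediateField

variable {k F : Type*} [Field k] [Field F] [Algebra k F]

theorem gb_jacobson : IsJacobsonRing ℤ := by
  rw [isJacobsonRing_iff_prime_eq]
  intro P hP
  by_cases h : P = ⊥
  · subst h
    rw [eq_bot_iff]
    intro x hx
    have h1 := Int.isUnit_iff.1 (Ideal.mem_jacobson_bot.1 hx x)
    rw [Ideal.mem_bot]
    rcases h1 with h1 | h1 <;> nlinarith [mul_self_nonneg x]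
  · have := hP.isMaximal h
    exact Ideal.jacobson_eq_self_of_isMaximal

theorem gb_finite (C : Type*) [Field C] [Algebra.FiniteType ℤ C] : Finite C := by
  have := gb_jacobson
  have h1 : Module.Finite ℤ C := finite_of_finite_type_of_isJacobsonRing ℤ C
  obtain ⟨p, hp⟩ := CharP.exists C
  have h0 : p ≠ 0 := by
    rintro rfl
    have := CharP.charP_to_charZero C
    exact Int.not_isField
      (isField_of_isIntegral_of_isField (algebraMap ℤ C).injective_int (Field.toIsField C))
  refine Module.finite_of_fg_torsion C fun x => ⟨⟨(p : ℤ), ?_⟩, ?_⟩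
  · exact mem_nonZeroDivisors_of_ne_zero (Int.natCast_ne_zero.2 h0)
  · change (p : ℤ) • x = 0
    rw [zsmul_eq_mul, Int.cast_natCast, CharP.cast_eq_zero, zero_mul]

theorem gb_locFin {κ : Type*} [Field κ] {s : Set κ} (hs : s.Finite)
    (h : ∀ u : ValuationSubring κ, (∀ x ∈ s, x ∈ u) → ∀ x, x ∈ u) : LocFin κ := by
  intro a ha
  have h1 : Algebra.IsIntegral (Subring.closure (insert a s)) κ := ⟨fun x => by
    have hx : x ∈ (integralClosure (Subring.closure (insert a s)) κ).toSubring := by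
      rw [← iInf_valuationSubring_superset, Subring.mem_iInf]
      exact fun V => h V.1 (fun y hy => V.2 (Set.mem_insert_of_mem _ hy)) x
    exact hx⟩
  have h2 : IsField (Subring.closure (insert a s)) :=
    isField_of_isIntegral_of_isField Subtype.val_injective (Field.toIsField κ)
  have h3 : Algebra.FiniteType ℤ (Subring.closure (insert a s)) := by
    have h4 := Algebra.FiniteType.adjoin_of_finite (R := ℤ) (hs.insert a)
    rw [Algebra.adjoin_int] at h4
    let f : subalgebraOfSubring (Subring.closure (insert a s)) →+* Subring.closure (insert a s) :=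
      { toFun := fun x => ⟨x.1, x.2⟩
        map_one' := rfl
        map_mul' := fun _ _ => rfl
        map_zero' := rfl
        map_add' := fun _ _ => rfl }
    exact Algebra.FiniteType.of_surjective f.toIntAlgHom fun x => ⟨⟨x.1, x.2⟩, rfl⟩
  have h5 : Finite (Subring.closure (insert a s)) := by
    let _ := h2.toField
    exact gb_finite _
  have ham : a ∈ Subring.closure (insert a s) := Subring.subset_closure (Set.mem_insert _ _)
  obtain ⟨i, j, hij, he⟩ := Finite.exists_ne_map_eq_of_infinite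
    fun n : ℕ => (⟨a ^ n, pow_mem ham n⟩ : Subring.closure (insert a s))
  have he' : a ^ i = a ^ j := congrArg Subtype.val he
  have key : ∀ i j : ℕ, i < j → a ^ i = a ^ j → ∃ n : ℕ, 0 < n ∧ a ^ n = 1 := fun i j hl he =>
    ⟨j - i, by omega, by rw [pow_sub₀ a ha hl.le, ← he, mul_inv_cancel₀ (pow_ne_zero _ ha)]⟩
  rcases lt_or_gt_of_ne hij with hl | hl
  · exact key i j hl he'
  · exact key j i hl he'.symm

theorem gb_min (s : Set k) : ∃ ω : ValuationSubring k, (∀ x ∈ s, x ∈ ω) ∧
    ∀ W : ValuationSubring k, (∀ x ∈ s, x ∈ W) → W ≤ ω → ω ≤ W := by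
  obtain ⟨m, hm⟩ := zorn_le₀ (α := (ValuationSubring k)ᵒᵈ)
    {O | ∀ x ∈ s, x ∈ OrderDual.ofDual O} fun c hc hch => by
    refine ⟨OrderDual.toDual
      { toSubring := ⨅ O : c, (OrderDual.ofDual O.1).toSubring, mem_or_inv_mem' := fun x => ?_ },
      fun x hx => Subring.mem_iInf.2 fun O => hc O.2 x hx, fun z hz x hx => ?_⟩
    · by_cases hx : ∀ O : c, x ∈ OrderDual.ofDual O.1
      · exact Or.inl (Subring.mem_iInf.2 hx)
      · obtain ⟨O, hO⟩ := not_forall.1 hx
        refine Or.inr (Subring.mem_iInf.2 fun O' => ?_)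
        rcases hch.total O.2 O'.2 with hl | hl
        · exact ((OrderDual.ofDual O'.1).mem_or_inv_mem x).resolve_left fun hh => hO (hl hh)
        · exact hl (((OrderDual.ofDual O.1).mem_or_inv_mem x).resolve_left hO)
    · exact Subring.mem_iInf.1 hx ⟨z, hz⟩
  exact ⟨OrderDual.ofDual m, hm.1, fun W hW hl => hm.2 (y := OrderDual.toDual W) hW hl⟩

theorem exists_omega (T : Finset k) (hT : ∀ a ∈ T, a ≠ 0) :
    ∃ ω : ValuationSubring k, (∀ a ∈ T, ω.valuation a = 1) ∧ LocFin (Res ω) := by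
  obtain ⟨ω, h1, h2⟩ := gb_min ((T : Set k) ∪ (fun a => a⁻¹) '' (T : Set k))
  refine ⟨ω, fun a ha => ?_, gb_locFin
    ((T.finite_toSet.union (T.finite_toSet.image fun a => a⁻¹)).image (res ω)) fun u hu x => ?_⟩
  · rw [resb_eq_one_iff, resb_lt_one_iff, not_or, not_not]
    exact ⟨h1 a (Or.inl ha), hT a ha, h1 _ (Or.inr ⟨a, ha, rfl⟩)⟩
  · obtain ⟨W, hW, hr⟩ := exists_comp ω u
    obtain ⟨a, ha, rfl⟩ := res_surj ω x
    exact (hr a ha).1 (h2 W (fun y hy => (hr y (h1 y hy)).2 (hu _ ⟨y, hy, rfl⟩)) hW ha)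

theorem gb_lt {E : Type*} [Field E] (f : E →+* F) (O : ValuationSubring F) (a : E) :
    (O.comap f).valuation a < 1 ↔ O.valuation (f a) < 1 := by
  have h := val_comap f O 1 a
  rw [map_one, map_one, map_one] at h
  rw [← not_le, ← not_le, h]

theorem locFin_resK {O : ValuationSubring F} (h : LocFin (Res (O.comap (algebraMap k F)))) :
    LocFin (resK k O) := by
  rintro ⟨a, ha⟩ h0
  obtain ⟨c, hc, rfl⟩ := (mem_resK O a).1 ha
  have hc' : c ∈ O.comap (algebraMap k F) := hc
  have h1 : res (O.comap (algebraMap k F)) c ≠ 0 := fun hh =>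
    h0 (Subtype.ext ((res_eq_zero_iff O hc).2 ((gb_lt _ O c).1 ((res_eq_zero_iff _ hc').1 hh))))
  obtain ⟨n, hn, he⟩ := h _ h1
  refine ⟨n, hn, Subtype.ext ?_⟩
  rw [← res_pow _ hc', ← res_one (O.comap (algebraMap k F)),
    res_eq_iff _ (pow_mem hc' n) (one_mem _), gb_lt, map_sub, map_pow, map_one,
    ← res_eq_iff _ (pow_mem hc n) (one_mem _), res_pow _ hc, res_one] at he
  exact he

theorem gb_poly {W : ValuationSubring F} (hW : Triv k W) {y : F} (hy : y ∈ W) (p : Polynomial k) :
    Polynomial.aeval y p ∈ W := by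
  rw [Polynomial.aeval_eq_sum_range]
  refine sum_mem fun i _ => ?_
  rw [Algebra.smul_def]
  exact mul_mem (hW _) (pow_mem hy i)

theorem gb_unit {W : ValuationSubring F} (hW : Triv k W) {y : F} (hy : W.valuation y < 1)
    {p : Polynomial k} (hp : p.coeff 0 ≠ 0) : W.valuation (Polynomial.aeval y p) = 1 := by
  have h1 : W.valuation (algebraMap k F (p.coeff 0)) = 1 := by
    rw [resb_eq_one_iff, resb_lt_one_iff, not_or, not_not, ← map_inv₀]
    exact ⟨hW _, (map_ne_zero _).2 hp, hW _⟩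
  have h2 : W.valuation (y * Polynomial.aeval y p.divX) < 1 := by
    rw [map_mul]
    exact mul_lt_one_of_lt_of_le hy ((W.valuation_le_one_iff _).2 (gb_poly hW (resb_mem' hy) _))
  rw [← Polynomial.X_mul_divX_add p, map_add, map_mul, Polynomial.aeval_X, Polynomial.aeval_C,
    Valuation.map_add_eq_of_lt_right _ (h1 ▸ h2), h1]

theorem arch_of_alg {W : ValuationSubring F} (hW : Triv k W) {y a : F} (hy0 : y ≠ 0)
    (hy : W.valuation y < 1) (ha0 : a ≠ 0) (ha : IsAlgebraic k⟮y⟯ a) :
    ∃ n : ℕ, W.valuation y ^ n < W.valuation a := by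
  have hyW : y ∈ W := resb_mem' hy
  let S : Subring F :=
    { carrier := {x | ∃ n : ℕ, x * y ^ n ∈ W}
      mul_mem' := by
        rintro u v ⟨m, hm⟩ ⟨n, hn⟩
        refine ⟨m + n, ?_⟩
        rw [show u * v * y ^ (m + n) = u * y ^ m * (v * y ^ n) by ring]
        exact mul_mem hm hn
      one_mem' := ⟨0, by simp⟩
      add_mem' := by
        rintro u v ⟨m, hm⟩ ⟨n, hn⟩
        refine ⟨m + n, ?_⟩
        rw [show (u + v) * y ^ (m + n) = u * y ^ m * y ^ n + v * y ^ n * y ^ m by ring]
        exact add_mem (mul_mem hm (pow_mem hyW n)) (mul_mem hn (pow_mem hyW m))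
      zero_mem' := ⟨0, by simp⟩
      neg_mem' := by
        rintro u ⟨m, hm⟩
        exact ⟨m, by rw [neg_mul]; exact neg_mem hm⟩ }
  have hle : W.toSubring ≤ S := fun x hx => ⟨0, by rw [pow_zero, mul_one]; exact hx⟩
  have hO : ∀ c ∈ k⟮y⟯, c ∈ W.ofLE S hle := by
    intro c hc
    obtain ⟨r, q, rfl⟩ := (mem_adjoin_simple_iff k c).1 hc
    by_cases hq : q = 0
    · rw [hq, map_zero, div_zero]
      exact zero_mem _
    obtain ⟨q', he, hd⟩ := Polynomial.exists_eq_pow_rootMultiplicity_mul_and_not_dvd q hq 0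
    rw [Polynomial.C_0, sub_zero] at he hd
    have hu := gb_unit hW hy (mt Polynomial.X_dvd_iff.2 hd)
    refine ⟨Polynomial.rootMultiplicity 0 q, ?_⟩
    generalize Polynomial.rootMultiplicity 0 q = m at he
    have e : Polynomial.aeval y r / Polynomial.aeval y q * y ^ m =
        Polynomial.aeval y r * (Polynomial.aeval y q')⁻¹ := by
      have := resb_ne hu
      rw [he, map_mul, map_pow, Polynomial.aeval_X]
      field_simp
    rw [e]
    exact mul_mem (gb_poly hW hyW r) (resb_mem (resb_inv hu))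
  have hi : IsIntegral k⟮y⟯ a⁻¹ := ha.inv.isIntegral
  obtain ⟨n, hn⟩ : a⁻¹ ∈ W.ofLE S hle :=
    mem_of_monic _ (p := (minpoly k⟮y⟯ a⁻¹).map (algebraMap k⟮y⟯ F)) ((minpoly.monic hi).map _)
      (fun i => by rw [Polynomial.coeff_map]; exact hO _ (Subtype.property _))
      (by rw [Polynomial.eval_map_algebraMap, minpoly.aeval])
  have hv : 0 < W.valuation a := zero_lt_iff.2 ((Valuation.ne_zero_iff _).2 ha0)
  have hv' : 0 < W.valuation y := zero_lt_iff.2 ((Valuation.ne_zero_iff _).2 hy0)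
  rw [← W.valuation_le_one_iff, map_mul, map_inv₀, map_pow, inv_mul_le_iff₀ hv, mul_one] at hn
  refine ⟨n + 1, lt_of_lt_of_le ?_ hn⟩
  rw [pow_succ]
  exact mul_lt_of_lt_one_right (pow_pos hv' n) hy

end P019
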