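import Vale.Agent.P019.Gauss

/-!
P019 KeyA: `key1a` (plan in the header of Key).
-/

namespace P019

open IntermediateField

theorem kya_alg {A B M : Type*} [CommRing A] [CommRing B] [Field M] [Algebra A M] [Algebra B M]
    (hA : Function.Injective (algebraMap A M))
    (h : ∀ a : A, algebraMap A M a ∈ Set.range (algebraMap B M)) {x : M}
    (hx : IsAlgebraic A x) : IsAlgebraic B x := by
  obtain ⟨p, hp, e⟩ := hx
  obtain ⟨q, hq⟩ := (Polynomial.mem_lifts (f := algebraMap B M) (p.map (algebraMap A M))).1
    ((Polynomial.lifts_iff_coeff_lifts _).2 fun n => by rw [Polynomial.coeff_map]; exact h _)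
  refine ⟨q, fun h0 => ?_, ?_⟩
  · rw [h0, Polynomial.map_zero] at hq
    exact (Polynomial.map_ne_zero_iff hA).2 hp hq.symm
  · rw [← Polynomial.eval_map_algebraMap, hq, Polynomial.eval_map_algebraMap, e]

theorem kya_closed {M : Type*} [Field M] (κ : Subfield M) [IsAlgClosed κ] {x : M}
    (hx : IsAlgebraic κ x) : x ∈ κ := by
  have h := minpoly.mem_range_of_degree_eq_one κ x
    (IsAlgClosed.degree_eq_one_of_irreducible κ (minpoly.irreducible hx.isIntegral))
  obtain ⟨c, rfl⟩ := h
  exact c.2

/-- a ring trivial on `L` embeds `L` in its residue field -/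
noncomputable def kyaHom {L M : Type*} [Field L] [Field M] [Algebra L M]
    {W : ValuationSubring M} (hW : Triv L W) : L →+* Res W :=
  (IsLocalRing.residue W).comp ((algebraMap L M).codRestrict W hW)

theorem kyaHom_apply {L M : Type*} [Field L] [Field M] [Algebra L M]
    {W : ValuationSubring M} (hW : Triv L W) (c : L) :
    kyaHom hW c = res W (algebraMap L M c) := by
  rw [res, dif_pos (hW c)]
  rfl

theorem kya_count {l L M : Type*} [Field l] [Field L] [Field M] [Algebra l L] [Algebra L M]
    [Algebra l M] [IsScalarTower l L M] {ι : Type*} {u : ι → M} (hu : IsTranscendenceBasis L u)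
    {n : ℕ} {b : Fin n → L} (hb : IsTranscendenceBasis l b) {z : Fin n → M}
    (hz : AlgebraicIndependent l (Sum.elim u z)) (x : M) :
    IsAlgebraic (Algebra.adjoin (Algebra.adjoin l (Set.range u)) (Set.range z)) x := by
  by_contra hx
  have h0 : AlgebraicIndependent l (Sum.elim z u) := by
    have := hz.comp _ (Equiv.sumComm (Fin n) ι).injective
    rwa [show Sum.elim u z ∘ (Equiv.sumComm (Fin n) ι) = Sum.elim z u from by
      funext i; cases i <;> rfl] at this
  have h1 := (AlgebraicIndependent.sumElim_iff.1 h0).2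
  have h2 := ((h1.option_iff_transcendental x).2 hx).lift_cardinalMk_le_trdeg
  have h3 := (hb.sumElim_comp hu).isAlgebraic
  have h4 : Algebra.IsAlgebraic (Algebra.adjoin (Algebra.adjoin l (Set.range u))
      (Set.range (algebraMap L M ∘ b))) M := by
    refine ⟨fun a => kya_alg Subtype.val_injective (fun c => ?_) (h3.isAlgebraic a)⟩
    obtain ⟨c, hc⟩ := c
    have hd := hc
    rw [Set.Sum.elim_range, Algebra.adjoin_union_eq_adjoin_adjoin] at hd
    exact ⟨⟨c, hd⟩, rfl⟩
  have h5 := Algebra.IsAlgebraic.trdeg_le_cardinalMk (Algebra.adjoin l (Set.range u))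
    (Set.range (algebraMap L M ∘ b))
  have h6 := (h2.trans (Cardinal.lift_le.2 h5)).trans Cardinal.mk_range_le_lift
  simp at h6

variable {l L : Type*} [Field l] [Field L] [Algebra l L]

theorem key1a {r : ℕ} (hL : IsFF l L (r + 1)) {M : Type*} [Field M] [Algebra L M]
    (κ : Subfield M) [IsAlgClosed κ] (hM : IsFF κ M 1)
    (hl : ∀ c : l, algebraMap L M (algebraMap l L c) ∈ κ) (hy : ∃ y : L, algebraMap L M y ∉ κ) :
    ∃ W : ValuationSubring M, Triv L W ∧ IsFF (resK κ W) (Res W) 1 ∧
      (∃ y : L, res W (algebraMap L M y) ∉ resK κ W) ∧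
      Algebra.IsAlgebraic (resK L W) (Res W) := by
  obtain ⟨y, hy⟩ := hy
  have hyt : Transcendental κ (algebraMap L M y) := fun h => hy (kya_closed κ h)
  have hfin := hM.finite_one hyt
  have h1 : Algebra.IsAlgebraic (Algebra.adjoin L (κ : Set M)) M := by
    refine ⟨fun a => kya_alg Subtype.val_injective (fun c => ?_)
      (isAlgebraic_adjoin_iff.1 (Algebra.IsAlgebraic.isAlgebraic (R := κ⟮algebraMap L M y⟯) a))⟩
    refine ⟨⟨c, ?_⟩, rfl⟩
    obtain ⟨c, hc⟩ := c
    induction hc using Algebra.adjoin_induction with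
    | mem x hx =>
      obtain rfl : x = algebraMap L M y := hx
      exact Subalgebra.algebraMap_mem _ y
    | algebraMap x => exact Algebra.subset_adjoin x.2
    | add x y _ _ hx hy => exact add_mem hx hy
    | mul x y _ _ hx hy => exact mul_mem hx hy
  obtain ⟨t, ht, hu⟩ := exists_isTranscendenceBasis_subset (R := L) (κ : Set M)
  obtain ⟨W, hW, hz, -⟩ := exists_mono hu.1
  have h2 : Algebra.IsAlgebraic (resK L W) (Res W) := by
    refine ⟨fun a => ?_⟩
    obtain ⟨a, ha, rfl⟩ := res_surj W a
    refine kya_alg Subtype.val_injective (fun c => ?_)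
      (res_algebraic _ W (hu.isAlgebraic_field.isAlgebraic a) ha)
    obtain ⟨d, hd, e⟩ := (mem_resK W _).1 c.2
    have h3 := mono_res hz (y := fun i : Empty => (i.elim : M))
      ⟨fun i => i.elim, algebraicIndependent_empty_type⟩ (a := d)
      (by rw [Set.Sum.elim_range, Set.range_eq_empty (fun i : Empty => (i.elim : M)),
        Set.union_empty]; exact d.2) hd
    rw [Set.range_eq_empty, adjoin_empty, mem_bot] at h3
    exact (show algebraMap _ (Res W) c = res W (d : M) from e) ▸ h3
  have h3 : ∃ y : L, res W (algebraMap L M y) ∉ resK κ W := by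
    by_contra h
    push Not at h
    obtain ⟨b, hb, hf⟩ := hL
    choose z hzW e using fun j => (mem_resK W _).1 (h (b j))
    let _ : Algebra l M := ((algebraMap L M).comp (algebraMap l L)).toAlgebra
    have : IsScalarTower l L M := .of_algebraMap_eq fun _ => rfl
    have hWl : Triv l W := fun c => hW (algebraMap l L c)
    have h4 : AlgebraicIndependent (resK l W) (kyaHom hW ∘ b) := by
      refine hb.ringHom_of_comp_eq ((kyaHom hWl).codRestrict (resK l W) fun c =>
        (mem_resK W _).2 ⟨c, hWl c, kyaHom_apply hWl c⟩) (kyaHom hW) (fun a => ?_)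
        (kyaHom hW).injective (RingHom.ext fun c => rfl)
      obtain ⟨c, -, hc⟩ := (mem_resK W _).1 a.2
      exact ⟨c, Subtype.ext ((kyaHom_apply hWl c).trans hc.symm)⟩
    have h5 : RInd l W fun j => (z j : M) := by
      refine ⟨hzW, ?_⟩
      rwa [show kyaHom hW ∘ b = fun j => res W (z j : M) from
        funext fun j => (kyaHom_apply hW _).trans (e j)] at h4
    have h6 : ZInd l W ((↑) : t → M) := ⟨hz.1, fun n c hc => hz.2 n (algebraMap l L c) hc⟩
    refine hyt (kya_alg Subtype.val_injective (fun c => ?_)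
      (kya_count hu (ffa_basis hb) (mono_indep h6 h5) (algebraMap L M y)))
    refine ⟨⟨c, ?_⟩, rfl⟩
    obtain ⟨c, hc⟩ := c
    induction hc using Algebra.adjoin_induction with
    | mem x hx =>
      obtain ⟨j, rfl⟩ := hx
      exact (z j).2
    | algebraMap x =>
      obtain ⟨x, hx⟩ := x
      change x ∈ κ
      induction hx using Algebra.adjoin_induction with
      | mem x hx =>
        obtain ⟨j, rfl⟩ := hx
        exact ht j.2
      | algebraMap x => exact hl x
      | add x y _ _ hx hy => exact add_mem hx hy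
      | mul x y _ _ hx hy => exact mul_mem hx hy
    | add x y _ _ hx hy => exact add_mem hx hy
    | mul x y _ _ hx hy => exact mul_mem hx hy
  refine ⟨W, hW, ?_, h3, h2⟩
  obtain ⟨w, hw⟩ := h3
  have := resK_isAlgClosed κ W
  simpa using res_isFF hM (mono_zind W) (y := fun _ : Unit => algebraMap L M w)
    ⟨fun _ => hW w, algebraicIndependent_unique_type_iff.2 fun h => hw (kya_closed _ h)⟩ (by simp)

end P019
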