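import Vale.Agent.P019.Kum

/-!
P019 KumB: `flat_step`: `T = K(f^(1/ℓ))`, `kum_one`, `zar` for two elements of `K` independent
over `A`; `A₁` = algebraic closure of `A(x + c y)` in `K`.  If `f = b g^ℓ`, `b ∈ A₁`, then
`β = α / g` has `β^ℓ = b` and `β^(p^n) ∈ K`, so the class of `b` vanishes.
-/

namespace P019

open IntermediateField

variable {ℓ : ℕ} [Fact ℓ.Prime] {k : Type*} [Field k]

theorem kumB_flat {K : Type*} [Field K] [Algebra k K] {a : ℕ} {A : IntermediateField k K}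
    (hA : Flat A a) {u : K} (hu : u ∉ A) :
    ∃ B : IntermediateField k K, A ≤ B ∧ Flat B (a + 1) ∧ ∀ z, z ∈ B ↔ IsAlgebraic A⟮u⟯ z := by
  obtain ⟨y, hy, hm⟩ := hA.exists_basis
  have h1 := flat_acl (hA.indep_option hy hm hu)
  rw [Fintype.card_option, Fintype.card_fin] at h1
  have h2 : A ≤ acl k (Set.range fun o : Option (Fin a) => o.elim u y) := fun z hz =>
    (mem_acl_iff _ _).2 (ffb_mono (adjoin.mono _ _ _ (by
      rintro _ ⟨i, rfl⟩; exact ⟨some i, rfl⟩)) (ffb_alg (by simpa using hA.2) hy hm hz))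
  refine ⟨_, h2, h1, fun z => ⟨fun hz => ?_, fun hz => h1.1 z ?_⟩⟩
  · refine ffb_mono (B := A⟮u⟯.restrictScalars k) (adjoin_le_iff.2 ?_) ((mem_acl_iff _ _).1 hz)
    rintro _ ⟨o, rfl⟩
    cases o with
    | none => exact mem_adjoin_simple_self A u
    | some i => exact A⟮u⟯.algebraMap_mem ⟨y i, hm i⟩
  · refine ffb_mono (A := A⟮u⟯.restrictScalars k) ?_ hz
    rw [restrictScalars_adjoin, adjoin_le_iff]
    rintro w (hw | rfl)
    · exact h2 hw
    · exact subset_acl _ ⟨none, rfl⟩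

theorem kumB_map {A K T : Type*} [Field A] [Field K] [Field T] [Algebra A K] [Algebra A T]
    (φ : K →ₐ[A] T) {u b : K} (h : IsAlgebraic A⟮u⟯ b) : IsAlgebraic A⟮φ u⟯ (φ b) := by
  have e : A⟮u⟯.map φ = A⟮φ u⟯ := by rw [adjoin_map, Set.image_singleton]
  rw [← e]
  exact h.ringHom_of_comp_eq (equivMap A⟮u⟯ φ) φ (equivMap A⟮u⟯ φ).injective (by ext; rfl)

theorem kumB_char {T : Type*} [Field T] (hℓ : (ℓ : T) ≠ 0) (n : ℕ) :
    ((ringExpChar T ^ n : ℕ) : ZMod ℓ) ≠ 0 := by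
  have hp : ℓ.Prime := Fact.out
  rw [Ne, ZMod.natCast_eq_zero_iff]
  intro h
  have h1 := hp.dvd_of_dvd_pow h
  obtain ⟨q, hq⟩ := ExpChar.exists T
  rw [ringExpChar.eq T q] at h1
  cases hq with
  | zero => exact hp.one_lt.ne' (Nat.dvd_one.1 h1)
  | prime hq =>
    rw [(Nat.prime_dvd_prime_iff_eq hp hq).1 h1] at hℓ
    exact hℓ (CharP.cast_eq_zero T q)

variable [IsAlgClosed k]

theorem kumB_core (hℓ : (ℓ : k) ≠ 0) {K T : Type*} [Field K] [Algebra k K] [Field T] [Algebra K T]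
    [Algebra k T] [IsScalarTower k K T] [FiniteDimensional K T] {d a : ℕ}
    (hK : IsFF k K d) (ha : a + 2 ≤ d) {A : IntermediateField k K} (hA : Flat A a) {f : K}
    (hf : cl ℓ f ≠ 0) (hT : ∀ z : T, IsAlgebraic A z → ∃ c, algebraMap A T c = z) {α : T}
    (hα : α ^ ℓ = algebraMap K T f) :
    ∃ A₁ : IntermediateField k K, A ≤ A₁ ∧ Flat A₁ (a + 1) ∧ cl ℓ f ∉ Hs ℓ (A₁ : Set K) := by
  have hp : ℓ.Prime := Fact.out
  obtain ⟨x, hx⟩ : ∃ x, x ∉ A := by
    by_contra! h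
    exact hA.ne_top hK (by omega) (eq_top_iff.2 fun x _ => h x)
  obtain ⟨A', -, h2, h3⟩ := kumB_flat hA hx
  obtain ⟨y, hy⟩ : ∃ y, y ∉ A' := by
    by_contra! h
    exact h2.ne_top hK (by omega) (eq_top_iff.2 fun x _ => h x)
  have hxy : AlgebraicIndependent A ![x, y] :=
    indep_pair_iff.2 ⟨fun h => hx (hA.1 x h), fun h => hy ((h3 y).2 ((mem_acl_iff _ _).1 h))⟩
  let φ := IsScalarTower.toAlgHom A K T
  have hxy' : AlgebraicIndependent A ![φ x, φ y] := by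
    convert hxy.map' (f := φ) φ.injective using 1
    ext i; fin_cases i <;> rfl
  have hfin : FiniteDimensional (adjoin A {φ x, φ y}) (algebraicClosure (adjoin A {φ x, φ y}) T) :=
    (hK.of_finite T).finite_algebraicClosure ((adjoin A {φ x, φ y}).restrictScalars k)
  obtain ⟨c, hc⟩ := (zar (k := k) hT hxy').exists
  have e : φ x + algebraMap k T c * φ y = φ (x + algebraMap k K c * y) := by
    rw [map_add, map_mul, IsScalarTower.algebraMap_apply k K T]; rfl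
  rw [e] at hc
  have hu : x + algebraMap k K c * y ∉ A := fun h => by
    refine (indep_pair_iff.1 (indep_pair_symm hxy)).2 ?_
    have h4 := sub_mem ((acl A {y}).algebraMap_mem ⟨_, h⟩)
      (mul_mem ((acl A {y}).algebraMap_mem ⟨_, A.algebraMap_mem c⟩) (subset_acl {y} rfl))
    exact (add_sub_cancel_right x _) ▸ h4
  obtain ⟨B, b1, b2, b3⟩ := kumB_flat hA hu
  refine ⟨B, b1, b2, fun h => hf ?_⟩
  obtain ⟨b, hb, hb0, hbf⟩ := (mem_Hs_iff B.one_mem (fun a ha b hb => B.mul_mem ha hb) _).1 h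
  have hf0 : f ≠ 0 := fun h => hf (by rw [h]; simp [cl])
  obtain ⟨g, hg0, hg⟩ := (cl_eq_iff hf0 hb0).1 hbf.symm
  have hβ : (α / φ g) ^ ℓ = φ b := by
    have : φ g ≠ 0 := (map_ne_zero φ).2 hg0
    rw [div_pow, hα, hg, map_mul, map_pow]
    exact mul_div_cancel_right₀ _ (pow_ne_zero _ this)
  obtain ⟨n, hn⟩ := hc (α / φ g) (IsAlgebraic.of_pow hp.pos (hβ ▸ kumB_map φ ((b3 b).1 hb)))
  rw [← Set.image_singleton, ← adjoin_map] at hn
  obtain ⟨w, -, hw⟩ := hn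
  have h5 : b ^ ringExpChar T ^ n = w ^ ℓ := φ.injective (by
    change φ _ = φ _
    rw [map_pow, map_pow, ← hβ, ← pow_mul, mul_comm, pow_mul]
    exact congrArg (· ^ ℓ) hw.symm)
  have h6 := congrArg (cl ℓ) h5
  rw [cl_pow, cl_pow, ZMod.natCast_self, zero_smul] at h6
  have hℓT : (ℓ : T) ≠ 0 := by
    rw [← map_natCast (algebraMap k T)]; exact (map_ne_zero _).2 hℓ
  rw [← hbf]
  exact (smul_eq_zero.1 h6).resolve_left (kumB_char hℓT n)

theorem flat_step (hℓ : (ℓ : k) ≠ 0) {K : Type*} [Field K] [Algebra k K] {d a : ℕ}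
    (hK : IsFF k K d) (ha : a + 2 ≤ d) {A : IntermediateField k K} (hA : Flat A a) {f : K}
    (hf : cl ℓ f ∉ Hs ℓ (A : Set K)) :
    ∃ A₁ : IntermediateField k K, A ≤ A₁ ∧ Flat A₁ (a + 1) ∧ cl ℓ f ∉ Hs ℓ (A₁ : Set K) := by
  have hp : ℓ.Prime := Fact.out
  obtain ⟨α, hα⟩ := IsAlgClosed.exists_pow_nat_eq (algebraMap K (AlgebraicClosure K) f) hp.pos
  obtain ⟨h1, -, -, h2, -⟩ := kum_one k hℓ (C := A) (E := K) (T := AlgebraicClosure K)
    (fun z hz => ⟨⟨z, hA.1 z hz⟩, rfl⟩) (a := f)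
    (by rwa [show Set.range (algebraMap A K) = (A : Set K) from Subtype.range_coe]) hα
  refine kumB_core hℓ (T := K⟮α⟯) hK ha hA (fun h => hf (h ▸ zero_mem _)) (fun z hz => ?_)
    (α := AdjoinSimple.gen K α) (Subtype.ext hα)
  obtain ⟨c, hc⟩ := h2 z z.2 (hz.algHom (IsScalarTower.toAlgHom A K⟮α⟯ (AlgebraicClosure K)))
  exact ⟨c, Subtype.ext hc⟩

theorem flat_inter (hℓ : (ℓ : k) ≠ 0) {K : Type*} [Field K] [Algebra k K] {r a : ℕ}
    (hK : IsFF k K (r + 1)) (ha : a ≤ r) {A : IntermediateField k K} (hA : Flat A a) {f : K}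
    (hf : cl ℓ f ∉ Hs ℓ (A : Set K)) :
    ∃ B : IntermediateField k K, A ≤ B ∧ Flat B r ∧ cl ℓ f ∉ Hs ℓ (B : Set K) := by
  have key : ∀ m, a + m ≤ r → ∃ B : IntermediateField k K, A ≤ B ∧ Flat B (a + m) ∧
      cl ℓ f ∉ Hs ℓ (B : Set K) := by
    intro m
    induction m with
    | zero => exact fun _ => ⟨A, le_rfl, hA, hf⟩
    | succ m ih =>
      intro h
      obtain ⟨B, b1, b2, b3⟩ := ih (by omega)
      obtain ⟨B', c1, c2, c3⟩ := flat_step hℓ hK (by omega) b2 b3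
      exact ⟨B', b1.trans c1, c2, c3⟩
  have := key (r - a) (by omega)
  rwa [Nat.add_sub_cancel' ha] at this

end P019
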