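import Vale.Agent.P019.KeyB
import Vale.Agent.P019.KeyA
import Vale.Agent.P019.KumB

/-!
P019 Key: the eventually constant elements form a flat of codimension one.
`key1a`: `u ⊆ κ` a transcendence basis of `M / L` (`exists_isTranscendenceBasis_subset`; `M` is
algebraic over `κ(y)`), `W` from `exists_mono` over `L`; `mono_res`, `res_algebraic`.  If all
residues of `L` were in `κ₀ = resK κ W`, lift the residues of a transcendence basis of `L / l` to
`z ⊆ κ`; `(u, z)` is independent over `l` (`mono_indep`), `M` has dimension `r + 1` over `l(u)`, so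
`M` is algebraic over `κ`, absurd.  Then `res_isFF` with one residue variable.
`key1`: embed `Res W` in the algebraic closure of `L`; `κ₀` has dimension `r` over `l`
(`trdeg_add_eq`); `L₁ = L(z)` for a basis `z`, `C₁ = L₁ ∩ κ₀`, `kd_fin`.
`key2`: `lemU` for `L₁ / L`; eventually every ring `W` of `L₁` above `O i` is `IdxOK`, contains `z`
and has representatives of `S` as units (minimal polynomials, `mem_of_monic`).  `VInd.ext`, so
classes of elements of `C₁` are `VInd`, `VInd.zInd`, `res_const`: `z` is congruent to a constant.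
In a normal closure `N` with a ring `W₁` above `O i`, every root of `minpoly L z` is `σ z` for an
`L`-embedding `σ`; apply the above to `W₁.comap σ`; the coefficients are symmetric functions.
`key`: `exists_cst`; `C₁` is algebraic over `C`, and `C ≠ L`.
-/

namespace P019

open IntermediateField

variable {ℓ : ℕ} [Fact ℓ.Prime] {l L : Type*} [Field l] [Field L] [Algebra l L]

variable [IsAlgClosed l]

theorem key_core (hℓ : (ℓ : l) ≠ 0) {r : ℕ} (hL : IsFF l L (r + 1)) {R : Type*} [Field R]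
    (κ : Subfield R) [IsAlgClosed κ] (hR : IsFF κ R 1) (ψ : L →+* R)
    (hl : ∀ c : l, ψ (algebraMap l L c) ∈ κ) {y : L} (hy : ψ y ∉ κ) {z : Fin r → L}
    (hz : AlgebraicIndependent l z) (hm : ∀ i, ψ (z i) ∈ κ) :
    ∃ (C : IntermediateField l L) (S : Finset (V ℓ L)), Flat C r ∧ (∀ a, a ∈ C ↔ ψ a ∈ κ) ∧
      ∀ a : L, (∃ g : R, g ^ ℓ = ψ a) →
        cl ℓ a ∈ Hs ℓ (C : Set L) ⊔ Submodule.span (ZMod ℓ) (S : Set (V ℓ L)) := by
  have hκ : ∀ a : R, IsAlgebraic κ a → a ∈ κ := fun a ha => by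
    obtain ⟨c, rfl⟩ := minpoly.mem_range_of_degree_eq_one κ a
      (IsAlgClosed.degree_eq_one_of_irreducible κ (minpoly.irreducible ha.isIntegral))
    exact c.2
  let C : IntermediateField l L := (κ.comap ψ).toIntermediateField hl
  have hC : ∀ a, a ∈ C ↔ ψ a ∈ κ := fun a => Iff.rfl
  have hcl : ∀ a : L, IsAlgebraic C a → a ∈ C := fun a ha =>
    hκ _ (ha.ringHom_of_comp_eq ((ψ.comp (algebraMap C L)).codRestrict κ fun c => c.2) ψ
      (RingHom.injective _) rfl)
  have hfull : ∀ x : L, ¬ IsAlgebraic (adjoin l (Set.range z)) x → ∀ a : L,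
      IsAlgebraic (adjoin l (Set.range fun o : Option (Fin r) => o.elim x z)) a := fun x hx a => by
    have := hL.finite ((ffb_option hz x).2 hx) (by simp)
    exact Algebra.IsAlgebraic.isAlgebraic a
  have hF : Flat C r := by
    refine ⟨hcl, ?_⟩
    have h1 := ffb_trdeg (A := C) hz hm fun a ha => by
      by_contra hn
      refine hy (hcl y (ffb_mono (adjoin_le_iff.2 (Set.range_subset_iff.2 fun o => ?_))
        (hfull a hn y)))
      cases o with
      | none => exact ha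
      | some i => exact hm i
    simpa using h1
  have hx : Transcendental C y := fun h => hy (hcl y h)
  have hfin : FiniteDimensional C⟮y⟯ L := by
    have := hL.ess
    have : Algebra.EssFiniteType C L := .of_comp l _ _
    have : Algebra.EssFiniteType C⟮y⟯ L := .of_comp C _ _
    have : Algebra.IsAlgebraic C⟮y⟯ L := ⟨fun a => by
      refine ffb_mono (B := C⟮y⟯.restrictScalars l)
        (adjoin_le_iff.2 (Set.range_subset_iff.2 fun o => ?_))
        (hfull y (fun h => hx (ffb_mono (adjoin_le_iff.2 (Set.range_subset_iff.2 hm)) h)) a)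
      cases o with
      | none => exact mem_adjoin_simple_self C y
      | some i => exact C⟮y⟯.algebraMap_mem ⟨z i, hm i⟩⟩
    exact Algebra.finite_of_essFiniteType_of_isAlgebraic
  have hx' : Transcendental κ (ψ y) := fun h => hy (hκ _ h)
  have := hR.finite_one hx'
  obtain ⟨S, hS⟩ := kd_fin l hℓ (C := C) (fun a ha => ⟨⟨a, hcl a ha⟩, rfl⟩) hx κ ψ
    (fun c => c.2) hx'
  refine ⟨C, S, hF, hC, fun a ha => ?_⟩
  have h2 := hS a ha
  rwa [show Set.range (algebraMap C L) = (C : Set L) from Subtype.range_coe] at h2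

theorem key_basis {r : ℕ} (hL : IsFF l L (r + 1)) {R : Type*} [Field R] [Algebra L R]
    [Algebra l R] [IsScalarTower l L R] [Algebra.IsAlgebraic L R] (κ : Subfield R)
    (hR : IsFF κ R 1) (hl : ∀ c : l, algebraMap l R c ∈ κ) :
    ∃ z : Fin r → R, AlgebraicIndependent l z ∧ ∀ i, z i ∈ κ := by
  letI : Algebra l κ := ((algebraMap l R).codRestrict κ hl).toAlgebra
  haveI : IsScalarTower l κ R := .of_algebraMap_eq fun _ => rfl
  have h1 := lift_trdeg_add_eq l L R
  rw [hL.trdeg, trdeg_eq_zero] at h1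
  have h2 : Algebra.trdeg l R = ((r + 1 : ℕ) : Cardinal) := by
    rw [← Cardinal.lift_inj, ← h1]
    simp
  have h3 := trdeg_add_eq l κ (A := R)
  rw [hR.trdeg, h2, Nat.cast_one, Nat.cast_succ, Cardinal.add_one_inj] at h3
  obtain ⟨s, hs⟩ := exists_isTranscendenceBasis l κ
  have h4 := hs.cardinalMk_eq_trdeg
  rw [h3] at h4
  obtain ⟨e⟩ := Cardinal.mk_eq_nat_iff.1 h4
  exact ⟨fun i => (e.symm i).1.1,
    (hs.1.comp _ e.symm.injective).map' (f := IsScalarTower.toAlgHom l κ R) Subtype.val_injective,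
    fun i => (e.symm i).1.2⟩

theorem key_le {C T : Type*} [Field C] [Field T] [Algebra l C] [Algebra C T] [Algebra l T]
    [IsScalarTower l C T] {a r : ℕ} (hA : IsFF l C a) {w : Fin r → T}
    (hw : AlgebraicIndependent l w) (h : ∀ i, IsAlgebraic C (w i)) : r ≤ a := by
  have h5 : AlgebraicIndependent l fun i =>
      (⟨w i, mem_algebraicClosure_iff.2 (h i)⟩ : algebraicClosure C T) :=
    .of_comp ((algebraicClosure C T).val.restrictScalars l) hw
  have h6 := lift_trdeg_add_eq l C (algebraicClosure C T)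
  rw [hA.trdeg, trdeg_eq_zero] at h6
  have h7 : Algebra.trdeg l (algebraicClosure C T) = a := by
    rw [← Cardinal.lift_inj, ← h6]
    simp
  simpa [h7] using h5.lift_cardinalMk_le_trdeg

theorem key_alg {T : Type*} [Field T] [Algebra L T] (C : IntermediateField l L) {w : T}
    (hw : IsIntegral L w) (h : ∀ n, (minpoly L w).coeff n ∈ C) : IsAlgebraic C w := by
  obtain ⟨q, hq, -, hq'⟩ := Polynomial.lifts_and_natDegree_eq_and_monic (f := algebraMap C L)
    ((Polynomial.lifts_iff_coeff_lifts (minpoly L w)).2 fun n => ⟨⟨_, h n⟩, rfl⟩)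
    (minpoly.monic hw)
  refine ⟨q, hq'.ne_zero, ?_⟩
  rw [← Polynomial.aeval_map_algebraMap L, hq, minpoly.aeval]

theorem key1 (hℓ : (ℓ : l) ≠ 0) {r : ℕ} (hL : IsFF l L (r + 1)) {M : Type*} [Field M]
    (κ : Subfield M) [IsAlgClosed κ] (hM : IsFF κ M 1) (φ : L →+* M)
    (hl : ∀ c : l, φ (algebraMap l L c) ∈ κ) (hy : ∃ y : L, φ y ∉ κ) :
    ∃ L₁ : IntermediateField L (AlgebraicClosure L), FiniteDimensional L L₁ ∧
      ∃ (C₁ : IntermediateField l L₁) (S : Finset (V ℓ L₁)), Flat C₁ r ∧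
        (∀ b : L, (∃ g : M, g ^ ℓ = φ b) → cl ℓ (algebraMap L L₁ b) ∈
          Hs ℓ (C₁ : Set L₁) ⊔ Submodule.span (ZMod ℓ) (S : Set (V ℓ L₁))) ∧
        ∀ z : L, φ z ∈ κ → algebraMap L L₁ z ∈ C₁ := by
  letI : Algebra L M := φ.toAlgebra
  obtain ⟨W, hW, hR, ⟨y, hy'⟩, halg⟩ := key1a hL κ hM hl hy
  have hW' : ∀ a : L, φ a ∈ W := hW
  let ρ : L →+* Res W := (IsLocalRing.residue W).comp (φ.codRestrict W hW')
  have hρ : ∀ a, ρ a = res W (φ a) := fun a => (resb_coe W ⟨φ a, hW' a⟩).symm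
  have hκ : ∀ a, φ a ∈ κ → ρ a ∈ resK κ W := fun a ha => by
    rw [hρ]
    exact Subfield.subset_closure ⟨⟨φ a, ha⟩, rfl⟩
  letI : Algebra L (Res W) := ρ.toAlgebra
  letI : Algebra l (Res W) := (ρ.comp (algebraMap l L)).toAlgebra
  haveI : IsScalarTower l L (Res W) := .of_algebraMap_eq fun _ => rfl
  haveI : Algebra.IsAlgebraic L (Res W) := by
    let f : L →+* resK L W := ρ.codRestrict _ fun a => by
      rw [hρ]
      exact Subfield.subset_closure ⟨a, rfl⟩
    have hf : Function.Surjective f := fun b => by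
      obtain ⟨c, -, hc⟩ := (mem_resK W b.1).1 b.2
      exact ⟨c, Subtype.ext ((hρ c).trans hc.symm)⟩
    exact ⟨fun a => (Algebra.IsAlgebraic.isAlgebraic (R := resK L W) a).of_ringHom_of_comp_eq
      f (RingHom.id _) hf (fun _ _ h => h) rfl⟩
  haveI := resK_isAlgClosed κ W
  obtain ⟨z, hz, hm⟩ := key_basis hL (resK κ W) hR fun c => hκ _ (hl c)
  let j : Res W →ₐ[L] AlgebraicClosure L := IsAlgClosed.lift
  let E := adjoin L (Set.range z)
  haveI : FiniteDimensional L E :=
    finiteDimensional_adjoin fun a _ => Algebra.IsIntegral.isIntegral a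
  let e := equivMap E j
  haveI hfin : FiniteDimensional L (E.map j) := e.toLinearEquiv.finiteDimensional
  let ψ : E.map j →ₐ[L] Res W := E.val.comp e.symm
  have hψ : ∀ a : L, ψ (algebraMap L (E.map j) a) = ρ a := fun a => ψ.commutes a
  let z' : Fin r → E.map j := fun i => e ⟨z i, subset_adjoin L _ ⟨i, rfl⟩⟩
  have hz' : ∀ i, ψ (z' i) = z i := fun i => congrArg Subtype.val (e.symm_apply_apply _)
  obtain ⟨C, S, hF, hC, hS⟩ := key_core hℓ (hL.of_finite (E.map j)) (resK κ W) hR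
    (ψ : E.map j →+* Res W) (fun c => by
      rw [IsScalarTower.algebraMap_apply l L (E.map j)]
      exact (hψ _).symm ▸ hκ _ (hl c)) (y := algebraMap L _ y)
    (fun h => hy' (by
      have h1 : ψ (algebraMap L (E.map j) y) ∈ resK κ W := h
      rwa [hψ, hρ] at h1)) (z := z')
    (AlgebraicIndependent.of_comp (ψ.restrictScalars l) (by
      have e1 : (ψ.restrictScalars l) ∘ z' = z := funext hz'
      rwa [e1])) (fun i => (hz' i).symm ▸ hm i)
  refine ⟨E.map j, hfin, C, S, hF, fun b ⟨g, hg⟩ => hS _ ⟨res W g, ?_⟩, fun a ha => (hC _).2 ?_⟩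
  · have h1 : g ∈ W := by
      have h2 := (W.valuation_le_one_iff _).2 (hW' b)
      rw [← hg, map_pow, pow_le_one_iff (Fact.out : ℓ.Prime).ne_zero] at h2
      exact (W.valuation_le_one_iff _).1 h2
    rw [← res_pow W h1, hg, ← hρ]
    exact (hψ b).symm
  · exact (hψ a).symm ▸ hκ a ha

theorem key (hℓ : (ℓ : l) ≠ 0) {r : ℕ} (hL : IsFF l L (r + 1)) {ι : Type*} {𝒰 : Ultrafilter ι}
    {O : ι → ValuationSubring L} (hlim : VLim (𝒰 : Filter ι) O ⊤)
    (H : Submodule (ZMod ℓ) (V ℓ L))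
    (hH : ∀ᶠ i in (𝒰 : Filter ι), ∃ b : Fin r → V ℓ L, (∀ j, b j ∈ H) ∧ VInd ℓ (O i) b)
    (hx : ∃ x, ¬ Cst l 𝒰 O x) {M : Type*} [Field M] (κ : Subfield M) [IsAlgClosed κ]
    (hM : IsFF κ M 1) (φ : L →+* M) (hl : ∀ c : l, φ (algebraMap l L c) ∈ κ)
    (hy : ∃ y : L, φ y ∉ κ) (hpow : ∀ b : L, cl ℓ b ∈ H → ∃ g : M, g ^ ℓ = φ b) :
    ∃ C : IntermediateField l L, Flat C r ∧ (∀ z, z ∈ C ↔ Cst l 𝒰 O z) ∧
      ∀ z, φ z ∈ κ → z ∈ C := by
  obtain ⟨L₁, hfin, C₁, S, hF, hS, hz⟩ := key1 hℓ hL κ hM φ hl hy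
  obtain ⟨C, hC, hcl⟩ := exists_cst (l := l) hlim
  have h1 : ∀ z ∈ C₁, ∀ n, (minpoly L z).coeff n ∈ C := fun z hz n =>
    (hC _).2 (key2 hℓ hlim C₁ hF.2.le H hH S (fun v hv => by
      obtain ⟨b, -, rfl⟩ := cl_surj v
      rw [vmap_cl]
      exact hS b (hpow b hv)) hz n)
  refine ⟨C, ?_, hC, fun z h => ?_⟩
  · obtain ⟨a, ha, hA⟩ := hL.sub C
    have h2 : Flat C a := ⟨hcl, hA.trdeg⟩
    have h3 : a ≠ r + 1 := by
      rintro rfl
      obtain ⟨x, hx⟩ := hx
      exact hx ((hC x).1 (h2.eq_top hL ▸ mem_top))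
    obtain ⟨w, hw, hm⟩ := hF.exists_basis
    have h7 : r ≤ a := key_le hA hw fun i =>
      key_alg C (Algebra.IsIntegral.isIntegral (w i)) (h1 _ (hm i))
    obtain rfl : a = r := by omega
    exact h2
  · have h2 := h1 _ (hz z h) 0
    rw [minpoly.eq_X_sub_C] at h2
    simpa using h2

end P019
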