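import Vale.Agent.P019.Bound

/-! P019 KeyB: `key2` (plan in Key.lean). -/

namespace P019

open IntermediateField

variable {ℓ : ℕ} [Fact ℓ.Prime] {l L : Type*} [Field l] [Field L] [Algebra l L]

theorem keyb_lt {E F : Type*} [Field E] [Field F] (f : E →+* F) (W : ValuationSubring F) (a : E) :
    (W.comap f).valuation a < 1 ↔ W.valuation (f a) < 1 := by
  rw [resb_lt_one_iff, resb_lt_one_iff, ValuationSubring.mem_comap, map_inv₀, map_eq_zero]

omit [Fact ℓ.Prime] in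
theorem keyb_mem {ι : Type*} {𝒰 : Ultrafilter ι} {O : ι → ValuationSubring L}
    (hlim : VLim (𝒰 : Filter ι) O ⊤) {L₁ : Type*} [Field L₁] [Algebra L L₁]
    [FiniteDimensional L L₁] (y : L₁) : ∀ᶠ i in (𝒰 : Filter ι), ∀ W : ValuationSubring L₁,
      W.comap (algebraMap L L₁) = O i → y ∈ W := by
  have h1 : ∀ᶠ i in (𝒰 : Filter ι), ∀ n ∈ (minpoly L y).support, (minpoly L y).coeff n ∈ O i :=
    (Filter.eventually_all_finset _).2 fun n _ => (hlim _).1 trivial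
  refine h1.mono fun i hi W hW => mem_of_monic W
    ((minpoly.monic (Algebra.IsIntegral.isIntegral y)).map (algebraMap L L₁)) (fun n => ?_) ?_
  · rw [Polynomial.coeff_map, ← ValuationSubring.mem_comap, hW]
    by_cases hn : n ∈ (minpoly L y).support
    · exact hi n hn
    · rw [Polynomial.notMem_support_iff.1 hn]
      exact zero_mem _
  · rw [Polynomial.eval_map_algebraMap, minpoly.aeval]

variable [IsAlgClosed l]

theorem keyb_const (hℓ : (ℓ : l) ≠ 0) {ι : Type*} {𝒰 : Ultrafilter ι} {O : ι → ValuationSubring L}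
    (hlim : VLim (𝒰 : Filter ι) O ⊤) {L₁ : Type*} [Field L₁] [Algebra L L₁] [Algebra l L₁]
    [FiniteDimensional L L₁] {r : ℕ} (C₁ : IntermediateField l L₁)
    (hC : Algebra.trdeg l C₁ ≤ r) (H : Submodule (ZMod ℓ) (V ℓ L))
    (hH : ∀ᶠ i in (𝒰 : Filter ι), ∃ b : Fin r → V ℓ L, (∀ j, b j ∈ H) ∧ VInd ℓ (O i) b)
    (S : Finset (V ℓ L₁)) (hS : ∀ v ∈ H, vmap ℓ (algebraMap L L₁) v ∈
      Hs ℓ (C₁ : Set L₁) ⊔ Submodule.span (ZMod ℓ) (S : Set (V ℓ L₁)))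
    {z : L₁} (hz : z ∈ C₁) : ∀ᶠ i in (𝒰 : Filter ι), ∀ W : ValuationSubring L₁,
      W.comap (algebraMap L L₁) = O i →
        ∃ c : l, algebraMap l L₁ c ∈ W ∧ W.valuation (z - algebraMap l L₁ c) < 1 := by
  have hℓ' : (ℓ : L) ≠ 0 := by
    rw [← map_natCast (algebraMap l L)]
    exact (map_ne_zero _).2 hℓ
  obtain ⟨S₀, hS₀⟩ := lemU (K := L₁) hℓ'
  have h1 : ∀ᶠ i in (𝒰 : Filter ι), ∀ a ∈ S₀, a ∈ O i :=
    (Filter.eventually_all_finset _).2 fun n _ => (hlim _).1 trivial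
  have h2 : ∀ᶠ i in (𝒰 : Filter ι), ∀ s ∈ S, ∀ W : ValuationSubring L₁,
      W.comap (algebraMap L L₁) = O i → s ∈ Uv ℓ W := by
    refine (Filter.eventually_all_finset _).2 fun s _ => ?_
    obtain ⟨y, hy, rfl⟩ := cl_surj s
    filter_upwards [keyb_mem hlim y, keyb_mem hlim y⁻¹] with i p q W hW
    refine cl_mem_Hs ((resb_eq_one_iff _ _).2 ⟨p W hW, fun c => ?_⟩)
    exact ((resb_lt_one_iff _ _).1 c).elim hy fun c => c (q W hW)
  filter_upwards [hH, h1, h2, keyb_mem hlim z] with i ⟨b, hb, hv⟩ p1 p2 p3 W hW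
  have hI : IdxOK ℓ L W := hS₀ W fun a ha => by
    rw [← ValuationSubring.mem_comap, hW]
    exact p1 a ha
  have hv' := VInd.ext hI (hW ▸ hv)
  have h3 : ∀ j, ∃ x ∈ C₁,
      (Uv ℓ W).mkQ (cl ℓ x) = (Uv ℓ W).mkQ (vmap ℓ (algebraMap L L₁) (b j)) := by
    intro j
    obtain ⟨u, hu, v, hv, e⟩ := Submodule.mem_sup.1 (hS _ (hb j))
    obtain ⟨x, hx, -, rfl⟩ := (mem_Hs_iff (s := (C₁ : Set L₁)) C₁.one_mem
      (fun _ ha _ hb => C₁.mul_mem ha hb) u).1 hu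
    have h4 : (Uv ℓ W).mkQ v = 0 := (Submodule.Quotient.mk_eq_zero _).2
      (Submodule.span_le.2 (fun s hs => p2 s hs W hW) hv)
    exact ⟨x, hx, by rw [← e, map_add, h4, add_zero]⟩
  choose x hx he using h3
  have h4 : VInd ℓ W fun j => cl ℓ (x j) := by
    simpa only [VInd, he] using hv'
  exact res_const C₁ hC (VInd.zInd h4) hx hz (p3 W hW)

theorem key2 (hℓ : (ℓ : l) ≠ 0) {ι : Type*} {𝒰 : Ultrafilter ι} {O : ι → ValuationSubring L}
    (hlim : VLim (𝒰 : Filter ι) O ⊤) {L₁ : Type*} [Field L₁] [Algebra L L₁] [Algebra l L₁]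
    [IsScalarTower l L L₁] [FiniteDimensional L L₁] {r : ℕ} (C₁ : IntermediateField l L₁)
    (hC : Algebra.trdeg l C₁ ≤ r) (H : Submodule (ZMod ℓ) (V ℓ L))
    (hH : ∀ᶠ i in (𝒰 : Filter ι), ∃ b : Fin r → V ℓ L, (∀ j, b j ∈ H) ∧ VInd ℓ (O i) b)
    (S : Finset (V ℓ L₁)) (hS : ∀ v ∈ H, vmap ℓ (algebraMap L L₁) v ∈
      Hs ℓ (C₁ : Set L₁) ⊔ Submodule.span (ZMod ℓ) (S : Set (V ℓ L₁)))
    {z : L₁} (hz : z ∈ C₁) (n : ℕ) : Cst l 𝒰 O ((minpoly L z).coeff n) := by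
  filter_upwards [keyb_const hℓ hlim C₁ hC H hH S hS hz] with i hi
  obtain ⟨W, hW⟩ := exists_ext (K := AlgebraicClosure L₁) (O i)
  obtain ⟨T, hT⟩ : ∃ T : Subring (AlgebraicClosure L₁), ∀ y, y ∈ T ↔ y ∈ W ∧ res W y ∈ resK l W :=
    ⟨((resK l W).toSubring.comap (IsLocalRing.residue W)).map W.subtype, fun y =>
      ⟨by
        rintro ⟨w, hw, rfl⟩
        exact ⟨w.2, (resb_coe W w).symm ▸ hw⟩,
      fun h => ⟨⟨y, h.1⟩, by
        have h2 := h.2
        rw [show res W y = _ from resb_coe W ⟨y, h.1⟩] at h2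
        exact h2, rfl⟩⟩⟩
  have hm := minpoly.monic (Algebra.IsIntegral.isIntegral (R := L) z)
  have h1 := (IsAlgClosed.splits ((minpoly L z).map
      (algebraMap L (AlgebraicClosure L₁)))).mem_lift_of_roots_mem_range (hm.map _) T.subtype (by
    intro ρ hρ
    have h2 : ρ ∈ (minpoly L z).rootSet (AlgebraicClosure L₁) := by
      classical
      rw [Polynomial.rootSet_def, Finset.mem_coe, Multiset.mem_toFinset]
      exact hρ
    rw [← Algebra.IsAlgebraic.range_eval_eq_rootSet_minpoly] at h2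
    obtain ⟨σ, rfl⟩ := h2
    obtain ⟨c, h3, h4⟩ := hi (W.comap (σ : L₁ →+* AlgebraicClosure L₁)) (by
      rw [ValuationSubring.comap_comap, AlgHom.comp_algebraMap, hW])
    have e : (σ : L₁ →+* AlgebraicClosure L₁) (algebraMap l L₁ c) =
        algebraMap l (AlgebraicClosure L₁) c := by
      rw [IsScalarTower.algebraMap_apply l L L₁, RingHom.coe_coe, AlgHom.commutes,
        ← IsScalarTower.algebraMap_apply]
    rw [ValuationSubring.mem_comap, e] at h3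
    rw [keyb_lt, map_sub, e, RingHom.coe_coe] at h4
    have h5 : σ z ∈ W := by simpa using add_mem (resb_mem' h4) h3
    exact ⟨⟨σ z, (hT _).2 ⟨h5, (mem_resK _ _).2 ⟨c, h3, (res_eq_iff _ h5 h3).2 h4⟩⟩⟩, rfl⟩)
  obtain ⟨⟨y, hy⟩, e⟩ := (Polynomial.lifts_iff_coeff_lifts _).1 h1 n
  obtain ⟨h2, h3⟩ := (hT y).1 hy
  obtain ⟨c, h4, h5⟩ := (mem_resK _ _).1 h3
  rw [res_eq_iff _ h2 h4] at h5
  rw [Polynomial.coeff_map] at e
  refine ⟨c, ?_, ?_⟩
  · rw [← hW, ValuationSubring.mem_comap, ← IsScalarTower.algebraMap_apply]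
    exact h4
  · rw [← hW, keyb_lt, map_sub, ← IsScalarTower.algebraMap_apply, ← e]
    exact h5

end P019
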