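import Vale.Agent.P019.Basic

/-!
P019 KumA: Kummer towers, `kum_one` and `kum_tower` (plan in the header of `Kum`).
-/

namespace P019

open IntermediateField

theorem kuma_comp {R M ι : Type*} [Field R] [AddCommGroup M] [Module R M] (σ : M →ₗ[R] M)
    {W : Submodule R M} (hW : ∀ w ∈ W, σ w ∈ W) (μ : ι → R) (s : Finset ι) :
    ∀ v : ι → M, Set.InjOn μ s → (∀ j ∈ s, σ (v j) = μ j • v j) → ∑ j ∈ s, v j ∈ W →
      ∀ j ∈ s, v j ∈ W := by
  classical
  induction s using Finset.induction_on with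
  | empty => simp
  | insert i s hi ih =>
    intro v hμ hv hs
    have hμ' : Set.InjOn μ s := hμ.mono (by simp)
    have h1 : ∑ j ∈ s, (μ j - μ i) • v j ∈ W := by
      have h2 := W.sub_mem (hW _ hs) (W.smul_mem (μ i) hs)
      rw [map_sum, Finset.smul_sum, ← Finset.sum_sub_distrib, Finset.sum_insert hi,
        hv i (Finset.mem_insert_self _ _), sub_self, zero_add] at h2
      rwa [Finset.sum_congr rfl fun j hj => by
        rw [hv j (Finset.mem_insert_of_mem hj), ← sub_smul]] at h2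
    have h3 : ∀ j ∈ s, v j ∈ W := fun j hj => by
      have h4 := ih (fun j => (μ j - μ i) • v j) hμ' (fun j hj => by
        rw [map_smul, hv j (Finset.mem_insert_of_mem hj), smul_comm]) h1 j hj
      have h5 : μ j - μ i ≠ 0 := sub_ne_zero.2 fun h => hi <| by
        rw [← hμ (by simp [hj]) (by simp) h]; exact hj
      exact (W.smul_mem_iff h5).1 h4
    intro j hj
    rcases Finset.mem_insert.1 hj with rfl | hj
    · rw [Finset.sum_insert hi] at hs
      exact (W.add_mem_iff_left (W.sum_mem h3)).1 hs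
    · exact h3 j hj

variable {ℓ : ℕ} [Fact ℓ.Prime]

theorem kuma_pb {C E L : Type*} [Field C] [Field E] [Field L] [Algebra C E] [Algebra E L]
    [Algebra C L] [IsScalarTower C E L] {ζ : C} (hζ : IsPrimitiveRoot ζ ℓ)
    (hC : ∀ z : E, IsAlgebraic C z → ∃ c, algebraMap C E c = z) {a : E}
    (ha : cl ℓ a ∉ Hs ℓ (Set.range (algebraMap C E))) (pb : PowerBasis E L)
    (hm : minpoly E pb.gen = Polynomial.X ^ ℓ - Polynomial.C a) :
    (∀ z : L, IsAlgebraic C z → ∃ c, algebraMap C L c = z) ∧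
      ∀ (f : E) (β : L), β ^ ℓ = algebraMap E L f → ∃ j : ZMod ℓ, cl ℓ f = j • cl ℓ a := by
  have hp : ℓ.Prime := Fact.out
  have : NeZero ℓ := ⟨hp.ne_zero⟩
  have ha0 : a ≠ 0 := by
    rintro rfl
    exact ha (by simp)
  have hg : pb.gen ^ ℓ = algebraMap E L a := by
    have h := minpoly.aeval E pb.gen
    rw [hm] at h
    simpa [sub_eq_zero] using h
  have hd : pb.dim = ℓ := by rw [← pb.natDegree_minpoly, hm, Polynomial.natDegree_X_pow_sub_C]
  have hroot : Polynomial.aeval (ζ • pb.gen) (minpoly E pb.gen) = 0 := by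
    rw [hm]
    simp [smul_pow, hζ.pow_eq_one, hg]
  set σ := pb.lift _ hroot with hσ
  have hσg : σ pb.gen = ζ • pb.gen := pb.lift_gen _ _
  have hv : ∀ (c : E) (j : ℕ), σ (c • pb.gen ^ j) = ζ ^ j • c • pb.gen ^ j := fun c j => by
    rw [map_smul, map_pow, hσg, smul_pow, smul_comm]
  have hsum : ∀ z : L, ∑ j : Fin pb.dim, pb.basis.repr z j • pb.gen ^ (j : ℕ) = z := fun z => by
    simpa only [pb.coe_basis] using pb.basis.sum_repr z
  have hinj : ∀ i j : Fin pb.dim, ζ ^ (i : ℕ) = ζ ^ (j : ℕ) → i = j := fun i j h =>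
    Fin.ext (hζ.pow_inj (hd ▸ i.2) (hd ▸ j.2) h)
  have hpow : ∀ (c : E) (j : ℕ), (c • pb.gen ^ j) ^ ℓ = algebraMap E L (c ^ ℓ * a ^ j) :=
    fun c j => by
    rw [smul_pow, ← pow_mul, mul_comm j, pow_mul, hg, map_mul, map_pow, map_pow, Algebra.smul_def,
      map_pow]
  have hcl : ∀ (c : E) (j : ℕ), c ≠ 0 → cl ℓ (c ^ ℓ * a ^ j) = (j : ZMod ℓ) • cl ℓ a :=
    fun c j hc => by
    rw [cl_mul (pow_ne_zero _ hc) (pow_ne_zero _ ha0), cl_pow, cl_pow, ZMod.natCast_self,
      zero_smul, zero_add]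
  constructor
  · intro z hz
    have h1 := kuma_comp (σ.restrictScalars C).toLinearMap
      (W := (algebraicClosure C L).toSubalgebra.toSubmodule)
      (fun w hw => mem_algebraicClosure_iff.2
        ((mem_algebraicClosure_iff.1 hw).algHom (σ.restrictScalars C)))
      (fun j : Fin pb.dim => ζ ^ (j : ℕ)) Finset.univ
      (fun j => pb.basis.repr z j • pb.gen ^ (j : ℕ)) (fun i _ j _ h => hinj i j h)
      (fun j _ => hv _ _) (by rw [hsum]; exact mem_algebraicClosure_iff.2 hz)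
    have h2 : ∀ j : Fin pb.dim, ∃ c, algebraMap C L c = pb.basis.repr z j • pb.gen ^ (j : ℕ) := by
      intro j
      have h3 : IsAlgebraic C (pb.basis.repr z j • pb.gen ^ (j : ℕ)) :=
        mem_algebraicClosure_iff.1 (h1 j (Finset.mem_univ _))
      by_cases hc : pb.basis.repr z j = 0
      · exact ⟨0, by simp [hc]⟩
      by_cases hj : (j : ℕ) = 0
      · rw [hj, pow_zero, ← Algebra.algebraMap_eq_smul_one] at h3 ⊢
        obtain ⟨c, hc⟩ := hC _ ((isAlgebraic_algebraMap_iff (algebraMap E L).injective).1 h3)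
        exact ⟨c, by rw [← hc, ← IsScalarTower.algebraMap_apply]⟩
      · exfalso
        have h4 := h3.pow ℓ
        rw [hpow] at h4
        obtain ⟨c, hc'⟩ := hC _ ((isAlgebraic_algebraMap_iff (algebraMap E L).injective).1 h4)
        have h5 : ((j : ℕ) : ZMod ℓ) • cl ℓ a ∈ Hs ℓ (Set.range (algebraMap C E)) := by
          rw [← hcl _ _ hc, ← hc']
          exact cl_mem_Hs ⟨c, rfl⟩
        have h6 : ((j : ℕ) : ZMod ℓ) ≠ 0 := by
          rw [Ne, ZMod.natCast_eq_zero_iff]
          exact Nat.not_dvd_of_pos_of_lt (Nat.pos_of_ne_zero hj) (hd ▸ j.2)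
        exact ha ((Submodule.smul_mem_iff _ h6).1 h5)
    choose c hc using h2
    exact ⟨∑ j, c j, by rw [map_sum, Finset.sum_congr rfl fun j _ => hc j, hsum]⟩
  · intro f β hβ
    by_cases hβ0 : β = 0
    · have hf : f = 0 := by
        rw [hβ0, zero_pow hp.ne_zero, eq_comm, map_eq_zero] at hβ
        exact hβ
      exact ⟨0, by simp [hf]⟩
    have hf0 : f ≠ 0 := by
      rintro rfl
      exact hβ0 (pow_eq_zero_iff hp.ne_zero |>.1 (by simpa using hβ))
    have hζL : IsPrimitiveRoot (algebraMap C L ζ) ℓ := hζ.map_of_injective (algebraMap C L).injective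
    have h1 : (σ β / β) ^ ℓ = 1 := by
      rw [div_pow, ← map_pow, hβ, AlgHom.commutes, div_self (by simpa using hf0)]
    obtain ⟨m, -, hm'⟩ := hζL.eq_pow_of_pow_eq_one h1
    have h2 : σ β = algebraMap C E ζ ^ m • β := by
      rw [Algebra.smul_def, map_pow, ← IsScalarTower.algebraMap_apply, hm',
        div_mul_cancel₀ _ hβ0]
    have h3 := kuma_comp σ.toLinearMap (W := Submodule.span E {β})
      (fun w hw => by
        obtain ⟨e, rfl⟩ := Submodule.mem_span_singleton.1 hw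
        rw [map_smul, AlgHom.toLinearMap_apply, h2]
        exact Submodule.smul_mem _ _ (Submodule.smul_mem _ _ (Submodule.mem_span_singleton_self _)))
      (fun j : Fin pb.dim => algebraMap C E ζ ^ (j : ℕ)) Finset.univ
      (fun j => pb.basis.repr β j • pb.gen ^ (j : ℕ))
      (fun i _ j _ h => hinj i j ((algebraMap C E).injective (by simpa using h)))
      (fun j _ => by rw [AlgHom.toLinearMap_apply, hv, ← map_pow, algebraMap_smul])
      (by rw [hsum]; exact Submodule.mem_span_singleton_self _)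
    obtain ⟨j, hj⟩ : ∃ j : Fin pb.dim, pb.basis.repr β j • pb.gen ^ (j : ℕ) ≠ 0 := by
      by_contra hn
      push Not at hn
      exact hβ0 (by rw [← hsum β]; simp [hn])
    obtain ⟨e, he⟩ := Submodule.mem_span_singleton.1 (h3 j (Finset.mem_univ _))
    have he0 : e ≠ 0 := by
      rintro rfl
      exact hj (by rw [← he, zero_smul])
    have hc0 : pb.basis.repr β j ≠ 0 := fun h => hj (by rw [h, zero_smul])
    have h4 : e ^ ℓ * f = pb.basis.repr β j ^ ℓ * a ^ (j : ℕ) := by
      apply (algebraMap E L).injective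
      rw [← hpow, ← he, smul_pow, hβ, map_mul, Algebra.smul_def]
    refine ⟨(j : ℕ), ?_⟩
    rw [← hcl _ _ hc0, ← h4, cl_mul (pow_ne_zero _ he0) hf0, cl_pow, ZMod.natCast_self, zero_smul,
      zero_add]

variable (k : Type*) [Field k] [IsAlgClosed k]

theorem kum_one (hℓ : (ℓ : k) ≠ 0) {C E T : Type*} [Field C] [Field E] [Field T] [Algebra k C]
    [Algebra C E] [Algebra E T] [Algebra C T] [IsScalarTower C E T]
    (hC : ∀ z : E, IsAlgebraic C z → ∃ c, algebraMap C E c = z) {a : E}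
    (ha : cl ℓ a ∉ Hs ℓ (Set.range (algebraMap C E))) {α : T} (hα : α ^ ℓ = algebraMap E T a) :
    FiniteDimensional E E⟮α⟯ ∧ Module.finrank E E⟮α⟯ = ℓ ∧ Algebra.IsSeparable E E⟮α⟯ ∧
      (∀ z ∈ E⟮α⟯, IsAlgebraic C z → ∃ c, algebraMap C T c = z) ∧
      ∀ (f : E) (β : T), β ∈ E⟮α⟯ → β ^ ℓ = algebraMap E T f →
        ∃ j : ZMod ℓ, cl ℓ f = j • cl ℓ a := by
  have hp : ℓ.Prime := Fact.out
  have : NeZero (ℓ : k) := ⟨hℓ⟩
  obtain ⟨ζ, hζ⟩ := HasEnoughRootsOfUnity.exists_primitiveRoot k ℓ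
  have hζC := hζ.map_of_injective (algebraMap k C).injective
  have hℓE : (ℓ : E) ≠ 0 := by
    have h : algebraMap C E (algebraMap k C ℓ) ≠ 0 := by simpa only [map_ne_zero] using hℓ
    simpa only [map_natCast] using h
  have ha0 : a ≠ 0 := by
    rintro rfl
    exact ha (by simp)
  have hirr : Irreducible (Polynomial.X ^ ℓ - Polynomial.C a) :=
    X_pow_sub_C_irreducible_of_prime hp fun b hb =>
      ha (by rw [(cl_eq_zero_iff ha0).2 ⟨b, hb⟩]; exact Submodule.zero_mem _)
  have hmon : (Polynomial.X ^ ℓ - Polynomial.C a).Monic := Polynomial.monic_X_pow_sub_C _ hp.ne_zero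
  have h0 : Polynomial.aeval α (Polynomial.X ^ ℓ - Polynomial.C a) = 0 := by simp [hα]
  have hint : IsIntegral E α := ⟨_, hmon, h0⟩
  have hm : minpoly E α = Polynomial.X ^ ℓ - Polynomial.C a :=
    (minpoly.eq_of_irreducible_of_monic hirr h0 hmon).symm
  obtain ⟨h1, h2⟩ := kuma_pb hζC hC ha (adjoin.powerBasis hint)
    (by rw [adjoin.powerBasis_gen, minpoly_gen, hm])
  refine ⟨adjoin.finiteDimensional hint, by rw [adjoin.finrank hint, hm, Polynomial.natDegree_X_pow_sub_C],
    (isSeparable_adjoin_simple_iff_isSeparable E T).2 ?_, fun z hz hz' => ?_,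
    fun f β hβ hβ' => h2 f ⟨β, hβ⟩ (Subtype.ext hβ')⟩
  · rw [IsSeparable, hm]
    exact Polynomial.separable_X_pow_sub_C a hℓE ha0
  · have : IsScalarTower C E⟮α⟯ T := IsScalarTower.of_algebraMap_eq fun _ => rfl
    obtain ⟨c, hc⟩ := h1 ⟨z, hz⟩
      ((isAlgebraic_algebraMap_iff (algebraMap E⟮α⟯ T).injective).1 hz')
    exact ⟨c, congrArg Subtype.val hc⟩

theorem kuma_tower (hℓ : (ℓ : k) ≠ 0) {C E T : Type*} [Field C] [Field E] [Field T] [Algebra k C]
    [Algebra C E] [Algebra E T] [Algebra C T] [IsScalarTower C E T]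
    (hC : ∀ z : E, IsAlgebraic C z → ∃ c, algebraMap C E c = z) {n : ℕ} {a : Fin n → E}
    (ha : LinearIndependent (ZMod ℓ) fun j =>
      (Hs ℓ (Set.range (algebraMap C E))).mkQ (cl ℓ (a j)))
    {α : Fin n → T} (hα : ∀ j, α j ^ ℓ = algebraMap E T (a j)) :
    FiniteDimensional E (adjoin E (Set.range α)) ∧
      Module.finrank E (adjoin E (Set.range α)) = ℓ ^ n ∧
      Algebra.IsSeparable E (adjoin E (Set.range α)) ∧
      (∀ z ∈ adjoin E (Set.range α), IsAlgebraic C z → ∃ c, algebraMap C T c = z) ∧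
      ∀ (f : E) (β : T), β ∈ adjoin E (Set.range α) → β ^ ℓ = algebraMap E T f →
        cl ℓ f ∈ Submodule.span (ZMod ℓ) (Set.range fun j => cl ℓ (a j)) := by
  have hp : ℓ.Prime := Fact.out
  induction n with
  | zero =>
    rw [Set.range_eq_empty, adjoin_empty]
    refine ⟨inferInstance, by simp, inferInstance, ?_, ?_⟩
    · rintro _ ⟨z, rfl⟩ hz
      obtain ⟨c, rfl⟩ := hC z ((isAlgebraic_algebraMap_iff (algebraMap E T).injective).1 hz)
      exact ⟨c, IsScalarTower.algebraMap_apply C E T c⟩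
    · rintro f _ ⟨b, rfl⟩ hb
      have hf : b ^ ℓ = f := (algebraMap E T).injective (by rw [map_pow]; exact hb)
      rw [← hf, cl_pow, ZMod.natCast_self, zero_smul]
      exact Submodule.zero_mem _
  | succ n ih =>
    obtain ⟨ha1, ha2⟩ := linearIndependent_finSucc.1 ha
    obtain ⟨h1, h2, h3, h4, h5⟩ := ih (a := Fin.tail a) (α := Fin.tail α) ha1 fun j => hα _
    set F := adjoin E (Set.range (Fin.tail α)) with hF
    have e : adjoin E (Set.range α) = F⟮α 0⟯.restrictScalars E := by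
      rw [hF, adjoin_adjoin_left, Fin.range_fin_succ, Set.union_singleton]
    have : IsScalarTower C F T := IsScalarTower.of_algebraMap_eq fun _ => rfl
    have ha0 : a 0 ≠ 0 := fun h => ha2 (by simp [h])
    have hsub : Submodule.span (ZMod ℓ) (Set.range fun j => cl ℓ (Fin.tail a j)) ≤
        Submodule.span (ZMod ℓ) (Set.range fun j => cl ℓ (a j)) :=
      Submodule.span_mono (by rintro _ ⟨j, rfl⟩; exact ⟨j.succ, rfl⟩)
    have key : ∀ f g : E, f ≠ 0 → g ≠ 0 → cl ℓ (algebraMap E F f) = cl ℓ (algebraMap E F g) →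
        cl ℓ f - cl ℓ g ∈ Submodule.span (ZMod ℓ) (Set.range fun j => cl ℓ (Fin.tail a j)) := by
      intro f g hf hg h
      rw [← sub_eq_zero, ← cl_div (by simpa using hf) (by simpa using hg), ← map_div₀,
        cl_eq_zero_iff (by simp [hf, hg])] at h
      obtain ⟨b, hb⟩ := h
      rw [← cl_div hf hg]
      exact h5 _ b b.2 (congrArg Subtype.val hb)
    have hCF : ∀ z : F, IsAlgebraic C z → ∃ c, algebraMap C F c = z := fun z hz => by
      obtain ⟨c, hc⟩ := h4 z z.2 (hz.algebraMap (A := T))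
      exact ⟨c, Subtype.ext hc⟩
    have haF : cl ℓ (algebraMap E F (a 0)) ∉ Hs ℓ (Set.range (algebraMap C F)) := by
      rw [mem_Hs_iff (s := Set.range (algebraMap C F)) ⟨1, map_one _⟩
        (by rintro _ ⟨x, rfl⟩ _ ⟨y, rfl⟩; exact ⟨x * y, map_mul _ _ _⟩)]
      rintro ⟨_, ⟨c, rfl⟩, hc0, hc⟩
      rw [IsScalarTower.algebraMap_apply C E F] at hc hc0
      have h6 := Submodule.mem_map_of_mem (f := (Hs ℓ (Set.range (algebraMap C E))).mkQ)
        (key _ _ ha0 (by simpa using hc0) hc.symm)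
      rw [map_sub, Submodule.map_span, ← Set.range_comp,
        Submodule.mkQ_apply _ (cl ℓ (algebraMap C E c)),
        (Submodule.Quotient.mk_eq_zero _).2 (cl_mem_Hs (Set.mem_range_self c)), sub_zero] at h6
      exact ha2 h6
    obtain ⟨g1, g2, g3, g4, g5⟩ := kum_one k hℓ hCF haF (α := α 0) (hα 0)
    rw [e]
    refine ⟨Module.Finite.trans (R := E) F F⟮α 0⟯, ?_, Algebra.IsSeparable.trans E F F⟮α 0⟯, g4,
      fun f β hβ hβ' => ?_⟩
    · rw [pow_succ, ← h2, ← g2]
      exact (Module.finrank_mul_finrank E F F⟮α 0⟯).symm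
    · by_cases hf : f = 0
      · simp [hf]
      obtain ⟨j, hj⟩ := g5 (algebraMap E F f) β hβ hβ'
      rw [← ZMod.natCast_zmod_val j, ← cl_pow, ← map_pow] at hj
      have h6 := hsub (key _ _ hf (pow_ne_zero _ ha0) hj)
      rw [cl_pow] at h6
      exact (Submodule.sub_mem_iff_left _
        (Submodule.smul_mem _ _ (Submodule.subset_span (Set.mem_range_self 0)))).1 h6

theorem kum_tower (hℓ : (ℓ : k) ≠ 0) {C E T : Type*} [Field C] [Field E] [Field T] [Algebra k C]
    [Algebra C E] [Algebra E T] [Algebra C T] [IsScalarTower C E T]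
    (hC : ∀ z : E, IsAlgebraic C z → ∃ c, algebraMap C E c = z) {n : ℕ} {a : Fin n → E}
    (ha : LinearIndependent (ZMod ℓ) fun j =>
      (Hs ℓ (Set.range (algebraMap C E))).mkQ (cl ℓ (a j)))
    {α : Fin n → T} (hα : ∀ j, α j ^ ℓ = algebraMap E T (a j)) :
    FiniteDimensional E (adjoin E (Set.range α)) ∧
      Module.finrank E (adjoin E (Set.range α)) = ℓ ^ n ∧
      Algebra.IsSeparable E (adjoin E (Set.range α)) ∧
      ∀ z ∈ adjoin E (Set.range α), IsAlgebraic C z → ∃ c, algebraMap C T c = z :=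
  have h := kuma_tower k hℓ hC ha hα
  ⟨h.1, h.2.1, h.2.2.1, h.2.2.2.1⟩

end P019
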