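import Vale.Agent.P019.RA
import Vale.Agent.P019.KumA

/-!
P019 Kum: Kummer towers.  `kum_one`: `X^ℓ - a` is irreducible (`X_pow_sub_C_irreducible_of_prime`),
`E(α) / E` is cyclic, `σ α = ζ α`.  If `z = Σ c_j α^j` is algebraic over `C`, so are the `σ^m z` and
the components `c_j α^j = ℓ⁻¹ Σ ζ^(-jm) σ^m z`; for `j ≠ 0`, `c_j ≠ 0`: `c_j^ℓ a^j ∈ C`, so
`[a] ∈ H_C`.  If `β^ℓ ∈ E` then `σ β = ζ^j β`, so `β / α^j ∈ E`.  `kum_tower`: induction on `n`
over all `E`.  `kd_sep`: `kum_tower` inside `M` (algebra structure from `ψ`) and `dp_le`.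
`kd_fin`: pass to the separable closure of `C(x)` in `E` (`vmap_bijective_of_pi`); the classes
with a root in `M` form a subspace, its image modulo `H_C` has bounded independent families.
`kf`: `kum_tower` with `C = k` and `IsFF.finite_algebraicClosure`.
`flat_step`: `T = K(f^(1/ℓ))`, `kum_tower` (`n = 1`), `zar` for two elements of `K` independent
over `A`; `A₁` = algebraic closure of `A(x + c y)` in `K`.  If `f = b g^ℓ`, `b ∈ A₁`, then
`β = α / g` has `β^ℓ ∈ K` and `β^(p^n) ∈ K`, so `β ∈ K`.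
-/

namespace P019

open IntermediateField

variable {ℓ : ℕ} [Fact ℓ.Prime] (k : Type*) [Field k] [IsAlgClosed k]

theorem kd_equiv {C E T : Type*} [Field C] [Field E] [Field T] [Algebra C E] [Algebra E T]
    [Algebra C T] [IsScalarTower C E T] (x : E) {y : T} (hy : algebraMap E T x = y) :
    ∃ e : C⟮x⟯ ≃+* C⟮y⟯, ∀ z, (e z : T) = algebraMap E T z := by
  have h : C⟮x⟯.map (IsScalarTower.toAlgHom C E T) = C⟮y⟯ := by
    rw [adjoin_map, Set.image_singleton, IsScalarTower.toAlgHom_apply, hy]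
  exact ⟨((equivMap C⟮x⟯ (IsScalarTower.toAlgHom C E T)).trans (equivOfEq h)).toRingEquiv,
    fun z => rfl⟩

theorem kd_up {C E T : Type*} [Field C] [Field E] [Field T] [Algebra C E] [Algebra E T]
    [Algebra C T] [IsScalarTower C E T] (x : E) [FiniteDimensional C⟮x⟯ E]
    [Algebra.IsSeparable C⟮x⟯ E] [FiniteDimensional E T] [Algebra.IsSeparable E T] :
    FiniteDimensional C⟮algebraMap E T x⟯ T ∧ Algebra.IsSeparable C⟮algebraMap E T x⟯ T ∧
      Module.finrank C⟮algebraMap E T x⟯ T = Module.finrank E T * Module.finrank C⟮x⟯ E := by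
  obtain ⟨e, he⟩ := kd_equiv (C := C) x (rfl : algebraMap E T x = _)
  have h1 : FiniteDimensional C⟮x⟯ T := Module.Finite.trans E T
  have h2 : Algebra.IsSeparable C⟮x⟯ T := Algebra.IsSeparable.trans C⟮x⟯ E T
  refine ⟨Module.Finite.of_equiv_equiv e (RingEquiv.refl T) (RingHom.ext he),
    Algebra.IsSeparable.of_equiv_equiv e (RingEquiv.refl T) (RingHom.ext he), ?_⟩
  rw [← Algebra.finrank_eq_of_equiv_equiv e (RingEquiv.refl T) (RingHom.ext he), mul_comm,
    Module.finrank_mul_finrank]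

theorem kd_down {C E T : Type*} [Field C] [Field E] [Field T] [Algebra C E] [Algebra E T]
    [Algebra C T] [IsScalarTower C E T] (x : E) {y : T} (hy : algebraMap E T x = y)
    [Algebra C⟮y⟯ E] [IsScalarTower C⟮y⟯ E T] [FiniteDimensional C⟮y⟯ E]
    [Algebra.IsSeparable C⟮y⟯ E] : FiniteDimensional C⟮x⟯ E ∧ Algebra.IsSeparable C⟮x⟯ E := by
  obtain ⟨e, he⟩ := kd_equiv (C := C) x hy
  have h : (algebraMap C⟮x⟯ E).comp (e.symm : C⟮y⟯ →+* C⟮x⟯) =
      ((RingEquiv.refl E : E ≃+* E) : E →+* E).comp (algebraMap C⟮y⟯ E) := by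
    refine RingHom.ext fun z => (algebraMap E T).injective ?_
    have h1 := he (e.symm z)
    rw [e.apply_symm_apply] at h1
    exact h1.symm.trans (IsScalarTower.algebraMap_apply C⟮y⟯ E T z)
  exact ⟨Module.Finite.of_equiv_equiv e.symm (RingEquiv.refl E) h,
    Algebra.IsSeparable.of_equiv_equiv e.symm (RingEquiv.refl E) h⟩

theorem kd_span {R W : Type*} [Field R] [AddCommGroup W] [Module R W] (H : Submodule R W)
    (U : Set W) (N : ℕ) (h : ∀ (n : ℕ) (a : Fin n → W), (∀ j, a j ∈ U) →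
      LinearIndependent R (fun j => H.mkQ (a j)) → n ≤ N) :
    ∃ S : Finset W, ∀ v ∈ U, v ∈ H ⊔ Submodule.span R (S : Set W) := by
  classical
  by_contra hc
  have key : ∀ n : ℕ, ∃ a : Fin n → W, (∀ j, a j ∈ U) ∧
      LinearIndependent R (fun j => H.mkQ (a j)) := by
    intro n
    induction n with
    | zero => exact ⟨Fin.elim0, fun j => j.elim0, linearIndependent_empty_type⟩
    | succ n ih =>
      obtain ⟨a, ha, hi⟩ := ih
      have h1 : ∃ v ∈ U, v ∉ H ⊔ Submodule.span R ((Finset.univ.image a : Finset W) : Set W) := by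
        by_contra h2
        exact hc ⟨_, fun v hv => by_contra fun h3 => h2 ⟨v, hv, h3⟩⟩
      obtain ⟨v, hv, hv'⟩ := h1
      refine ⟨Fin.cons v a, fun j => Fin.cases hv ha j, ?_⟩
      have e : (fun j => H.mkQ ((Fin.cons v a : Fin (n + 1) → W) j)) =
          Fin.cons (H.mkQ v) fun j => H.mkQ (a j) := funext fun j => Fin.cases rfl (fun _ => rfl) j
      rw [e, linearIndependent_finCons]
      refine ⟨hi, fun h2 => hv' ?_⟩
      rw [← Submodule.comap_map_mkQ, Submodule.mem_comap, Submodule.map_span, Finset.coe_image,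
        Finset.coe_univ, Set.image_univ, ← Set.range_comp]
      exact h2
  obtain ⟨a, ha, hi⟩ := key (N + 1)
  exact absurd (h _ a ha hi) (by omega)

theorem kd_le {n N : ℕ} (h : ℓ ^ n ≤ N) : n ≤ N :=
  (Nat.lt_pow_self (Fact.out : ℓ.Prime).one_lt).le.trans h

theorem kd_sep (hℓ : (ℓ : k) ≠ 0) {C E M : Type*} [Field C] [Field E] [Field M] [Algebra k C]
    [Algebra C E] (hC : ∀ z : E, IsAlgebraic C z → ∃ c, algebraMap C E c = z) {x : E}
    (hx : Transcendental C x) [FiniteDimensional C⟮x⟯ E] [Algebra.IsSeparable C⟮x⟯ E]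
    (κ : Subfield M) [IsAlgClosed κ] (ψ : E →+* M) (hψ : ∀ c, ψ (algebraMap C E c) ∈ κ)
    (hx' : Transcendental κ (ψ x)) [FiniteDimensional κ⟮ψ x⟯ M] {n : ℕ} {a : Fin n → E}
    (ha : LinearIndependent (ZMod ℓ) fun j =>
      (Hs ℓ (Set.range (algebraMap C E))).mkQ (cl ℓ (a j)))
    (hr : ∀ j, ∃ h : M, h ^ ℓ = ψ (a j)) :
    ℓ ^ n * Module.finrank C⟮x⟯ E ≤ Module.finrank κ⟮ψ x⟯ M := by
  let _ : Algebra E M := ψ.toAlgebra
  let _ : Algebra C M := (ψ.comp (algebraMap C E)).toAlgebra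
  have : IsScalarTower C E M := IsScalarTower.of_algebraMap_eq fun _ => rfl
  have : Infinite C := Infinite.of_injective _ (algebraMap k C).injective
  choose α hα using hr
  obtain ⟨h1, h2, h3, h4⟩ := kum_tower k hℓ (T := M) hC ha (α := α) hα
  obtain ⟨h5, h6, h7⟩ := kd_up (C := C) (T := adjoin E (Set.range α)) x
  rw [← h2, ← h7]
  have : IsScalarTower C (adjoin E (Set.range α)) M :=
    IsScalarTower.of_algebraMap_eq fun _ => rfl
  have h8 : ∀ z : adjoin E (Set.range α), IsAlgebraic C z →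
      ∃ c, algebraMap C (adjoin E (Set.range α)) c = z := by
    intro z hz
    obtain ⟨c, hc⟩ := h4 z z.2 ((isAlgebraic_algebraMap_iff (S := adjoin E (Set.range α))
      (A := M) Subtype.val_injective).2 hz)
    exact ⟨c, Subtype.ext hc⟩
  have h9 : FiniteDimensional κ⟮(algebraMap (adjoin E (Set.range α)) M)
      (algebraMap E (adjoin E (Set.range α)) x)⟯ M := ‹FiniteDimensional κ⟮ψ x⟯ M›
  exact dp_le h8 ((transcendental_algebraMap_iff (algebraMap E _).injective).2 hx) κ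
    (algebraMap (adjoin E (Set.range α)) M) hψ hx'

theorem kd_pi (hℓ : (ℓ : k) ≠ 0) {C E E' M : Type*} [Field C] [Field E] [Field E'] [Field M]
    [Algebra k C] [Algebra C E] [Algebra C E'] [Algebra E' E] [IsScalarTower C E' E]
    [IsPurelyInseparable E' E] (hC : ∀ z : E, IsAlgebraic C z → ∃ c, algebraMap C E c = z)
    {x : E'} (hx : Transcendental C (algebraMap E' E x)) [FiniteDimensional C⟮x⟯ E']
    [Algebra.IsSeparable C⟮x⟯ E'] (κ : Subfield M) [IsAlgClosed κ] (ψ : E →+* M)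
    (hψ : ∀ c, ψ (algebraMap C E c) ∈ κ) (hx' : Transcendental κ (ψ (algebraMap E' E x)))
    [FiniteDimensional κ⟮ψ (algebraMap E' E x)⟯ M] {n : ℕ} {a : Fin n → V ℓ E}
    (ha : LinearIndependent (ZMod ℓ) fun j => (Hs ℓ (Set.range (algebraMap C E))).mkQ (a j))
    (hr : ∀ j, vmap ℓ ψ (a j) = 0) : ℓ ^ n ≤ Module.finrank κ⟮ψ (algebraMap E' E x)⟯ M := by
  have hl : (ℓ : E') ≠ 0 := by
    rw [← map_natCast ((algebraMap C E').comp (algebraMap k C))]
    exact (map_ne_zero _).2 hℓ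
  have h1 : ∀ j, ∃ b : E', b ≠ 0 ∧ vmap ℓ (algebraMap E' E) (cl ℓ b) = a j := fun j => by
    obtain ⟨v, hv⟩ := (vmap_bijective_of_pi hl E).2 (a j)
    obtain ⟨b, hb, rfl⟩ := cl_surj v
    exact ⟨b, hb, hv⟩
  choose b hb0 hb using h1
  have hC' : ∀ z : E', IsAlgebraic C z → ∃ c, algebraMap C E' c = z := fun z hz => by
    obtain ⟨c, hc⟩ := hC _ ((isAlgebraic_algebraMap_iff (algebraMap E' E).injective).2 hz)
    exact ⟨c, (algebraMap E' E).injective (by rw [← IsScalarTower.algebraMap_apply, hc])⟩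
  have hH : Hs ℓ (Set.range (algebraMap C E')) ≤
      (Hs ℓ (Set.range (algebraMap C E))).comap (vmap ℓ (algebraMap E' E)) := by
    refine Submodule.span_le.2 ?_
    rintro _ ⟨_, ⟨c, rfl⟩, rfl⟩
    rw [SetLike.mem_coe, Submodule.mem_comap, vmap_cl, ← IsScalarTower.algebraMap_apply]
    exact cl_mem_Hs ⟨c, rfl⟩
  have hi : LinearIndependent (ZMod ℓ) fun j =>
      (Hs ℓ (Set.range (algebraMap C E'))).mkQ (cl ℓ (b j)) := by
    refine LinearIndependent.of_comp (Submodule.mapQ _ _ _ hH) ?_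
    have e : (Submodule.mapQ _ _ _ hH) ∘ (fun j =>
        (Hs ℓ (Set.range (algebraMap C E'))).mkQ (cl ℓ (b j))) =
        fun j => (Hs ℓ (Set.range (algebraMap C E))).mkQ (a j) := funext fun j => by
      rw [← hb j]
      rfl
    rw [e]
    exact ha
  have h9 : FiniteDimensional κ⟮(ψ.comp (algebraMap E' E)) x⟯ M :=
    ‹FiniteDimensional κ⟮ψ (algebraMap E' E x)⟯ M›
  have h2 := kd_sep k hℓ hC' ((transcendental_algebraMap_iff (algebraMap E' E).injective).1 hx) κ
    (ψ.comp (algebraMap E' E))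
    (fun c => by rw [RingHom.comp_apply, ← IsScalarTower.algebraMap_apply]; exact hψ c) hx' hi
    fun j => by
      have h3 := hr j
      rw [← hb j, vmap_cl, vmap_cl] at h3
      exact (cl_eq_zero_iff ((map_ne_zero (ψ.comp (algebraMap E' E))).2 (hb0 j))).1 h3
  exact le_trans (Nat.le_mul_of_pos_right _ Module.finrank_pos) h2

theorem kd_fin (hℓ : (ℓ : k) ≠ 0) {C E M : Type*} [Field C] [Field E] [Field M] [Algebra k C]
    [Algebra C E] (hC : ∀ z : E, IsAlgebraic C z → ∃ c, algebraMap C E c = z) {x : E}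
    (hx : Transcendental C x) [FiniteDimensional C⟮x⟯ E]
    (κ : Subfield M) [IsAlgClosed κ] (ψ : E →+* M) (hψ : ∀ c, ψ (algebraMap C E c) ∈ κ)
    (hx' : Transcendental κ (ψ x)) [FiniteDimensional κ⟮ψ x⟯ M] :
    ∃ S : Finset (V ℓ E), ∀ a : E, (∃ h : M, h ^ ℓ = ψ a) →
      cl ℓ a ∈ Hs ℓ (Set.range (algebraMap C E)) ⊔ Submodule.span (ZMod ℓ) (S : Set (V ℓ E)) := by
  let x' : separableClosure C⟮x⟯ E := algebraMap C⟮x⟯ _ (AdjoinSimple.gen C x)
  have hxx : algebraMap (separableClosure C⟮x⟯ E) E x' = x := rfl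
  have : IsScalarTower C (separableClosure C⟮x⟯ E) E :=
    IsScalarTower.of_algebraMap_eq fun _ => rfl
  obtain ⟨h1, h2⟩ := kd_down (C := C) x' hxx
  have h9 : FiniteDimensional κ⟮ψ (algebraMap (separableClosure C⟮x⟯ E) E x')⟯ M :=
    ‹FiniteDimensional κ⟮ψ x⟯ M›
  obtain ⟨S, hS⟩ := kd_span (Hs ℓ (Set.range (algebraMap C E))) {v | vmap ℓ ψ v = 0}
    (Module.finrank κ⟮ψ x⟯ M) fun n a ha hi =>
      kd_le (kd_pi k hℓ hC (x := x') hx κ ψ hψ hx' hi ha)
  refine ⟨S, fun a ha => hS _ ?_⟩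
  by_cases h0 : a = 0
  · rw [h0, cl, dif_pos rfl]
    exact map_zero (vmap ℓ ψ)
  · exact (vmap_cl ψ a).trans ((cl_eq_zero_iff ((map_ne_zero _).2 h0)).2 ha)

variable {k}

theorem kf (hℓ : (ℓ : k) ≠ 0) {T : Type*} [Field T] [Algebra k T] {d : ℕ} (hT : IsFF k T d)
    (E : IntermediateField k T) : {v : V ℓ E | vmap ℓ (algebraMap E T) v = 0}.Finite := by
  have hf := hT.finite_algebraicClosure E
  have hC : ∀ z : E, IsAlgebraic k z → ∃ c, algebraMap k E c = z := fun z hz =>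
    minpoly.mem_range_of_degree_eq_one k z
      (IsAlgClosed.degree_eq_one_of_irreducible k (minpoly.irreducible hz.isIntegral))
  have hH : Hs ℓ (Set.range (algebraMap k E)) = ⊥ := by
    refine Submodule.span_eq_bot.2 ?_
    rintro _ ⟨_, ⟨c, rfl⟩, rfl⟩
    exact cl_algebraMap c
  obtain ⟨S, hS⟩ := kd_span (Hs ℓ (Set.range (algebraMap k E)))
    {v : V ℓ E | vmap ℓ (algebraMap E T) v = 0} (Module.finrank E (algebraicClosure E T))
    fun n a ha hi => by
      choose b hb0 hb using fun j => cl_surj (a j)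
      have h1 : ∀ j, ∃ h : T, h ^ ℓ = algebraMap E T (b j) := fun j => by
        have h3 : vmap ℓ (algebraMap E T) (a j) = 0 := ha j
        rw [← hb j, vmap_cl] at h3
        exact (cl_eq_zero_iff ((map_ne_zero _).2 (hb0 j))).1 h3
      choose α hα using h1
      simp only [← hb] at hi
      obtain ⟨h1, h2, -, -⟩ := kum_tower k hℓ (T := T) hC hi (α := α) hα
      refine kd_le (ℓ := ℓ) ?_
      rw [← h2]
      exact finrank_le_of_le_right ((le_algebraicClosure_iff _ _ _).2 inferInstance)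
  rw [hH] at hS
  refine (S.finite_toSet.submoduleSpan (ZMod ℓ)).subset fun v hv => ?_
  simpa using hS v hv

end P019
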