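import Vale.Agent.P019.ResB

/-!
P019 Loc1: no two independent non-rigid elements.
Put `Ψ a = (1, σ a, τ a) ∈ (ZMod ℓ)^3` for `a ≠ 0`.  `CP` says `det (Ψ a, Ψ b, Ψ (a+b)) = 0` when
`a, b, a + b ≠ 0` (apply it to `-b/a`), `Ψ (-a) = Ψ a`, `Ψ (n a) = Ψ a` for naturals `n ≠ 0` in `F`
(`cl_neg`, `cl_algebraMap`).  `CP` at `-x` gives `(σ,τ)(1+x) = s (σ,τ)(x)`, non-rigid: `s ≠ 0, 1`;
same for `y` with `t`.  Let `p₁ = 1+x, p₂ = -x, p₃ = y`, `p₁+p₂+p₃ = 1+y`; the four images are in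
general position: `Ψ (1+y) = Σ λ_i Ψ p_i`, `λ_i ≠ 0`, `P_i = λ_i Ψ p_i` a basis.  Intersecting
lines (a vector lying in two distinct planes): `Ψ (p₁+p₃) ∥ P₁+P₃`, `Ψ (p₂+p₃) ∥ P₂+P₃`,
`Ψ (p₁+p₂) ∥ P₁+P₂`, `Ψ (p₁-p₂) ∥ P₁-P₂` (`p₁-p₂ = (p₁+p₃)-(p₂+p₃)`), and by induction
`q_n = n p₁ + p₃ ≠ 0`, `Ψ q_n ∥ n P₁ + P₃`, using `r_n = q_n + p₂ = (p₂+p₃) + n p₁`,
`q_{n+1} = r_n + (p₁-p₂) = q_n + p₁`.  (Elements are nonzero, else two points with non parallel
images would agree up to sign.)  First coordinates: `n λ₁ + λ₃ ≠ 0` for all `n`, absurd.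
One may first replace `(σ, τ)` by linear combinations with `(σ,τ) x = (1,0)`, `(σ,τ) y = (0,1)`.
-/

namespace P019

variable {ℓ : ℕ} {F : Type*} [Field F]

/-- `1 + x ∈ T ∪ x T` for `T = ker σ ∩ ker τ` -/
def Rig (σ τ : X ℓ F) (x : F) : Prop :=
  (σ (cl ℓ (1 + x)) = 0 ∧ τ (cl ℓ (1 + x)) = 0) ∨
    (σ (cl ℓ (1 + x)) = σ (cl ℓ x) ∧ τ (cl ℓ (1 + x)) = τ (cl ℓ x))

/-- a collineation like map `F → K³` -/
structure Loc1Map {K : Type*} [Field K] (f g h : F → K) (l₁ l₂ l₃ : K) : Prop where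
  det : ∀ a b, a ≠ 0 → b ≠ 0 → a + b ≠ 0 → (g a * h b - h a * g b) * f (a + b) +
    (h a * f b - f a * h b) * g (a + b) + (f a * g b - g a * f b) * h (a + b) = 0
  neg : ∀ a, f (-a) = f a ∧ g (-a) = g a ∧ h (-a) = h a
  nat : ∀ (n : ℕ) a, (n : F) ≠ 0 → a ≠ 0 → f (n * a) = f a ∧ g (n * a) = g a ∧ h (n * a) = h a
  lin : ∀ a, l₁ * f a + l₂ * g a + l₃ * h a ≠ 0

/-- the image of `a` is parallel to `(u, v, w)` -/
def Loc1Par {K : Type*} [Field K] (f g h : F → K) (a : F) (u v w : K) : Prop :=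
  a ≠ 0 ∧ ∃ c, c ≠ 0 ∧ f a = c * u ∧ g a = c * v ∧ h a = c * w

section
variable {K : Type*} [Field K] {f g h : F → K} {l₁ l₂ l₃ u v w u' v' w' : K} {a b : F}

theorem Loc1Map.mk' (H : Loc1Map f g h l₁ l₂ l₃) (ha : a ≠ 0) (c : K) (h1 : f a = c * u)
    (h2 : g a = c * v) (h3 : h a = c * w) : Loc1Par f g h a u v w := by
  refine ⟨ha, c, fun hc => H.lin a ?_, h1, h2, h3⟩
  rw [h1, h2, h3, hc]
  ring

theorem Loc1Map.par_neg (H : Loc1Map f g h l₁ l₂ l₃) (ha : Loc1Par f g h a u v w) :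
    Loc1Par f g h (-a) u v w := by
  obtain ⟨h1, h2, h3⟩ := H.neg a
  exact ⟨neg_ne_zero.2 ha.1, by rw [h1, h2, h3]; exact ha.2⟩

theorem Loc1Map.ne (H : Loc1Map f g h l₁ l₂ l₃) (ha : Loc1Par f g h a u v w)
    (hb : Loc1Par f g h b u' v' w') (hn : u * v' ≠ v * u' ∨ u * w' ≠ w * u' ∨ v * w' ≠ w * v') :
    a + b ≠ 0 := by
  intro e
  obtain ⟨-, c, hc, a1, a2, a3⟩ := H.par_neg ha
  obtain ⟨-, d, hd, b1, b2, b3⟩ := hb
  rw [neg_eq_of_add_eq_zero_right e] at a1 a2 a3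
  rw [a1] at b1
  rw [a2] at b2
  rw [a3] at b3
  rcases hn with t | t | t <;> refine t (mul_left_cancel₀ hc ?_)
  · linear_combination v' * b1 - u' * b2
  · linear_combination w' * b1 - u' * b3
  · linear_combination w' * b2 - v' * b3

theorem Loc1Map.plane (H : Loc1Map f g h l₁ l₂ l₃) (ha : Loc1Par f g h a u v w)
    (hb : Loc1Par f g h b u' v' w') {z : F} (hz : z ≠ 0) (e : a + b = z) :
    (v * w' - w * v') * f z + (w * u' - u * w') * g z + (u * v' - v * u') * h z = 0 := by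
  obtain ⟨h1, c, hc, a1, a2, a3⟩ := ha
  obtain ⟨h2, d, hd, b1, b2, b3⟩ := hb
  have h3 := H.det a b h1 h2 (e ▸ hz)
  rw [e, a1, a2, a3, b1, b2, b3] at h3
  refine mul_left_cancel₀ (mul_ne_zero hc hd) ?_
  linear_combination h3

theorem Loc1Map.core (H : Loc1Map f g h l₁ l₂ l₃) {p q r : F} (hp : Loc1Par f g h p 1 0 0)
    (hq : Loc1Par f g h q 0 1 0) (hr : Loc1Par f g h r 0 0 1)
    (hs : Loc1Par f g h (p + q + r) 1 1 1) (n : ℕ) : Loc1Par f g h (n * p + r) n 0 1 := by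
  have n1 : p + r ≠ 0 := H.ne hp hr (by simp)
  have h1 : Loc1Par f g h (p + r) 1 0 1 :=
    H.mk' n1 (h (p + r)) (by linear_combination -H.plane hs (H.par_neg hq) n1 (by ring))
      (by linear_combination -H.plane hp hr n1 rfl) (by ring)
  have n2 : q + r ≠ 0 := H.ne hq hr (by simp)
  have h2 : Loc1Par f g h (q + r) 0 1 1 :=
    H.mk' n2 (h (q + r)) (by linear_combination H.plane hq hr n2 rfl)
      (by linear_combination H.plane hs (H.par_neg hp) n2 (by ring)) (by ring)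
  have n3 : p + -q ≠ 0 := H.ne hp (H.par_neg hq) (by simp)
  have h3 : Loc1Par f g h (p + -q) 1 (-1) 0 := by
    have t1 := H.plane hp (H.par_neg hq) n3 rfl
    have t2 := H.plane h1 (H.par_neg h2) n3 (by ring)
    exact H.mk' n3 (f (p + -q)) (by ring) (by linear_combination t1 - t2) (by linear_combination t1)
  induction n with
  | zero => simpa using hr
  | succ n ih =>
    have n4 : n * p + r + q ≠ 0 := H.ne ih hq (by simp)
    have h4 : Loc1Par f g h (n * p + r + q) n 1 1 := by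
      have t1 := H.plane ih hq n4 rfl
      refine H.mk' n4 (h (n * p + r + q)) (by linear_combination -t1) ?_ (by ring)
      by_cases hn : (n : F) = 0
      · obtain ⟨-, c, -, -, t2, t3⟩ := h2
        rw [hn, zero_mul, zero_add, add_comm, t2, t3, mul_one, mul_one]
      · obtain ⟨t2, t3, t4⟩ := H.nat n p hn hp.1
        have t5 : Loc1Par f g h (n * p) 1 0 0 :=
          ⟨mul_ne_zero hn hp.1, by rw [t2, t3, t4]; exact hp.2⟩
        linear_combination H.plane h2 t5 n4 (by ring)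
    have n5 : ((n + 1 : ℕ) : F) * p + r ≠ 0 := by
      have t := H.ne ih hp (by simp)
      rwa [add_right_comm, ← add_one_mul, ← Nat.cast_succ] at t
    have t1 := H.plane ih hp n5 (by push_cast; ring)
    have t2 := H.plane h4 h3 n5 (by push_cast; ring)
    exact H.mk' n5 (h (((n + 1 : ℕ) : F) * p + r))
      (by rw [Nat.cast_succ (R := K)]; linear_combination t2 - t1)
      (by linear_combination t1) (by ring)

end

theorem rig_or_rig [Fact ℓ.Prime] (k : Type*) [Field k] [Algebra k F] [IsAlgClosed k]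
    {σ τ : X ℓ F} (h : CP σ τ) {x y : F}
    (hxy : σ (cl ℓ x) * τ (cl ℓ y) ≠ σ (cl ℓ y) * τ (cl ℓ x)) : Rig σ τ x ∨ Rig σ τ y := by
  by_contra hne
  rw [not_or, Rig, Rig, not_or, not_or] at hne
  obtain ⟨⟨r1, r2⟩, r3, r4⟩ := hne
  obtain ⟨D, hD⟩ : ∃ D, D = σ (cl ℓ x) * τ (cl ℓ y) - σ (cl ℓ y) * τ (cl ℓ x) := ⟨_, rfl⟩
  obtain ⟨A, hA⟩ : ∃ A : F → ZMod ℓ,
    ∀ a, A a = σ (cl ℓ a) * τ (cl ℓ y) - σ (cl ℓ y) * τ (cl ℓ a) := ⟨_, fun _ => rfl⟩
  obtain ⟨B, hB⟩ : ∃ B : F → ZMod ℓ,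
    ∀ a, B a = σ (cl ℓ x) * τ (cl ℓ a) - σ (cl ℓ a) * τ (cl ℓ x) := ⟨_, fun _ => rfl⟩
  have D0 : D ≠ 0 := hD ▸ sub_ne_zero.2 hxy
  have inj : ∀ a b, A a = A b → B a = B b →
      σ (cl ℓ a) = σ (cl ℓ b) ∧ τ (cl ℓ a) = τ (cl ℓ b) := fun a b h1 h2 => by
    rw [hA, hA] at h1
    rw [hB, hB] at h2
    constructor <;> refine mul_left_cancel₀ D0 ?_ <;> rw [hD]
    · linear_combination σ (cl ℓ x) * h1 + σ (cl ℓ y) * h2
    · linear_combination τ (cl ℓ x) * h1 + τ (cl ℓ y) * h2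
  have A0 : A 0 = 0 := by simp [hA]
  have B0 : B 0 = 0 := by simp [hB]
  have Ax : A x = D := by rw [hA, hD]
  have Bx : B x = 0 := by rw [hB, sub_self]
  have Ay : A y = 0 := by rw [hA, sub_self]
  have By : B y = D := by rw [hB, hD]
  have B1 : B (1 + x) = 0 := by
    have t := h (-x)
    rw [cl_neg k, sub_neg_eq_add] at t
    rw [hB, t, sub_self]
  have A1 : A (1 + y) = 0 := by
    have t := h (-y)
    rw [cl_neg k, sub_neg_eq_add] at t
    rw [hA, t, sub_self]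
  have S0 : A (1 + x) ≠ 0 := fun e => r1 (by simpa using inj _ 0 (e.trans A0.symm) (B1.trans B0.symm))
  have S1 : D - A (1 + x) ≠ 0 := fun e =>
    r2 (inj _ x ((sub_eq_zero.1 e).symm.trans Ax.symm) (B1.trans Bx.symm))
  have T0 : B (1 + y) ≠ 0 := fun e => r3 (by simpa using inj _ 0 (A1.trans A0.symm) (e.trans B0.symm))
  have T1 : D - B (1 + y) ≠ 0 := fun e =>
    r4 (inj _ y (A1.trans Ay.symm) ((sub_eq_zero.1 e).symm.trans By.symm))
  have x1 : 1 + x ≠ 0 := fun e => S0 (e ▸ A0)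
  have y1 : 1 + y ≠ 0 := fun e => T0 (e ▸ B0)
  have x0 : x ≠ 0 := fun e => D0 (by rw [← Ax, e, A0])
  have y0 : y ≠ 0 := fun e => D0 (by rw [← By, e, B0])
  have An : ∀ a, A (-a) = A a := fun a => by rw [hA, hA, cl_neg k]
  have Bn : ∀ a, B (-a) = B a := fun a => by rw [hB, hB, cl_neg k]
  obtain ⟨S, hS⟩ : ∃ S, A (1 + x) = S := ⟨_, rfl⟩
  obtain ⟨T, hT⟩ : ∃ T, B (1 + y) = T := ⟨_, rfl⟩
  rw [hS] at S0 S1
  rw [hT] at T0 T1
  have H : Loc1Map (fun a => S * T * (D - A a - B a)) (fun a => T * (S * (D - B a) - D * A a))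
      (fun a => S * (D - T) * B a) ((D - T) * D) (-((D - T) * S)) (T * (D - S)) := by
    refine ⟨fun a b ha hb hab => ?_, fun a => by simp only [An, Bn, and_self],
      fun n a hn ha => ?_, fun a e => ?_⟩
    · have t := h (-(b / a))
      rw [cl_neg k, sub_neg_eq_add, one_add_div ha, cl_div hab ha, cl_div hb ha] at t
      simp only [map_sub] at t
      have t' : (A b - A a) * (B (a + b) - B a) = (A (a + b) - A a) * (B b - B a) := by
        simp only [hA, hB]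
        linear_combination (σ (cl ℓ x) * τ (cl ℓ y) - σ (cl ℓ y) * τ (cl ℓ x)) * t
      linear_combination (S ^ 2 * T ^ 2 * D * (D - T) * (S - D)) * t'
    · have t : cl ℓ ((n : F) * a) = cl ℓ a := by
        rw [cl_mul hn ha, ← map_natCast (algebraMap k F), cl_algebraMap, zero_add]
      simp only [hA, hB, t, and_self]
    · refine mul_ne_zero (mul_ne_zero (mul_ne_zero (mul_ne_zero S0 T0) S1) T1) D0 ?_
      linear_combination e
  obtain ⟨n, hn⟩ := ZMod.natCast_zmod_surjective (-(T * (D - S)) / ((D - T) * D))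
  obtain ⟨-, c, -, t1, t2, t3⟩ := H.core (p := 1 + x) (q := -x) (r := y)
    (H.mk' x1 (S * T * (D - S)) (by simp [hS, B1]) (by simp [hS, B1, mul_comm]) (by simp [B1]))
    (H.mk' (neg_ne_zero.2 x0) (T * (S * D - D * D)) (by simp [An, Bn, Ax, Bx])
      (by simp [An, Bn, Ax, Bx]) (by simp [Bn, Bx]))
    (H.mk' y0 (S * (D - T) * D) (by simp [Ay, By]) (by simp [Ay, By]) (by simp [By]))
    (by
      rw [add_neg_cancel_right]
      exact H.mk' y1 (S * T * (D - T)) (by simp [hT, A1]) (by simp only [hT, A1]; ring)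
        (by simp only [hT]; ring)) n
  refine H.lin ((n : F) * (1 + x) + y) ?_
  beta_reduce at t1 t2 t3
  rw [t1, t2, t3, hn]
  field_simp
  ring

end P019
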