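import Vale.Agent.P019.ResB

/-!
P019 Loc2: the valuation ring of a valuative character (Arason-Elman-Jacob).
`H = {a ≠ 0, σ a = 0}`, `A = {x ∉ H, x ≠ 0, 1 + x ∈ H}`, `O = {a | ∀ x ∈ A, 1 + a x ∈ H}`.
(a) for `x ∉ H ∪ 0` exactly one of `x, 1/x` is in `A`.  (b) `x ∈ A → -x/(1+x) ∈ A`, and by `h2`
for `(-x/(1+x), x)`: `-x ∈ A`, so `x/(1+x) ∈ A`.  (c) `x, y ∈ A → x (1+y) ∈ A`, `x/(1+y) ∈ A`.
(d) `x, y ∈ A → 1 + x + y ∈ H`, `1 + x y = 1 + (-x) + x (1+y) ∈ H`, so `A ⊆ O`.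
`O` is closed under `+`: `1 + a x + b x = (1 + a x)(1 + b x/(1 + a x))` and `x/(1+ax) ∈ A` since
`1 + (a+1) x = (1+x)(1 + a x/(1+x))`.  An element of `O` outside `H ∪ 0` is in `A` (else
`-1/a ∈ A` gives `0 ∈ H`).  Products: if `b x ∉ H` then `b x ∈ A ∪ 0`; else `a, b, x ∈ A` and
`1 + a b x = (1 - a b)(1 + a b')`, `b' = b (1+x)/(1 - a b) ∈ A`.  Valuation ring: for `a ∈ H`
with `a, 1/a ∉ O` get `x, 1/(a x), y, a/y ∈ A` with product one, so `1/x ∈ O`, contradiction.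
Any `O'` with units in `H` is contained in `O` (`A` lies in the maximal ideal of `O'`).
Small elements: if `x ∈ m_O ∩ H` then `1/x ∉ O` gives `y ∈ A` with `y/x ∉ m`, so `x/y ∈ m`.
`IsCanon.mem_Dv`: for `x ∈ m`, `σ x ≠ 0`: `CP` gives `τ (1-x) = 0`; if `σ x = 0` write
`1 - x = (1 - y)(1 - z)`, `z = (x - y)/(1 - y)`, `σ z = σ y`.
-/

namespace P019

section rigid

variable {F G : Type*} [Field F] [AddCommGroup G] {s : F → G} {a b x y : F}

/-- the two rigidity conditions for a character `s` -/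
structure Loc2R (s : F → G) : Prop where
  zero : s 0 = 0
  mul : ∀ {a b}, a ≠ 0 → b ≠ 0 → s (a * b) = s a + s b
  neg : ∀ a, s (-a) = s a
  h1 : ∀ x, s x ≠ 0 → s (1 + x) = 0 ∨ s (1 + x) = s x
  h2 : ∀ x y, s x ≠ 0 → s y ≠ 0 → s (1 + x) = 0 → s (1 + y) = 0 → s (1 + x * (1 + y)) = 0

def Loc2H (s : F → G) (a : F) : Prop := a ≠ 0 ∧ s a = 0

def Loc2A (s : F → G) (x : F) : Prop := s x ≠ 0 ∧ s (1 + x) = 0

def Loc2O (s : F → G) (a : F) : Prop := ∀ x, Loc2A s x → Loc2H s (1 + a * x)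

namespace Loc2R

variable (h : Loc2R s)
include h

theorem one : s 1 = 0 := by
  have := h.mul one_ne_zero one_ne_zero
  rwa [mul_one, left_eq_add] at this

theorem ne (hx : s x ≠ 0) : x ≠ 0 := fun e => hx (e ▸ h.zero)

theorem ne' (hx : s x ≠ 0) : 1 + x ≠ 0 := fun e => hx (by
  rw [← neg_eq_of_add_eq_zero_right e, h.neg, h.one])

theorem inv (x : F) : s x⁻¹ = -s x := by
  by_cases hx : x = 0
  · rw [hx, inv_zero, h.zero, neg_zero]
  · rw [eq_neg_iff_add_eq_zero, ← h.mul (inv_ne_zero hx) hx, inv_mul_cancel₀ hx, h.one]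

theorem mulH (ha : Loc2H s a) (x : F) : s (x * a) = s x := by
  by_cases hx : x = 0
  · rw [hx, zero_mul]
  · rw [h.mul hx ha.1, ha.2, add_zero]

theorem invH (ha : Loc2H s a) : Loc2H s a⁻¹ := ⟨inv_ne_zero ha.1, by rw [h.inv, ha.2, neg_zero]⟩

theorem divH (ha : Loc2H s a) (x : F) : s (x / a) = s x := by
  rw [div_eq_mul_inv, h.mulH (h.invH ha)]

theorem HH (ha : Loc2H s a) (hb : Loc2H s b) : Loc2H s (a * b) :=
  ⟨mul_ne_zero ha.1 hb.1, (h.mulH hb a).trans ha.2⟩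

theorem AH (hx : Loc2A s x) : Loc2H s (1 + x) := ⟨h.ne' hx.1, hx.2⟩

theorem inv_add (hx : s x ≠ 0) : s (1 + x⁻¹) = s (1 + x) - s x := by
  have h0 := h.ne hx
  rw [show 1 + x⁻¹ = (1 + x) * x⁻¹ by field_simp; ring, h.mul (h.ne' hx) (inv_ne_zero h0), h.inv,
    sub_eq_add_neg]

theorem or_inv (hx : s x ≠ 0) : Loc2A s x ∨ Loc2A s x⁻¹ :=
  (h.h1 x hx).imp (fun e => ⟨hx, e⟩) fun e =>
    ⟨by rwa [h.inv, neg_ne_zero], by rw [h.inv_add hx, e, sub_self]⟩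

theorem not_inv (hx : Loc2A s x) (hx' : Loc2A s x⁻¹) : False := by
  have := hx'.2
  rw [h.inv_add hx.1, hx.2, zero_sub, neg_eq_zero] at this
  exact hx.1 this

theorem mulA (hx : Loc2A s x) (hy : Loc2A s y) : Loc2A s (x * (1 + y)) :=
  ⟨by rw [h.mulH (h.AH hy)]; exact hx.1, h.h2 x y hx.1 hy.1 hx.2 hy.2⟩

theorem negdiv (hx : Loc2A s x) : Loc2A s (-x / (1 + x)) := by
  have h0 := h.ne' hx.1
  refine ⟨by rw [h.divH (h.AH hx), h.neg]; exact hx.1, ?_⟩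
  rw [show 1 + -x / (1 + x) = (1 + x)⁻¹ by field_simp; ring]
  exact (h.invH (h.AH hx)).2

theorem negA (hx : Loc2A s x) : Loc2A s (-x) := by
  have := h.mulA (h.negdiv hx) hx
  rwa [div_mul_cancel₀ _ (h.ne' hx.1)] at this

theorem divA (hx : Loc2A s x) (hy : Loc2A s y) : Loc2A s (x / (1 + y)) := by
  have h0 := h.ne' hy.1
  have := h.mulA hx (h.negdiv hy)
  rwa [show x * (1 + -y / (1 + y)) = x / (1 + y) by field_simp; ring] at this

theorem AO (hx : Loc2A s x) : Loc2O s x := fun y hy => by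
  have h0 := h.ne' (h.negA hx).1
  have := h.HH (h.AH (h.negA hx)) (h.AH (h.divA (h.mulA hx hy) (h.negA hx)))
  rwa [show (1 + -x) * (1 + x * (1 + y) / (1 + -x)) = 1 + x * y by
    rw [mul_add (1 + -x), mul_div_cancel₀ _ h0]; ring] at this

theorem addO (ha : Loc2O s a) (hb : Loc2O s b) : Loc2O s (a + b) := fun x hx => by
  have h0 := h.ne' hx.1
  have h1 := ha x hx
  have h2 := h1.1
  have h3 := h.HH (h.AH hx) (ha _ (h.divA hx hx))
  have h4 : Loc2A s (x / (1 + a * x)) := by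
    refine ⟨by rw [h.divH h1]; exact hx.1, ?_⟩
    rw [show 1 + x / (1 + a * x) = (1 + x) * (1 + a * (x / (1 + x))) / (1 + a * x) by
      rw [mul_add (1 + x), mul_left_comm, mul_div_cancel₀ _ h0, one_add_div h2]; ring,
      h.divH h1, h3.2]
  have := h.HH h1 (hb _ h4)
  rwa [show (1 + a * x) * (1 + b * (x / (1 + a * x))) = 1 + (a + b) * x by
    field_simp; ring] at this

theorem OA (ha : Loc2O s a) (h0 : s a ≠ 0) : Loc2A s a :=
  (h.or_inv h0).resolve_right fun h1 => (ha _ (h.negA h1)).1 (by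
    rw [mul_neg, mul_inv_cancel₀ (h.ne h0), add_neg_cancel])

theorem zeroO : Loc2O s 0 := fun x _ => by
  rw [zero_mul, add_zero]
  exact ⟨one_ne_zero, h.one⟩

theorem mulO (ha : Loc2O s a) (hb : Loc2O s b) : Loc2O s (a * b) := fun x hx => by
  by_cases a0 : a = 0
  · rw [a0, zero_mul]
    exact h.zeroO x hx
  by_cases b0 : b = 0
  · rw [b0, mul_zero]
    exact h.zeroO x hx
  by_cases h1 : s (b * x) = 0
  swap
  · rw [mul_assoc]
    exact ha _ ⟨h1, (hb x hx).2⟩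
  by_cases h2 : s (a * x) = 0
  swap
  · rw [mul_comm a, mul_assoc]
    exact hb _ ⟨h2, (ha x hx).2⟩
  rw [h.mul b0 (h.ne hx.1)] at h1
  rw [h.mul a0 (h.ne hx.1)] at h2
  have h3 := h.OA ha fun e => hx.1 (by rwa [e, zero_add] at h2)
  have h4 := h.OA hb fun e => hx.1 (by rwa [e, zero_add] at h1)
  have h5 := h.AO (h.negA h3) b h4
  have h6 := h5.1
  have h0 := h.ne' hx.1
  have h7 := h.mulA hx hx
  have h8 : Loc2A s (b * (1 + x) / (1 + -a * b)) := by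
    refine ⟨by rw [h.divH h5]; exact (h.mulA h4 hx).1, ?_⟩
    rw [show 1 + b * (1 + x) / (1 + -a * b) =
      (1 + b * (1 + x) * (1 + -a / (1 + x))) / (1 + -a * b) by
        rw [mul_assoc b, mul_add (1 + x), mul_div_cancel₀ _ h0, one_add_div h6]; ring, h.divH h5]
    exact (h.mulA (h.mulA h4 hx) (h.divA (h.negA h3) hx)).2
  have := h.HH h5 (ha _ h8)
  rwa [show (1 + -a * b) * (1 + a * (b * (1 + x) / (1 + -a * b))) = 1 + a * b * x by
    rw [mul_add (1 + -a * b), mul_left_comm _ a, mul_div_cancel₀ _ h6]; ring] at this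

theorem notO (ha : Loc2H s a) (h0 : ¬Loc2O s a) : ∃ x, Loc2A s x ∧ Loc2A s (x * a)⁻¹ := by
  obtain ⟨x, hx⟩ := not_forall.1 h0
  obtain ⟨h1, h2⟩ := Classical.not_imp.1 hx
  refine ⟨x, h1, (h.or_inv (by rw [h.mulH ha]; exact h1.1)).resolve_left fun h3 => h2 ?_⟩
  rw [mul_comm]
  exact h.AH h3

theorem orO (a : F) : Loc2O s a ∨ Loc2O s a⁻¹ := by
  by_cases a0 : a = 0
  · exact Or.inl (a0 ▸ h.zeroO)
  by_cases h0 : s a = 0
  swap
  · exact (h.or_inv h0).imp h.AO h.AO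
  by_contra hn
  obtain ⟨x, h1, h2⟩ := h.notO ⟨a0, h0⟩ fun e => hn (Or.inl e)
  obtain ⟨y, h3, h4⟩ := h.notO (h.invH ⟨a0, h0⟩) fun e => hn (Or.inr e)
  have h5 := h.mulO (h.mulO (h.AO h2) (h.AO h3)) (h.AO h4)
  have h6 := h.ne h3.1
  have h7 := h.ne h1.1
  rw [show (x * a)⁻¹ * y * (y * a⁻¹)⁻¹ = x⁻¹ by field_simp] at h5
  exact h.not_inv h1 (h.OA h5 (by rw [h.inv, neg_ne_zero]; exact h1.1))

/-- the valuation ring -/
def ring : ValuationSubring F where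
  carrier := {a | Loc2O s a}
  mul_mem' := h.mulO
  one_mem' := fun x hx => by rw [one_mul]; exact h.AH hx
  add_mem' := h.addO
  zero_mem' := h.zeroO
  neg_mem' := fun {a} ha x hx => by rw [neg_mul, ← mul_neg]; exact ha _ (h.negA hx)
  mem_or_inv_mem' := h.orO

theorem unit (ha : h.ring.valuation a = 1) : s a = 0 := by
  by_contra h0
  exact h.not_inv (h.OA (resb_mem ha) h0)
    (h.OA (resb_mem (resb_inv ha)) (by rwa [h.inv, neg_ne_zero]))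

end Loc2R

end rigid

variable {ℓ : ℕ} {F : Type*} [Field F] [Fact ℓ.Prime]

theorem loc2_lt {σ : X ℓ F} {O : ValuationSubring F} (h : σ ∈ Iv ℓ O) {x : F}
    (hx : Loc2A (fun a => σ (cl ℓ a)) x) : O.valuation x < 1 := by
  rcases lt_trichotomy (O.valuation x) 1 with e | e | e
  · exact e
  · exact absurd ((mem_Iv_iff O σ).1 h x e) hx.1
  · refine absurd ((Iv_val_eq h ?_).symm.trans hx.2) hx.1
    exact O.valuation.map_add_eq_of_lt_right (by rwa [map_one])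

theorem loc2_of {σ : X ℓ F} (h : Valuative σ) :
    (∀ x, σ (cl ℓ x) ≠ 0 → σ (cl ℓ (1 + x)) = 0 ∨ σ (cl ℓ (1 + x)) = σ (cl ℓ x)) ∧
    ∀ x y, σ (cl ℓ x) ≠ 0 → σ (cl ℓ y) ≠ 0 → σ (cl ℓ (1 + x)) = 0 → σ (cl ℓ (1 + y)) = 0 →
      σ (cl ℓ (1 + x * (1 + y))) = 0 := by
  obtain ⟨O, h⟩ := h
  have h0 := (mem_Iv_iff O σ).1 h
  refine ⟨fun x hx => ?_, fun x y hx hy hx' hy' => h0 _ (O.valuation.map_one_add_of_lt ?_)⟩
  · rcases lt_trichotomy (O.valuation x) 1 with e | e | e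
    · exact Or.inl (h0 _ (O.valuation.map_one_add_of_lt e))
    · exact absurd (h0 x e) hx
    · exact Or.inr (Iv_val_eq h (O.valuation.map_add_eq_of_lt_right (by rwa [map_one])))
  · rw [map_mul, O.valuation.map_one_add_of_lt (loc2_lt h ⟨hy, hy'⟩), mul_one]
    exact loc2_lt h ⟨hx, hx'⟩

theorem loc2_canon {σ : X ℓ F} (h : Loc2R fun a => σ (cl ℓ a)) : IsCanon σ h.ring := by
  refine ⟨(mem_Iv_iff _ σ).2 fun a ha => h.unit ha, fun O hO a ha x hx => ?_⟩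
  have h1 : O.valuation (1 + a * x) = 1 := O.valuation.map_one_add_of_lt (by
    rw [map_mul]
    exact mul_lt_one_of_nonneg_of_lt_one_right ((O.valuation_le_one_iff a).2 ha) zero_le
      (loc2_lt hO hx))
  exact ⟨resb_ne h1, (mem_Iv_iff O σ).1 hO _ h1⟩

variable (k : Type*) [Field k] [Algebra k F] [IsAlgClosed k]
include k

theorem loc2_R {σ : X ℓ F}
    (h : (∀ x, σ (cl ℓ x) ≠ 0 → σ (cl ℓ (1 + x)) = 0 ∨ σ (cl ℓ (1 + x)) = σ (cl ℓ x)) ∧
    ∀ x y, σ (cl ℓ x) ≠ 0 → σ (cl ℓ y) ≠ 0 → σ (cl ℓ (1 + x)) = 0 → σ (cl ℓ (1 + y)) = 0 →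
      σ (cl ℓ (1 + x * (1 + y))) = 0) : Loc2R fun a => σ (cl ℓ a) :=
  ⟨by rw [cl_zero, map_zero], fun ha hb => by rw [cl_mul ha hb, map_add],
    fun a => by rw [cl_neg k], h.1, h.2⟩

theorem valuative_iff (σ : X ℓ F) : Valuative σ ↔
    (∀ x, σ (cl ℓ x) ≠ 0 → σ (cl ℓ (1 + x)) = 0 ∨ σ (cl ℓ (1 + x)) = σ (cl ℓ x)) ∧
    ∀ x y, σ (cl ℓ x) ≠ 0 → σ (cl ℓ y) ≠ 0 → σ (cl ℓ (1 + x)) = 0 → σ (cl ℓ (1 + y)) = 0 →
      σ (cl ℓ (1 + x * (1 + y))) = 0 :=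
  ⟨loc2_of, fun h => ⟨_, (loc2_canon (loc2_R k h)).1⟩⟩

theorem Valuative.exists_canon {σ : X ℓ F} (h : Valuative σ) : ∃ O, IsCanon σ O :=
  ⟨_, loc2_canon (loc2_R k (loc2_of h))⟩

theorem IsCanon.mem_Dv {σ τ : X ℓ F} {O : ValuationSubring F} (h : IsCanon σ O)
    (hc : CP σ τ) : τ ∈ Dv ℓ O := by
  have hR := loc2_R k (loc2_of ⟨O, h.1⟩)
  have h0 := (mem_Iv_iff O σ).1 h.1
  have key : ∀ x, O.valuation x < 1 → σ (cl ℓ x) ≠ 0 → τ (cl ℓ (1 - x)) = 0 := fun x h1 h2 => by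
    have := hc x
    rw [h0 _ (O.valuation.map_one_sub_of_lt h1), zero_mul] at this
    exact (mul_eq_zero.1 this).resolve_left h2
  refine (mem_Dv_iff O τ).2 fun a ha => ?_
  obtain ⟨x, rfl⟩ : ∃ x, a = 1 - x := ⟨1 - a, (sub_sub_cancel _ _).symm⟩
  rw [sub_sub_cancel_left, Valuation.map_neg] at ha
  by_cases x0 : x = 0
  · rw [x0, sub_zero, cl_one, map_zero]
  by_cases h1 : σ (cl ℓ x) = 0
  swap
  · exact key x ha h1
  obtain ⟨y, h2, h3⟩ := hR.notO (hR.invH ⟨x0, h1⟩) fun e =>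
    ((resb_lt_one_iff O x).1 ha).resolve_left x0 (h.2 _ (loc2_canon hR).1 e)
  have h4 := loc2_lt h.1 h2
  have h5 := hR.AH (hR.negA h2)
  have h6 := hR.AH (hR.negA h3)
  have h7 := hR.ne h2.1
  rw [← sub_eq_add_neg] at h5
  have h8 := h5.1
  have h9 : O.valuation ((x - y) / (1 - y)) < 1 := by
    rw [map_div₀, O.valuation.map_one_sub_of_lt h4, div_one]
    exact O.valuation.map_sub_lt ha h4
  have h10 : σ (cl ℓ ((x - y) / (1 - y))) ≠ 0 := by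
    have e := (hR.divH h5 (x - y)).trans (show σ (cl ℓ (x - y)) = σ (cl ℓ y) by
      rw [show x - y = -y * (1 + -(y * x⁻¹)⁻¹) by field_simp; ring]
      exact (hR.mulH h6 _).trans (hR.neg y))
    exact fun e' => h2.1 (e.symm.trans e')
  rw [show 1 - x = (1 - y) * (1 - (x - y) / (1 - y)) by field_simp; ring,
    cl_mul h8 (resb_ne (O.valuation.map_one_sub_of_lt h9)), map_add, key y h4 h2.1, key _ h9 h10,
    add_zero]

end P019
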