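import Vale.Agent.P019.Loc1
import Vale.Agent.P019.Loc2

/-!
P019 Loc3: a C-pair has a valuative combination.
If `σ, τ` are dependent use the zero combination.  Otherwise `Ψ = (σ,τ)` is onto `(ZMod ℓ)^2`,
`T = ker Ψ`.  By `rig_or_rig` all non-rigid `x ∉ T` have `Ψ x` on one line; choose `σ₀ ≠ 0`
(combination) killing it; all `x ∉ H = ker σ₀` are rigid, which gives the first condition of
`valuative_iff`, and `1 + x ∈ H ↔ 1 + x ∈ T`.  Second condition: let `A = {x ∉ H, 1+x ∈ T}`,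
`x, y ∈ A`, `z = 1 + x (1+y) = (1+x) + x y`; `Ψ z ∈ {0, Ψ x}`.  If `Ψ z = Ψ x`, collinearity forces
`Ψ y = j Ψ x`, and rigidity of `x y/(1+x)` forces `j = -1` (bad pair).
`ℓ` odd: no bad pair: `-x ∈ A` (from `(-x/(1+x), x)`, `j = 1`), `1 - x² ∈ T` so `-x², x² ∈ A`,
`x² (1+y)² ∈ A` (twice `j = -1/2`); also `w = x (1+y)` has `1/w ∈ A`, so `1/w² ∈ A`, but `u` and
`1/u` are never both in `A`.
`ℓ = 2`: every `x ∉ T` is rigid; at most one of the three classes contains a bad pair, choose `H`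
to contain it.  Indeed for `p, q ∈ A` (now `A = {x ∉ T, 1+x ∈ T}`) of different classes
`p (1+q) ∈ A`, `p/(1+q) ∈ A`, and `-p q ∈ A` (from `1 + p + p q ∈ T` applied to `-p/(1+p)`).  If
`x, 1/(x t) ∈ A` (class a, `t = 1+y`) and `u, 1/(u s) ∈ A` (class b, `s = 1+v`) then
`-x u, -x u t, x t/s, x t ∈ A`, contradiction.
-/

namespace P019

variable {ℓ : ℕ} {F : Type*} [Field F] [Fact ℓ.Prime]

section abs

variable {W : Type*} [AddCommGroup W] {s : F → W} {x y u v : F}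

/-- a character all of whose non-kernel elements are rigid -/
structure Loc3S (s : F → W) : Prop where
  mul : ∀ a b, a ≠ 0 → b ≠ 0 → s (a * b) = s a + s b
  zero : s 0 = 0
  neg : ∀ a, s (-a) = s a
  rig : ∀ x, s x ≠ 0 → s (1 + x) = 0 ∨ s (1 + x) = s x

/-- the small elements -/
def Loc3A (s : F → W) (x : F) : Prop := s x ≠ 0 ∧ s (1 + x) = 0

namespace Loc3S

theorem one (h : Loc3S s) : s 1 = 0 := by
  have := h.mul 1 1 one_ne_zero one_ne_zero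
  rw [mul_one] at this
  exact left_eq_add.1 this

theorem ne0 (h : Loc3S s) (hx : s x ≠ 0) : x ≠ 0 := fun e => hx (e ▸ h.zero)

theorem ne1 (h : Loc3S s) (hx : s x ≠ 0) : 1 + x ≠ 0 := fun e =>
  hx (by rw [← neg_eq_of_add_eq_zero_right e, h.neg, h.one])

theorem inv (h : Loc3S s) (x : F) : s x⁻¹ = -s x := by
  by_cases hx : x = 0
  · rw [hx, inv_zero, h.zero, neg_zero]
  · rw [eq_neg_iff_add_eq_zero, ← h.mul _ _ (inv_ne_zero hx) hx, inv_mul_cancel₀ hx, h.one]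

theorem div (h : Loc3S s) (hx : x ≠ 0) (hy : y ≠ 0) : s (x / y) = s x - s y := by
  rw [div_eq_mul_inv, h.mul _ _ hx (inv_ne_zero hy), h.inv, sub_eq_add_neg]

theorem cls (h : Loc3S s) (hx : s x ≠ 0) (hy : Loc3A s y) : s (x * (1 + y)) = s x := by
  rw [h.mul _ _ (h.ne0 hx) (h.ne1 hy.1), hy.2, add_zero]

theorem cls' (h : Loc3S s) (hx : Loc3A s x) : s (-x / (1 + x)) = s x := by
  rw [h.div (neg_ne_zero.2 (h.ne0 hx.1)) (h.ne1 hx.1), hx.2, h.neg, sub_zero]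

theorem inv_mem (h : Loc3S s) (hx : s x ≠ 0) : Loc3A s x⁻¹ ↔ s (1 + x) = s x := by
  have e : 1 + x⁻¹ = (1 + x) / x := by
    have := h.ne0 hx
    field_simp
    ring
  rw [Loc3A, e, h.div (h.ne1 hx) (h.ne0 hx), h.inv, sub_eq_zero]
  exact and_iff_right (neg_ne_zero.2 hx)

theorem not_both (h : Loc3S s) (hx : Loc3A s x) : ¬Loc3A s x⁻¹ := fun h' =>
  hx.1 (((h.inv_mem hx.1).1 h').symm.trans hx.2)

theorem flip (h : Loc3S s) (hx : Loc3A s x) : Loc3A s (-x / (1 + x)) := by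
  have e : 1 + -x / (1 + x) = (1 + x)⁻¹ := by
    have := h.ne1 hx.1
    field_simp
    ring
  exact ⟨by rw [h.cls' hx]; exact hx.1, by rw [e, h.inv, hx.2, neg_zero]⟩

theorem good (h : Loc3S s) (hx : Loc3A s x) (hy : Loc3A s y) (hs : s x + s y ≠ 0) :
    Loc3A s (x * (1 + y)) := by
  have h1 := h.cls hx.1 hy
  refine ⟨h1 ▸ hx.1, (h.rig _ (h1 ▸ hx.1)).resolve_right fun h2 => ?_⟩
  have h0 := h.ne1 hx.1
  have h3 : s (x * y / (1 + x)) = s x + s y := by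
    rw [h.div (mul_ne_zero (h.ne0 hx.1) (h.ne0 hy.1)) h0, hx.2, sub_zero,
      h.mul _ _ (h.ne0 hx.1) (h.ne0 hy.1)]
  have e : 1 + x * y / (1 + x) = (1 + x * (1 + y)) / (1 + x) := by
    field_simp
    ring
  have h4 := h.rig _ (h3 ▸ hs)
  rw [e, h.div (h.ne1 (h1 ▸ hx.1)) h0, h2, h1, hx.2, sub_zero, h3] at h4
  exact h4.elim hx.1 fun h5 => hy.1 (left_eq_add.1 h5)

theorem prod (h : Loc3S s) (hx : Loc3A s x) (hy : Loc3A s y) (hs : s x + s y ≠ 0) :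
    Loc3A s (-(x * y)) := by
  have h1 : s (-(x * y)) = s x + s y := by rw [h.neg, h.mul _ _ (h.ne0 hx.1) (h.ne0 hy.1)]
  have h0 := h.ne1 hx.1
  have e : 1 + -x / (1 + x) * (1 + y) = (1 + -(x * y)) / (1 + x) := by
    field_simp
    ring
  have h2 := (h.good (h.flip hx) hy (by rwa [h.cls' hx])).2
  rw [e, h.div (h.ne1 (h1 ▸ hs)) h0, hx.2, sub_zero] at h2
  exact ⟨h1 ▸ hs, h2⟩

theorem bad (h : Loc3S s) (hx : Loc3A s x) (hy : Loc3A s y) (hb : ¬Loc3A s (x * (1 + y))) :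
    s y = -s x ∧ Loc3A s (x * (1 + y))⁻¹ := by
  have h1 : s (x * (1 + y)) ≠ 0 := by rw [h.cls hx.1 hy]; exact hx.1
  exact ⟨eq_neg_of_add_eq_zero_right (by_contra fun h2 => hb (h.good hx hy h2)),
    (h.inv_mem h1).2 ((h.rig _ h1).resolve_left fun h2 => hb ⟨h1, h2⟩)⟩

theorem odd (h : Loc3S s) (h2 : ∀ w : W, w + w = 0 → w = 0) (hx : Loc3A s x) (hy : Loc3A s y) :
    Loc3A s (x * (1 + y)) := by
  have hn : ∀ x, Loc3A s x → Loc3A s (-x) := fun x hx => by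
    have := h.good (h.flip hx) hx (by rw [h.cls' hx]; exact fun e => hx.1 (h2 _ e))
    rwa [div_mul_cancel₀ _ (h.ne1 hx.1)] at this
  have hq : ∀ x, Loc3A s x → Loc3A s (x * x) := fun x hx => by
    simpa using hn _ (h.prod hx hx fun e => hx.1 (h2 _ e))
  by_contra hb
  obtain ⟨h3, h4⟩ := h.bad hx hy hb
  have h5 : s (x * x) + s y ≠ 0 := by
    rw [h.mul _ _ (h.ne0 hx.1) (h.ne0 hx.1), h3, add_neg_cancel_right]
    exact hx.1
  have h6 := h.good (h.good (hq x hx) hy h5) hy (by rwa [h.cls (hq x hx).1 hy])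
  refine h.not_both h6 ?_
  have := hq _ h4
  rwa [← mul_inv, show x * (1 + y) * (x * (1 + y)) = x * x * (1 + y) * (1 + y) by ring] at this

theorem two (h : Loc3S s) (hx : Loc3A s x) (hy : Loc3A s y) (hb : ¬Loc3A s (x * (1 + y)))
    (hu : Loc3A s u) (hv : Loc3A s v) (h1 : s x + s u ≠ 0) (h2 : s x - s u ≠ 0) :
    Loc3A s (u * (1 + v)) := by
  by_contra hb'
  obtain ⟨h3, -⟩ := h.bad hx hy hb
  obtain ⟨h5, h6⟩ := h.bad hu hv hb'
  have c1 : s (-(x * u)) = s x + s u := by rw [h.neg, h.mul _ _ (h.ne0 hx.1) (h.ne0 hu.1)]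
  have a1 := h.prod hx hu h1
  have a2 := h.good a1 hy (by rw [c1, h3, add_neg_cancel_comm]; exact hu.1)
  have c2 : s (-(x * u) * (1 + y)) + s (u * (1 + v))⁻¹ = s x := by
    rw [h.cls a1.1 hy, c1, h.inv, h.cls hu.1 hv, add_neg_cancel_right]
  have a3 := h.prod a2 h6 (c2 ▸ hx.1)
  have a4 := h.good a3 hv (by
    rwa [h.neg, h.mul _ _ (h.ne0 a2.1) (h.ne0 h6.1), c2, h5, ← sub_eq_add_neg])
  have e : -(-(x * u) * (1 + y) * (u * (1 + v))⁻¹) * (1 + v) = x * (1 + y) := by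
    have := h.ne0 hu.1
    have := h.ne1 hv.1
    field_simp
  exact hb (e ▸ a4)

end Loc3S

end abs

theorem loc3_two : ∀ a b c d : ZMod 2, a * d = c * b → ¬(a = 0 ∧ b = 0) →
    (c = 0 ∧ d = 0) ∨ (c = a ∧ d = b) := by decide

theorem exists_valuative_comb (k : Type*) [Field k] [Algebra k F] [IsAlgClosed k]
    {σ τ : X ℓ F} (h : CP σ τ) :
    ∃ a b : ZMod ℓ, (a ≠ 0 ∨ b ≠ 0) ∧ Valuative (a • σ + b • τ) := by
  have hv : ∀ (a b : ZMod ℓ) (x : F),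
      (a • σ + b • τ) (cl ℓ x) = a * σ (cl ℓ x) + b * τ (cl ℓ x) := fun _ _ _ => rfl
  have h1 : ∀ (a b : ZMod ℓ) (x : F), Rig σ τ x → (a • σ + b • τ) (cl ℓ (1 + x)) = 0 ∨
      (a • σ + b • τ) (cl ℓ (1 + x)) = (a • σ + b • τ) (cl ℓ x) := fun a b x hx =>
    hx.imp (fun h => by rw [hv, h.1, h.2, mul_zero, mul_zero, add_zero])
      fun h => by rw [hv, hv, h.1, h.2]
  have hne : ∀ {a b : ZMod ℓ}, ¬(a = 0 ∧ b = 0) → -b ≠ 0 ∨ a ≠ 0 := fun h => by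
    rw [neg_ne_zero]
    tauto
  by_cases hR : ∀ x, ¬(σ (cl ℓ x) = 0 ∧ τ (cl ℓ x) = 0) → Rig σ τ x
  · have hS : Loc3S fun x : F => (σ (cl ℓ x), τ (cl ℓ x)) :=
      ⟨fun a b ha hb => by simp [cl_mul ha hb], by simp, fun a => by rw [cl_neg k],
        fun x hx => by simpa [Rig] using hR x (by simpa using hx)⟩
    have h0 : ∀ {a b : ZMod ℓ} {x : F}, (a • σ + b • τ) (cl ℓ x) ≠ 0 →
        ¬(σ (cl ℓ x) = 0 ∧ τ (cl ℓ x) = 0) := fun hx e =>
      hx (by rw [hv, e.1, e.2, mul_zero, mul_zero, add_zero])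
    have hA : ∀ {a b : ZMod ℓ} {x : F}, (a • σ + b • τ) (cl ℓ x) ≠ 0 →
        (a • σ + b • τ) (cl ℓ (1 + x)) = 0 →
          Loc3A (fun x : F => (σ (cl ℓ x), τ (cl ℓ x))) x := fun hx hx' =>
      ⟨by simpa using h0 hx, Prod.ext_iff.2 ((hR _ (h0 hx)).resolve_right fun e =>
        hx (by rw [← hx', hv, hv, e.1, e.2]))⟩
    have hB : ∀ {a b : ZMod ℓ} {x : F}, Loc3A (fun x : F => (σ (cl ℓ x), τ (cl ℓ x))) x →
        (a • σ + b • τ) (cl ℓ (1 + x)) = 0 := fun hx => by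
      obtain ⟨e1, e2⟩ := Prod.mk_eq_zero.1 hx.2
      rw [hv, e1, e2, mul_zero, mul_zero, add_zero]
    by_cases hb : ∀ x y, Loc3A (fun x : F => (σ (cl ℓ x), τ (cl ℓ x))) x →
        Loc3A (fun x : F => (σ (cl ℓ x), τ (cl ℓ x))) y →
          Loc3A (fun x : F => (σ (cl ℓ x), τ (cl ℓ x))) (x * (1 + y))
    · exact ⟨1, 0, .inl one_ne_zero, (valuative_iff k _).2 ⟨fun x hx => h1 _ _ x (hR x (h0 hx)),
        fun x y hx hy hx' hy' => hB (hb x y (hA hx hx') (hA hy hy'))⟩⟩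
    · push Not at hb
      obtain ⟨x, y, hx, hy, hb⟩ := hb
      refine ⟨-τ (cl ℓ x), σ (cl ℓ x), hne (by simpa using hx.1), (valuative_iff k _).2
        ⟨fun x hx => h1 _ _ x (hR x (h0 hx)), fun u v hu hv' hu' hv'' =>
          hB (hS.two hx hy hb (hA hu hu') (hA hv' hv'') (fun e => hu ?_) fun e => hu ?_)⟩⟩
      · obtain ⟨e1, e2⟩ := Prod.mk_eq_zero.1 e
        rw [hv]
        linear_combination σ (cl ℓ x) * e2 - τ (cl ℓ x) * e1
      · obtain ⟨e1, e2⟩ := Prod.mk_eq_zero.1 e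
        rw [hv]
        linear_combination τ (cl ℓ x) * e1 - σ (cl ℓ x) * e2
  · push Not at hR
    obtain ⟨x₀, h0, hx₀⟩ := hR
    have h2 : ∀ w : ZMod ℓ, w + w = 0 → w = 0 := fun w hw => by
      rw [← two_mul] at hw
      refine (mul_eq_zero.1 hw).resolve_left fun h2 => hx₀ ?_
      obtain rfl : ℓ = 2 := (Nat.prime_dvd_prime_iff_eq Fact.out Nat.prime_two).1
        ((ZMod.natCast_eq_zero_iff 2 ℓ).1 h2)
      have := h (-x₀)
      rw [cl_neg k, sub_neg_eq_add] at this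
      exact loc3_two _ _ _ _ this fun e => h0 e.1 e.2
    have hS : Loc3S fun x : F => (-τ (cl ℓ x₀) • σ + σ (cl ℓ x₀) • τ) (cl ℓ x) :=
      ⟨fun a b ha hb => by rw [cl_mul ha hb, map_add], by simp, fun a => by rw [cl_neg k],
        fun x hx => h1 _ _ x ((rig_or_rig k h fun e => hx (by
          rw [hv]; linear_combination e)).resolve_left hx₀)⟩
    exact ⟨_, _, hne fun e => h0 e.1 e.2, (valuative_iff k _).2
      ⟨hS.rig, fun x y hx hy hx' hy' => (hS.odd h2 ⟨hx, hx'⟩ ⟨hy, hy'⟩).2⟩⟩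

end P019
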