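import Vale.Agent.P019.FFb

/-!
P019 Mono: monomial valuations, Abhyankar inequality.
For `G ≠ 0` in `k[x, y]` write `G = Σ_a x^a G_a(y)`.  Each `G_a(y) ≠ 0` is `c_a · unit` (`c_a` a
coefficient of largest valuation; residues of `y` independent) with residue of the unit in
`k̄(ȳ)`; the values of the terms are pairwise distinct by `ZInd`, so `G(x,y) = (leading term)(1+m)`.
No algebraic closedness of `k` is needed in this file except where stated.
-/

namespace P019

open IntermediateField

variable {ℓ : ℕ} (k : Type*) {F : Type*} [Field k] [Field F] [Algebra k F]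

/-- the values of the `x i` are `ℤ`-independent modulo the values of `k` -/
def ZInd (O : ValuationSubring F) {ι : Type*} (x : ι → F) : Prop :=
  (∀ i, x i ≠ 0) ∧ ∀ (n : ι →₀ ℤ) (c : k),
    O.valuation (n.prod fun i e => x i ^ e) = O.valuation (algebraMap k F c) → n = 0

/-- the `y i` lie in `O` and have independent residues over the residues of `k` -/
def RInd (O : ValuationSubring F) {ι : Type*} (y : ι → F) : Prop :=
  (∀ i, y i ∈ O) ∧ AlgebraicIndependent (resK k O) fun i => res O (y i)

variable {k}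

/-- reduction of the coefficients -/
noncomputable def monoPhi (k : Type*) [Field k] [Algebra k F] (O : ValuationSubring F) :
    O.comap (algebraMap k F) →+* resK k O where
  toFun := fun c => ⟨res O (algebraMap k F c), (mem_resK O _).2 ⟨c, c.2, rfl⟩⟩
  map_one' := Subtype.ext (by simp)
  map_mul' := fun a b => Subtype.ext (by
    change res O (algebraMap k F (a * b)) = _
    rw [map_mul]
    exact res_mul O a.2 b.2)
  map_zero' := Subtype.ext (by simp)
  map_add' := fun a b => Subtype.ext (by
    change res O (algebraMap k F (a + b)) = _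
    rw [map_add]
    exact res_add O a.2 b.2)

theorem mono_red' (O : ValuationSubring F) {σ : Type*} {z : σ → F} (hz : ∀ i, z i ∈ O)
    (H : MvPolynomial σ (O.comap (algebraMap k F))) :
    MvPolynomial.aeval z (MvPolynomial.map (O.comap (algebraMap k F)).subtype H) ∈ O ∧
      res O (MvPolynomial.aeval z (MvPolynomial.map (O.comap (algebraMap k F)).subtype H)) =
        MvPolynomial.aeval (fun i => res O (z i)) (MvPolynomial.map (monoPhi k O) H) := by
  induction H using MvPolynomial.induction_on with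
  | C c =>
    simp only [MvPolynomial.map_C, MvPolynomial.aeval_C]
    exact ⟨c.2, rfl⟩
  | add p q hp hq =>
    simp only [map_add]
    exact ⟨add_mem hp.1 hq.1, by rw [res_add O hp.1 hq.1, hp.2, hq.2]⟩
  | mul_X p i hp =>
    simp only [map_mul, MvPolynomial.map_X, MvPolynomial.aeval_X]
    exact ⟨mul_mem hp.1 (hz i), by rw [res_mul O hp.1 (hz i), hp.2]⟩

theorem mono_red (O : ValuationSubring F) {σ : Type*} {z : σ → F} (hz : ∀ i, z i ∈ O)
    {H : MvPolynomial σ k} (hH : ∀ m, algebraMap k F (H.coeff m) ∈ O) :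
    ∃ H' : MvPolynomial σ (resK k O),
      (∀ m, (H'.coeff m).1 = res O (algebraMap k F (H.coeff m))) ∧
      MvPolynomial.aeval z H ∈ O ∧
      res O (MvPolynomial.aeval z H) = MvPolynomial.aeval (fun i => res O (z i)) H' := by
  classical
  let H₀ : MvPolynomial σ (O.comap (algebraMap k F)) :=
    ∑ m ∈ H.support, MvPolynomial.monomial m ⟨H.coeff m, hH m⟩
  have h0 : MvPolynomial.map (O.comap (algebraMap k F)).subtype H₀ = H := by
    simp only [H₀, map_sum, MvPolynomial.map_monomial]
    exact H.as_sum.symm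
  have h1 := mono_red' O hz H₀
  rw [h0] at h1
  refine ⟨MvPolynomial.map (monoPhi k O) H₀, fun m => ?_, h1⟩
  rw [MvPolynomial.coeff_map, ← h0, MvPolynomial.coeff_map]
  rfl

theorem mono_y {O : ValuationSubring F} {ι' : Type*} {y : ι' → F} (hy : RInd k O y)
    {H : MvPolynomial ι' k} (h0 : H ≠ 0) :
    ∃ c : k, c ≠ 0 ∧ O.valuation (MvPolynomial.aeval y H / algebraMap k F c) = 1 ∧
      res O (MvPolynomial.aeval y H / algebraMap k F c) ∈
        adjoin (resK k O) (Set.range fun i => res O (y i)) := by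
  obtain ⟨m, hm, hmax⟩ := H.support.exists_max_image
    (fun m => O.valuation (algebraMap k F (H.coeff m))) (MvPolynomial.support_nonempty.2 h0)
  have hc : H.coeff m ≠ 0 := MvPolynomial.mem_support_iff.1 hm
  have hc' : algebraMap k F (H.coeff m) ≠ 0 := (map_ne_zero _).2 hc
  have hv : 0 < O.valuation (algebraMap k F (H.coeff m)) :=
    zero_lt_iff.2 ((map_ne_zero _).2 hc')
  obtain ⟨H', h1, h2, h3⟩ := mono_red O hy.1 (H := MvPolynomial.C (H.coeff m)⁻¹ * H) (fun n => by
    rw [MvPolynomial.coeff_C_mul, map_mul, map_inv₀, ← O.valuation_le_one_iff, map_mul, map_inv₀,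
      inv_mul_le_iff₀ hv, mul_one]
    by_cases hn : n ∈ H.support
    · exact hmax n hn
    · rw [MvPolynomial.notMem_support_iff.1 hn, map_zero, map_zero]
      exact zero_le)
  have e : MvPolynomial.aeval y (MvPolynomial.C (H.coeff m)⁻¹ * H) =
      MvPolynomial.aeval y H / algebraMap k F (H.coeff m) := by
    rw [map_mul, MvPolynomial.aeval_C, map_inv₀, div_eq_inv_mul]
  rw [e] at h2 h3
  refine ⟨H.coeff m, hc, resb_unit h2 fun h => ?_, ?_⟩
  · rw [h3] at h
    have h4 := h1 m
    rw [hy.2.eq_zero_of_aeval_eq_zero _ h, MvPolynomial.coeff_C_mul, inv_mul_cancel₀ hc, map_one,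
      res_one] at h4
    simp at h4
  · rw [h3]
    exact (mem_adjoin_range_iff _ _ _).2 ⟨H', 1, by simp⟩

/-- Laurent monomial -/
noncomputable def monoX {ι : Type*} (x : ι → F) (n : ι →₀ ℤ) : F := n.prod fun i e => x i ^ e

theorem monoX_ne {ι : Type*} {x : ι → F} (hx : ∀ i, x i ≠ 0) (n : ι →₀ ℤ) : monoX x n ≠ 0 :=
  Finset.prod_ne_zero_iff.2 fun i _ => zpow_ne_zero _ (hx i)

theorem monoX_add {ι : Type*} {x : ι → F} (hx : ∀ i, x i ≠ 0) (n m : ι →₀ ℤ) :
    monoX x (n + m) = monoX x n * monoX x m :=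
  Finsupp.prod_add_index' (fun _ => zpow_zero _) fun i _ _ => zpow_add₀ (hx i) _ _

theorem monoX_sub {ι : Type*} {x : ι → F} (hx : ∀ i, x i ≠ 0) (n m : ι →₀ ℤ) :
    monoX x (n - m) = monoX x n / monoX x m := by
  rw [eq_div_iff (monoX_ne hx m), ← monoX_add hx, sub_add_cancel]

theorem monoX_nat {ι : Type*} (x : ι → F) (a : ι →₀ ℕ) :
    monoX x (a.mapRange Nat.cast Nat.cast_zero) = ∏ i ∈ a.support, x i ^ a i := by
  unfold monoX
  rw [Finsupp.prod_mapRange_index fun _ => zpow_zero _]
  simp only [zpow_natCast]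
  rfl

/-- leading term of `a` -/
def Lead (k : Type*) [Field k] [Algebra k F] (O : ValuationSubring F) {ι ι' : Type*} (x : ι → F)
    (y : ι' → F) (a : F) : Prop :=
  ∃ (n : ι →₀ ℤ) (c : k), c ≠ 0 ∧ O.valuation (a / (algebraMap k F c * monoX x n)) = 1 ∧
    res O (a / (algebraMap k F c * monoX x n)) ∈
      adjoin (resK k O) (Set.range fun i => res O (y i))

theorem mono_split {ι ι' : Type*} (x : ι → F) (y : ι' → F) (G : MvPolynomial (ι ⊕ ι') k) :
    MvPolynomial.aeval (Sum.elim x y) G =
      MvPolynomial.eval₂ (MvPolynomial.aeval y : MvPolynomial ι' k →ₐ[k] F).toRingHom x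
        (MvPolynomial.sumAlgEquiv k ι ι' G) := by
  induction G using MvPolynomial.induction_on with
  | C c => simp
  | add p q hp hq => simp only [map_add, MvPolynomial.eval₂_add, hp, hq]
  | mul_X p i hp =>
    rw [map_mul, map_mul, MvPolynomial.eval₂_mul, hp]
    cases i <;> simp

theorem mono_lead {O : ValuationSubring F} {ι ι' : Type*} {x : ι → F} {y : ι' → F}
    (hx : ZInd k O x) (hy : RInd k O y) {G : MvPolynomial (ι ⊕ ι') k} (h0 : G ≠ 0) :
    Lead k O x y (MvPolynomial.aeval (Sum.elim x y) G) := by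
  classical
  rw [mono_split, MvPolynomial.eval₂_eq]
  have hp : MvPolynomial.sumAlgEquiv k ι ι' G ≠ 0 := by simpa using h0
  generalize MvPolynomial.sumAlgEquiv k ι ι' G = p at hp
  have h1 : ∀ a ∈ p.support, _ := fun a ha => mono_y hy (MvPolynomial.mem_support_iff.1 ha)
  choose! c hc using h1
  let z : (ι →₀ ℕ) → (ι →₀ ℤ) := fun a => a.mapRange Nat.cast Nat.cast_zero
  have hz : Function.Injective z := Finsupp.mapRange_injective _ _ Nat.cast_injective
  let w : (ι →₀ ℕ) → F := fun a => algebraMap k F (c a) * monoX x (z a)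
  let t : (ι →₀ ℕ) → F := fun a => MvPolynomial.aeval y (p.coeff a) * monoX x (z a)
  have hw0 : ∀ a ∈ p.support, w a ≠ 0 := fun a ha =>
    mul_ne_zero ((map_ne_zero _).2 (hc a ha).1) (monoX_ne hx.1 _)
  have htw : ∀ a ∈ p.support, t a / w a = MvPolynomial.aeval y (p.coeff a) / algebraMap k F (c a) :=
    fun a _ => mul_div_mul_right _ _ (monoX_ne hx.1 _)
  have hv : ∀ a ∈ p.support, O.valuation (t a) = O.valuation (w a) := fun a ha => by
    have := (hc a ha).2.1
    rw [← htw a ha, map_div₀] at this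
    exact (div_eq_one_iff_eq ((map_ne_zero _).2 (hw0 a ha))).1 this
  obtain ⟨a, ha, hmax⟩ := p.support.exists_max_image (fun a => O.valuation (w a))
    (MvPolynomial.support_nonempty.2 hp)
  have hva : O.valuation (w a) ≠ 0 := (map_ne_zero _).2 (hw0 a ha)
  have hlt : O.valuation (∑ b ∈ p.support.erase a, t b) < O.valuation (w a) := by
    refine O.valuation.map_sum_lt hva fun b hb => ?_
    obtain ⟨hba, hb⟩ := Finset.mem_erase.1 hb
    rw [hv b hb]
    refine lt_of_le_of_ne (hmax b hb) fun h => hba (hz (sub_eq_zero.1 (hx.2 _ (c a / c b) ?_)))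
    change O.valuation (monoX x (z b - z a)) = _
    rw [monoX_sub hx.1, map_div₀, map_div₀, map_div₀,
      div_eq_div_iff ((map_ne_zero _).2 (monoX_ne hx.1 _))
        ((map_ne_zero _).2 ((map_ne_zero _).2 (hc b hb).1)), mul_comm, ← map_mul, ← map_mul]
    exact h
  have hr : O.valuation ((∑ b ∈ p.support.erase a, t b) / w a) < 1 := by
    rw [map_div₀, div_lt_one₀ (zero_lt_iff.2 hva)]
    exact hlt
  have e : (∑ d ∈ p.support, (MvPolynomial.aeval y : MvPolynomial ι' k →ₐ[k] F).toRingHom
      (p.coeff d) * ∏ i ∈ d.support, x i ^ d i) / w a =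
      MvPolynomial.aeval y (p.coeff a) / algebraMap k F (c a) +
        (∑ b ∈ p.support.erase a, t b) / w a := by
    rw [← htw a ha, ← add_div, Finset.add_sum_erase _ t ha]
    congr 1
    refine Finset.sum_congr rfl fun d _ => ?_
    simp only [t, z, monoX_nat]
    rfl
  have hu := (hc a ha).2
  have hres := res_add O (resb_mem hu.1) (resb_mem' hr)
  rw [(res_eq_zero_iff O (resb_mem' hr)).2 hr, add_zero] at hres
  refine ⟨z a, c a, (hc a ha).1, ?_, ?_⟩
  · change O.valuation (_ / w a) = 1
    rw [e]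
    exact resb_unit (add_mem (resb_mem hu.1) (resb_mem' hr)) (hres ▸ resb_res_ne hu.1)
  · change res O (_ / w a) ∈ _
    rw [e, hres]
    exact hu.2

theorem mono_lead' {O : ValuationSubring F} {ι ι' : Type*} {x : ι → F} {y : ι' → F}
    (hx : ZInd k O x) (hy : RInd k O y) {a : F}
    (ha : a ∈ adjoin k (Set.range (Sum.elim x y))) (h0 : a ≠ 0) : Lead k O x y a := by
  obtain ⟨G, H, rfl⟩ := (mem_adjoin_range_iff _ _ _).1 ha
  have hG : G ≠ 0 := by
    rintro rfl
    simp at h0
  have hH : H ≠ 0 := by
    rintro rfl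
    simp at h0
  obtain ⟨n, c, hc, h1, h2⟩ := mono_lead hx hy hG
  obtain ⟨m, d, hd, h3, h4⟩ := mono_lead hx hy hH
  have e : MvPolynomial.aeval (Sum.elim x y) G / MvPolynomial.aeval (Sum.elim x y) H /
      (algebraMap k F (c / d) * monoX x (n - m)) =
      MvPolynomial.aeval (Sum.elim x y) G / (algebraMap k F c * monoX x n) *
        (MvPolynomial.aeval (Sum.elim x y) H / (algebraMap k F d * monoX x m))⁻¹ := by
    rw [monoX_sub hx.1, map_div₀, inv_div]
    have := monoX_ne hx.1 n
    have := monoX_ne hx.1 m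
    have : algebraMap k F c ≠ 0 := (map_ne_zero _).2 hc
    have : algebraMap k F d ≠ 0 := (map_ne_zero _).2 hd
    field_simp
  refine ⟨n - m, c / d, div_ne_zero hc hd, ?_, ?_⟩
  · rw [e, map_mul, h1, resb_inv h3, one_mul]
  · rw [e, res_mul O (resb_mem h1) (resb_mem (resb_inv h3)), res_inv O h3]
    exact mul_mem h2 (inv_mem h4)

theorem mono_indep {O : ValuationSubring F} {ι ι' : Type*} {x : ι → F} {y : ι' → F}
    (hx : ZInd k O x) (hy : RInd k O y) : AlgebraicIndependent k (Sum.elim x y) := by
  refine algebraicIndependent_iff.2 fun G hG => ?_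
  by_contra h0
  obtain ⟨n, c, -, h1, -⟩ := mono_lead hx hy h0
  rw [hG, zero_div] at h1
  exact resb_ne h1 rfl

theorem mono_val {O : ValuationSubring F} {ι ι' : Type*} {x : ι → F} {y : ι' → F}
    (hx : ZInd k O x) (hy : RInd k O y) {a : F}
    (ha : a ∈ adjoin k (Set.range (Sum.elim x y))) (h0 : a ≠ 0) :
    ∃ (n : ι →₀ ℤ) (c : k), c ≠ 0 ∧
      O.valuation a = O.valuation (algebraMap k F c * n.prod fun i e => x i ^ e) := by
  obtain ⟨n, c, hc, h1, -⟩ := mono_lead' hx hy ha h0
  refine ⟨n, c, hc, ?_⟩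
  rw [map_div₀] at h1
  exact (div_eq_one_iff_eq ((map_ne_zero _).2
    (mul_ne_zero ((map_ne_zero _).2 hc) (monoX_ne hx.1 n)))).1 h1

theorem mono_res {O : ValuationSubring F} {ι ι' : Type*} {x : ι → F} {y : ι' → F}
    (hx : ZInd k O x) (hy : RInd k O y) {a : F}
    (ha : a ∈ adjoin k (Set.range (Sum.elim x y))) (hO : a ∈ O) :
    res O a ∈ adjoin (resK k O) (Set.range fun i => res O (y i)) := by
  by_cases hr : res O a = 0
  · rw [hr]
    exact zero_mem _
  have hu := resb_unit hO hr
  obtain ⟨n, c, hc, h1, h2⟩ := mono_lead' hx hy ha (resb_ne hu)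
  have hc' : algebraMap k F c ≠ 0 := (map_ne_zero _).2 hc
  have h3 : O.valuation (algebraMap k F c * monoX x n) = 1 := by
    rw [map_div₀, hu, one_div, inv_eq_one] at h1
    exact h1
  have hn : n = 0 := hx.2 n c⁻¹ (by
    rw [map_mul] at h3
    rw [map_inv₀, map_inv₀]
    exact eq_inv_of_mul_eq_one_right h3)
  subst hn
  have e : monoX x 0 = 1 := Finsupp.prod_zero_index
  rw [e, mul_one] at h1 h2 h3
  have e2 : a = algebraMap k F c * (a / algebraMap k F c) := by field_simp
  rw [e2, res_mul O (resb_mem h3) (resb_mem h1)]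
  exact mul_mem (IntermediateField.algebraMap_mem _
    (⟨_, (mem_resK O _).2 ⟨c, resb_mem h3, rfl⟩⟩ : resK k O)) h2

/-- a polynomial with integral coefficients, `x ∈ m`, and a unit coefficient at a monomial free
of `x`, is a unit -/
theorem mono_unit {O : ValuationSubring F} {ι ι' : Type*} {x : ι → F} {y : ι' → F}
    (hx : ∀ i, O.valuation (x i) < 1) (hy : RInd k O y) {G : MvPolynomial (ι ⊕ ι') k}
    (hG : ∀ m, algebraMap k F (G.coeff m) ∈ O)
    (hu : ∃ m : ι ⊕ ι' →₀ ℕ, (∀ i, m (Sum.inl i) = 0) ∧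
      O.valuation (algebraMap k F (G.coeff m)) = 1) :
    O.valuation (MvPolynomial.aeval (Sum.elim x y) G) = 1 := by
  obtain ⟨H', h1, h2, h3⟩ := mono_red O (z := Sum.elim x y) (fun i => by
    cases i with
    | inl i => exact resb_mem' (hx i)
    | inr i => exact hy.1 i) hG
  refine resb_unit h2 fun h => ?_
  obtain ⟨m, hm, hm1⟩ := hu
  have e : (MvPolynomial.aeval (fun i => res O (Sum.elim x y i)) :
      MvPolynomial (ι ⊕ ι') (resK k O) →ₐ[resK k O] Res O) =
      (MvPolynomial.aeval fun i => res O (y i)).comp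
        (MvPolynomial.killCompl Sum.inr_injective) := by
    refine MvPolynomial.algHom_ext fun i => ?_
    cases i with
    | inl i =>
      simp [MvPolynomial.killCompl, (res_eq_zero_iff O (resb_mem' (hx i))).2 (hx i)]
    | inr i =>
      have := MvPolynomial.killCompl_rename_app (R := resK k O) (Sum.inr_injective (α := ι))
        (MvPolynomial.X i)
      rw [MvPolynomial.rename_X] at this
      simp [this]
  rw [h3, e, AlgHom.comp_apply] at h
  have h4 := hy.2.eq_zero_of_aeval_eq_zero _ h
  have h5 := congrArg (MvPolynomial.coeff (m.comapDomain Sum.inr Sum.inr_injective.injOn)) h4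
  rw [MvPolynomial.coeff_killCompl, Finsupp.mapDomain_comapDomain _ Sum.inr_injective m (by
    rintro (i | i) hi
    · exact absurd (hm i) (Finsupp.mem_support_iff.1 hi)
    · exact ⟨i, rfl⟩), MvPolynomial.coeff_zero] at h5
  have h6 := h1 m
  rw [h5] at h6
  exact resb_res_ne hm1 h6.symm

theorem mono_lin (E : Type*) [Field E] [Algebra E F] (O : ValuationSubring F) {σ : Type*}
    {b : σ → F} (hb : ∀ i, b i ∈ O) (h : LinearIndependent (resK E O) fun i => res O (b i)) :
    LinearIndependent E b := by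
  classical
  refine linearIndependent_iff'.2 fun s g hg i hi => ?_
  by_contra h0
  obtain ⟨j, hj, hmax⟩ := s.exists_max_image (fun i => O.valuation (algebraMap E F (g i))) ⟨i, hi⟩
  have hv : 0 < O.valuation (algebraMap E F (g j)) :=
    lt_of_lt_of_le (zero_lt_iff.2 ((map_ne_zero _).2 ((map_ne_zero _).2 h0))) (hmax i hi)
  have hj0 : g j ≠ 0 := fun h => by simp [h] at hv
  have hin : ∀ l ∈ s, algebraMap E F (g l / g j) ∈ O := fun l hl => by
    rw [← O.valuation_le_one_iff, map_div₀, map_div₀, div_le_one₀ hv]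
    exact hmax l hl
  let g' : σ → resK E O := fun l =>
    ⟨res O (algebraMap E F (g l / g j)), Subfield.subset_closure ⟨_, rfl⟩⟩
  have key : ∀ t : Finset σ, t ⊆ s → (∑ l ∈ t, algebraMap E F (g l / g j) * b l) ∈ O ∧
      res O (∑ l ∈ t, algebraMap E F (g l / g j) * b l) = ∑ l ∈ t, g' l • res O (b l) := by
    intro t
    induction t using Finset.induction_on with
    | empty => simp
    | insert l t hl ih =>
      intro hs
      have h1 := ih ((Finset.subset_insert l t).trans hs)
      have h2 := hin l (hs (Finset.mem_insert_self l t))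
      rw [Finset.sum_insert hl, Finset.sum_insert hl]
      exact ⟨add_mem (mul_mem h2 (hb l)) h1.1, by
        rw [res_add O (mul_mem h2 (hb l)) h1.1, res_mul O h2 (hb l), h1.2]
        rfl⟩
  have h1 := (key s le_rfl).2
  have h2 : ∑ l ∈ s, algebraMap E F (g l / g j) * b l = 0 := by
    have : ∑ l ∈ s, algebraMap E F (g l / g j) * b l =
        (algebraMap E F (g j))⁻¹ * ∑ l ∈ s, g l • b l := by
      rw [Finset.mul_sum]
      refine Finset.sum_congr rfl fun l _ => ?_
      rw [map_div₀, Algebra.smul_def]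
      ring
    rw [this, hg, mul_zero]
  rw [h2, res_zero] at h1
  have h3 := congrArg Subtype.val (linearIndependent_iff'.1 h s g' h1.symm j hj)
  simp [g', div_self hj0] at h3

/-- residue extensions: `f ≤ n` (lift an independent family) -/
theorem res_finite (E : Type*) [Field E] [Algebra E F] [FiniteDimensional E F]
    (O : ValuationSubring F) : FiniteDimensional (resK E O) (Res O) ∧
      Module.finrank (resK E O) (Res O) ≤ Module.finrank E F := by
  have h : Module.rank (resK E O) (Res O) ≤ Module.finrank E F := by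
    refine rank_le fun s hs => ?_
    choose b hb using res_surj O
    have h1 := mono_lin E O (b := fun i : s => b i) (fun i => (hb i).1) (by
      simpa only [(hb _).2] using hs)
    simpa using h1.fintype_card_le_finrank
  exact ⟨Module.rank_lt_aleph0_iff.1 (h.trans_lt (Cardinal.natCast_lt_aleph0)),
    Module.finrank_le_of_rank_le h⟩

theorem mono_zind (O : ValuationSubring F) : ZInd k O (fun i : Empty => (i.elim : F)) :=
  ⟨fun i => i.elim, fun _ _ _ => Subsingleton.elim _ _⟩

theorem res_algebraic (E : Type*) [Field E] [Algebra E F] (O : ValuationSubring F) {a : F}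
    (ha : IsAlgebraic E a) (hO : a ∈ O) : IsAlgebraic (resK E O) (res O a) := by
  by_contra h
  have h1 := mono_indep (k := E) (mono_zind O) (y := fun _ : Unit => a)
    ⟨fun _ => hO, algebraicIndependent_unique_type_iff.2 h⟩
  exact h1.transcendental (Sum.inr ()) ha

/-- if `O` is trivial on `k` and the residues of `y` are independent, `O` contains `acl (y)` -/
theorem acl_subset_of_RInd {O : ValuationSubring F} (hO : Triv k O) {ι : Type*} {y : ι → F}
    (hy : RInd k O y) {a : F} (ha : a ∈ acl k (Set.range y)) : a ∈ O := by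
  have hE : ∀ e ∈ adjoin k (Set.range y), e ∈ O := by
    intro e he
    by_cases h0 : e = 0
    · rw [h0]
      exact zero_mem O
    obtain ⟨n, c, -, h⟩ := mono_val (mono_zind O) hy
      (adjoin.mono _ _ _ (by rintro _ ⟨i, rfl⟩; exact ⟨Sum.inr i, rfl⟩) he) h0
    rw [Subsingleton.elim n 0, Finsupp.prod_zero_index, mul_one] at h
    rw [← O.valuation_le_one_iff, h, O.valuation_le_one_iff]
    exact hO c
  have hi := ((mem_acl_iff _ a).1 ha).isIntegral
  refine mem_of_monic O ((minpoly.monic hi).map (algebraMap (adjoin k (Set.range y)) F))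
    (fun i => ?_) ?_
  · rw [Polynomial.coeff_map]
    exact hE _ ((minpoly (adjoin k (Set.range y)) a).coeff i).2
  · rw [Polynomial.eval_map, ← Polynomial.aeval_def, minpoly.aeval]

end P019
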