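import Vale.Agent.P019.Mono

/-!
P019 Mono2B: proofs for the second half of Mono2.
-/

namespace P019

open IntermediateField

variable {ℓ : ℕ} [Fact ℓ.Prime] {k F : Type*} [Field k] [Field F] [Algebra k F]

theorem m2b_ne {O : ValuationSubring F} {a b : F} (h : O.valuation a = O.valuation b) (ha : a ≠ 0) :
    b ≠ 0 := (map_ne_zero O.valuation).1 (h ▸ (map_ne_zero O.valuation).2 ha)

theorem m2b_mk {O : ValuationSubring F} {a b : F} (h : O.valuation a = O.valuation b) (ha : a ≠ 0) :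
    (Uv ℓ O).mkQ (cl ℓ a) = (Uv ℓ O).mkQ (cl ℓ b) := by
  have hb := m2b_ne h ha
  rw [Submodule.mkQ_apply, Submodule.mkQ_apply, Submodule.Quotient.eq, ← cl_div ha hb]
  refine cl_mem_Hs ?_
  rw [Set.mem_ofPred_eq, map_div₀, h, div_self ((map_ne_zero _).2 hb)]

theorem m2b_Uv {O : ValuationSubring F} {a b : F} (ha : a ≠ 0) (hb : b ≠ 0)
    (h : (Uv ℓ O).mkQ (cl ℓ a) = (Uv ℓ O).mkQ (cl ℓ b)) :
    ∃ c, c ≠ 0 ∧ O.valuation a = O.valuation (b * c ^ ℓ) := by
  rw [Submodule.mkQ_apply, Submodule.mkQ_apply, Submodule.Quotient.eq, ← cl_div ha hb] at h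
  obtain ⟨u, hu, e⟩ := (mem_Uv_iff O _).1 h
  obtain ⟨c, hc, e'⟩ := (cl_eq_iff (div_ne_zero ha hb) (resb_ne hu)).1 e.symm
  refine ⟨c, hc, ?_⟩
  rw [(div_eq_iff hb).1 e', map_mul, map_mul, hu, one_mul, mul_comm, map_mul]

theorem m2b_cl {ι : Type*} [Fintype ι] {x : ι → F} (hx : ∀ j, x j ≠ 0) (n : ι → ℤ) :
    cl ℓ (∏ j, x j ^ n j) = ∑ j, (n j : ZMod ℓ) • cl ℓ (x j) := by
  rw [cl_prod _ _ fun j _ => zpow_ne_zero _ (hx j)]
  simp only [cl_zpow]

theorem m2b_x {O : ValuationSubring F} {r : ℕ} {x : Fin r → F}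
    (hx : VInd ℓ O fun j => cl ℓ (x j)) (j : Fin r) : x j ≠ 0 := fun h =>
  hx.ne_zero j (by simp only [h, cl_zero, map_zero])

theorem m2b_comap {E : Type*} [Field E] (f : E →+* F) (W : ValuationSubring F) (a : E) :
    (W.comap f).valuation a = 1 ↔ W.valuation (f a) = 1 := by
  simp only [resb_eq_one_iff, resb_lt_one_iff, ValuationSubring.mem_comap, map_inv₀, map_eq_zero]

omit [Fact ℓ.Prime] in
theorem m2b_le {E : Type*} [Field E] (f : E →+* F) (W : ValuationSubring F) :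
    Uv ℓ (W.comap f) ≤ (Uv ℓ W).comap (vmap ℓ f) := by
  refine Submodule.span_le.2 ?_
  rintro _ ⟨a, ha, rfl⟩
  rw [SetLike.mem_coe, Submodule.mem_comap, vmap_cl]
  exact cl_mem_Hs ((m2b_comap f W a).1 ha)

theorem m2b_res {E : Type*} [Field E] (f : E →+* F) {W : ValuationSubring F}
    {r : ℕ} {b : Fin r → V ℓ E} (hb : VInd ℓ W fun j => vmap ℓ f (b j)) :
    VInd ℓ (W.comap f) b :=
  LinearIndependent.of_comp (Submodule.mapQ _ _ (vmap ℓ f) (m2b_le f W)) hb

theorem m2b_unit {N : ℕ} (h : N.Coprime ℓ) : (N : ZMod ℓ) ≠ 0 := fun h0 =>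
  (Fact.out : ℓ.Prime).one_lt.ne'
    (Nat.Coprime.eq_one_of_dvd h.symm ((ZMod.natCast_eq_zero_iff N ℓ).1 h0))

theorem m2b_ext {E : Type*} [Field E] [Algebra E F] {W : ValuationSubring F}
    (hI : IdxOK ℓ E W) {r : ℕ} {b : Fin r → V ℓ E}
    (hb : VInd ℓ (W.comap (algebraMap E F)) b) :
    VInd ℓ W fun j => vmap ℓ (algebraMap E F) (b j) := by
  obtain ⟨N, hN, H⟩ := hI
  refine LinearIndependent.map' hb (Submodule.mapQ _ _ (vmap ℓ (algebraMap E F)) (m2b_le _ W))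
    (LinearMap.ker_eq_bot'.2 fun q hq => ?_)
  obtain ⟨v, rfl⟩ := Submodule.mkQ_surjective _ q
  obtain ⟨a, ha, rfl⟩ := cl_surj v
  have h1 : (Uv ℓ W).mkQ (cl ℓ (algebraMap E F a)) = (Uv ℓ W).mkQ (cl ℓ 1) := by
    rw [cl_one, map_zero, ← vmap_cl]
    exact hq
  obtain ⟨c, hc, h2⟩ := m2b_Uv ((map_ne_zero _).2 ha) one_ne_zero h1
  obtain ⟨e, he⟩ := H c
  have he0 : e ≠ 0 := (map_ne_zero _).1 (m2b_ne he (pow_ne_zero _ hc))
  have h3 : (W.comap (algebraMap E F)).valuation (a ^ N / e ^ ℓ) = 1 := by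
    rw [m2b_comap, map_div₀, map_pow, map_pow, map_div₀, map_pow, map_pow, h2, ← he, one_mul,
      map_pow, map_pow, pow_right_comm, div_self]
    exact pow_ne_zero _ (pow_ne_zero _ ((map_ne_zero _).2 hc))
  have h4 : cl ℓ (a ^ N / e ^ ℓ) ∈ Uv ℓ (W.comap (algebraMap E F)) := cl_mem_Hs h3
  rw [cl_div (pow_ne_zero _ ha) (pow_ne_zero _ he0), cl_pow, cl_pow, ZMod.natCast_self, zero_smul,
    sub_zero, Submodule.smul_mem_iff _ (m2b_unit hN)] at h4
  exact (Submodule.Quotient.mk_eq_zero _).2 h4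

theorem m2b_pow (E : Type*) [Field E] [Algebra E F] [FiniteDimensional E F]
    (O : ValuationSubring F) {a : F} (ha : a ≠ 0) : ∃ m, 0 < m ∧ m ≤ Module.finrank E F ∧
      ∃ c : E, O.valuation (a ^ m) = O.valuation (algebraMap E F c) := by
  have hi : IsIntegral E a := Algebra.IsIntegral.isIntegral a
  have h0 := minpoly.aeval E a
  rw [Polynomial.aeval_eq_sum_range] at h0
  obtain ⟨j, hj, hm⟩ := Finset.exists_max_image (Finset.range ((minpoly E a).natDegree + 1))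
    (fun i => O.valuation ((minpoly E a).coeff i • a ^ i)) Finset.nonempty_range_add_one
  have h1 : O.valuation ((minpoly E a).coeff j • a ^ j) ≠ 0 := by
    have h2 := hm _ (Finset.self_mem_range_succ _)
    rw [(minpoly.monic hi).coeff_natDegree, one_smul] at h2
    exact (((zero_lt_iff).2 ((map_ne_zero _).2 (pow_ne_zero _ ha))).trans_le h2).ne'
  have key : ∀ i j, i < j → j ≤ (minpoly E a).natDegree →
      O.valuation ((minpoly E a).coeff i • a ^ i) = O.valuation ((minpoly E a).coeff j • a ^ j) →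
      O.valuation ((minpoly E a).coeff j • a ^ j) ≠ 0 → ∃ m, 0 < m ∧ m ≤ Module.finrank E F ∧
      ∃ c : E, O.valuation (a ^ m) = O.valuation (algebraMap E F c) := by
    intro i j hij hj h h'
    obtain ⟨m, rfl⟩ := Nat.exists_eq_add_of_le hij.le
    refine ⟨m, by omega, by linarith [minpoly.natDegree_le (A := E) a],
      (minpoly E a).coeff i / (minpoly E a).coeff (i + m), ?_⟩
    simp only [Algebra.smul_def, map_mul, pow_add] at h h'
    rw [map_div₀, map_div₀, eq_div_iff (left_ne_zero_of_mul h')]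
    refine mul_right_cancel₀ (left_ne_zero_of_mul (right_ne_zero_of_mul h')) ?_
    rw [h, mul_comm (O.valuation (a ^ i)), ← mul_assoc, mul_comm (O.valuation (a ^ m))]
  by_contra hc
  refine h1 ?_
  rw [← O.valuation.map_sum_eq_of_lt (f := fun i => (minpoly E a).coeff i • a ^ i) hj
    fun i hi => ?_, h0, map_zero]
  rw [Finset.mem_sdiff, Finset.mem_singleton] at hi
  refine (hm i hi.1).lt_of_ne fun e => hc ?_
  rcases lt_or_gt_of_ne hi.2 with h | h
  · exact key i j h (Nat.lt_succ_iff.1 (Finset.mem_range.1 hj)) e h1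
  · exact key j i h (Nat.lt_succ_iff.1 (Finset.mem_range.1 hi.1)) e.symm (e ▸ h1)

theorem m2b_idx {r : ℕ} {O : ValuationSubring F} (hr : IRank ℓ O r) {x : Fin r → F}
    (hx : VInd ℓ O fun j => cl ℓ (x j)) (E : IntermediateField k F) [FiniteDimensional E F]
    (hm : ∀ j, x j ∈ E) : IdxOK ℓ E O := by
  have := hr.1
  have x0 := m2b_x hx
  have hs := LinearIndependent.span_eq_top_of_card_eq_finrank' hx (by rw [hr.2, Fintype.card_fin])
  have h1 : ∀ a : F, a ≠ 0 → ∃ (g : E) (c : F), c ≠ 0 ∧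
      O.valuation a = O.valuation (g * c ^ ℓ) := by
    intro a ha
    obtain ⟨t, ht⟩ := (Submodule.mem_span_range_iff_exists_fun _).1
      (hs.ge (Submodule.mem_top (x := (Uv ℓ O).mkQ (cl ℓ a))))
    have hg : ∏ j, x j ^ ((t j).val : ℤ) ∈ E := prod_mem fun j _ => zpow_mem (hm j) _
    refine ⟨⟨_, hg⟩, m2b_Uv (b := ∏ j, x j ^ ((t j).val : ℤ)) ha
      (Finset.prod_ne_zero_iff.2 fun j _ => zpow_ne_zero _ (x0 j)) ?_⟩
    rw [m2b_cl x0, ← ht, map_sum]
    simp only [map_smul, Int.cast_natCast, ZMod.natCast_zmod_val]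
  have h2 : ∀ (e : ℕ) (a : F), a ≠ 0 → ∃ (g : E) (c : F), c ≠ 0 ∧
      O.valuation a = O.valuation (g * c ^ ℓ ^ e) := by
    intro e
    induction e with
    | zero => exact fun a ha => ⟨1, a, ha, by simp⟩
    | succ e ih =>
      intro a ha
      obtain ⟨g, c, hc, h⟩ := ih a ha
      obtain ⟨g', c', hc', h'⟩ := h1 c hc
      refine ⟨g * g' ^ ℓ ^ e, c', hc', ?_⟩
      push_cast
      rw [h, map_mul, map_pow, h', ← map_pow, ← map_mul, mul_pow, pow_succ', pow_mul, mul_assoc]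
  obtain ⟨e, N, hN, he⟩ := Nat.exists_eq_pow_mul_and_not_dvd
    (Module.finrank E F).factorial_ne_zero ℓ (Fact.out : ℓ.Prime).ne_one
  refine ⟨N, ((Fact.out : ℓ.Prime).coprime_iff_not_dvd.2 hN).symm, fun a => ?_⟩
  by_cases ha : a = 0
  · exact ⟨0 ^ N, by rw [ha, map_pow (algebraMap E F), map_zero]⟩
  obtain ⟨g, c, hc, h⟩ := h2 e a ha
  obtain ⟨m, m0, m1, d, hd⟩ := m2b_pow E O hc
  obtain ⟨q, hq⟩ := Nat.dvd_factorial m0 m1
  refine ⟨g ^ N * d ^ q, ?_⟩
  rw [map_mul, map_pow, map_pow, map_pow, map_mul, map_pow, map_pow, ← hd, h, map_mul, mul_pow,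
    ← map_pow _ _ q, ← pow_mul, ← hq, he, pow_mul, map_pow _ _ N]
  rfl

variable [IsAlgClosed k]

theorem m2b_vInd {O : ValuationSubring F} {r : ℕ} {ι : Type*} {x : Fin r → F} {y : ι → F}
    (hx : ZInd k O x) (hy : RInd k O y)
    (hI : IdxOK ℓ (adjoin k (Set.range (Sum.elim x y))) O) :
    VInd ℓ O (fun j => cl ℓ (x j)) ∧ IRank ℓ O r := by
  obtain ⟨N, hN, H⟩ := hI
  have xn : ∀ n : Fin r → ℤ, ∏ j, x j ^ n j ≠ 0 := fun n =>
    Finset.prod_ne_zero_iff.2 fun j _ => zpow_ne_zero _ (hx.1 j)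
  have h1 : ∀ a : F, a ≠ 0 → ∃ (n : Fin r → ℤ) (c : k), c ≠ 0 ∧
      O.valuation (a ^ N) = O.valuation (algebraMap k F c * ∏ j, x j ^ n j) := by
    intro a ha
    obtain ⟨e, he⟩ := H a
    obtain ⟨n, c, hc, h⟩ := mono_val hx hy e.2 (m2b_ne he (pow_ne_zero _ ha))
    rw [Finsupp.prod_fintype _ _ fun j => zpow_zero _] at h
    exact ⟨n, c, hc, he.trans h⟩
  have h2 : VInd ℓ O fun j => cl ℓ (x j) := by
    refine Fintype.linearIndependent_iff.2 fun t ht j => ?_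
    have h3 : (Uv ℓ O).mkQ (cl ℓ (∏ j, x j ^ ((t j).val : ℤ))) = (Uv ℓ O).mkQ (cl ℓ 1) := by
      rw [m2b_cl hx.1, cl_one, map_zero, ← ht, map_sum]
      simp only [map_smul, Int.cast_natCast, ZMod.natCast_zmod_val]
    obtain ⟨c, hc, h4⟩ := m2b_Uv (xn _) one_ne_zero h3
    obtain ⟨n, d, hd, h5⟩ := h1 c hc
    have h6 := hx.2 (Finsupp.equivFunOnFinite.symm fun j => (t j).val * N - n j * ℓ) (d ^ ℓ) (by
      rw [Finsupp.prod_fintype _ _ fun j => zpow_zero _]
      simp only [Finsupp.coe_equivFunOnFinite_symm, zpow_sub₀ (hx.1 _), zpow_mul, zpow_natCast,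
        Finset.prod_div_distrib, Finset.prod_pow]
      simp only [zpow_natCast] at h4
      rw [map_div₀, map_pow, h4, one_mul, ← map_pow, pow_right_comm, map_pow, h5, map_mul, mul_pow,
        map_pow, map_pow, map_pow, mul_div_assoc, div_self, mul_one]
      exact pow_ne_zero _ ((map_ne_zero _).2 (xn n)))
    have h7 := congrArg (fun z : ℤ => (z : ZMod ℓ)) (DFunLike.congr_fun h6 j)
    simpa [m2b_unit hN] using h7
  have h3 : ⊤ ≤ Submodule.span (ZMod ℓ) (Set.range fun j => (Uv ℓ O).mkQ (cl ℓ (x j))) := by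
    intro q _
    obtain ⟨v, rfl⟩ := Submodule.mkQ_surjective _ q
    obtain ⟨a, ha, rfl⟩ := cl_surj v
    obtain ⟨n, c, hc, h⟩ := h1 a ha
    have h4 := m2b_mk (ℓ := ℓ) h (pow_ne_zero _ ha)
    rw [cl_pow, cl_mul ((map_ne_zero _).2 hc) (xn n), cl_algebraMap, zero_add, m2b_cl hx.1,
      map_smul, map_sum] at h4
    rw [← Submodule.smul_mem_iff _ (m2b_unit hN), h4]
    refine sum_mem fun j _ => ?_
    rw [map_smul]
    exact Submodule.smul_mem _ _ (Submodule.subset_span ⟨j, rfl⟩)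
  exact ⟨h2, Module.Finite.of_basis (Module.Basis.mk h2 h3),
    by rw [Module.finrank_eq_card_basis (Module.Basis.mk h2 h3), Fintype.card_fin]⟩

omit [IsAlgClosed k] in
theorem m2b_rel {O : ValuationSubring F} (B : IntermediateField k F) {r : ℕ}
    (hB : Algebra.trdeg k B ≤ r) {x : Fin r → F} (hx : ZInd k O x) (hm : ∀ j, x j ∈ B) {a : F}
    (ha : a ∈ B) (h0 : a ≠ 0) : ∃ (m : ℤ) (n : Fin r → ℤ) (c : k), m ≠ 0 ∧
      O.valuation (a ^ m * ∏ j, x j ^ n j) = O.valuation (algebraMap k F c) := by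
  by_contra hc
  have h1 : ZInd k O (Fin.cons a x : Fin (r + 1) → F) := by
    refine ⟨Fin.cases h0 hx.1, fun n c h => ?_⟩
    rw [Finsupp.prod_fintype _ _ fun j => zpow_zero _, Fin.prod_univ_succ] at h
    simp only [Fin.cons_zero, Fin.cons_succ] at h
    have h2 : n 0 = 0 := not_not.1 fun h' => hc ⟨n 0, fun j => n j.succ, c, h', h⟩
    rw [h2, zpow_zero, one_mul] at h
    have h3 := hx.2 (Finsupp.equivFunOnFinite.symm fun j => n j.succ) c (by
      rw [Finsupp.prod_fintype _ _ fun j => zpow_zero _]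
      exact h)
    ext j
    exact Fin.cases h2 (fun j => DFunLike.congr_fun h3 j) j
  have h2 := (mono_indep h1 (y := fun i : Empty => i.elim)
    ⟨fun i => i.elim, algebraicIndependent_empty_type⟩).comp _ Sum.inl_injective
  have h3 : AlgebraicIndependent k (Fin.cons ⟨a, ha⟩ fun j => ⟨x j, hm j⟩ : Fin (r + 1) → B) := by
    refine AlgebraicIndependent.of_comp B.val ?_
    have e : B.val ∘ (Fin.cons ⟨a, ha⟩ fun j => ⟨x j, hm j⟩ : Fin (r + 1) → B) = Fin.cons a x :=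
      funext (Fin.cases rfl fun _ => rfl)
    rw [e]
    exact h2
  have h4 := h3.lift_cardinalMk_le_trdeg.trans (Cardinal.lift_le.2 hB)
  simp only [Cardinal.mk_fin, Cardinal.lift_natCast, Nat.cast_le] at h4
  omega

theorem m2b_Nv {O : ValuationSubring F} (B : IntermediateField k F) {r : ℕ} {x : Fin r → F}
    (hx : VInd ℓ O fun j => cl ℓ (x j)) (hm : ∀ j, x j ∈ B)
    (hres : ∀ a ∈ B, a ∈ O → ∃ c : k, algebraMap k F c ∈ O ∧ O.valuation (a - algebraMap k F c) < 1)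
    {a : F} (ha : a ∈ B) (h0 : a ≠ 0) (hU : cl ℓ a ∈ Uv ℓ O) (M : ℕ) :
    ∀ (m : ℤ) (n : Fin r → ℤ) (c : k), m.natAbs = M → m ≠ 0 →
      O.valuation (a ^ m * ∏ j, x j ^ n j) = O.valuation (algebraMap k F c) → cl ℓ a ∈ Nv ℓ O := by
  have x0 := m2b_x hx
  have hp : ℓ.Prime := Fact.out
  induction M using Nat.strong_induction_on with
  | _ M ih =>
  intro m n c hM m0 h
  have xn : ∏ j, x j ^ n j ≠ 0 := Finset.prod_ne_zero_iff.2 fun j _ => zpow_ne_zero _ (x0 j)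
  have w0 := mul_ne_zero (zpow_ne_zero m h0) xn
  have c0 := m2b_ne h w0
  have h1 := m2b_mk (ℓ := ℓ) h w0
  rw [cl_algebraMap, cl_mul (zpow_ne_zero m h0) xn, cl_zpow, m2b_cl x0, map_add, map_smul,
    (Uv ℓ O).mkQ_apply (cl ℓ a), (Submodule.Quotient.mk_eq_zero _).2 hU, smul_zero, zero_add,
    map_zero, map_sum] at h1
  simp only [map_smul] at h1
  have h2 := Fintype.linearIndependent_iff.1 hx _ h1
  by_cases h3 : (m : ZMod ℓ) = 0
  · obtain ⟨m', rfl⟩ := (ZMod.intCast_zmod_eq_zero_iff_dvd m ℓ).1 h3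
    choose n' hn' using fun j => (ZMod.intCast_zmod_eq_zero_iff_dvd (n j) ℓ).1 (h2 j)
    obtain ⟨c', rfl⟩ := IsAlgClosed.exists_pow_nat_eq c hp.pos
    refine ih m'.natAbs ?_ m' n' c' rfl (right_ne_zero_of_mul m0) ?_
    · rw [← hM, Int.natAbs_mul, Int.natAbs_natCast]
      exact lt_mul_left (Int.natAbs_pos.2 (right_ne_zero_of_mul m0)) hp.one_lt
    · refine (pow_left_inj₀ zero_le zero_le hp.ne_zero).1 ?_
      rw [← map_pow, ← map_pow, ← map_pow, ← h, mul_pow, ← Finset.prod_pow]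
      simp only [hn', mul_comm (ℓ : ℤ), zpow_mul, zpow_natCast]
  · have h4 : O.valuation ((a ^ m * ∏ j, x j ^ n j) / algebraMap k F c) = 1 := by
      rw [map_div₀, h, div_self ((map_ne_zero _).2 c0)]
    obtain ⟨d, -, hd⟩ := hres _ (div_mem (mul_mem (zpow_mem ha m)
      (prod_mem fun j _ => zpow_mem (hm j) (n j))) (B.algebraMap_mem c)) (resb_mem h4)
    have h5 : O.valuation (algebraMap k F d) = 1 := by
      rw [← h4]
      exact (O.valuation.map_eq_of_sub_lt (by rwa [h4, Valuation.map_sub_swap]))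
    have h6 : cl ℓ ((a ^ m * ∏ j, x j ^ n j) / algebraMap k F c / algebraMap k F d) ∈ Nv ℓ O := by
      refine cl_mem_Hs ?_
      rwa [Set.mem_ofPred_eq, div_sub_one (resb_ne h5), map_div₀, h5, div_one]
    rw [cl_div (div_ne_zero w0 c0) (resb_ne h5), cl_div w0 c0, cl_algebraMap, cl_algebraMap,
      sub_zero, sub_zero, cl_mul (zpow_ne_zero m h0) xn, cl_zpow, m2b_cl x0] at h6
    simp only [h2, zero_smul, Finset.sum_const_zero, add_zero] at h6
    exact (Submodule.smul_mem_iff _ h3).1 h6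

end P019
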