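import Vale.Agent.P019.Mono2A
import Vale.Agent.P019.Mono2B

/-!
P019 Mono2: consequences for function fields.
`VInd.zInd`: if `x^n ~ c`, `n ≠ 0`, write `n = ℓ^e n'` with `n' ≢ 0`, `c = c'^(ℓ^e)`.
`idx_of_rank`: `G₀ = {a ∈ Kˣ | ∃ c ∈ F₀, v a = v c}` has finite index (elements in different
cosets are `F₀`-independent), and `ℓ` acts onto the quotient, so its order is prime to `ℓ`.
-/

namespace P019

open IntermediateField

variable {ℓ : ℕ} [Fact ℓ.Prime] {k F : Type*} [Field k] [Field F] [Algebra k F] [IsAlgClosed k]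

theorem idx_of_rank {r : ℕ} {O : ValuationSubring F} (hr : IRank ℓ O r) {x : Fin r → F}
    (hx : VInd ℓ O fun j => cl ℓ (x j)) (E : IntermediateField k F) [FiniteDimensional E F]
    (hm : ∀ j, x j ∈ E) : IdxOK ℓ E O := m2b_idx hr hx E hm

theorem vInd_of_idx {O : ValuationSubring F} {r : ℕ} {ι : Type*} {x : Fin r → F} {y : ι → F}
    (hx : ZInd k O x) (hy : RInd k O y)
    (hI : IdxOK ℓ (adjoin k (Set.range (Sum.elim x y))) O) :
    VInd ℓ O (fun j => cl ℓ (x j)) ∧ IRank ℓ O r := m2b_vInd hx hy hI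

/-- independence passes to an extension with index prime to `ℓ` -/
theorem VInd.ext {E : Type*} [Field E] [Algebra E F] {W : ValuationSubring F}
    (hI : IdxOK ℓ E W) {r : ℕ} {b : Fin r → V ℓ E}
    (hb : VInd ℓ (W.comap (algebraMap E F)) b) :
    VInd ℓ W fun j => vmap ℓ (algebraMap E F) (b j) := m2b_ext hI hb

/-- and to subfields -/
theorem VInd.res {E : Type*} [Field E] (f : E →+* F) {W : ValuationSubring F}
    {r : ℕ} {b : Fin r → V ℓ E} (hb : VInd ℓ W fun j => vmap ℓ f (b j)) :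
    VInd ℓ (W.comap f) b := m2b_res f hb

/-- full rank on a subfield `B` forces `H_B ∩ U ⊆ N` -/
theorem Hs_inf_Uv_le {O : ValuationSubring F} (B : IntermediateField k F) {r : ℕ}
    (hB : Algebra.trdeg k B ≤ r) {b : Fin r → V ℓ F} (hb : VInd ℓ O b)
    (hm : ∀ j, b j ∈ Hs ℓ (B : Set F)) : Hs ℓ (B : Set F) ⊓ Uv ℓ O ≤ Nv ℓ O := by
  have h1 := fun v => mem_Hs_iff (ℓ := ℓ) (s := (B : Set F)) B.one_mem
    (fun _ ha _ hb => B.mul_mem ha hb) v
  choose x hx _ he using fun j => (h1 _).1 (hm j)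
  obtain rfl : b = fun j => cl ℓ (x j) := funext fun j => (he j).symm
  intro v hv
  obtain ⟨a, ha, h0, rfl⟩ := (h1 v).1 hv.1
  obtain ⟨m, n, c, m0, h⟩ := m2b_rel B hB hb.zInd hx ha h0
  exact m2b_Nv B hb hx (fun a ha hO => res_const B hB hb.zInd hx ha hO) ha h0 hv.2 _ m n c rfl m0 h

end P019
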