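import Vale.Agent.P019.Mono

/-!
P019 Mono2A: consequences of the Abhyankar inequality for function fields (first half).
-/

namespace P019

open IntermediateField

variable {ℓ : ℕ} [Fact ℓ.Prime] {k F : Type*} [Field k] [Field F] [Algebra k F] [IsAlgClosed k]

theorem m2a_dvd {O : ValuationSubring F} {r : ℕ} {x : Fin r → F}
    (h : VInd ℓ O fun j => cl ℓ (x j)) (hx : ∀ j, x j ≠ 0) (n : Fin r → ℤ) (c : k)
    (hn : O.valuation (∏ i, x i ^ n i) = O.valuation (algebraMap k F c)) (i : Fin r) :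
    (ℓ : ℤ) ∣ n i := by
  have h0 : ∏ i, x i ^ n i ≠ 0 := Finset.prod_ne_zero_iff.2 fun i _ => zpow_ne_zero _ (hx i)
  have hv : O.valuation (algebraMap k F c) ≠ 0 := hn ▸ (map_ne_zero _).2 h0
  have hc : algebraMap k F c ≠ 0 := (map_ne_zero O.valuation).1 hv
  have h1 : cl ℓ ((∏ i, x i ^ n i) / algebraMap k F c) ∈ Uv ℓ O :=
    (mem_Uv_iff O _).2 ⟨_, by rw [map_div₀, hn, div_self hv], rfl⟩
  rw [cl_div h0 hc, cl_algebraMap, sub_zero, cl_prod _ _ fun i _ => zpow_ne_zero _ (hx i),
    ← Submodule.Quotient.mk_eq_zero, ← Submodule.mkQ_apply, map_sum] at h1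
  simp only [cl_zpow, map_smul] at h1
  exact (ZMod.intCast_zmod_eq_zero_iff_dvd _ _).1
    (Fintype.linearIndependent_iff.1 h (fun i => (n i : ZMod ℓ)) h1 i)

theorem m2a_pow_dvd {O : ValuationSubring F} {r : ℕ} {x : Fin r → F}
    (h : VInd ℓ O fun j => cl ℓ (x j)) (hx : ∀ j, x j ≠ 0) (e : ℕ) :
    ∀ (n : Fin r → ℤ) (c : k),
      O.valuation (∏ i, x i ^ n i) = O.valuation (algebraMap k F c) → ∀ i, (ℓ : ℤ) ^ e ∣ n i := by
  induction e with
  | zero => exact fun n _ _ i => by rw [pow_zero]; exact one_dvd _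
  | succ e ih =>
    intro n c hn i
    have hp : ℓ.Prime := Fact.out
    choose m hm using m2a_dvd h hx n c hn
    obtain ⟨z, rfl⟩ := IsAlgClosed.exists_pow_nat_eq c hp.pos
    have e1 : ∏ i, x i ^ n i = (∏ i, x i ^ m i) ^ ℓ := by
      rw [← Finset.prod_pow]
      exact Finset.prod_congr rfl fun i _ => by rw [hm i, mul_comm, zpow_mul, zpow_natCast]
    rw [e1, map_pow, map_pow, map_pow] at hn
    have h2 := (pow_left_inj₀ zero_le zero_le hp.ne_zero).1 hn
    rw [hm i, pow_succ']
    exact mul_dvd_mul_left _ (ih m z h2 i)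

theorem VInd.zInd {O : ValuationSubring F} {r : ℕ} {x : Fin r → F}
    (h : VInd ℓ O fun j => cl ℓ (x j)) : ZInd k O x := by
  have hx : ∀ j, x j ≠ 0 := fun j h0 => LinearIndependent.ne_zero j h (by
    simp only [h0, cl_zero, map_zero])
  refine ⟨hx, fun n c hn => ?_⟩
  rw [Finsupp.prod_fintype _ _ fun i => zpow_zero _] at hn
  ext i
  have hp : ℓ.Prime := Fact.out
  refine Int.eq_zero_of_dvd_of_natAbs_lt_natAbs (m2a_pow_dvd h hx (n i).natAbs n c hn i) ?_
  rw [Int.natAbs_pow, Int.natAbs_natCast]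
  exact Nat.lt_pow_self hp.one_lt

theorem m2a_finite {K : Type*} [Field K] {S T : Subfield K} (A : IntermediateField S K)
    (h : ∀ z ∈ T, z ∈ A) [FiniteDimensional T K] : FiniteDimensional A K := by
  let _ : Algebra T A := (T.subtype.codRestrict A fun z => h z z.2).toAlgebra
  have : IsScalarTower T A K := IsScalarTower.of_algebraMap_eq fun _ => rfl
  exact Module.Finite.of_restrictScalars_finite T A K

omit [IsAlgClosed k] in
theorem res_isFF {d : ℕ} (h : IsFF k F d) {O : ValuationSubring F} {ι ι' : Type*} [Fintype ι]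
    [Fintype ι'] {x : ι → F} {y : ι' → F} (hx : ZInd k O x) (hy : RInd k O y)
    (hc : Fintype.card ι + Fintype.card ι' = d) :
    IsFF (resK k O) (Res O) (Fintype.card ι') := by
  have h1 := h.finite (mono_indep hx hy) (by rw [Fintype.card_sum, hc])
  have h2 := (res_finite (adjoin k (Set.range (Sum.elim x y))) O).1
  refine isFF_of_finite hy.2
    (m2a_finite (T := resK (adjoin k (Set.range (Sum.elim x y))) O) _ fun z hz => ?_)
  obtain ⟨c, hc, rfl⟩ := (mem_resK O z).1 hz
  exact mono_res hx hy c.2 hc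

/-- a residue which is not the residue of a constant is transcendental -/
theorem m2a_rind {O : ValuationSubring F} {a : F} (hO : a ∈ O) (h : res O a ∉ resK k O) :
    RInd k O fun _ : Unit => a := by
  refine ⟨fun _ => hO, algebraicIndependent_unique_type_iff.2 fun ha => h ?_⟩
  have := resK_isAlgClosed k O
  obtain ⟨c, hc⟩ := minpoly.mem_range_of_degree_eq_one (resK k O) (res O a)
    (IsAlgClosed.degree_eq_one_of_irreducible _ (minpoly.irreducible ha.isIntegral))
  exact hc ▸ c.2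

/-- full rational rank on a subfield `A`: residues of `A` are residues of constants -/
theorem res_const {O : ValuationSubring F} (A : IntermediateField k F) {r : ℕ}
    (hA : Algebra.trdeg k A ≤ r) {x : Fin r → F} (hx : ZInd k O x) (hm : ∀ j, x j ∈ A)
    {a : F} (ha : a ∈ A) (hO : a ∈ O) :
    ∃ c : k, algebraMap k F c ∈ O ∧ O.valuation (a - algebraMap k F c) < 1 := by
  by_cases h : res O a ∈ resK k O
  · obtain ⟨c, hc, e⟩ := (mem_resK O _).1 h
    exact ⟨c, hc, (res_eq_iff O hO hc).1 e⟩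
  · exfalso
    have h1 := mono_indep hx (m2a_rind hO h)
    have hz : ∀ i, Sum.elim x (fun _ : Unit => a) i ∈ A := fun i => by
      rcases i with i | i
      · exact hm i
      · exact ha
    have h2 : AlgebraicIndependent k fun i => (⟨_, hz i⟩ : A) :=
      AlgebraicIndependent.of_comp A.val h1
    have h3 := h2.lift_cardinalMk_le_trdeg.trans (Cardinal.lift_le.2 hA)
    rw [Cardinal.mk_fintype, Cardinal.lift_natCast, Cardinal.lift_natCast, Nat.cast_le] at h3
    simp at h3

theorem VInd.le {d : ℕ} (h : IsFF k F d) {O : ValuationSubring F} {r : ℕ} {b : Fin r → V ℓ F}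
    (hb : VInd ℓ O b) : r ≤ d := by
  choose x _ hx using fun j => cl_surj (b j)
  obtain rfl : b = fun j => cl ℓ (x j) := (funext hx).symm
  have hy : RInd k O (Empty.elim : Empty → F) :=
    ⟨fun i => i.elim, algebraicIndependent_empty_type⟩
  simpa using h.card_le (mono_indep (VInd.zInd (k := k) hb) hy)

theorem exists_IRank {d : ℕ} (h : IsFF k F d) (O : ValuationSubring F) :
    ∃ r, r ≤ d ∧ IRank ℓ O r := by
  have h1 : Module.rank (ZMod ℓ) (V ℓ F ⧸ Uv ℓ O) ≤ d := by
    refine rank_le fun s hs => ?_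
    choose b hb using fun j : Fin s.card => (Uv ℓ O).mkQ_surjective (s.equivFin.symm j)
    refine VInd.le h (O := O) (b := b) ?_
    simp only [VInd, hb]
    exact hs.comp _ s.equivFin.symm.injective
  exact ⟨_, Module.finrank_le_of_rank_le h1,
    Module.rank_lt_aleph0_iff.1 (h1.trans_lt Cardinal.natCast_lt_aleph0), rfl⟩

theorem m2a_unit {O : ValuationSubring F} (hne : Nv ℓ O ≠ Uv ℓ O) :
    ∃ a : F, RInd k O fun _ : Unit => a := by
  obtain ⟨v, hv, hN⟩ := SetLike.exists_of_lt ((Nv_le_Uv O).lt_of_ne hne)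
  obtain ⟨a, ha, rfl⟩ := (mem_Uv_iff O v).1 hv
  refine ⟨a, m2a_rind (resb_mem ha) fun h => hN ((cl_mem_Nv_iff O ha).2 ?_)⟩
  have := resK_isAlgClosed k O
  exact cl_algebraMap (k := resK k O) ⟨_, h⟩

/-- a non-`ℓ`-th power in the residue field is transcendental over the constants -/
theorem IRank.succ_le {d r : ℕ} (h : IsFF k F d) {O : ValuationSubring F} (hr : IRank ℓ O r)
    (hne : Nv ℓ O ≠ Uv ℓ O) : r + 1 ≤ d := by
  obtain ⟨x, -, hx, -⟩ := hr.exists_basis
  obtain ⟨a, ha⟩ := m2a_unit (k := k) hne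
  simpa using h.card_le (mono_indep (VInd.zInd (k := k) hx) ha)

theorem IRank.res_isFF_one {r : ℕ} (h : IsFF k F (r + 1)) {O : ValuationSubring F}
    (hr : IRank ℓ O r) (hne : Nv ℓ O ≠ Uv ℓ O) : IsFF (resK k O) (Res O) 1 := by
  obtain ⟨x, -, hx, -⟩ := hr.exists_basis
  obtain ⟨a, ha⟩ := m2a_unit (k := k) hne
  simpa using res_isFF h (VInd.zInd (k := k) hx) ha (by simp)

theorem m2a_res_sum (O : ValuationSubring F) {ι : Type*} {y : ι → F} (hy : ∀ i, y i ∈ O)
    (s : Finset (ι →₀ ℕ)) {c : (ι →₀ ℕ) → F} (hc : ∀ m, c m ∈ O) :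
    (∑ m ∈ s, c m * ∏ i ∈ m.support, y i ^ m i) ∈ O ∧
      res O (∑ m ∈ s, c m * ∏ i ∈ m.support, y i ^ m i) =
        ∑ m ∈ s, res O (c m) * ∏ i ∈ m.support, res O (y i) ^ m i := by
  have e : (∑ m ∈ s, c m * ∏ i ∈ m.support, y i ^ m i) =
      ((∑ m ∈ s, (⟨c m, hc m⟩ : O) * ∏ i ∈ m.support, (⟨y i, hy i⟩ : O) ^ m i : O) : F) := by
    simp
  rw [e, resb_coe]
  refine ⟨Subtype.property _, ?_⟩
  simp only [map_sum, map_mul, map_prod, map_pow, ← resb_coe]

omit [IsAlgClosed k] in
theorem RInd.of_le {O O' : ValuationSubring F} (hO : O ≤ O') {ι : Type*} {y : ι → F}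
    (hy : RInd k O y) : RInd k O' y := by
  classical
  refine ⟨fun i => hO (hy.1 i), algebraicIndependent_iff.2 fun P hP => ?_⟩
  by_contra hne
  choose c hc hres using fun m => (mem_resK O' _).1 (P.coeff m).2
  obtain ⟨m₀, hm₀, hmax⟩ := P.support.exists_max_image
    (fun m => O.valuation (algebraMap k F (c m))) (MvPolynomial.support_nonempty.2 hne)
  have hu : O'.valuation (algebraMap k F (c m₀)) = 1 := resb_unit (hc m₀) fun h0 =>
    MvPolynomial.mem_support_iff.1 hm₀ (Subtype.ext ((hres m₀).trans h0))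
  have hc0 := resb_ne hu
  obtain ⟨q, hq⟩ : ∃ q : (ι →₀ ℕ) → k, ∀ m, q m = if m ∈ P.support then c m / c m₀ else 0 :=
    ⟨_, fun _ => rfl⟩
  have hqO : ∀ m, algebraMap k F (q m) ∈ O := fun m => by
    rw [hq]
    split_ifs with hm
    · rw [← O.valuation_le_one_iff, map_div₀, map_div₀]
      exact div_le_one_of_le₀ (hmax m hm) zero_le
    · rw [map_zero]
      exact zero_mem O
  obtain ⟨h1, h2⟩ := m2a_res_sum O' (fun i => hO (hy.1 i)) P.support hc
  obtain ⟨h3, h4⟩ := m2a_res_sum O hy.1 P.support hqO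
  have h5 : O'.valuation (∑ m ∈ P.support, algebraMap k F (c m) *
      ∏ i ∈ m.support, y i ^ m i) < 1 := by
    rw [← res_eq_zero_iff O' h1, h2, ← hP, MvPolynomial.aeval_def, MvPolynomial.eval₂_eq]
    exact Finset.sum_congr rfl fun m _ => by rw [← hres m]; rfl
  have h6 : ∑ m ∈ P.support, algebraMap k F (c m) * ∏ i ∈ m.support, y i ^ m i =
      algebraMap k F (c m₀) *
        ∑ m ∈ P.support, algebraMap k F (q m) * ∏ i ∈ m.support, y i ^ m i := by
    rw [Finset.mul_sum]
    refine Finset.sum_congr rfl fun m hm => ?_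
    rw [hq, if_pos hm, map_div₀, ← mul_assoc, mul_div_cancel₀ _ hc0]
  rw [h6, map_mul, hu, one_mul] at h5
  have h7 := (res_eq_zero_iff O h3).2 (val_lt_one_of_le hO h5)
  rw [h4] at h7
  have h8 := algebraicIndependent_iff.1 hy.2 (∑ m ∈ P.support, MvPolynomial.monomial m
    (⟨res O (algebraMap k F (q m)), (mem_resK O _).2 ⟨_, hqO m, rfl⟩⟩ : resK k O)) (by
      rw [map_sum, ← h7]
      exact Finset.sum_congr rfl fun m _ => by rw [MvPolynomial.aeval_monomial]; rfl)
  have h9 := congrArg (fun G => ((MvPolynomial.coeff m₀ G : resK k O) : Res O)) h8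
  simp only [MvPolynomial.coeff_sum, MvPolynomial.coeff_monomial, Finset.sum_ite_eq', hm₀,
    if_true, MvPolynomial.coeff_zero, ZeroMemClass.coe_zero] at h9
  rw [hq, if_pos hm₀, div_self ((map_ne_zero (algebraMap k F)).1 hc0), map_one, res_one] at h9
  exact one_ne_zero h9

/-- a coarsening with the same `U` has a residue function field of the same dimension -/
theorem res_isFF_of_le {r s : ℕ} (h : IsFF k F (r + s)) {O O' : ValuationSubring F} (hO : O ≤ O')
    (hr : IRank ℓ O' r) (hs : IsFF (resK k O) (Res O) s) : IsFF (resK k O') (Res O') s := by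
  obtain ⟨x, -, hx, -⟩ := hr.exists_basis
  obtain ⟨z, hz, -⟩ := hs
  choose y hy e using fun i => res_surj O (z i)
  have h1 : RInd k O y := ⟨hy, by simpa only [e] using hz⟩
  simpa using res_isFF h (VInd.zInd (k := k) hx) (h1.of_le hO) (by simp)

end P019
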