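import Vale.Agent.P019.P3a
import Vale.Agent.P019.Deep

/-!
P019 P3: characters of full rank are limits of characters with noncommutative centralizer.
`p3`: `x` from `IRank.exists_basis` for `Om`; `π` a unit of `Om` with class outside `U_O`
(ranks differ), `t` a unit of `O` with `τ [t] ≠ 0`, both in the maximal ideals after inversion.
`(x, π, t)` is `VInd` for `W`, of full rank `r + 2` (`exists_IRank`, `VInd.le`), `F₀ = k(x,π,t)`,
`idx_of_rank`; `p3_lim` on the field `F₀` (`val_comap`), `lemS`.  Choose `ρ ∈ I O` with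
`(τ + ρ) [π] = 0`.  For the rings `W' i` (eventually `IdxOK`, `ℓ` a unit): `vInd_of_idx` gives
`τ_i ∈ I (W' i)` agreeing with `τ + ρ` on `x, t`, and on `π` (value `0`); `res_isFF`,
`nc_of_res` give `NC τ_i`.  For `a ≠ 0`: `a^N ~ c x^n π^a t^b` for `W` (`mono_val`), the quotient is
eventually a unit of `W' i`.
`deep`: `y` transcendental, `gm_idx` (no residue variables) at a point `c₀`, `ω` from
`exists_omega` for `T ∪ {ℓ}`, `ω ≠ ⊤` as `κ` is not `LocFin`; for `0 ≠ c ∈ m_ω` take the flag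
(`exists_flag2`, `r = 0`) at `s = (y - c₀)/c`, `τ_c [y - c₀] = 1`.  For `v c' < v c`:
`v (y - c₀) > v c'` (as `c'/c ∈ m_Om`), so `τ_c [y - c₀ - c'] = 1`, `τ_c' [y - c₀ - c'] = 0`;
use `c = π^n`.
-/

namespace P019

open IntermediateField

variable {ℓ : ℕ} [Fact ℓ.Prime] {k F : Type*} [Field k] [Field F] [Algebra k F] [IsAlgClosed k]

omit [Fact ℓ.Prime] in
theorem p3_inv {O O' : ValuationSubring F} (p : F → Prop) (h1 : ∀ a, p a → O.valuation a ≠ 1)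
    (h2 : ∀ a, p a → p a⁻¹) (h : ∃ a, O'.valuation a = 1 ∧ p a) :
    ∃ a, O'.valuation a = 1 ∧ O.valuation a < 1 ∧ p a := by
  obtain ⟨a, ha, hp⟩ := h
  rcases (h1 a hp).lt_or_gt with h | h
  · exact ⟨a, ha, h, hp⟩
  · exact ⟨a⁻¹, resb_inv ha, by rw [map_inv₀]; exact inv_lt_one_of_one_lt₀ h, h2 a hp⟩

theorem p3_cons {O O' : ValuationSubring F} (h : O ≤ O') {r : ℕ} {x : Fin r → F}
    (hx : VInd ℓ O' fun j => cl ℓ (x j)) {a : F} (h1 : O'.valuation a = 1)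
    (h2 : cl ℓ a ∉ Uv ℓ O) : VInd ℓ O fun j => cl ℓ ((Fin.cons a x : Fin (r + 1) → F) j) := by
  have e : ∀ (O : ValuationSubring F) {n : ℕ} (g : Fin n → ZMod ℓ) (b : Fin n → V ℓ F),
      ∑ j, g j • (Uv ℓ O).mkQ (b j) = 0 ↔ ∑ j, g j • b j ∈ Uv ℓ O := fun O n g b => by
    rw [← Submodule.Quotient.mk_eq_zero, ← Submodule.mkQ_apply, map_sum]
    simp only [map_smul]
  refine Fintype.linearIndependent_iff.2 fun g hg => ?_
  rw [e, Fin.sum_univ_succ] at hg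
  have h0 : cl ℓ a ∈ Uv ℓ O' := cl_mem_Hs (s := {a | O'.valuation a = 1}) h1
  have h3 : ∀ j : Fin r, g j.succ = 0 := Fintype.linearIndependent_iff.1 hx _ ((e _ _ _).2
    ((Submodule.add_mem_iff_right _ (Submodule.smul_mem _ _ h0)).1 (Uv_mono h hg)))
  refine Fin.cases ?_ h3
  simp only [h3, zero_smul, Finset.sum_const_zero, add_zero] at hg
  by_contra h0
  exact h2 ((Submodule.smul_mem_iff _ h0).1 hg)

omit [IsAlgClosed k] in
theorem p3_comp {O : ValuationSubring F} {ι ι' : Type*} {x : ι → F} (hx : ZInd k O x) {e : ι' → ι}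
    (he : Function.Injective e) {y : ι' → F} (hy : ∀ i, y i = x (e i)) : ZInd k O y := by
  obtain rfl : y = fun i => x (e i) := funext hy
  refine ⟨fun i => hx.1 _, fun n c h => Finsupp.embDomain_eq_zero.1 (hx.2 (n.embDomain ⟨e, he⟩) c ?_)⟩
  rwa [Finsupp.prod_embDomain]

theorem p3_lt {E : Type*} [Field E] (f : E →+* F) (W : ValuationSubring F) (a : E) :
    (W.comap f).valuation a < 1 ↔ W.valuation (f a) < 1 := by
  have h := val_comap f W 1 a
  rw [map_one, map_one, map_one] at h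
  rw [← not_le, ← not_le, h]

omit [IsAlgClosed k] in
theorem p3_zc {E : IntermediateField k F} {O : ValuationSubring F} {ι : Type*} (x : ι → E) :
    ZInd k (O.comap (algebraMap E F)) x ↔ ZInd k O fun i => algebraMap E F (x i) := by
  refine and_congr (forall_congr' fun i => (map_ne_zero _).symm) (forall₂_congr fun n c => ?_)
  rw [le_antisymm_iff, val_comap, val_comap, ← le_antisymm_iff, ← IsScalarTower.algebraMap_apply,
    map_finsuppProd]
  simp only [map_zpow₀]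

theorem p3_rc {E : IntermediateField k F} {O : ValuationSubring F} {z : E}
    (h : RInd k (O.comap (algebraMap E F)) fun _ : Unit => z) :
    (RInd k O fun _ : Unit => algebraMap E F z) ∧ O.valuation (algebraMap E F z) = 1 := by
  have h0 : algebraMap E F z ∈ O := h.1 ()
  have h1 : res O (algebraMap E F z) ∉ resK k O := fun h1 => by
    obtain ⟨c, hc, e⟩ := (mem_resK O _).1 h1
    rw [IsScalarTower.algebraMap_apply k E F] at hc e
    rw [res_eq_iff O h0 hc, ← map_sub, ← p3_lt, ← res_eq_iff _ (h.1 ()) hc] at e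
    exact h.2.transcendental () (isAlgebraic_algebraMap (⟨_, (mem_resK _ _).2 ⟨c, hc, e⟩⟩ :
      resK k (O.comap (algebraMap E F))))
  exact ⟨m2a_rind h0 h1, resb_unit h0 fun h2 => h1 (h2 ▸ zero_mem _)⟩

theorem p3_agree {ι : Type*} [Fintype ι] {y : ι → F} (hy : ∀ j, y j ≠ 0) {χ χ' : X ℓ F}
    (h : ∀ j, χ (cl ℓ (y j)) = χ' (cl ℓ (y j))) (n : ι →₀ ℤ) {d : k} (hd : d ≠ 0) :
    χ (cl ℓ (algebraMap k F d * n.prod fun i e => y i ^ e)) =
      χ' (cl ℓ (algebraMap k F d * n.prod fun i e => y i ^ e)) := by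
  have h0 : (n.prod fun i e => y i ^ e) ≠ 0 := monoX_ne hy n
  rw [cl_mul ((map_ne_zero _).2 hd) h0, cl_algebraMap, zero_add,
    Finsupp.prod_fintype _ _ fun _ => zpow_zero _, m2b_cl hy]
  simp only [map_sum, map_smul, h]

theorem p3 {r : ℕ} (hF : IsFF k F (r + 2)) {W O Om : ValuationSubring F} (h₁ : W ≤ O)
    (h₂ : O ≤ Om) (hO : IRank ℓ O (r + 1)) (hOm : IRank ℓ Om r) (hW : W.valuation (ℓ : F) = 1)
    {τ : X ℓ F} (hτ : τ ∈ Iv ℓ W) (hτ' : τ ∉ Iv ℓ O) : ∃ ρ ∈ Iv ℓ O, InCl (τ + ρ) := by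
  obtain ⟨x, -, hx, -⟩ := hOm.exists_basis
  obtain ⟨π, π1, π2, π3⟩ : ∃ π : F, Om.valuation π = 1 ∧ O.valuation π < 1 ∧ cl ℓ π ∉ Uv ℓ O := by
    refine p3_inv (fun a => cl ℓ a ∉ Uv ℓ O) (fun a h h' => h (cl_mem_Hs h'))
      (fun a h => by rwa [cl_inv, neg_mem_iff]) ?_
    by_contra h
    have e : Uv ℓ O = Uv ℓ Om := le_antisymm (Uv_mono h₂) fun v hv => by
      obtain ⟨a, ha, rfl⟩ := (mem_Uv_iff Om v).1 hv
      by_contra h'
      exact h ⟨a, ha, h'⟩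
    have h1 := hO.2
    rw [e, hOm.2] at h1
    omega
  obtain ⟨t, t1, t2, t3⟩ : ∃ t : F, O.valuation t = 1 ∧ W.valuation t < 1 ∧ τ (cl ℓ t) ≠ 0 := by
    refine p3_inv (fun a => τ (cl ℓ a) ≠ 0) (fun a h h' => h ((mem_Iv_iff W τ).1 hτ a h'))
      (fun a h => by rwa [cl_inv, map_neg, neg_ne_zero]) ?_
    by_contra h
    exact hτ' ((mem_Iv_iff O τ).2 fun a ha => by
      by_contra h'
      exact h ⟨a, ha, h'⟩)
  have v1 := p3_cons h₂ hx π1 π3
  have v2 := p3_cons h₁ v1 t1 fun h => t3 ((Submodule.mem_dualAnnihilator τ).1 hτ _ h)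
  have z2 : ZInd k W _ := v2.zInd
  obtain ⟨r', hr1, hr⟩ := exists_IRank (ℓ := ℓ) hF W
  obtain rfl : r' = r + 2 := le_antisymm hr1 (by
    have := hr.1
    have h := LinearIndependent.fintype_card_le_finrank v2
    rwa [Fintype.card_fin, hr.2] at h)
  have y0 : RInd k W fun i : Empty => (i.elim : F) :=
    ⟨fun i => i.elim, algebraicIndependent_empty_type⟩
  obtain ⟨E, hE⟩ : ∃ E : IntermediateField k F, E = adjoin k (Set.range (Sum.elim
    (Fin.cons t (Fin.cons π x) : Fin (r + 2) → F) fun i : Empty => (i.elim : F))) := ⟨_, rfl⟩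
  have : FiniteDimensional E F := hE ▸ hF.finite (mono_indep z2 y0) (by simp)
  have hy : ∀ j, (Fin.cons t (Fin.cons π x) : Fin (r + 2) → F) j ∈ E := fun j =>
    hE ▸ subset_adjoin _ _ ⟨Sum.inl j, rfl⟩
  have hle : ∀ B : IntermediateField k F, t ∈ B → π ∈ B → (∀ j, x j ∈ B) → E ≤ B :=
    fun B b1 b2 b3 => by
      rw [hE, adjoin_le_iff]
      rintro _ ⟨j | j, rfl⟩
      · exact Fin.cases b1 (Fin.cases b2 b3) j
      · exact j.elim
  have hI := idx_of_rank hr v2 E hy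
  obtain ⟨𝒰, G, hG, hG'⟩ := p3_lim (ℓ := ℓ) (k := k) (W := W.comap (algebraMap E F))
    (O := O.comap (algebraMap E F)) (Om := Om.comap (algebraMap E F)) (fun _ h => h₁ h)
    (fun _ h => h₂ h) (x := fun j => ⟨x j, hy j.succ.succ⟩) (π := ⟨π, hy (Fin.succ 0)⟩)
    (t := ⟨t, hy 0⟩) ((p3_zc _).2 hx.zInd)
    ((p3_zc _).2 (p3_comp v1.zInd (finSuccEquiv r).symm.injective (by rintro (_ | j) <;> rfl)))
    ((p3_zc _).2 (p3_comp z2 (e := fun o : Option (Option (Fin r)) =>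
      o.elim (Fin.succ 0) fun o' => o'.elim 0 fun j => j.succ.succ)
      (by rintro (_ | _ | i) (_ | _ | j) h <;> simp_all [Fin.ext_iff])
      (by rintro (_ | _ | j) <;> rfl)))
    ((m2b_comap _ _ _).2 π1) ((p3_lt _ _ _).2 π2) ((m2b_comap _ _ _).2 t1) ((p3_lt _ _ _).2 t2)
    (by
      refine lift_injective E (le_antisymm (lift_le _ |>.trans (lift_top k E).ge) ?_)
      rw [lift_top, lift_adjoin]
      exact hle _ (subset_adjoin _ _ ⟨_, Or.inr (Or.inr rfl), rfl⟩)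
        (subset_adjoin _ _ ⟨_, Or.inr (Or.inl rfl), rfl⟩)
        fun j => subset_adjoin _ _ ⟨_, Or.inl ⟨j, rfl⟩, rfl⟩)
  obtain ⟨W', c1, c2, c3⟩ := lemS hW hI 𝒰 G hG
  obtain ⟨ρ, hρ, hρ'⟩ := exists_Iv_of_VInd v1 fun _ => -τ (cl ℓ π)
  refine ⟨ρ, hρ, fun s => ?_⟩
  have hσ : τ + ρ ∈ Iv ℓ W := add_mem hτ (Iv_anti h₁ hρ)
  have σπ : (τ + ρ) (cl ℓ π) = 0 := by
    rw [LinearMap.add_apply, show ρ (cl ℓ π) = _ from hρ' 0, add_neg_cancel]
  have key : ∀ v ∈ s, ∀ᶠ i in (𝒰 : Filter _), ∀ χ ∈ Iv ℓ (W' i),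
      (∀ j, χ (cl ℓ ((Fin.cons t (Fin.cons π x) : Fin (r + 2) → F) j)) =
        (τ + ρ) (cl ℓ ((Fin.cons t (Fin.cons π x) : Fin (r + 2) → F) j))) → χ v = (τ + ρ) v := by
    intro v _
    obtain ⟨a, a0, rfl⟩ := cl_surj v
    obtain ⟨N, hN, h⟩ := hI
    obtain ⟨c, hc⟩ := h a
    obtain ⟨n, d, d0, hd⟩ := mono_val z2 y0 (hE ▸ c.2) (m2b_ne hc (pow_ne_zero N a0))
    have e := hc.trans hd
    have m0 := m2b_ne e (pow_ne_zero N a0)
    have e1 : ∀ W₁ : ValuationSubring F, W₁.valuation (a ^ N / _) = 1 ↔ _ := fun W₁ => by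
      rw [map_div₀, div_eq_one_iff_eq ((Valuation.ne_zero_iff _).2 m0)]
    filter_upwards [(c2.eq_one _).1 ((e1 W).2 e)] with i hi χ hχ hj
    have h1 := Iv_val_eq hχ ((e1 _).1 hi)
    rw [p3_agree z2.1 hj n d0, ← Iv_val_eq hσ e, cl_pow, map_smul, map_smul] at h1
    exact smul_right_injective _ (m2b_unit hN) h1
  obtain ⟨i, ⟨i1, i2⟩, i3⟩ := ((c3.and ((c2.eq_one _).1 hW)).and
    ((Filter.eventually_all_finset s).2 key)).exists
  obtain ⟨z1, c, b, c0, hz⟩ := hG' i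
  rw [← c1 i] at z1 hz
  have z3 : ZInd k (W' i) (Fin.cons t x : Fin (r + 1) → F) :=
    p3_comp ((p3_zc _).1 z1) (finSuccEquiv r).injective (Fin.cases rfl fun _ => rfl)
  obtain ⟨z4, z5⟩ := p3_rc hz
  have t0 : t ≠ 0 := resb_ne t1
  have g0 : algebraMap k F c * t ^ ((ℓ : ℤ) * b) ≠ 0 :=
    mul_ne_zero ((map_ne_zero _).2 c0) (zpow_ne_zero _ t0)
  obtain ⟨z, hz', z4, z5⟩ : ∃ z, π = z * (algebraMap k F c * t ^ ((ℓ : ℤ) * b)) ∧
      (RInd k (W' i) fun _ : Unit => z) ∧ (W' i).valuation z = 1 := by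
    refine ⟨_, ?_, z4, z5⟩
    rw [map_div₀, map_mul, map_zpow₀, ← IsScalarTower.algebraMap_apply]
    exact (div_mul_cancel₀ _ g0).symm
  have hB : E ≤ adjoin k (Set.range (Sum.elim (Fin.cons t x : Fin (r + 1) → F) fun _ : Unit => z)) := by
    have b1 := subset_adjoin k (Set.range (Sum.elim (Fin.cons t x : Fin (r + 1) → F)
      fun _ : Unit => z)) ⟨Sum.inl 0, rfl⟩
    refine hle _ b1 ?_ fun j => subset_adjoin _ _ ⟨Sum.inl j.succ, rfl⟩
    rw [hz']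
    exact mul_mem (subset_adjoin _ _ ⟨Sum.inr (), rfl⟩)
      (mul_mem (IntermediateField.algebraMap_mem _ _) (zpow_mem b1 _))
  obtain ⟨χ, hχ, hχ'⟩ := exists_Iv_of_VInd (vInd_of_idx z3 z4 (by
    obtain ⟨N, hN, h⟩ := i1
    exact ⟨N, hN, fun a => (h a).elim fun d hd => ⟨⟨d, hB d.2⟩, hd⟩⟩)).1
    fun j => (τ + ρ) (cl ℓ ((Fin.cons t x : Fin (r + 1) → F) j))
  refine ⟨χ, (nc_of_res i2 (res_isFF hF z3 z4 (by simp)) (by simp)).2.2 χ hχ, fun v hv =>
    i3 v hv χ hχ (Fin.cases (hχ' 0) (Fin.cases ?_ fun j => hχ' j.succ))⟩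
  refine Eq.trans ?_ σπ.symm
  change χ (cl ℓ π) = 0
  rw [hz', cl_mul (resb_ne z5) g0, cl_mul ((map_ne_zero _).2 c0) (zpow_ne_zero _ t0),
    cl_algebraMap, cl_zpow, Int.cast_mul, Int.cast_natCast, ZMod.natCast_self, zero_mul, zero_smul,
    add_zero, add_zero]
  exact (mem_Iv_iff _ _).1 hχ z z5

end P019
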