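import Vale.Agent.P019.Sep

/-!
P019 P3a: approximating a monomial valuation of full rank by Gauss valuations.
Write `v = W.valuation` (multiplicative, small = vanishing).  `x j` independent modulo `U_Om`,
`π` a unit of `Om`, `t` a unit of `O`.
`p3_delta`: the monomials are `m = c x^n π^a t^b` with `v m < 1`; we look for `g = c₀ t^(ℓ b₀)`
(the new value of `π`) such that `c x^n g^a t^b` still has value `< 1` for finitely many of them,
and `g` is a unit of `Om`.  If `m` is not a unit of `Om` nothing changes (`m ∈ m_Om`).  Otherwise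
`n = 0` (`ZInd` for `Om`) and `c` is a unit of `Om`.  `a = 0` is trivial.  For `a ≠ 0`, `m` is not
a unit of `O` (`ZInd` for `O` of `(x, π)`), so `m ∈ m_O`; with `c = e^|a|` (k is algebraically
closed) the condition in `O` reads `e π ∈ m_O` (`a > 0`) or `e / π ∈ m_O` (`a < 0`).  Add the
condition `c = 1, a = 1, b = 0` (i.e. `π ∈ m_O`) if useful.  If both types occur take `e₁` with
largest value among the first type, `e₂` with largest value among the second: `e₁ e₂ ∈ m_O`,
`g = sqrt (e₂ / e₁)`, `b₀ = 0`.  If only the first type occurs take `g = e t^(ℓ N)` with `e` the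
constant of smallest value among `1` and the `1 / e₁`, `N` large.
`p3_lim`: `F₀ = k(x, π, t)`; for a finite set `i` of monomials let `O i` be a ring above
`W ∩ k(x,t)` with `z = π / g_i` of independent residue (`exists_gauss`).  For a polynomial `P` the
leading monomial for `W` strictly dominates the others (`ZInd`), eventually the same holds for
`O i`; `VLim.of_le`.
-/

namespace P019

open IntermediateField

variable {ℓ : ℕ} [Fact ℓ.Prime] {k F : Type*} [Field k] [Field F] [Algebra k F] [IsAlgClosed k]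

omit [IsAlgClosed k] in
theorem p3a_zind {O : ValuationSubring F} {ι : Type*} [Fintype ι] {x : ι → F} (h : ZInd k O x)
    (n : ι → ℤ) (c : k) (e : O.valuation (algebraMap k F c * ∏ j, x j ^ n j) = 1) (j : ι) :
    n j = 0 := by
  have e' : O.valuation ((Finsupp.equivFunOnFinite.symm n).prod fun i e => x i ^ e) =
      O.valuation (algebraMap k F c⁻¹) := by
    rw [Finsupp.prod_fintype _ _ fun _ => zpow_zero _, map_inv₀, map_inv₀]
    rw [map_mul] at e
    exact eq_inv_of_mul_eq_one_right e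
  exact DFunLike.congr_fun (h.2 _ _ e') j

theorem p3a_lt {O : ValuationSubring F} {a : F} {n : ℕ} (h : O.valuation (a ^ n) < 1) :
    O.valuation a < 1 := by
  rw [map_pow] at h
  exact lt_of_not_ge fun h' => h.not_ge (one_le_pow₀ h')

theorem p3a_bad {W O Om : ValuationSubring F} (h₁ : W ≤ O) (h₂ : O ≤ Om) {r : ℕ}
    {x : Fin r → F} {π t : F} (hx : ZInd k Om x)
    (hπ : ZInd k O (fun o : Option (Fin r) => o.elim π x)) (hπ₁ : Om.valuation π = 1)
    (ht₁ : O.valuation t = 1) (c : k) (n : Fin r → ℤ) (a b : ℤ)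
    (hm : W.valuation (algebraMap k F c * (∏ j, x j ^ n j) * π ^ a * t ^ b) < 1) :
    ∃ (e : k) (d : ℕ), Om.valuation (algebraMap k F e) = 1 ∧
      ((∀ g, Om.valuation g = 1 →
        W.valuation (algebraMap k F c * (∏ j, x j ^ n j) * g ^ a * t ^ b) < 1) ∨
      (0 < d ∧ O.valuation (algebraMap k F e * π) < 1 ∧ ∀ g,
        algebraMap k F c * (∏ j, x j ^ n j) * g ^ a = (algebraMap k F e * g) ^ d) ∨
      (0 < d ∧ O.valuation (algebraMap k F e / π) < 1 ∧ ∀ g,
        algebraMap k F c * (∏ j, x j ^ n j) * g ^ a = (algebraMap k F e / g) ^ d)) := by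
  have ht := val_eq_one_of_le h₂ ht₁
  have key : ∀ g, Om.valuation g = 1 →
      Om.valuation (algebraMap k F c * (∏ j, x j ^ n j) * g ^ a * t ^ b) =
        Om.valuation (algebraMap k F c * ∏ j, x j ^ n j) := fun g hg => by
    rw [map_mul, map_mul, map_zpow₀, map_zpow₀, hg, ht, one_zpow, one_zpow, mul_one, mul_one]
  have h1 : Om.valuation (algebraMap k F (1 : k)) = 1 := by rw [map_one, map_one]
  rcases ((Om.valuation_le_one_iff _).2 (h₂ (h₁ (resb_mem' hm)))).lt_or_eq with h | h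
  · refine ⟨1, 0, h1, Or.inl fun g hg => val_lt_one_of_le (h₁.trans h₂) ?_⟩
    rwa [key g hg, ← key π hπ₁]
  rcases eq_or_ne a 0 with rfl | ha
  · exact ⟨1, 0, h1, Or.inl fun g _ => by simpa only [zpow_zero] using hm⟩
  rw [key π hπ₁] at h
  have hn : ∏ j, x j ^ n j = 1 :=
    Finset.prod_eq_one fun j _ => by rw [p3a_zind hx n c h j, zpow_zero]
  have hO : O.valuation (algebraMap k F c * (∏ j, x j ^ n j) * π ^ a) < 1 := by
    have h3 := (O.valuation_le_one_iff _).2 (h₁ (resb_mem' hm))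
    rw [map_mul, map_zpow₀, ht₁, one_zpow, mul_one] at h3
    refine h3.lt_of_ne fun h4 => ha (p3a_zind hπ (fun o => o.elim a n) c ?_ none)
    rw [Fintype.prod_option, mul_comm (_ ^ _), ← mul_assoc]
    exact h4
  rw [hn, mul_one] at h hO
  have hd : 0 < a.natAbs := Int.natAbs_pos.2 ha
  obtain ⟨e, rfl⟩ := IsAlgClosed.exists_pow_nat_eq c hd
  refine ⟨e, a.natAbs, val_eq_one_of_pow Om hd.ne' (by rwa [← map_pow]), Or.inr ?_⟩
  simp only [hn, mul_one]
  rcases Int.natAbs_eq a with h3 | h3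
  · have e1 : ∀ g : F, algebraMap k F (e ^ a.natAbs) * g ^ a =
        (algebraMap k F e * g) ^ a.natAbs := fun g => by
      rw [mul_pow, map_pow, ← zpow_natCast g, ← h3]
    exact Or.inl ⟨hd, p3a_lt (e1 π ▸ hO), e1⟩
  · have e1 : ∀ g : F, algebraMap k F (e ^ a.natAbs) * g ^ a =
        (algebraMap k F e / g) ^ a.natAbs := fun g => by
      rw [div_pow, map_pow, ← zpow_natCast g, div_eq_mul_inv, ← zpow_neg, ← h3]
    exact Or.inr ⟨hd, p3a_lt (e1 π ▸ hO), e1⟩

theorem p3_delta {W O Om : ValuationSubring F} (h₁ : W ≤ O) (h₂ : O ≤ Om) {r : ℕ}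
    {x : Fin r → F} {π t : F} (hx : ZInd k Om x)
    (hπ : ZInd k O (fun o : Option (Fin r) => o.elim π x)) (hπ₁ : Om.valuation π = 1)
    (hπ₂ : O.valuation π < 1) (ht₁ : O.valuation t = 1) (ht₂ : W.valuation t < 1)
    (S : Finset (k × (Fin r → ℤ) × ℤ × ℤ))
    (hS : ∀ m ∈ S, W.valuation (algebraMap k F m.1 * (∏ j, x j ^ m.2.1 j) * π ^ m.2.2.1 *
      t ^ m.2.2.2) < 1) :
    ∃ (c : k) (b : ℤ), c ≠ 0 ∧ ∀ m ∈ S, W.valuation (algebraMap k F m.1 * (∏ j, x j ^ m.2.1 j) *
      (algebraMap k F c * t ^ ((ℓ : ℤ) * b)) ^ m.2.2.1 * t ^ m.2.2.2) < 1 := by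
  classical
  choose! e d he H using fun m hm => p3a_bad h₁ h₂ hx hπ hπ₁ ht₁ _ _ _ _ (hS m hm)
  set E : Finset k := insert 1
    ((S.filter fun m => O.valuation (algebraMap k F (e m) * π) < 1).image e) with hE
  have hE1 : ∀ a ∈ E, Om.valuation (algebraMap k F a) = 1 ∧
      O.valuation (algebraMap k F a * π) < 1 := fun a ha => by
    rcases Finset.mem_insert.1 ha with rfl | ha
    · rw [map_one, map_one, one_mul]
      exact ⟨rfl, hπ₂⟩
    · obtain ⟨m, hm, rfl⟩ := Finset.mem_image.1 ha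
      exact ⟨he m (Finset.mem_filter.1 hm).1, (Finset.mem_filter.1 hm).2⟩
  have hE2 : ∀ m ∈ S, O.valuation (algebraMap k F (e m) * π) < 1 → e m ∈ E := fun m hm h =>
    Finset.mem_insert_of_mem (Finset.mem_image_of_mem _ (Finset.mem_filter.2 ⟨hm, h⟩))
  have hne : E.Nonempty := Finset.insert_nonempty _ _
  have h0 : ∀ {a : k}, Om.valuation (algebraMap k F a) = 1 → ∀ V : ValuationSubring F,
      0 < V.valuation (algebraMap k F a) := fun h V =>
    zero_lt_iff.2 ((map_ne_zero _).2 (resb_ne h))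
  have fin : ∀ {a : F} {n : ℕ} (b : ℤ), 0 < n → O.valuation a < 1 →
      W.valuation (a ^ n * t ^ b) < 1 := fun b hn h => val_lt_one_of_le h₁ (by
    rw [map_mul, map_zpow₀, ht₁, one_zpow, mul_one, map_pow]
    exact pow_lt_one₀ zero_le h hn.ne')
  rcases (S.filter fun m => O.valuation (algebraMap k F (e m) / π) < 1).eq_empty_or_nonempty
    with h | h
  · obtain ⟨a, ha, hmax⟩ := E.exists_max_image (fun a => W.valuation (algebraMap k F a)) hne
    have ha0 := h0 (hE1 a ha).1 W
    set N : ℕ := S.sup (fun m => m.2.2.2.natAbs) + 1 with hN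
    refine ⟨a⁻¹, N, inv_ne_zero fun h => by simp [h] at ha0, fun m hm => ?_⟩
    rcases H m hm with h1 | ⟨h1, h2, h3⟩ | ⟨-, h2, -⟩
    · refine h1 _ ?_
      rw [map_mul, map_zpow₀, val_eq_one_of_le h₂ ht₁, one_zpow, mul_one, map_inv₀,
        resb_inv (hE1 a ha).1]
    · have h4 : m.2.2.2.natAbs < N :=
        Nat.lt_succ_of_le (Finset.le_sup (f := fun m : k × (Fin r → ℤ) × ℤ × ℤ =>
          m.2.2.2.natAbs) hm)
      have h5 : N ≤ ℓ * N * d m := (Nat.le_mul_of_pos_left N (Fact.out : ℓ.Prime).pos).trans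
        (Nat.le_mul_of_pos_right _ h1)
      have h6 : 0 < (ℓ : ℤ) * N * d m + m.2.2.2 := by
        have : ((N : ℕ) : ℤ) ≤ ℓ * N * d m := by exact_mod_cast h5
        omega
      rw [h3, ← mul_assoc, mul_pow, mul_assoc, ← zpow_natCast (t ^ _), ← zpow_mul,
        ← zpow_add₀ (resb_ne ht₁), map_mul, map_pow, map_zpow₀, map_mul, map_inv₀, map_inv₀]
      exact (mul_le_of_le_one_left' (pow_le_one₀ zero_le ((mul_inv_le_iff₀ ha0).2
        (by rw [one_mul]; exact hmax _ (hE2 m hm h2))))).trans_lt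
          (zpow_lt_one₀ (zero_lt_iff.2 ((map_ne_zero _).2 (resb_ne ht₁))) ht₂ h6)
    · exact absurd (h ▸ Finset.mem_filter.2 ⟨hm, h2⟩) (Finset.notMem_empty m)
  · obtain ⟨a, ha, hmax⟩ := E.exists_max_image (fun a => O.valuation (algebraMap k F a)) hne
    obtain ⟨m', hm', hmax'⟩ := Finset.exists_max_image _
      (fun m => O.valuation (algebraMap k F (e m))) h
    obtain ⟨hm1, hm2⟩ := Finset.mem_filter.1 hm'
    have ha0 := h0 (hE1 a ha).1 O
    have hb0 := h0 (he m' hm1) O
    have hab : O.valuation (algebraMap k F a) * O.valuation (algebraMap k F (e m')) < 1 := by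
      have h1 := mul_lt_one_of_nonneg_of_lt_one_left zero_le (hE1 a ha).2 hm2.le
      rwa [← map_mul, mul_div_assoc', mul_right_comm, mul_div_cancel_right₀ _ (resb_ne hπ₁),
        map_mul] at h1
    obtain ⟨s, hs⟩ := IsAlgClosed.exists_pow_nat_eq (e m' / a) two_pos
    have hs' : algebraMap k F s ^ 2 = algebraMap k F (e m') / algebraMap k F a := by
      rw [← map_pow, hs, map_div₀]
    have hs1 : Om.valuation (algebraMap k F s) = 1 := val_eq_one_of_pow Om two_ne_zero (by
      rw [hs', map_div₀, he m' hm1, (hE1 a ha).1, div_one])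
    refine ⟨s, 0, fun h => by simp [h] at hs1, fun m hm => ?_⟩
    rw [mul_zero, zpow_zero, mul_one]
    rcases H m hm with h1 | ⟨h1, h2, h3⟩ | ⟨h1, h2, h3⟩
    · exact h1 _ hs1
    · rw [h3]
      refine fin _ h1 (p3a_lt (n := 2) (lt_of_le_of_lt ?_ hab))
      rw [mul_pow, hs', map_mul, map_div₀, map_pow, ← mul_div_assoc, div_le_iff₀ ha0,
        mul_right_comm, ← sq]
      exact mul_le_mul_left (pow_le_pow_left₀ zero_le (hmax _ (hE2 m hm h2)) 2) _
    · rw [h3]
      refine fin _ h1 (p3a_lt (n := 2) (lt_of_le_of_lt ?_ hab))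
      rw [div_pow, hs', div_div_eq_mul_div, map_div₀, map_mul, map_pow, div_le_iff₀ hb0,
        mul_assoc, ← sq, mul_comm]
      exact mul_le_mul_right (pow_le_pow_left₀ zero_le
        (hmax' _ (Finset.mem_filter.2 ⟨hm, h2⟩)) 2) _

omit [IsAlgClosed k] in
theorem p3a_poly {W : ValuationSubring F} {ι κ : Type*} {𝒰 : Filter κ}
    {G : κ → ValuationSubring F} {u : ι → F} (hu : ZInd k W u)
    (hM : ∀ (c : k) (n : ι →₀ ℤ), W.valuation (algebraMap k F c * monoX u n) < 1 →
      ∀ᶠ i in 𝒰, (G i).valuation (algebraMap k F c * monoX u n) < 1)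
    {P : MvPolynomial ι k} (h0 : P ≠ 0) : ∃ (c : k) (n : ι →₀ ℤ), c ≠ 0 ∧
      W.valuation (MvPolynomial.aeval u P / (algebraMap k F c * monoX u n)) = 1 ∧
      ∀ᶠ i in 𝒰, (G i).valuation (MvPolynomial.aeval u P / (algebraMap k F c * monoX u n)) = 1 := by
  classical
  let z : (ι →₀ ℕ) → (ι →₀ ℤ) := fun a => a.mapRange Nat.cast Nat.cast_zero
  have hz : Function.Injective z := Finsupp.mapRange_injective _ _ Nat.cast_injective
  let w : (ι →₀ ℕ) → F := fun a => algebraMap k F (P.coeff a) * monoX u (z a)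
  obtain ⟨a, ha, hmax⟩ := P.support.exists_max_image (fun a => W.valuation (w a))
    (MvPolynomial.support_nonempty.2 h0)
  have hc := MvPolynomial.mem_support_iff.1 ha
  have hw : w a ≠ 0 := mul_ne_zero ((map_ne_zero _).2 hc) (monoX_ne hu.1 _)
  have hq : ∀ b, w b / w a = algebraMap k F (P.coeff b / P.coeff a) * monoX u (z b - z a) :=
    fun b => by rw [monoX_sub hu.1, map_div₀, div_mul_div_comm]
  have hlt : ∀ b ∈ P.support.erase a, W.valuation (w b / w a) < 1 := fun b hb => by
    obtain ⟨hba, hb⟩ := Finset.mem_erase.1 hb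
    refine lt_of_le_of_ne ?_ fun h => hba (hz (sub_eq_zero.1
      (hu.2 _ (P.coeff b / P.coeff a)⁻¹ ?_)))
    · rw [map_div₀]
      exact div_le_one_of_le₀ (hmax b hb) zero_le
    · rw [hq, map_mul] at h
      rw [map_inv₀, map_inv₀]
      exact eq_inv_of_mul_eq_one_right h
  have e : MvPolynomial.aeval u P / w a - 1 = ∑ b ∈ P.support.erase a, w b / w a := by
    rw [← Finset.sum_div, div_sub_one hw, MvPolynomial.aeval_def, MvPolynomial.eval₂_eq,
      ← Finset.add_sum_erase _ _ ha]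
    simp only [w, z, monoX_nat, add_sub_cancel_left]
  refine ⟨P.coeff a, z a, hc, (resb_prin (e ▸ W.valuation.map_sum_lt one_ne_zero hlt)).1, ?_⟩
  filter_upwards [(Filter.eventually_all_finset _).2 fun b hb => hM _ _ (hq b ▸ hlt b hb)] with i hi
  exact (resb_prin (e ▸ (G i).valuation.map_sum_lt one_ne_zero fun b hb => hq b ▸ hi b hb)).1

omit [IsAlgClosed k] in
theorem p3a_vlim {W : ValuationSubring F} {ι κ : Type*} {𝒰 : Ultrafilter κ}
    {G : κ → ValuationSubring F} {u : ι → F} (hu : ZInd k W u)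
    (hgen : adjoin k (Set.range u) = ⊤)
    (hM : ∀ (c : k) (n : ι →₀ ℤ), W.valuation (algebraMap k F c * monoX u n) < 1 →
      ∀ᶠ i in (𝒰 : Filter κ), (G i).valuation (algebraMap k F c * monoX u n) < 1)
    (hC : ∀ (c : k) (i : κ), algebraMap k F c ∈ W → algebraMap k F c ∈ G i) :
    VLim (𝒰 : Filter κ) G W := by
  have key : ∀ a : F, a ≠ 0 → ∃ (c : k) (n : ι →₀ ℤ),
      W.valuation a = W.valuation (algebraMap k F c * monoX u n) ∧
      ∀ᶠ i in (𝒰 : Filter κ), (G i).valuation a =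
        (G i).valuation (algebraMap k F c * monoX u n) := fun a h0 => by
    obtain ⟨P, Q, rfl⟩ := (mem_adjoin_range_iff k u a).1 (hgen ▸ mem_top)
    obtain ⟨c, n, hc, h1, h2⟩ := p3a_poly hu hM (P := P) (by rintro rfl; simp at h0)
    obtain ⟨d, m, hd, h3, h4⟩ := p3a_poly hu hM (P := Q) (by rintro rfl; simp at h0)
    have aux : ∀ V : ValuationSubring F,
        V.valuation (MvPolynomial.aeval u P / (algebraMap k F c * monoX u n)) = 1 →
        V.valuation (MvPolynomial.aeval u Q / (algebraMap k F d * monoX u m)) = 1 →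
        V.valuation (MvPolynomial.aeval u P / MvPolynomial.aeval u Q) =
          V.valuation (algebraMap k F (c / d) * monoX u (n - m)) := fun V a1 a2 => by
      rw [map_div₀] at a1 a2
      rw [monoX_sub hu.1, map_div₀ (algebraMap k F), div_mul_div_comm, map_div₀, map_div₀,
        eq_of_div_eq_one a1, eq_of_div_eq_one a2]
    exact ⟨c / d, n - m, aux W h1 h3, (h2.and h4).mono fun i hi => aux _ hi.1 hi.2⟩
  have h₂ : ∀ a, W.valuation a < 1 → ∀ᶠ i in (𝒰 : Filter κ), (G i).valuation a < 1 :=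
    fun a ha => by
      rcases eq_or_ne a 0 with rfl | h0
      · exact Filter.Eventually.of_forall fun i => by rw [map_zero]; exact zero_lt_one
      · obtain ⟨c, n, h1, h2⟩ := key a h0
        exact (h2.and (hM c n (h1 ▸ ha))).mono fun i hi => hi.1 ▸ hi.2
  refine VLim.of_le (fun a ha => ?_) h₂
  rcases ((W.valuation_le_one_iff a).2 ha).lt_or_eq with h | h
  · exact (h₂ a h).mono fun i hi => resb_mem' hi
  · obtain ⟨c, n, h1, h2⟩ := key a (resb_ne h)
    rw [h] at h1
    have hn : n = 0 := hu.2 n c⁻¹ (by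
      rw [map_inv₀, map_inv₀]
      rw [map_mul] at h1
      exact eq_inv_of_mul_eq_one_right h1.symm)
    have e : algebraMap k F c * monoX u n = algebraMap k F c := by
      rw [hn, monoX, Finsupp.prod_zero_index, mul_one]
    rw [e] at h1 h2
    exact h2.mono fun i hi => ((G i).valuation_le_one_iff a).1
      (hi ▸ ((G i).valuation_le_one_iff _).2 (hC c i (resb_mem h1.symm)))

/-- here `F = k(x, π, t)` -/
theorem p3_lim {W O Om : ValuationSubring F} (h₁ : W ≤ O) (h₂ : O ≤ Om) {r : ℕ}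
    {x : Fin r → F} {π t : F} (hx : ZInd k Om x)
    (hπ : ZInd k O (fun o : Option (Fin r) => o.elim π x))
    (hW : ZInd k W (fun o : Option (Option (Fin r)) => o.elim π fun o' => o'.elim t x))
    (hπ₁ : Om.valuation π = 1) (hπ₂ : O.valuation π < 1) (ht₁ : O.valuation t = 1)
    (ht₂ : W.valuation t < 1) (hgen : adjoin k (Set.range x ∪ {π, t}) = ⊤) :
    ∃ (𝒰 : Ultrafilter (Finset (k × (Fin r → ℤ) × ℤ × ℤ)))
      (G : Finset (k × (Fin r → ℤ) × ℤ × ℤ) → ValuationSubring F), VLim (𝒰 : Filter _) G W ∧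
      ∀ i, ZInd k (G i) (fun o : Option (Fin r) => o.elim t x) ∧ ∃ (c : k) (b : ℤ), c ≠ 0 ∧
        RInd k (G i) fun _ : Unit => π / (algebraMap k F c * t ^ ((ℓ : ℤ) * b)) := by
  classical
  set E := adjoin k (Set.range fun o : Option (Fin r) => o.elim t x) with hE
  have htE : t ∈ E := subset_adjoin _ _ ⟨none, rfl⟩
  have hxE : ∀ j, x j ∈ E := fun j => subset_adjoin _ _ ⟨some j, rfl⟩
  have hind := (mono_indep hW (y := fun i : Empty => (i.elim : F))
    ⟨fun i => i.elim, algebraicIndependent_empty_type⟩).comp _ Sum.inl_injective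
  have htr : Transcendental E π :=
    IntermediateField.transcendental_adjoin_iff.2 (AlgebraicIndependent.option_iff.1 hind).2
  have H : ∀ i : Finset (k × (Fin r → ℤ) × ℤ × ℤ), _ := fun i =>
    p3_delta (ℓ := ℓ) h₁ h₂ hx hπ hπ₁ hπ₂ ht₁ ht₂ (i.filter fun m =>
      W.valuation (algebraMap k F m.1 * (∏ j, x j ^ m.2.1 j) * π ^ m.2.2.1 * t ^ m.2.2.2) < 1)
      fun m hm => (Finset.mem_filter.1 hm).2
  choose c b hc H using H
  have hgE : ∀ i, algebraMap k F (c i) * t ^ ((ℓ : ℤ) * b i) ∈ E := fun i =>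
    mul_mem (E.algebraMap_mem _) (zpow_mem htE _)
  have hg0 : ∀ i, algebraMap k F (c i) * t ^ ((ℓ : ℤ) * b i) ≠ 0 := fun i =>
    mul_ne_zero ((map_ne_zero _).2 (hc i)) (zpow_ne_zero _ (resb_ne ht₁))
  have H2 : ∀ i, _ := fun i => exists_gauss (W.comap (algebraMap E F))
    (z := fun _ : Unit => π / (algebraMap k F (c i) * t ^ ((ℓ : ℤ) * b i)))
    (algebraicIndependent_unique_type_iff.2 fun h => htr (by
      have h1 := h.mul (isAlgebraic_algebraMap (⟨_, hgE i⟩ : E))
      rwa [show algebraMap E F ⟨_, hgE i⟩ = algebraMap k F (c i) * t ^ ((ℓ : ℤ) * b i) from rfl,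
        div_mul_cancel₀ _ (hg0 i)] at h1))
  choose G hG hR using H2
  have hle : ∀ i, ∀ a ∈ E, ∀ a' ∈ E,
      ((G i).valuation a ≤ (G i).valuation a' ↔ W.valuation a ≤ W.valuation a') :=
    fun i a ha a' ha' => by
      have e1 := val_comap (algebraMap E F) (G i) ⟨a, ha⟩ ⟨a', ha'⟩
      rw [hG i, val_comap] at e1
      exact e1.symm
  have hres : ∀ i, res (G i) (π / (algebraMap k F (c i) * t ^ ((ℓ : ℤ) * b i))) ∉ resK E (G i) :=
    fun i h => algebraicIndependent_unique_type_iff.1 (hR i).2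
      (isAlgebraic_algebraMap (⟨_, h⟩ : resK E (G i)))
  have hz : ∀ i, (G i).valuation (π / (algebraMap k F (c i) * t ^ ((ℓ : ℤ) * b i))) = 1 :=
    fun i => resb_unit ((hR i).1 ()) fun h => hres i (h ▸ zero_mem _)
  refine ⟨Ultrafilter.of Filter.atTop, G, p3a_vlim hW ?_ (fun a n h => ?_) fun a i h => ?_,
    fun i => ⟨⟨fun o => hW.1 (some o), fun n a h => ?_⟩, c i, b i, hc i,
      m2a_rind ((hR i).1 ()) fun h => hres i ?_⟩⟩
  · refine eq_top_iff.2 (hgen ▸ adjoin.mono _ _ _ ?_)
    rintro a (⟨j, rfl⟩ | rfl | rfl)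
    exacts [⟨some (some j), rfl⟩, ⟨none, rfl⟩, ⟨some none, rfl⟩]
  · have e : algebraMap k F a * monoX (fun o : Option (Option (Fin r)) =>
        o.elim π fun o' => o'.elim t x) n = algebraMap k F a * (∏ j, x j ^ n (some (some j))) *
          π ^ n none * t ^ n (some none) := by
      rw [monoX, Finsupp.prod_fintype _ _ fun _ => zpow_zero _, Fintype.prod_option,
        Fintype.prod_option]
      simp only [Option.elim]
      ring
    rw [e] at h ⊢
    refine Filter.Eventually.filter_mono (Ultrafilter.of_le _) ((Filter.eventually_ge_atTop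
      {(a, fun j => n (some (some j)), n none, n (some none))}).mono fun i hi => ?_)
    have h1 := H i _ (Finset.mem_filter.2 ⟨Finset.singleton_subset_iff.1 hi, h⟩)
    have h2 := hle i 1 (one_mem _) _ (mul_mem (mul_mem (mul_mem (E.algebraMap_mem a)
      (prod_mem fun j (_ : j ∈ Finset.univ) => zpow_mem (hxE j) (n (some (some j)))))
      (zpow_mem (hgE i) (n none))) (zpow_mem htE (n (some none))))
    rw [map_one, map_one] at h2
    have h3 := lt_of_not_ge fun h' => h1.not_ge (h2.1 h')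
    have h4 := hz i
    rw [map_div₀] at h4
    rw [map_mul, map_mul, map_zpow₀ _ _ (n none)] at h3 ⊢
    rwa [eq_of_div_eq_one h4]
  · have h1 := hle i _ (E.algebraMap_mem a) 1 (one_mem _)
    rw [map_one, map_one, ValuationSubring.valuation_le_one_iff,
      ValuationSubring.valuation_le_one_iff] at h1
    exact h1.2 h
  · have hm : (n.prod fun i e => (i.elim t x : F) ^ e) ∈ E := prod_mem fun o _ =>
      zpow_mem (subset_adjoin k _ (Set.mem_range_self o)) _
    have h1 := hW.2 (n.mapDomain some) a (by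
      rw [Finsupp.prod_mapDomain_index_inj (Option.some_injective _)]
      exact le_antisymm ((hle i _ hm _ (E.algebraMap_mem a)).1 h.le)
        ((hle i _ (E.algebraMap_mem a) _ hm).1 h.ge))
    exact Finsupp.mapDomain_injective (Option.some_injective _) (h1.trans Finsupp.mapDomain_zero.symm)
  · obtain ⟨a, h1, h2⟩ := (mem_resK _ _).1 h
    exact (mem_resK _ _).2 ⟨algebraMap k E a, h1, h2⟩

end P019
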