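import Vale.Agent.P019.Defs

/-! P019 RAd: auxiliary facts for `dp_le`. -/

namespace P019

open IntermediateField Polynomial

theorem deg_le_RAd {K L : Type*} [Field K] [Field L] [Algebra K L] {g : L[X]} (hg : g.Monic)
    (h : ∀ i, g.coeff i ∈ Set.range (algebraMap K L)) {z : L} (hz : g.eval z = 0) :
    (minpoly K z).natDegree ≤ g.natDegree := by
  obtain ⟨g0, h1, h2, h3⟩ := lifts_and_natDegree_eq_and_monic ((lifts_iff_coeff_lifts g).2 h) hg
  have h4 : aeval z g0 = 0 := by rw [aeval_def, eval₂_eq_eval_map, h1, hz]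
  exact h2 ▸ natDegree_le_natDegree (minpoly.min K z h3 h4)

theorem fr_RAd (F : Type*) {K M : Type*} [Field F] [Field K] [Field M] [Algebra F K] [Algebra K M]
    [Algebra F M] [IsScalarTower F K M] {z : M} (hz : IsIntegral K z) :
    Module.finrank F ((K⟮z⟯).restrictScalars F) = Module.finrank F K * (minpoly K z).natDegree := by
  rw [← adjoin.finrank hz]
  exact (Module.finrank_mul_finrank F K K⟮z⟯).symm

theorem swap_RAd {F T M : Type*} [Field F] [Field T] [Field M] [Algebra F T] [Algebra T M]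
    [Algebra F M] [IsScalarTower F T M] [FiniteDimensional F T] {θ : T} (hθ : F⟮θ⟯ = ⊤) {β : M}
    (hβ : IsIntegral F β) (h : (minpoly F β).natDegree ≤ (minpoly T β).natDegree) :
    Module.finrank F T ≤ (minpoly F⟮β⟯ (algebraMap T M θ)).natDegree := by
  have i1 : IsIntegral T β := hβ.tower_top
  have i2 : IsIntegral F (algebraMap T M θ) := (Algebra.IsIntegral.isIntegral θ).algebraMap
  have i3 : IsIntegral F⟮β⟯ (algebraMap T M θ) := i2.tower_top
  haveI := adjoin.finiteDimensional hβ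
  haveI := adjoin.finiteDimensional i3
  let G : IntermediateField F M := (F⟮β⟯⟮algebraMap T M θ⟯).restrictScalars F
  haveI : FiniteDimensional F G := FiniteDimensional.trans F F⟮β⟯ F⟮β⟯⟮algebraMap T M θ⟯
  have g1 : F⟮θ⟯ ≤ G.comap (IsScalarTower.toAlgHom F T M) :=
    adjoin_simple_le_iff.2 (mem_adjoin_simple_self F⟮β⟯ (algebraMap T M θ))
  have g2 : β ∈ G :=
    (F⟮β⟯⟮algebraMap T M θ⟯).algebraMap_mem ⟨β, mem_adjoin_simple_self F β⟩
  have g3 : (T⟮β⟯).restrictScalars F ≤ G := by
    have : (T⟮β⟯).toSubfield ≤ G.toSubfield := by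
      rw [adjoin_toSubfield, Subfield.closure_le]
      rintro _ (⟨t, rfl⟩ | rfl)
      · exact g1 (hθ ▸ mem_top)
      · exact g2
    exact fun z hz => this hz
  have e1 := fr_RAd F i1
  have e2 : Module.finrank F G = _ := fr_RAd F i3
  rw [adjoin.finrank hβ] at e2
  have e3 := finrank_le_of_le_right g3
  rw [e1, e2, mul_comm] at e3
  exact Nat.le_of_mul_le_mul_left (e3.trans (Nat.mul_le_mul_right _ h)) (minpoly.natDegree_pos i1)

theorem coef_RAd {F K0 K1 M : Type*} [Field F] [Field K0] [Field K1] [Field M] [Algebra F M]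
    [Algebra K0 M] [Algebra K1 M] (h0 : ∀ a : F, algebraMap F M a ∈ Set.range (algebraMap K0 M))
    (h1 : ∀ a : F, algebraMap F M a ∈ Set.range (algebraMap K1 M)) {z : M} (hz : IsIntegral F z)
    (hz1 : IsIntegral K1 z) (i : ℕ) :
    IsIntegral K0 (algebraMap K1 M ((minpoly K1 z).coeff i)) := by
  have hm : ((minpoly F z).map (algebraMap F M)).Monic := (minpoly.monic hz).map _
  obtain ⟨f0, a1, -, a2⟩ := lifts_and_natDegree_eq_and_monic (f := algebraMap K0 M)
    ((lifts_iff_coeff_lifts _).2 fun n => by rw [coeff_map]; exact h0 _) hm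
  obtain ⟨f1, b1, -, -⟩ := lifts_and_natDegree_eq_and_monic (f := algebraMap K1 M)
    ((lifts_iff_coeff_lifts _).2 fun n => by rw [coeff_map]; exact h1 _) hm
  have b3 : aeval z f1 = 0 := by
    rw [aeval_def, eval₂_eq_eval_map, b1, ← eval₂_eq_eval_map, ← aeval_def, minpoly.aeval]
  have b4 := Polynomial.map_dvd (algebraMap K1 M) (minpoly.dvd K1 z b3)
  rw [b1, ← a1] at b4
  have b5 := isIntegral_coeff_of_dvd f0 _ a2 ((minpoly.monic hz1).map _) b4 i
  rwa [coeff_map] at b5

theorem irr_RAd {C T M : Type*} [Field C] [Field T] [Field M] [Algebra C T] [Algebra T M]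
    [Algebra C M] [IsScalarTower C T M]
    (hC : ∀ z : T, IsAlgebraic C z → ∃ a, algebraMap C T a = z) {β : M} (hβ : IsIntegral C β) :
    (minpoly C β).natDegree ≤ (minpoly T β).natDegree := by
  have i1 : IsIntegral T β := hβ.tower_top
  have := deg_le_RAd (K := C) (g := (minpoly T β).map (algebraMap T M)) (z := β)
    ((minpoly.monic i1).map _) (fun i => by
      obtain ⟨a, ha⟩ := hC _ (isIntegral_coeff_of_dvd _ _ (minpoly.monic hβ) (minpoly.monic i1)
        (minpoly.dvd_map_of_isScalarTower C T β) i).isAlgebraic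
      exact ⟨a, by rw [coeff_map, ← ha, ← IsScalarTower.algebraMap_apply]⟩)
    (by rw [← eval₂_eq_eval_map, ← aeval_def, minpoly.aeval])
  rwa [natDegree_map] at this

theorem prim_RAd {C M : Type*} [Field C] [Field M] [Algebra C M] (t : Finset M)
    (ht : ∀ b ∈ t, IsSeparable C b) : ∃ β : M, IsIntegral C β ∧ ∀ b ∈ t, b ∈ C⟮β⟯ := by
  haveI : FiniteDimensional C (adjoin C (t : Set M)) :=
    finiteDimensional_adjoin fun b hb => (ht b hb).isIntegral
  haveI : Algebra.IsSeparable C (adjoin C (t : Set M)) :=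
    (isSeparable_adjoin_iff_isSeparable C M).2 ht
  obtain ⟨α, hα⟩ := Field.exists_primitive_element C (adjoin C (t : Set M))
  have e : C⟮(α : M)⟯ = adjoin C (t : Set M) := by
    simpa only [lift_adjoin_simple, lift_top] using congr_arg lift hα
  exact ⟨α, (Algebra.IsIntegral.isIntegral (R := C) α).algebraMap,
    fun b hb => by rw [e]; exact subset_adjoin C _ hb⟩

theorem common_RAd {C F M : Type*} [Field C] [Field F] [Field M] [Algebra C F] [Algebra F M]
    [Algebra C M] [IsScalarTower C F M] (q : ℕ) (s : Finset M)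
    (hs : ∀ z ∈ s, ∃ n, z ^ q ^ n ∈ adjoin F {b : M | IsSeparable C b}) :
    ∃ (β : M) (n : ℕ), IsIntegral C β ∧ ∀ z ∈ s, z ^ q ^ n ∈ F⟮β⟯ := by
  classical
  choose! n hn using hs
  have h1 : ∀ z ∈ s, ∃ t : Finset M, (t : Set M) ⊆ {b : M | IsSeparable C b} ∧
      z ^ q ^ s.sup n ∈ adjoin F (t : Set M) := fun z hz => by
    obtain ⟨m, hm⟩ := Nat.exists_eq_add_of_le (Finset.le_sup (f := n) hz)
    refine exists_finset_of_mem_adjoin ?_
    rw [hm, pow_add, pow_mul]
    exact pow_mem (hn z hz) _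
  choose! t ht1 ht2 using h1
  obtain ⟨β, h2, h3⟩ := prim_RAd (C := C) (s.biUnion t) fun b hb => by
    obtain ⟨z, hz, hb⟩ := Finset.mem_biUnion.1 hb
    exact ht1 z hz hb
  have h4 : C⟮β⟯ ≤ (F⟮β⟯).restrictScalars C := adjoin_simple_le_iff.2 (mem_adjoin_simple_self F β)
  refine ⟨β, s.sup n, h2, fun z hz => ?_⟩
  have h5 : adjoin F (t z : Set M) ≤ F⟮β⟯ :=
    adjoin_le_iff.2 fun b hb => h4 (h3 b (Finset.mem_biUnion.2 ⟨z, hz, hb⟩))
  exact h5 (ht2 z hz)

theorem pow_RAd {C A F M : Type*} [Field C] [Field A] [Field F] [Field M] [Algebra C A]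
    [Algebra A M] [Algebra C M] [IsScalarTower C A M] [Algebra.IsAlgebraic C A] [Algebra F M]
    (q : ℕ) [ExpChar C q] [ExpChar F q] {u : M} (hu : u ∈ Set.range (algebraMap F M)) {z : M}
    (hz : z ∈ A⟮u⟯) : ∃ n, z ^ q ^ n ∈ adjoin F {b : M | IsSeparable C b} := by
  set B := adjoin F {b : M | IsSeparable C b} with hB
  have h1 : (A⟮u⟯).toSubfield ≤ (perfectClosure B M).toSubfield := by
    rw [adjoin_toSubfield, Subfield.closure_le]
    rintro _ (⟨a, rfl⟩ | rfl)
    · obtain ⟨n, y, hy⟩ := IsPurelyInseparable.pow_mem (separableClosure C A) q a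
      refine (mem_perfectClosure_iff_pow_mem q).2 ⟨n, ⟨algebraMap A M y, ?_⟩, ?_⟩
      · exact subset_adjoin F _ (IsSeparable.map (IsScalarTower.toAlgHom C A M)
          (algebraMap A M).injective y.2)
      · rw [← map_pow, ← hy]
        rfl
    · obtain ⟨a, rfl⟩ := hu
      exact (perfectClosure B M).algebraMap_mem ⟨_, B.algebraMap_mem a⟩
  obtain ⟨n, y, hy⟩ := (mem_perfectClosure_iff_pow_mem q).1 (h1 hz)
  exact ⟨n, hy ▸ y.2⟩

theorem dp_aux_RAd {C F T K0 K1 M : Type*} [Field C] [Field F] [Field T] [Field K0] [Field K1]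
    [Field M] [Algebra C F] [Algebra C T] [Algebra C M] [Algebra F T] [Algebra F M] [Algebra T M]
    [IsScalarTower C F M] [IsScalarTower C T M] [IsScalarTower F T M] [Algebra K0 M]
    [Algebra K1 M] [FiniteDimensional F T] [Algebra.IsSeparable F T] [FiniteDimensional K1 M]
    (q : ℕ) [ExpChar F q] (hC : ∀ z : T, IsAlgebraic C z → ∃ a, algebraMap C T a = z)
    (h0 : ∀ a : F, algebraMap F M a ∈ Set.range (algebraMap K0 M))
    (h1 : ∀ a : F, algebraMap F M a ∈ Set.range (algebraMap K1 M))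
    (hra : ∀ z : K1, IsIntegral K0 (algebraMap K1 M z) →
      ∃ n, algebraMap K1 M z ^ q ^ n ∈ adjoin F {b : M | IsSeparable C b}) :
    Module.finrank F T ≤ Module.finrank K1 M := by
  classical
  haveI : ExpChar M q := expChar_of_injective_algebraMap (algebraMap F M).injective q
  obtain ⟨θ, hθ⟩ := Field.exists_primitive_element F T
  have i1 : IsIntegral F (algebraMap T M θ) := (Algebra.IsIntegral.isIntegral θ).algebraMap
  have i2 : IsIntegral K1 (algebraMap T M θ) := Algebra.IsIntegral.isIntegral _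
  set g := minpoly K1 (algebraMap T M θ) with hg
  obtain ⟨β, n, hβ, hn⟩ := common_RAd (C := C) (F := F) q
    ((Finset.range (g.natDegree + 1)).image fun i => algebraMap K1 M (g.coeff i)) fun z hz => by
      obtain ⟨i, -, rfl⟩ := Finset.mem_image.1 hz
      exact hra _ (coef_RAd h0 h1 i1 i2 i)
  have hθ' : F⟮θ ^ q ^ n⟯ = ⊤ := by
    rw [← adjoin_simple_eq_adjoin_pow_expChar_pow_of_isSeparable' F T θ q n, hθ]
  have d1 : (minpoly F β).natDegree ≤ (minpoly T β).natDegree := by
    refine le_trans ?_ (irr_RAd hC hβ)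
    have := natDegree_le_of_dvd (minpoly.dvd_map_of_isScalarTower C F β)
      ((minpoly.monic hβ).map _).ne_zero
    rwa [natDegree_map] at this
  have d2 := swap_RAd hθ' hβ.tower_top d1
  have d3 := deg_le_RAd (K := F⟮β⟯) (z := algebraMap T M (θ ^ q ^ n))
    (g := (g.map (algebraMap K1 M)).map (iterateFrobenius M q n))
    (((minpoly.monic i2).map _).map _) (fun i => by
      rw [coeff_map, coeff_map, iterateFrobenius_def]
      by_cases c : i ≤ g.natDegree
      · exact ⟨⟨_, hn _ (Finset.mem_image.2 ⟨i, Finset.mem_range.2 (by omega), rfl⟩)⟩, rfl⟩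
      · rw [coeff_eq_zero_of_natDegree_lt (by omega), map_zero, ← iterateFrobenius_def, map_zero]
        exact ⟨0, map_zero _⟩)
    (by
      rw [map_pow, ← iterateFrobenius_def, eval_map, eval₂_hom, ← eval₂_eq_eval_map, ← aeval_def,
        minpoly.aeval, map_zero])
  rw [natDegree_map, natDegree_map] at d3
  exact (d2.trans d3).trans (minpoly.natDegree_le _)

theorem rng_RAd {C T A M : Type*} [Field C] [Field T] [Field A] [Field M] [Algebra C T]
    [Algebra A M] (ψ : T →+* M) (h : ∀ c, ψ (algebraMap C T c) ∈ Set.range (algebraMap A M))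
    {x a : T} (ha : a ∈ C⟮x⟯) : ψ a ∈ A⟮ψ x⟯ := by
  have h1 : (C⟮x⟯).toSubfield ≤ (A⟮ψ x⟯).toSubfield.comap ψ := by
    rw [adjoin_toSubfield, Subfield.closure_le]
    rintro _ (⟨c, rfl⟩ | rfl)
    · obtain ⟨b, hb⟩ := h c
      change ψ (algebraMap C T c) ∈ A⟮ψ x⟯
      exact hb ▸ (A⟮ψ x⟯).algebraMap_mem b
    · exact mem_adjoin_simple_self A _
  exact h1 ha

end P019
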