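import Vale.Agent.P019.FFb

/-!
P019 Zar: the proof of `zar` (plan in the header of `RA`), with `ra_adjoin` as a hypothesis.
-/

namespace P019

open IntermediateField

variable {A T : Type*} [Field A] [Field T] [Algebra A T]

theorem zar_pow {z : T} (hz : IsAlgebraic A z) :
    ∃ n : ℕ, IsSeparable A (z ^ ringExpChar T ^ n) := by
  have : ExpChar A (ringExpChar T) := (algebraMap A T).expChar (algebraMap A T).injective _
  obtain ⟨g, h1, n, h2⟩ :=
    (minpoly.irreducible hz.isIntegral).hasSeparableContraction (ringExpChar T)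
  exact ⟨n, h1.of_dvd <| minpoly.dvd A _ <| by
    simpa only [Polynomial.expand_aeval, minpoly.aeval] using congrArg (Polynomial.aeval z) h2⟩

theorem zar_fin [FiniteDimensional A (algebraicClosure A T)] :
    {M : IntermediateField A T | M ≤ separableClosure A T}.Finite := by
  have h : separableClosure A T ≤ algebraicClosure A T := le_algebraicClosure A T _
  have : FiniteDimensional A (separableClosure A T) :=
    Module.Finite.of_injective (inclusion h).toLinearMap (inclusion_injective h)
  have := Field.finite_intermediateField_of_exists_primitive_element A (separableClosure A T)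
    (Field.exists_primitive_element A _)
  exact (Set.finite_range (lift (F := separableClosure A T))).subset
    fun M hM => ⟨restrict hM, lift_restrict hM⟩

theorem zar_sep {F K : IntermediateField A T} (h : F ≤ K) {z : T} (hz : IsSeparable F z) :
    IsSeparable K z := by
  let := (inclusion h).toAlgebra
  have : IsScalarTower F K T := IsScalarTower.of_algebraMap_eq fun _ => rfl
  exact hz.tower_top K

theorem zar_mem {M : IntermediateField A T} {x y : T} {c c' : A} (hc : c ≠ c')
    (h : x + algebraMap A T c * y ∈ M) (h' : x + algebraMap A T c' * y ∈ M) : x ∈ M ∧ y ∈ M := by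
  have h0 : algebraMap A T (c - c') ≠ 0 := (map_ne_zero _).2 (sub_ne_zero.2 hc)
  have hy : y ∈ M := by
    have h1 := M.div_mem (M.sub_mem h h') (M.algebraMap_mem (c - c'))
    rwa [add_sub_add_left_eq_sub, ← sub_mul, ← map_sub, mul_div_cancel_left₀ _ h0] at h1
  exact ⟨by simpa using M.sub_mem h (M.mul_mem (M.algebraMap_mem c) hy), hy⟩

theorem zar_trans {x y : T} (h : AlgebraicIndependent A ![x, y]) {c c' : A} (hc : c ≠ c') :
    ¬ IsAlgebraic A⟮x + algebraMap A T c' * y⟯ (x + algebraMap A T c * y) := by
  intro ha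
  have h1 : Transcendental A (x + algebraMap A T c' * y) := fun h2 => by
    refine (indep_pair_iff.1 (indep_pair_symm h)).2 ?_
    have h3 : x + algebraMap A T c' * y ∈ acl A {y} := (mem_acl_iff _ _).2 (h2.tower_top _)
    simpa using (acl A {y}).sub_mem h3
      ((acl A {y}).mul_mem ((acl A {y}).algebraMap_mem c') (subset_acl _ rfl))
  obtain ⟨hx, hy⟩ := zar_mem hc ((mem_acl_iff _ _).2 ha) (subset_acl _ rfl)
  have h4 := ffb_card_le (flat_acl_one h1).2 h fun i => by fin_cases i <;> assumption
  simp at h4

theorem zar_aux {k : Type*} [Field k] [Algebra k A] [Algebra k T] [IsScalarTower k A T]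
    (hra : ∀ (B : IntermediateField A T) (u : T), Transcendental B u → ∀ z ∈ B⟮u⟯,
      IsAlgebraic A⟮u⟯ z → z ∈ A⟮u⟯) {x y : T}
    (h : AlgebraicIndependent A ![x, y])
    [FiniteDimensional (adjoin A {x, y}) (algebraicClosure (adjoin A {x, y}) T)] :
    ∀ᶠ c in Filter.cofinite, ∀ z : T, IsAlgebraic A⟮x + algebraMap k T c * y⟯ z →
      ∃ n : ℕ, z ^ ringExpChar T ^ n ∈ A⟮x + algebraMap k T c * y⟯ := by
  set K := adjoin A {x, y} with hK
  set u : k → T := fun c => x + algebraMap A T (algebraMap k A c) * y with hu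
  have huK : ∀ c, A⟮u c⟯ ≤ K := fun c => adjoin_simple_le_iff.2 <|
    K.add_mem (subset_adjoin _ _ (by simp))
      (K.mul_mem (K.algebraMap_mem _) (subset_adjoin _ _ (by simp)))
  set Φ : k → IntermediateField K T := fun c => adjoin K (separableClosure A⟮u c⟯ T : Set T)
    with hΦ
  have key : ∀ c c', c ≠ c' → Φ c = Φ c' → ∀ z, IsSeparable A⟮u c⟯ z → z ∈ A⟮u c⟯ := by
    intro c c' hc e z hz
    have hc' : algebraMap k A c ≠ algebraMap k A c' := (algebraMap k A).injective.ne hc
    set B := (separableClosure A⟮u c'⟯ T).restrictScalars A with hB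
    have hBu : u c' ∈ B := (separableClosure A⟮u c'⟯ T).algebraMap_mem (AdjoinSimple.gen A (u c'))
    have hBM : ∀ b ∈ B, b ∈ B⟮u c⟯ := fun b hb => B⟮u c⟯.algebraMap_mem ⟨b, hb⟩
    refine hra B (u c) (fun ha => zar_trans h hc' (ffb_trans (fun b hb => ?_) ha)) z ?_
      hz.isIntegral.isAlgebraic
    · exact (mem_separableClosure_iff.1 hb).isIntegral.isAlgebraic
    · obtain ⟨hx, hy⟩ := zar_mem (M := B⟮u c⟯.restrictScalars A) hc'
        (mem_adjoin_simple_self B (u c)) (hBM _ hBu)
      have hKM : K ≤ B⟮u c⟯.restrictScalars A := adjoin_le_iff.2 (by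
        rintro _ (rfl | rfl) <;> assumption)
      have h1 : Φ c' ≤ extendScalars hKM := adjoin_le_iff.2 hBM
      exact h1 (e ▸ subset_adjoin K _ (mem_separableClosure_iff.2 hz))
  have hfin : {c | ¬ ∀ z, IsSeparable A⟮u c⟯ z → z ∈ A⟮u c⟯}.Finite := by
    refine Set.Finite.of_injOn (f := Φ) (fun c _ => ?_) (fun c hc c' _ e => ?_) zar_fin
    · exact adjoin_le_iff.2 fun z hz =>
        mem_separableClosure_iff.2 (zar_sep (huK c) (mem_separableClosure_iff.1 hz))
    · by_contra hne
      exact hc (key c c' hne e)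
  refine Filter.Eventually.mono (Filter.eventually_cofinite.2 hfin) fun c hc => ?_
  rw [IsScalarTower.algebraMap_apply k A T]
  exact fun z hz => (zar_pow hz).imp fun n hn => hc _ hn

end P019
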