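import Vale.Agent.P019.RAa
import Vale.Agent.P019.RAd
import Vale.Agent.P019.Zar

/-!
P019 RA: relatively algebraically closed subfields.
`ra_adjoin`: multiply `z` by a polynomial of `A[u]` to make it integral over `A[u]`; `T[u]` is
integrally closed, so `z = P(u)`, `P ∈ T[X]`; evaluating the integral equation at `a ∈ A` shows
`P(a)` algebraic over `A`, so in `A`, for infinitely many `a`; Lagrange interpolation puts the
coefficients of `P` in `A`.  `ra_indep`: `w` and `1/w` are integral over `A`, so polynomials.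
`dp_le`: `θ` primitive with minimal polynomial `f` over `C(x)`.  The coefficients of the minimal
polynomial `g` of `ψ θ` over `κ(ψ x)` are algebraic over `C(x)`, so by `ra_adjoin` (for the
algebraic closure of `C` in `κ`) they lie in `C'(x)`, `C' / C` finite.  For the separable part
`C(β)` of `C'`: the minimal polynomial of `β` over `C` stays irreducible over `T` (coefficients of
a monic factor are algebraic over `C`), compare degrees; for the purely inseparable part use
`minpoly.map_eq_of_isSeparable_of_isPurelyInseparable`.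
`zar`: let `E_c` be the separable closure of `A(x + c y)` in `T`; the fields `E_c(y)` lie in the
finite separable extension `S` of `A(x,y)`, which has finitely many intermediate fields
(`Field.finite_intermediateField_of_exists_primitive_element`); if `E_c(y) = E_c'(y)`, `c ≠ c'`,
then `E_c ⊆ E_c'(x + c y)` and `ra_adjoin` gives `E_c = A(x + c y)`.
-/

namespace P019

open IntermediateField

theorem dp_le {C T M : Type*} [Field C] [Field T] [Field M] [Algebra C T] [Infinite C]
    (hC : ∀ z : T, IsAlgebraic C z → ∃ a, algebraMap C T a = z) {x : T}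
    (hx : Transcendental C x) [FiniteDimensional C⟮x⟯ T] [Algebra.IsSeparable C⟮x⟯ T]
    (κ : Subfield M) [IsAlgClosed κ] (ψ : T →+* M) (hψ : ∀ c, ψ (algebraMap C T c) ∈ κ)
    (hx' : Transcendental κ (ψ x)) [FiniteDimensional κ⟮ψ x⟯ M] :
    Module.finrank C⟮x⟯ T ≤ Module.finrank κ⟮ψ x⟯ M := by
  letI : Algebra T M := ψ.toAlgebra
  letI : Algebra C M := (ψ.comp (algebraMap C T)).toAlgebra
  letI : Algebra C κ := ((ψ.comp (algebraMap C T)).codRestrict κ hψ).toAlgebra
  haveI : IsScalarTower C T M := IsScalarTower.of_algebraMap_eq fun _ => rfl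
  haveI : IsScalarTower C C⟮x⟯ M := IsScalarTower.of_algebraMap_eq fun _ => rfl
  obtain ⟨q, hq⟩ := ExpChar.exists C
  let A := algebraicClosure C κ
  haveI : IsScalarTower C A M := IsScalarTower.of_algebraMap_eq fun _ => rfl
  haveI : Infinite A := Infinite.of_injective _ (algebraMap C A).injective
  have hA : ∀ z : κ, IsAlgebraic A z → ∃ a, algebraMap A κ a = z := fun z hz =>
    ⟨⟨z, mem_algebraicClosure_iff'.2 (isIntegral_trans z hz.isIntegral)⟩, rfl⟩
  refine dp_aux_RAd (C := C) (K0 := A⟮ψ x⟯) q hC (fun a => ?_) (fun a => ?_) fun z hz => ?_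
  · exact ⟨⟨_, rng_RAd (A := A) ψ (fun c => ⟨algebraMap C A c, rfl⟩) a.2⟩, rfl⟩
  · exact ⟨⟨_, rng_RAd (A := κ) ψ (fun c => ⟨algebraMap C κ c, rfl⟩) a.2⟩, rfl⟩
  · have h1 : (z : M) ∈ A⟮ψ x⟯ :=
      ra_adjoin (A := A) (T := κ) (u := ψ x) (z := (z : M)) hA hx' z.2 hz.isAlgebraic
    exact pow_RAd (C := C) (A := A) (F := C⟮x⟯) q (u := ψ x)
      ⟨⟨x, mem_adjoin_simple_self C x⟩, rfl⟩ h1

theorem zar {k A T : Type*} [Field k] [Field A] [Field T] [Algebra k A] [Algebra A T]
    [Algebra k T] [IsScalarTower k A T] [Infinite k]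
    (hA : ∀ z : T, IsAlgebraic A z → ∃ a, algebraMap A T a = z) {x y : T}
    (h : AlgebraicIndependent A ![x, y])
    [FiniteDimensional (adjoin A {x, y}) (algebraicClosure (adjoin A {x, y}) T)] :
    ∀ᶠ c in Filter.cofinite, ∀ z : T, IsAlgebraic A⟮x + algebraMap k T c * y⟯ z →
      ∃ n : ℕ, z ^ ringExpChar T ^ n ∈ A⟮x + algebraMap k T c * y⟯ := by
  have : Infinite A := Infinite.of_injective _ (algebraMap k A).injective
  refine zar_aux (fun B u hu z hz ha => ra_adjoin (fun w hw => ?_) hu hz ha) h
  obtain ⟨a, ha⟩ := hA w (hw.algebraMap (A := T))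
  exact ⟨a, Subtype.ext ha⟩

end P019
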