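import Vale.Agent.P019.FFb

/-!
P019 RAa: `ra_adjoin`.
-/

namespace P019

open IntermediateField Polynomial

theorem raa_int {A Ω : Type*} [Field A] [Field Ω] [Algebra A[X] Ω]
    [FaithfulSMul A[X] Ω] {w : Ω} (r s : A[X])
    (hw : w = algebraMap A[X] Ω r / algebraMap A[X] Ω s) (hi : IsIntegral A[X] w) :
    ∃ g : A[X], algebraMap A[X] Ω g = w := by
  let : Algebra (FractionRing A[X]) Ω := FractionRing.liftAlgebra A[X] Ω
  have : IsScalarTower A[X] (FractionRing A[X]) Ω := FractionRing.isScalarTower_liftAlgebra _ _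
  set u : FractionRing A[X] := algebraMap A[X] _ r / algebraMap A[X] _ s with hu
  have h1 : algebraMap (FractionRing A[X]) Ω u = w := by
    rw [hu, map_div₀, ← IsScalarTower.algebraMap_apply, ← IsScalarTower.algebraMap_apply, hw]
  rw [← h1, isIntegral_algebraMap_iff (algebraMap (FractionRing A[X]) Ω).injective,
    IsIntegrallyClosed.isIntegral_iff] at hi
  obtain ⟨g, hg⟩ := hi
  exact ⟨g, by rw [← h1, ← hg, ← IsScalarTower.algebraMap_apply]⟩

theorem raa_poly {E T Ω : Type*} [Field E] [Field T] [Field Ω] [Algebra E T] [Algebra T Ω]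
    [Algebra E Ω] [IsScalarTower E T Ω]
    {t : Ω} (ht : Transcendental T t) {z : Ω} (hz : z ∈ T⟮t⟯) (ha : IsAlgebraic E⟮t⟯ z) :
    ∃ (y : Ω) (g : T[X]), y ∈ E⟮t⟯ ∧ y ≠ 0 ∧ aeval t g = y * z ∧
      ∀ i, IsIntegral E (g.coeff i) := by
  obtain ⟨y, hy0, hy⟩ := (isAlgebraic_adjoin_iff.1 ha).exists_integral_multiple
  let : Algebra E[X] Ω := (aeval t : E[X] →ₐ[E] Ω).toRingHom.toAlgebra
  let : Algebra T[X] Ω := (aeval t : T[X] →ₐ[T] Ω).toRingHom.toAlgebra
  let : Algebra E[X] T[X] := Polynomial.algebra E T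
  have : IsScalarTower E[X] T[X] Ω := IsScalarTower.of_algebraMap_eq fun p =>
    (aeval_map_algebraMap T t p).symm
  let : Algebra E[X] (Algebra.adjoin E {t}) :=
    ((aeval t : E[X] →ₐ[E] Ω).codRestrict (Algebra.adjoin E {t})
      fun p => aeval_mem_adjoin_singleton E t).toRingHom.toAlgebra
  have : IsScalarTower E[X] (Algebra.adjoin E {t}) Ω :=
    IsScalarTower.of_algebraMap_eq fun _ => rfl
  have : Algebra.IsIntegral E[X] (Algebra.adjoin E {t}) := ⟨fun a => by
    have h1 := a.2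
    simp only [Algebra.adjoin_singleton_eq_range_aeval, AlgHom.mem_range] at h1
    obtain ⟨p, hp⟩ := h1
    have : a = algebraMap E[X] _ p := Subtype.ext hp.symm
    rw [this]
    exact isIntegral_algebraMap⟩
  have hinj : Function.Injective (algebraMap T[X] Ω) := transcendental_iff_injective.1 ht
  have : FaithfulSMul T[X] Ω := (faithfulSMul_iff_algebraMap_injective _ _).2 hinj
  have h1 : IsIntegral E[X] (y • z) := isIntegral_trans _ hy
  have hyt : (y : Ω) ∈ E⟮t⟯ := algebra_adjoin_le_adjoin E {t} y.2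
  have h2 : (y • z) ∈ T⟮t⟯ := by
    refine mul_mem ?_ hz
    have : E⟮t⟯ ≤ (T⟮t⟯).restrictScalars E :=
      adjoin_le_iff.2 (Set.singleton_subset_iff.2 (mem_adjoin_simple_self T t))
    exact this hyt
  obtain ⟨r, s, hrs⟩ := (mem_adjoin_simple_iff T _).1 h2
  obtain ⟨g, hg⟩ := raa_int r s hrs h1.tower_top
  refine ⟨y, g, hyt, fun h => hy0 (Subtype.ext h), hg, fun i => IsIntegral.coeff ?_ i⟩
  rw [← isIntegral_algebraMap_iff hinj, hg]
  exact h1

theorem ra_adjoin {A T Ω : Type*} [Field A] [Field T] [Field Ω] [Algebra A T] [Algebra T Ω]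
    [Algebra A Ω] [IsScalarTower A T Ω] [Infinite A]
    (h : ∀ z : T, IsAlgebraic A z → ∃ a, algebraMap A T a = z) {u : Ω} (hu : Transcendental T u)
    {z : Ω} (hz : z ∈ T⟮u⟯) (ha : IsAlgebraic A⟮u⟯ z) : z ∈ A⟮u⟯ := by
  obtain ⟨y, g, hy, hy0, hg, hc⟩ := raa_poly hu hz ha
  have h2 : y * z ∈ A⟮u⟯ := by
    rw [← hg, aeval_eq_sum_range]
    refine sum_mem fun i _ => ?_
    obtain ⟨a, ha⟩ := h _ (hc i).isAlgebraic
    rw [Algebra.smul_def, ← ha, ← IsScalarTower.algebraMap_apply]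
    exact mul_mem (IntermediateField.algebraMap_mem _ a)
      (pow_mem (mem_adjoin_simple_self A u) i)
  have := mul_mem (inv_mem hy) h2
  rwa [inv_mul_cancel_left₀ hy0] at this

end P019
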