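import Vale.Agent.P019.CvD

/-!
P019 RRA: sections over a set of places, one step lemmas (owner helper23).
`NSp S D = M(S, D) + M(Sᶜ, D)`; the quotient `F / NSp S D` plays the role of `H¹(D)`.
-/

namespace P019

open IntermediateField

variable {κ F : Type*} [Field κ] [Field F] [Algebra κ F]

/-- sections of `D` over the set of places `S` -/
def MSp (S : Set (Place κ F)) (D : Dvs κ F) : Submodule κ F :=
  Submodule.span κ {f | f = 0 ∨ ∀ P ∈ S, -D P ≤ ord P f}

/-- coboundaries for the cover by `S` and its complement -/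
def NSp (S : Set (Place κ F)) (D : Dvs κ F) : Submodule κ F := MSp S D ⊔ MSp Sᶜ D

variable (κ F) in
/-- Riemann's theorem holds with genus `g` and bound `c` -/
def Rie (g : ℕ) (c : ℤ) : Prop :=
  (∀ D : Dvs κ F, ddeg D + 1 - g ≤ ldim D) ∧
    ∀ D : Dvs κ F, c ≤ ddeg D → (ldim D : ℤ) = ddeg D + 1 - g

theorem rr_ddeg_single (P : Place κ F) (m : ℤ) : ddeg (Finsupp.single P m : Dvs κ F) = m := by
  simp [ddeg]

theorem rr_ddeg_mono {D E : Dvs κ F} (hDE : D ≤ E) : ddeg D ≤ ddeg E := by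
  have h1 : 0 ≤ ddeg (E - D) := by
    rw [ddeg, Finsupp.liftAddHom_apply]
    exact Finset.sum_nonneg fun P _ => by simpa using hDE P
  rw [map_sub] at h1
  linarith

/-- induction upwards from `D`, one place at a time -/
theorem rr_induction {p : Dvs κ F → Prop} {D : Dvs κ F} (h0 : p D)
    (hs : ∀ E Q, D ≤ E → p E → p (E + Finsupp.single Q 1)) : ∀ E, D ≤ E → p E := by
  classical
  have key : ∀ n : ℕ, ∀ E, D ≤ E → ddeg (E - D) = n → p E := by
    intro n
    induction n with
    | zero =>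
      intro E hE h
      by_contra hp
      obtain ⟨Q, hQ⟩ : ∃ Q, D Q < E Q := by
        by_contra hc
        push Not at hc
        exact hp (le_antisymm hE hc ▸ h0)
      have h1 : Finsupp.single Q 1 ≤ E - D := fun P => by
        have := hE P
        by_cases e : Q = P
        · subst e; simp; omega
        · simpa [e] using this
      have := rr_ddeg_mono h1
      rw [rr_ddeg_single, h] at this
      simp at this
    | succ n ih =>
      intro E hE h
      obtain ⟨Q, hQ⟩ : ∃ Q, D Q < E Q := by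
        by_contra hc
        push Not at hc
        rw [le_antisymm hE hc, sub_self, map_zero] at h
        omega
      have h1 : D ≤ E - Finsupp.single Q 1 := fun P => by
        have := hE P
        by_cases e : Q = P
        · subst e; simp; omega
        · simpa [e] using this
      have h2 := hs _ Q h1 (ih _ h1 (by
        rw [sub_right_comm, map_sub, h, rr_ddeg_single]; push_cast; ring))
      rwa [sub_add_cancel] at h2
  intro E hE
  have h1 := rr_ddeg_mono hE
  exact key (ddeg (E - D)).toNat E hE (by rw [Int.toNat_of_nonneg]; rw [map_sub]; linarith)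

theorem NSp_compl (S : Set (Place κ F)) (D : Dvs κ F) : NSp Sᶜ D = NSp S D := by
  rw [NSp, NSp, compl_compl, sup_comm]

theorem MSp_univ (D : Dvs κ F) : MSp Set.univ D = LSp D := by
  simp [MSp, LSp, LSet]

theorem MSp_mono' {S : Set (Place κ F)} {D E : Dvs κ F} (hDE : ∀ P ∈ S, D P ≤ E P) :
    MSp S D ≤ MSp S E := Submodule.span_mono fun _ hf => hf.imp id fun h P hP =>
    (neg_le_neg (hDE P hP)).trans (h P hP)

theorem MSp_mono (S : Set (Place κ F)) {D E : Dvs κ F} (hDE : D ≤ E) : MSp S D ≤ MSp S E :=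
  MSp_mono' fun P _ => hDE P

theorem NSp_mono (S : Set (Place κ F)) {D E : Dvs κ F} (hDE : D ≤ E) : NSp S D ≤ NSp S E :=
  sup_le_sup (MSp_mono S hDE) (MSp_mono Sᶜ hDE)

theorem rr_LSp_mono {D E : Dvs κ F} (hDE : D ≤ E) : LSp D ≤ LSp E := by
  rw [← MSp_univ, ← MSp_univ]
  exact MSp_mono _ hDE

theorem LSp_le_MSp (S : Set (Place κ F)) (D : Dvs κ F) : LSp D ≤ MSp S D := Submodule.span_mono fun _ hf => hf.imp id fun h P _ => h P

variable [IsAlgClosed κ]

theorem rr_ord_zero (h : IsFF κ F 1) (P : Place κ F) : ord P 0 = 0 := (cv_isOrd h P).1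

theorem rr_ord_mul (h : IsFF κ F 1) (P : Place κ F) {a b : F} (ha : a ≠ 0) (hb : b ≠ 0) :
    ord P (a * b) = ord P a + ord P b := (cv_isOrd h P).2.1 a b ha hb

theorem rr_ord_one (h : IsFF κ F 1) (P : Place κ F) : ord P 1 = 0 := by
  have := rr_ord_mul h P (one_ne_zero (α := F)) one_ne_zero
  rw [mul_one] at this
  omega

theorem rr_ord_inv (h : IsFF κ F 1) (P : Place κ F) (a : F) : ord P a⁻¹ = -ord P a := by
  by_cases ha : a = 0
  · rw [ha, inv_zero, rr_ord_zero h, neg_zero]
  · have := rr_ord_mul h P ha (inv_ne_zero ha)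
    rw [mul_inv_cancel₀ ha, rr_ord_one h] at this
    omega

theorem rr_ord_pow (h : IsFF κ F 1) (P : Place κ F) (a : F) (n : ℕ) :
    ord P (a ^ n) = n * ord P a := by
  by_cases ha : a = 0
  · rcases n with _ | n
    · simp [rr_ord_one h]
    · simp [ha, rr_ord_zero h]
  · induction n with
    | zero => simp [rr_ord_one h]
    | succ n ih => rw [pow_succ, rr_ord_mul h P (pow_ne_zero _ ha) ha, ih]; push_cast; ring

theorem rr_mem_iff (h : IsFF κ F 1) (P : Place κ F) (a : F) : a ∈ P.1 ↔ 0 ≤ ord P a := by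
  by_cases ha : a = 0
  · simp [ha, rr_ord_zero h]
  · exact (cv_isOrd h P).2.2.1 a ha

theorem rr_lt_one_iff (h : IsFF κ F 1) (P : Place κ F) (a : F) :
    P.1.valuation a < 1 ↔ a = 0 ∨ 0 < ord P a := by
  rw [← ValuationSubring.mem_nonunits_iff, ValuationSubring.mem_nonunits_iff_or, rr_mem_iff h,
    rr_ord_inv h]
  exact or_congr Iff.rfl (by omega)

theorem rr_ord_const (h : IsFF κ F 1) (P : Place κ F) (c : κ) :
    ord P (algebraMap κ F c) = 0 := by
  have h1 := (rr_mem_iff h P _).1 (P.2.2 c)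
  have h2 := (rr_mem_iff h P _).1 (P.2.2 c⁻¹)
  rw [map_inv₀, rr_ord_inv h] at h2
  omega

theorem rr_ord_add (h : IsFF κ F 1) (P : Place κ F) {m : ℤ} {a b : F} (ha : a = 0 ∨ m ≤ ord P a)
    (hb : b = 0 ∨ m ≤ ord P b) : a + b = 0 ∨ m ≤ ord P (a + b) := by
  by_cases ha0 : a = 0
  · rwa [ha0, zero_add]
  by_cases hb0 : b = 0
  · rwa [hb0, add_zero]
  by_cases h0 : a + b = 0
  · exact Or.inl h0
  have ha' := ha.resolve_left ha0
  have hb' := hb.resolve_left hb0
  right
  wlog hab : ord P a ≤ ord P b generalizing a b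
  · rw [add_comm]
    exact this hb ha hb0 ha0 (by rwa [add_comm]) hb' ha' (by omega)
  have h1 : b * a⁻¹ ∈ P.1 := by
    rw [rr_mem_iff h, rr_ord_mul h P hb0 (inv_ne_zero ha0), rr_ord_inv h]
    omega
  have h2 : (a + b) * a⁻¹ ∈ P.1 := by
    rw [add_mul, mul_inv_cancel₀ ha0]
    exact P.1.add_mem _ _ P.1.one_mem h1
  rw [rr_mem_iff h, rr_ord_mul h P h0 (inv_ne_zero ha0), rr_ord_inv h] at h2
  omega

theorem mem_MSp (h : IsFF κ F 1) {S : Set (Place κ F)} {D : Dvs κ F} {f : F} :
    f ∈ MSp S D ↔ f = 0 ∨ ∀ P ∈ S, -D P ≤ ord P f := by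
  refine ⟨fun hf => ?_, fun hf => Submodule.subset_span hf⟩
  induction hf using Submodule.span_induction with
  | mem x hx => exact hx
  | zero => exact Or.inl rfl
  | add a b _ _ ha hb =>
    by_cases h0 : a + b = 0
    · exact Or.inl h0
    · exact Or.inr fun P hP => (rr_ord_add h P (ha.imp id fun h => h P hP)
        (hb.imp id fun h => h P hP)).resolve_left h0
  | smul c a _ ha =>
    by_cases h0 : c • a = 0
    · exact Or.inl h0
    · obtain ⟨hc, ha0⟩ := smul_ne_zero_iff.1 h0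
      refine Or.inr fun P hP => ?_
      rw [Algebra.smul_def, rr_ord_mul h P ((map_ne_zero _).2 hc) ha0, rr_ord_const h, zero_add]
      exact ha.resolve_left ha0 P hP

theorem rr_mem_LSp (h : IsFF κ F 1) {D : Dvs κ F} {f : F} :
    f ∈ LSp D ↔ f = 0 ∨ ∀ P, -D P ≤ ord P f := mem_LSp h D f

theorem MSp_inf (h : IsFF κ F 1) (S : Set (Place κ F)) (D : Dvs κ F) :
    MSp S D ⊓ MSp Sᶜ D = LSp D := by
  refine le_antisymm (fun f hf => ?_) (le_inf (LSp_le_MSp _ _) (LSp_le_MSp _ _))
  rw [rr_mem_LSp h]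
  by_cases h0 : f = 0
  · exact Or.inl h0
  · refine Or.inr fun P => ?_
    by_cases hP : P ∈ S
    · exact ((mem_MSp h).1 hf.1).resolve_left h0 P hP
    · exact ((mem_MSp h).1 hf.2).resolve_left h0 P hP

theorem mul_mem_MSp (h : IsFF κ F 1) {S : Set (Place κ F)} {E D : Dvs κ F} {f g : F}
    (hf : f ∈ LSp E) (hg : g ∈ MSp S D) : f * g ∈ MSp S (E + D) := by
  by_cases hf0 : f = 0
  · simp [hf0]
  by_cases hg0 : g = 0
  · simp [hg0]
  refine (mem_MSp h).2 (Or.inr fun P hP => ?_)
  have h1 := ((rr_mem_LSp h).1 hf).resolve_left hf0 P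
  have h2 := ((mem_MSp h).1 hg).resolve_left hg0 P hP
  rw [rr_ord_mul h P hf0 hg0, Finsupp.add_apply]
  omega

theorem mul_mem_NSp (h : IsFF κ F 1) {S : Set (Place κ F)} {E D : Dvs κ F} {f g : F}
    (hf : f ∈ LSp E) (hg : g ∈ NSp S D) : f * g ∈ NSp S (E + D) := by
  obtain ⟨a, ha, b, hb, rfl⟩ := Submodule.mem_sup.1 hg
  rw [mul_add]
  exact Submodule.add_mem_sup (mul_mem_MSp h hf ha) (mul_mem_MSp h hf hb)

theorem mul_mem_LSp (h : IsFF κ F 1) {E D : Dvs κ F} {f g : F}
    (hf : f ∈ LSp E) (hg : g ∈ LSp D) : f * g ∈ LSp (E + D) := by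
  rw [← MSp_univ] at hg ⊢
  exact mul_mem_MSp h hf hg

theorem self_mem_LSp (h : IsFF κ F 1) (f : F) : f ∈ LSp (-dv κ f) := (rr_mem_LSp h).2 (Or.inr fun P => by simp [dv_apply h])

omit [IsAlgClosed κ] in
theorem pdv_nonneg (f : F) : 0 ≤ pdv κ f := fun P => by
  rw [pdv, Finsupp.mapRange_apply]
  exact le_max_right _ _

/-- a transcendental element has a pole -/
theorem rr_exists_pole (h : IsFF κ F 1) {x : F} (hx : Transcendental κ x) :
    ∃ P : Place κ F, ord P x < 0 := by
  obtain ⟨h1, h2⟩ := cv_pdeg_eq h hx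
  by_contra hc
  push Not at hc
  have h3 : pdeg κ x = 0 := by
    rw [pdeg, finsum_eq_zero_of_forall_eq_zero]
    intro P
    have := hc P
    omega
  have := Module.finrank_pos (R := κ⟮x⟯) (M := F)
  omega

/-- one step: the quotient has dimension at most one -/
theorem MSp_step (h : IsFF κ F 1) {S : Set (Place κ F)} {D : Dvs κ F} {Q : Place κ F} {f : F}
    (hf : f ∈ MSp S (D + Finsupp.single Q 1)) (hf' : f ∉ MSp S D) :
    MSp S (D + Finsupp.single Q 1) = MSp S D ⊔ κ ∙ f := by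
  have hle : D ≤ D + Finsupp.single Q 1 := le_add_of_nonneg_right (by simp)
  refine le_antisymm (fun y hy => ?_) (sup_le (MSp_mono S hle) (by simpa using hf))
  have hf0 : f ≠ 0 := by rintro rfl; exact hf' (zero_mem _)
  have key : ∀ z ∈ MSp S (D + Finsupp.single Q 1), (z = 0 ∨ -D Q ≤ ord Q z) → z ∈ MSp S D := by
    intro z hz hQ
    by_cases h0 : z = 0
    · simp [h0]
    refine (mem_MSp h).2 (Or.inr fun P hP => ?_)
    by_cases e : Q = P
    · exact e ▸ hQ.resolve_left h0
    · simpa [e] using ((mem_MSp h).1 hz).resolve_left h0 P hP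
  by_cases hQ : Q ∈ S
  swap
  · exact absurd (MSp_mono' (fun P hP => by
      have e : Q ≠ P := fun e => hQ (e ▸ hP)
      simp [e]) hf) hf'
  by_cases hy0 : y = 0
  · simp [hy0]
  have h1 : ¬ -D Q ≤ ord Q f := fun h => hf' (key f hf (Or.inr h))
  have h2 := ((mem_MSp h).1 hy).resolve_left hy0 Q hQ
  have h3 := ((mem_MSp h).1 hf).resolve_left hf0 Q hQ
  simp only [Finsupp.add_apply, Finsupp.single_eq_same] at h2 h3
  have h4 : y * f⁻¹ ∈ Q.1 := by
    rw [rr_mem_iff h, rr_ord_mul h Q hy0 (inv_ne_zero hf0), rr_ord_inv h]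
    omega
  obtain ⟨c, hc⟩ := cv_res h Q h4
  have e : y - c • f = (y * f⁻¹ - algebraMap κ F c) * f := by
    rw [Algebra.smul_def, sub_mul, inv_mul_cancel_right₀ hf0]
  have h5 : y - c • f ∈ MSp S D := by
    refine key _ (sub_mem hy (Submodule.smul_mem _ c hf)) ?_
    rw [e]
    by_cases h6 : y * f⁻¹ - algebraMap κ F c = 0
    · exact Or.inl (by rw [h6, zero_mul])
    · have := ((rr_lt_one_iff h Q _).1 hc).resolve_left h6
      rw [rr_ord_mul h Q h6 hf0]
      omega
  rw [← sub_add_cancel y (c • f)]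
  exact Submodule.add_mem_sup h5 (Submodule.smul_mem _ c (Submodule.mem_span_singleton_self f))

theorem rr_ldim_step (h : IsFF κ F 1) (D : Dvs κ F) (Q : Place κ F) :
    LSp (D + Finsupp.single Q 1) = LSp D ∨ ldim (D + Finsupp.single Q 1) = ldim D + 1 := by
  have hle : D ≤ D + Finsupp.single Q 1 := le_add_of_nonneg_right (by simp)
  by_cases h1 : LSp (D + Finsupp.single Q 1) ≤ LSp D
  · exact Or.inl (le_antisymm h1 (rr_LSp_mono hle))
  · obtain ⟨f, hf, hf'⟩ := SetLike.not_le_iff_exists.1 h1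
    have := LSp_finite h D
    have h2 := MSp_step h (S := Set.univ) (by rwa [MSp_univ]) (by rwa [MSp_univ])
    rw [MSp_univ, MSp_univ] at h2
    right
    have hf0 : f ≠ 0 := by rintro rfl; exact hf' (zero_mem _)
    have h3 := Submodule.finrank_sup_add_finrank_inf_eq (LSp D) (κ ∙ f)
    rw [(Submodule.disjoint_span_singleton_of_notMem hf').eq_bot, finrank_bot,
      finrank_span_singleton hf0] at h3
    rw [ldim, h2, ldim]
    exact h3

theorem ldim_sub_mono (h : IsFF κ F 1) {D E : Dvs κ F} (hDE : D ≤ E) :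
    ddeg D - ldim D ≤ ddeg E - ldim E := by
  refine rr_induction (p := fun E => ddeg D - ldim D ≤ ddeg E - ldim E) le_rfl
    (fun E Q _ ih => ?_) E hDE
  rw [map_add, rr_ddeg_single]
  rcases rr_ldim_step h E Q with e | e
  · have : ldim (E + Finsupp.single Q 1) = ldim E := by rw [ldim, e, ldim]
    omega
  · omega

/-- a nonzero section makes the divisor effective -/
theorem rr_exists_eff (h : IsFF κ F 1) {D : Dvs κ F} (hD : ldim D ≠ 0) :
    ∃ f : F, f ≠ 0 ∧ 0 ≤ D + dv κ f := by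
  have h1 : LSp D ≠ ⊥ := fun e => hD (by rw [ldim, e, finrank_bot])
  obtain ⟨f, hf, h0⟩ := Submodule.exists_mem_ne_zero_of_ne_bot h1
  refine ⟨f, h0, fun P => ?_⟩
  have := ((rr_mem_LSp h).1 hf).resolve_left h0 P
  simp only [Finsupp.coe_zero, Pi.zero_apply, Finsupp.add_apply, dv_apply h]
  omega

end P019
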