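import Vale.Agent.P019.RRA

/-!
P019 RRC: the codimension of `NSp S D` is the index of speciality (owner helper23).
-/

namespace P019

open IntermediateField

variable {κ F : Type*} [Field κ] [Field F] [Algebra κ F] [IsAlgClosed κ]
  {g : ℕ} {c : ℤ} {S : Set (Place κ F)}

theorem rrc_quot {K M : Type*} [Field K] [AddCommGroup M] [Module K M] {N : Submodule K M} {f : M}
    (hf : f ∉ N) [Module.Finite K (M ⧸ (N ⊔ K ∙ f))] : Module.Finite K (M ⧸ N) ∧
      Module.finrank K (M ⧸ N) = Module.finrank K (M ⧸ (N ⊔ K ∙ f)) + 1 := by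
  have e := Submodule.quotientQuotientEquivQuotient N (N ⊔ K ∙ f) le_sup_left
  have h1 : (N ⊔ K ∙ f).map N.mkQ = K ∙ N.mkQ f := by
    rw [Submodule.map_sup, Submodule.mkQ_map_self, bot_sup_eq, Submodule.map_span,
      Set.image_singleton]
  rw [h1] at e
  have h2 : N.mkQ f ≠ 0 := by simpa using hf
  have := Module.Finite.equiv e.symm
  have h3 := Module.Finite.of_submodule_quotient (K ∙ N.mkQ f)
  refine ⟨h3, ?_⟩
  rw [← (K ∙ N.mkQ f).finrank_quotient_add_finrank, finrank_span_singleton h2, e.finrank_eq]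

/-- a section of exact order at `Q` -/
theorem rrc_exact (h : IsFF κ F 1) (hR : Rie κ F g c) (hS' : Sᶜ.Nonempty) (D : Dvs κ F)
    {Q : Place κ F} (hQ : Q ∈ S) : ∃ f : F, f ≠ 0 ∧ f ∈ MSp S D ∧ ord Q f = -D Q := by
  obtain ⟨P₀, hP₀⟩ := hS'
  have hne : ∀ P ∈ S, P₀ ≠ P := fun P hP e => hP₀ (e ▸ hP)
  set E := D + Finsupp.single P₀ (c + 1 - ddeg D) with hE
  have d1 : ddeg E = c + 1 := by rw [hE, map_add, rr_ddeg_single]; ring
  have d2 : ddeg (E - Finsupp.single Q 1) = c := by rw [map_sub, d1, rr_ddeg_single]; ring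
  have l1 := hR.2 E (by omega)
  have l2 := hR.2 _ d2.ge
  have h1 : ¬ LSp E ≤ LSp (E - Finsupp.single Q 1) := by
    intro hle
    have := LSp_finite h (E - Finsupp.single Q 1)
    have : ldim E ≤ ldim (E - Finsupp.single Q 1) := Submodule.finrank_mono hle
    omega
  obtain ⟨f, hf, hf'⟩ := SetLike.not_le_iff_exists.1 h1
  have h0 : f ≠ 0 := by rintro rfl; exact hf' (zero_mem _)
  have h2 := ((rr_mem_LSp h).1 hf).resolve_left h0
  have h3 : ∀ P ∈ S, E P = D P := fun P hP => by simp [hE, hne P hP]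
  refine ⟨f, h0, (mem_MSp h).2 (Or.inr fun P hP => h3 P hP ▸ h2 P), ?_⟩
  by_contra hc
  refine hf' ((rr_mem_LSp h).2 (Or.inr fun P => ?_))
  by_cases e : Q = P
  · subst e
    have := h2 Q
    have := h3 Q hQ
    simp only [Finsupp.coe_sub, Pi.sub_apply, Finsupp.single_eq_same]
    omega
  · simpa [e] using h2 P

omit [IsAlgClosed κ] in
theorem rrc_out {D : Dvs κ F} {Q : Place κ F} (hQ : Q ∈ S) :
    MSp Sᶜ (D + Finsupp.single Q 1) ≤ MSp Sᶜ D :=
  MSp_mono' fun P hP => by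
    have e : Q ≠ P := fun e => hP (e ▸ hQ)
    simp [e]

theorem rrc_cover (h : IsFF κ F 1) (hR : Rie κ F g c) (hS' : Sᶜ.Nonempty)
    {D E : Dvs κ F} {Q : Place κ F} (hQS : Q ∈ S) (hQ : D Q < E Q) :
    NSp S (D + Finsupp.single Q 1) ≤ NSp S D ⊔ NSp S E := by
  obtain ⟨f, h0, hf, ho⟩ := rrc_exact h hR hS' ((D + Finsupp.single Q 1) ⊓ E) hQS
  have h1 : f ∉ MSp S D := fun hD => by
    have := ((mem_MSp h).1 hD).resolve_left h0 Q hQS
    simp only [Finsupp.inf_apply, Finsupp.add_apply, Finsupp.single_eq_same] at ho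
    omega
  refine sup_le ?_ ((rrc_out hQS).trans (le_sup_right.trans le_sup_left))
  rw [MSp_step h (MSp_mono S inf_le_left hf) h1]
  refine sup_le_sup le_sup_left (le_trans ?_ le_sup_left)
  simpa using MSp_mono S inf_le_right hf

theorem rrc_step' (h : IsFF κ F 1) (hR : Rie κ F g c) (hS' : Sᶜ.Nonempty)
    (D : Dvs κ F) {Q : Place κ F} (hQ : Q ∈ S) :
    (NSp S (D + Finsupp.single Q 1) = NSp S D ∧ ldim (D + Finsupp.single Q 1) = ldim D + 1) ∨
      (ldim (D + Finsupp.single Q 1) = ldim D ∧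
        ∃ f, f ∉ NSp S D ∧ NSp S (D + Finsupp.single Q 1) = NSp S D ⊔ κ ∙ f) := by
  have hle : D ≤ D + Finsupp.single Q 1 := le_add_of_nonneg_right (by simp)
  have hout : MSp Sᶜ (D + Finsupp.single Q 1) = MSp Sᶜ D :=
    le_antisymm (rrc_out hQ) (MSp_mono _ hle)
  by_cases h1 : LSp (D + Finsupp.single Q 1) ≤ LSp D
  · right
    refine ⟨by rw [ldim, le_antisymm h1 (rr_LSp_mono hle), ldim], ?_⟩
    obtain ⟨f, h0, hf, ho⟩ := rrc_exact h hR hS' (D + Finsupp.single Q 1) hQ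
    have h2 : f ∉ MSp S D := fun hD => by
      have := ((mem_MSp h).1 hD).resolve_left h0 Q hQ
      simp only [Finsupp.add_apply, Finsupp.single_eq_same] at ho
      omega
    refine ⟨f, fun hN => h2 ?_, ?_⟩
    · obtain ⟨a, ha, b, hb, rfl⟩ := Submodule.mem_sup.1 hN
      have h3 : b ∈ LSp (D + Finsupp.single Q 1) := by
        rw [← MSp_inf h S]
        exact ⟨by simpa using sub_mem hf (MSp_mono S hle ha), MSp_mono _ hle hb⟩
      exact add_mem ha (LSp_le_MSp S D (h1 h3))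
    · rw [NSp, NSp, MSp_step h hf h2, hout, sup_right_comm]
  · left
    refine ⟨?_, (rr_ldim_step h D Q).resolve_left fun e => h1 e.le⟩
    obtain ⟨f, hf, hf'⟩ := SetLike.not_le_iff_exists.1 h1
    have h2 : f ∈ MSp Sᶜ D := hout ▸ LSp_le_MSp _ _ hf
    have h3 : f ∉ MSp S D := fun h3 => hf' (by rw [← MSp_inf h S]; exact ⟨h3, h2⟩)
    rw [NSp, NSp, MSp_step h (LSp_le_MSp _ _ hf) h3, hout, sup_assoc,
      sup_eq_right.2 (show κ ∙ f ≤ MSp Sᶜ D by simpa using h2)]

theorem rrc_step (h : IsFF κ F 1) (hR : Rie κ F g c) (hS : S.Nonempty) (hS' : Sᶜ.Nonempty)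
    (D : Dvs κ F) (Q : Place κ F) :
    (NSp S (D + Finsupp.single Q 1) = NSp S D ∧ ldim (D + Finsupp.single Q 1) = ldim D + 1) ∨
      (ldim (D + Finsupp.single Q 1) = ldim D ∧
        ∃ f, f ∉ NSp S D ∧ NSp S (D + Finsupp.single Q 1) = NSp S D ⊔ κ ∙ f) := by
  by_cases hQ : Q ∈ S
  · exact rrc_step' h hR hS' D hQ
  · simpa only [NSp_compl] using rrc_step' (S := Sᶜ) h hR (by rwa [compl_compl]) D hQ

theorem rrc_top (h : IsFF κ F 1) (hR : Rie κ F g c) (hS : S.Nonempty) (hS' : Sᶜ.Nonempty)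
    {D : Dvs κ F} (hD : c ≤ ddeg D) : NSp S D = ⊤ := by
  have key : ∀ E, D ≤ E → NSp S E = NSp S D := by
    refine rr_induction rfl fun E Q hE ih => ?_
    rcases rrc_step h hR hS hS' E Q with h1 | h1
    · rw [h1.1, ih]
    · have h2 := rr_ddeg_mono hE
      have h3 := hR.1 (E + Finsupp.single Q 1)
      have h4 := hR.2 E (by omega)
      rw [map_add, rr_ddeg_single, h1.1] at h3
      omega
  refine eq_top_iff.2 fun f _ => ?_
  rw [← key (D ⊔ -dv κ f) le_sup_left]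
  exact Submodule.mem_sup_left (LSp_le_MSp _ _ (rr_LSp_mono le_sup_right (self_mem_LSp h f)))

/-- `NSp S (D + Q)` is covered by `NSp S D` and `NSp S E` as soon as `D Q < E Q` -/
theorem rr_cover (h : IsFF κ F 1) (hR : Rie κ F g c) (hS : S.Nonempty) (hS' : Sᶜ.Nonempty)
    {D E : Dvs κ F} {Q : Place κ F} (hQ : D Q < E Q) :
    NSp S (D + Finsupp.single Q 1) ≤ NSp S D ⊔ NSp S E := by
  by_cases hQS : Q ∈ S
  · exact rrc_cover h hR hS' hQS hQ
  · simpa only [NSp_compl] using rrc_cover (S := Sᶜ) h hR (by rwa [compl_compl]) hQS hQ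

theorem rr_codim (h : IsFF κ F 1) (hR : Rie κ F g c) (hS : S.Nonempty) (hS' : Sᶜ.Nonempty)
    (D : Dvs κ F) : Module.Finite κ (F ⧸ NSp S D) ∧
      (ldim D : ℤ) = ddeg D + 1 - g + Module.finrank κ (F ⧸ NSp S D) := by
  obtain ⟨Q, -⟩ := id hS
  have key : ∀ (k : ℕ) (D : Dvs κ F), c ≤ ddeg D + k → Module.Finite κ (F ⧸ NSp S D) ∧
      (ldim D : ℤ) = ddeg D + 1 - g + Module.finrank κ (F ⧸ NSp S D) := by
    intro k
    induction k with
    | zero =>
      intro D hD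
      rw [Nat.cast_zero, add_zero] at hD
      rw [rrc_top h hR hS hS' hD, hR.2 D hD]
      exact ⟨inferInstance, by rw [Module.finrank_zero_of_subsingleton]; simp⟩
    | succ k ih =>
      intro D hD
      obtain ⟨h1, h2⟩ := ih (D + Finsupp.single Q 1) (by
        rw [map_add, rr_ddeg_single]; push_cast at hD; omega)
      rw [map_add, rr_ddeg_single] at h2
      rcases rrc_step h hR hS hS' D Q with ⟨e1, e2⟩ | ⟨e2, f, hf, e1⟩
      · rw [e1] at h1 h2
        exact ⟨h1, by omega⟩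
      · rw [e1] at h1 h2
        obtain ⟨h3, h4⟩ := rrc_quot hf
        exact ⟨h3, by omega⟩
  exact key (c - ddeg D).toNat D (by omega)

end P019
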