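import Vale.Agent.P019.Basic

/-!
P019 ResB: residue fields, composite valuation rings, limits of valuation rings.
-/

namespace P019

variable {ℓ : ℕ} {F : Type*} [Field F]

theorem resb_coe (O : ValuationSubring F) (a : O) :
    res O (a : F) = IsLocalRing.residue O a := dif_pos a.2

theorem resb_lt_one_iff (O : ValuationSubring F) (a : F) :
    O.valuation a < 1 ↔ a = 0 ∨ a⁻¹ ∉ O :=
  O.mem_nonunits_iff.symm.trans O.mem_nonunits_iff_or

theorem resb_eq_one_iff (O : ValuationSubring F) (a : F) :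
    O.valuation a = 1 ↔ a ∈ O ∧ ¬ O.valuation a < 1 := by
  rw [← O.valuation_le_one_iff, not_lt, le_antisymm_iff]

theorem resb_mem {O : ValuationSubring F} {a : F} (ha : O.valuation a = 1) : a ∈ O :=
  (O.valuation_le_one_iff a).1 ha.le

theorem resb_mem' {O : ValuationSubring F} {a : F} (ha : O.valuation a < 1) : a ∈ O :=
  (O.valuation_le_one_iff a).1 ha.le

theorem resb_ne {O : ValuationSubring F} {a : F} (ha : O.valuation a = 1) : a ≠ 0 := by
  rintro rfl
  rw [map_zero] at ha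
  exact zero_ne_one ha

theorem resb_inv {O : ValuationSubring F} {a : F} (ha : O.valuation a = 1) :
    O.valuation a⁻¹ = 1 := by rw [map_inv₀, ha, inv_one]

theorem res_add (O : ValuationSubring F) {a b : F} (ha : a ∈ O) (hb : b ∈ O) :
    res O (a + b) = res O a + res O b := by
  have h := map_add (IsLocalRing.residue O) ⟨a, ha⟩ ⟨b, hb⟩
  rwa [← resb_coe, ← resb_coe, ← resb_coe] at h
theorem res_sub (O : ValuationSubring F) {a b : F} (ha : a ∈ O) (hb : b ∈ O) :
    res O (a - b) = res O a - res O b := by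
  have h := map_sub (IsLocalRing.residue O) ⟨a, ha⟩ ⟨b, hb⟩
  rwa [← resb_coe, ← resb_coe, ← resb_coe] at h
theorem res_mul (O : ValuationSubring F) {a b : F} (ha : a ∈ O) (hb : b ∈ O) :
    res O (a * b) = res O a * res O b := by
  have h := map_mul (IsLocalRing.residue O) ⟨a, ha⟩ ⟨b, hb⟩
  rwa [← resb_coe, ← resb_coe, ← resb_coe] at h
theorem res_pow (O : ValuationSubring F) {a : F} (ha : a ∈ O) (n : ℕ) :
    res O (a ^ n) = res O a ^ n := by
  have h := map_pow (IsLocalRing.residue O) ⟨a, ha⟩ n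
  rwa [← resb_coe, ← resb_coe] at h
theorem res_inv (O : ValuationSubring F) {a : F} (ha : O.valuation a = 1) :
    res O a⁻¹ = (res O a)⁻¹ := by
  refine eq_inv_of_mul_eq_one_left ?_
  rw [← res_mul O (resb_mem (resb_inv ha)) (resb_mem ha), inv_mul_cancel₀ (resb_ne ha)]
  exact (resb_coe O 1).trans (map_one _)
@[simp] theorem res_zero (O : ValuationSubring F) : res O 0 = 0 := by
  exact (resb_coe O 0).trans (map_zero _)
@[simp] theorem res_one (O : ValuationSubring F) : res O 1 = 1 := by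
  exact (resb_coe O 1).trans (map_one _)
theorem res_natCast (O : ValuationSubring F) (n : ℕ) : res O n = n := by
  exact (resb_coe O n).trans (map_natCast _ n)
theorem res_eq_zero_iff (O : ValuationSubring F) {a : F} (ha : a ∈ O) :
    res O a = 0 ↔ O.valuation a < 1 := by
  exact ((congrArg (· = 0) (resb_coe O ⟨a, ha⟩)).to_iff.trans
    (IsLocalRing.residue_eq_zero_iff _)).trans (O.valuation_lt_one_iff _)
theorem res_eq_iff (O : ValuationSubring F) {a b : F} (ha : a ∈ O) (hb : b ∈ O) :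
    res O a = res O b ↔ O.valuation (a - b) < 1 := by
  rw [← res_eq_zero_iff O (sub_mem ha hb), res_sub O ha hb, sub_eq_zero]
theorem res_surj (O : ValuationSubring F) (r : Res O) : ∃ a ∈ O, res O a = r := by
  obtain ⟨a, rfl⟩ := IsLocalRing.residue_surjective r
  exact ⟨a, a.2, resb_coe O a⟩
theorem resb_unit {O : ValuationSubring F} {a : F} (ha : a ∈ O) (h : res O a ≠ 0) :
    O.valuation a = 1 :=
  (resb_eq_one_iff O a).2 ⟨ha, fun h' => h ((res_eq_zero_iff O ha).2 h')⟩

theorem resb_res_ne {O : ValuationSubring F} {a : F} (ha : O.valuation a = 1) : res O a ≠ 0 :=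
  fun h => ha.not_lt ((res_eq_zero_iff O (resb_mem ha)).1 h)

theorem resb_neg (O : ValuationSubring F) {a : F} (ha : a ∈ O) : res O (-a) = -res O a := by
  rw [← zero_sub, res_sub O (zero_mem O) ha, res_zero, zero_sub]

theorem resb_monic (O : ValuationSubring F) {p : Polynomial F} (hp : p.Monic)
    (hc : ∀ i, p.coeff i ∈ O) {a : F} (ha : p.eval a = 0) : a ∈ O := by
  obtain ⟨q, hq, -, hm⟩ := Polynomial.lifts_and_natDegree_eq_and_monic (f := algebraMap O F)
    ((Polynomial.lifts_iff_coeff_lifts p).2 fun n => ⟨⟨_, hc n⟩, rfl⟩) hp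
  have hi : IsIntegral O a := ⟨q, hm, by rw [← Polynomial.eval_map, hq, ha]⟩
  obtain ⟨y, rfl⟩ := IsIntegrallyClosed.isIntegral_iff.1 hi
  exact y.2

theorem mem_resK {k : Type*} [Field k] [Algebra k F] (O : ValuationSubring F) (r : Res O) :
    r ∈ resK k O ↔ ∃ c : k, algebraMap k F c ∈ O ∧ r = res O (algebraMap k F c) := by
  refine ⟨fun h => ?_, fun ⟨c, _, hc⟩ => Subfield.subset_closure ⟨c, hc⟩⟩
  induction h using Subfield.closure_induction with
  | mem x hx =>
    obtain ⟨c, rfl⟩ := hx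
    by_cases hc : algebraMap k F c ∈ O
    · exact ⟨c, hc, rfl⟩
    · exact ⟨0, by rw [map_zero]; exact zero_mem O, by rw [map_zero, res_zero]; exact dif_neg hc⟩
  | one => exact ⟨1, by rw [map_one]; exact one_mem O, by rw [map_one, res_one]⟩
  | add x y _ _ hx hy =>
    obtain ⟨c, hc, rfl⟩ := hx
    obtain ⟨d, hd, rfl⟩ := hy
    exact ⟨c + d, by rw [map_add]; exact add_mem hc hd, by rw [map_add, res_add O hc hd]⟩
  | neg x _ hx =>
    obtain ⟨c, hc, rfl⟩ := hx
    exact ⟨-c, by rw [map_neg]; exact neg_mem hc, by rw [map_neg, resb_neg O hc]⟩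
  | inv x _ hx =>
    obtain ⟨c, hc, rfl⟩ := hx
    by_cases h0 : res O (algebraMap k F c) = 0
    · exact ⟨c, hc, by rw [h0, inv_zero]⟩
    · have h1 := resb_unit hc h0
      exact ⟨c⁻¹, by rw [map_inv₀]; exact resb_mem (resb_inv h1), by rw [map_inv₀, res_inv O h1]⟩
  | mul x y _ _ hx hy =>
    obtain ⟨c, hc, rfl⟩ := hx
    obtain ⟨d, hd, rfl⟩ := hy
    exact ⟨c * d, by rw [map_mul]; exact mul_mem hc hd, by rw [map_mul, res_mul O hc hd]⟩
/-- roots of monic polynomials with coefficients in a valuation ring lie in it; lift and factor -/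
theorem resK_isAlgClosed (k : Type*) [Field k] [Algebra k F] [IsAlgClosed k]
    (O : ValuationSubring F) : IsAlgClosed (resK k O) := by
  let A : ValuationSubring k := O.comap (algebraMap k F)
  let φ : A →+* resK k O :=
    { toFun := fun c => ⟨res O (algebraMap k F c), (mem_resK O _).2 ⟨c, c.2, rfl⟩⟩
      map_one' := Subtype.ext (by simp)
      map_mul' := fun a b => Subtype.ext (by
        change res O (algebraMap k F (a * b)) = _
        rw [map_mul]
        exact res_mul O a.2 b.2)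
      map_zero' := Subtype.ext (by simp)
      map_add' := fun a b => Subtype.ext (by
        change res O (algebraMap k F (a + b)) = _
        rw [map_add]
        exact res_add O a.2 b.2) }
  have hφ : Function.Surjective φ := fun r => by
    obtain ⟨c, hc, h⟩ := (mem_resK O r.1).1 r.2
    exact ⟨⟨c, hc⟩, Subtype.ext h.symm⟩
  refine IsAlgClosed.of_exists_root _ fun p hp hi => ?_
  obtain ⟨q, hq, hd, hm⟩ := Polynomial.lifts_and_natDegree_eq_and_monic (f := φ)
    ((Polynomial.lifts_iff_coeff_lifts p).2 fun n => hφ _) hp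
  have hm' := hm.map (algebraMap A k)
  obtain ⟨a, ha⟩ := IsAlgClosed.exists_root (q.map (algebraMap A k)) (by
    refine (Polynomial.natDegree_pos_iff_degree_pos.1 ?_).ne'
    rw [hm.natDegree_map, hd]
    exact hi.natDegree_pos)
  have haA : a ∈ A := resb_monic A hm' (fun i => by
    rw [Polynomial.coeff_map]
    exact (q.coeff i).2) ha
  have h0 : q.eval ⟨a, haA⟩ = 0 := by
    apply A.subtype_injective
    rw [map_zero, ← Polynomial.eval₂_at_apply, ← Polynomial.eval_map]
    exact ha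
  refine ⟨φ ⟨a, haA⟩, ?_⟩
  rw [← hq, Polynomial.eval_map, Polynomial.eval₂_at_apply, h0, map_zero]
theorem mem_of_monic (O : ValuationSubring F) {p : Polynomial F} (hp : p.Monic)
    (hc : ∀ i, p.coeff i ∈ O) {a : F} (ha : p.eval a = 0) : a ∈ O := by
  exact resb_monic O hp hc ha
theorem val_eq_one_of_pow (O : ValuationSubring F) {a : F} {n : ℕ} (hn : n ≠ 0)
    (h : O.valuation (a ^ n) = 1) : O.valuation a = 1 := by
  rwa [map_pow, pow_eq_one_iff_of_nonneg zero_le hn] at h
theorem val_comap {E : Type*} [Field E] (f : E →+* F) (O : ValuationSubring F) (a b : E) :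
    (O.comap f).valuation a ≤ (O.comap f).valuation b ↔
      O.valuation (f a) ≤ O.valuation (f b) := by
  have h : (O.comap f).valuation.IsEquiv (O.valuation.comap f) :=
    Valuation.isEquiv_iff_val_le_one.2 fun {x} => by
      rw [Valuation.comap_apply, ValuationSubring.valuation_le_one_iff,
        ValuationSubring.valuation_le_one_iff, ValuationSubring.mem_comap]
  exact h a b
theorem val_eq_one_of_le {W O : ValuationSubring F} (h : W ≤ O) {a : F}
    (ha : W.valuation a = 1) : O.valuation a = 1 := by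
  rw [← W.mapOfLE_valuation_apply O h, ha, map_one]
theorem val_lt_one_of_le {W O : ValuationSubring F} (h : W ≤ O) {a : F}
    (ha : O.valuation a < 1) : W.valuation a < 1 := by
  exact W.mem_nonunits_iff.1
    (ValuationSubring.nonunits_le_nonunits.2 h (O.mem_nonunits_iff.2 ha))

theorem resb_prin {O : ValuationSubring F} {a : F} (ha : O.valuation (a - 1) < 1) :
    O.valuation a = 1 ∧ res O a = 1 := by
  have h1 : a ∈ O := by simpa using add_mem (resb_mem' ha) (one_mem O)
  have h2 : res O a = 1 := ((res_eq_iff O h1 (one_mem O)).2 ha).trans (res_one O)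
  exact ⟨resb_unit h1 (h2 ▸ one_ne_zero), h2⟩

theorem resb_div {O : ValuationSubring F} {a b : F} (ha : O.valuation a = 1)
    (hb : O.valuation b = 1) (h : res O a = res O b) : O.valuation (a / b - 1) < 1 := by
  have h1 := resb_mem (resb_inv hb)
  rw [div_eq_mul_inv, ← res_eq_iff O (mul_mem (resb_mem ha) h1) (one_mem O),
    res_mul O (resb_mem ha) h1, res_inv O hb, h, res_one, mul_inv_cancel₀ (resb_res_ne hb)]

theorem resb_cl [Fact ℓ.Prime] {O : ValuationSubring F} {a b : F} (ha : O.valuation a = 1)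
    (hb : O.valuation b = 1) (h : cl ℓ a = cl ℓ b) : cl ℓ (res O a) = cl ℓ (res O b) := by
  obtain ⟨c, -, rfl⟩ := (cl_eq_iff (resb_ne ha) (resb_ne hb)).1 h
  rw [map_mul, hb, one_mul] at ha
  have hc := val_eq_one_of_pow O (Fact.out : ℓ.Prime).ne_zero ha
  rw [res_mul O (resb_mem hb) (resb_mem ha), res_pow O (resb_mem hc),
    cl_mul (resb_res_ne hb) (pow_ne_zero _ (resb_res_ne hc)), cl_pow, ZMod.natCast_self, zero_smul,
    add_zero]

/-- reduction of unit classes -/
theorem resb_red [Fact ℓ.Prime] (O : ValuationSubring F) :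
    ∃ f : Uv ℓ O →ₗ[ZMod ℓ] V ℓ (Res O), ∀ (v : Uv ℓ O) (a : F), O.valuation a = 1 →
      cl ℓ a = v → f v = cl ℓ (res O a) := by
  choose s hs hs' using fun v : Uv ℓ O => (mem_Uv_iff O v.1).1 v.2
  have key : ∀ (v : Uv ℓ O) (a : F), O.valuation a = 1 → cl ℓ a = v →
      cl ℓ (res O (s v)) = cl ℓ (res O a) := fun v a ha h =>
    resb_cl (hs v) ha ((hs' v).trans h.symm)
  refine ⟨(AddMonoidHom.mk' (fun v => cl ℓ (res O (s v))) fun v w => ?_).toZModLinearMap ℓ, key⟩
  rw [key (v + w) (s v * s w) (by rw [map_mul, hs, hs, one_mul])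
      (by rw [cl_mul (resb_ne (hs v)) (resb_ne (hs w)), hs', hs', Submodule.coe_add]),
    res_mul O (resb_mem (hs v)) (resb_mem (hs w)),
    cl_mul (resb_res_ne (hs v)) (resb_res_ne (hs w))]

/-- for a unit `a`: `[a] ∈ N_O` iff the residue is an `ℓ`-th power -/
theorem cl_mem_Nv_iff [Fact ℓ.Prime] (O : ValuationSubring F) {a : F} (ha : O.valuation a = 1) :
    cl ℓ a ∈ Nv ℓ O ↔ cl ℓ (res O a) = 0 := by
  rw [mem_Nv_iff]
  constructor
  · rintro ⟨b, hb, h⟩
    rw [← resb_cl (resb_prin hb).1 ha h, (resb_prin hb).2, cl_one]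
  · intro h
    obtain ⟨r, hr⟩ := (cl_eq_zero_iff (resb_res_ne ha)).1 h
    obtain ⟨c, hc, rfl⟩ := res_surj O r
    rw [← res_pow O hc] at hr
    have h1 := resb_unit (pow_mem hc ℓ) (hr ▸ resb_res_ne ha)
    refine ⟨a / c ^ ℓ, resb_div ha h1 hr.symm, ?_⟩
    rw [cl_div (resb_ne ha) (resb_ne h1), cl_pow, ZMod.natCast_self, zero_smul, sub_zero]
/-- restriction of a character in `D_O` to the residue field -/
theorem exists_resChar (O : ValuationSubring F) {τ : X ℓ F} (hτ : τ ∈ Dv ℓ O) :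
    ∃ ρ : X ℓ (Res O), ∀ a, O.valuation a = 1 → ρ (cl ℓ (res O a)) = τ (cl ℓ a) := by
  classical
  have key : ∀ a b, O.valuation a = 1 → O.valuation b = 1 → res O a = res O b →
      τ (cl ℓ a) = τ (cl ℓ b) := fun a b ha hb h => by
    have h1 := (mem_Dv_iff O τ).1 hτ _ (resb_div ha hb h)
    rwa [cl_div (resb_ne ha) (resb_ne hb), map_sub, sub_eq_zero] at h1
  choose s hs hs' using res_surj O
  have hu : ∀ r, r ≠ 0 → O.valuation (s r) = 1 := fun r hr =>
    resb_unit (hs r) (by rwa [hs'])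
  obtain ⟨ρ, hρ⟩ := exists_char (ℓ := ℓ) (fun r : Res O => if r = 0 then 0 else τ (cl ℓ (s r)))
    (if_pos rfl) fun a b ha hb => by
      rw [if_neg ha, if_neg hb, if_neg (mul_ne_zero ha hb), ← map_add,
        ← cl_mul (resb_ne (hu a ha)) (resb_ne (hu b hb))]
      refine key _ _ (hu _ (mul_ne_zero ha hb)) (by rw [map_mul, hu a ha, hu b hb, one_mul]) ?_
      rw [res_mul O (hs a) (hs b), hs', hs', hs']
  refine ⟨ρ, fun a ha => ?_⟩
  rw [hρ, if_neg (resb_res_ne ha)]
  exact key _ _ (hu _ (resb_res_ne ha)) ha (hs' _)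
/-- lifting a character of the residue field (extend a functional from `U_O`) -/
theorem exists_liftChar [Fact ℓ.Prime] (O : ValuationSubring F) (ρ : X ℓ (Res O)) :
    ∃ τ ∈ Dv ℓ O, ∀ a, O.valuation a = 1 → ρ (cl ℓ (res O a)) = τ (cl ℓ a) := by
  obtain ⟨f, hf⟩ := resb_red (ℓ := ℓ) O
  obtain ⟨τ, hτ⟩ := LinearMap.exists_extend (ρ ∘ₗ f)
  have key : ∀ a, O.valuation a = 1 → ρ (cl ℓ (res O a)) = τ (cl ℓ a) := fun a ha => by
    have h1 := LinearMap.congr_fun hτ ⟨cl ℓ a, cl_mem_Hs ha⟩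
    rw [LinearMap.comp_apply, LinearMap.comp_apply, hf _ a ha rfl] at h1
    exact h1.symm
  refine ⟨τ, (mem_Dv_iff O τ).2 fun a ha => ?_, key⟩
  rw [← key a (resb_prin ha).1, (resb_prin ha).2, cl_one, map_zero]
theorem CP_res_iff (k : Type*) [Field k] [Algebra k F] [IsAlgClosed k] [Fact ℓ.Prime]
    (O : ValuationSubring F) {τ τ' : X ℓ F} (hτ : τ ∈ Dv ℓ O) (hτ' : τ' ∈ Dv ℓ O)
    {ρ ρ' : X ℓ (Res O)} (h : ∀ a, O.valuation a = 1 → ρ (cl ℓ (res O a)) = τ (cl ℓ a))
    (h' : ∀ a, O.valuation a = 1 → ρ' (cl ℓ (res O a)) = τ' (cl ℓ a)) :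
    CP τ τ' ↔ CP ρ ρ' := by
  have hD := (mem_Dv_iff O τ).1 hτ
  have hD' := (mem_Dv_iff O τ').1 hτ'
  constructor
  · intro H r
    by_cases h0 : r = 0
    · simp [h0]
    by_cases h1 : 1 - r = 0
    · simp [h1]
    obtain ⟨a, ha, rfl⟩ := res_surj O r
    rw [← res_one O, ← res_sub O (one_mem O) ha] at h1 ⊢
    have u0 := resb_unit ha h0
    have u1 := resb_unit (sub_mem (one_mem O) ha) h1
    rw [h _ u0, h _ u1, h' _ u0, h' _ u1]
    exact H a
  · intro H x
    rcases lt_trichotomy (O.valuation x) 1 with hx | hx | hx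
    · have h1 : O.valuation (1 - x - 1) < 1 := by rwa [sub_sub_cancel_left, Valuation.map_neg]
      rw [hD _ h1, hD' _ h1, mul_zero, zero_mul]
    · have hm := sub_mem (one_mem O) (resb_mem hx)
      by_cases h1 : O.valuation (1 - x) < 1
      · rw [Valuation.map_sub_swap] at h1
        rw [hD _ h1, hD' _ h1, mul_zero, zero_mul]
      · have u1 := (resb_eq_one_iff O _).2 ⟨hm, h1⟩
        rw [← h _ hx, ← h _ u1, ← h' _ hx, ← h' _ u1, res_sub O (one_mem O) (resb_mem hx), res_one]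
        exact H _
    · have h0 : x ≠ 0 := by
        rintro rfl
        rw [map_zero] at hx
        exact not_lt_zero hx
      have h1 : O.valuation (1 - x⁻¹ - 1) < 1 := by
        rw [sub_sub_cancel_left, Valuation.map_neg, map_inv₀]
        exact inv_lt_one_of_one_lt₀ hx
      have h2 : 1 - x = -x * (1 - x⁻¹) := by
        field_simp
        ring
      rw [h2, cl_mul (neg_ne_zero.2 h0) (resb_ne (resb_prin h1).1), cl_neg k, map_add, map_add,
        hD _ h1, hD' _ h1, add_zero, add_zero]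
theorem resb_descend {k A B B' : Type*} [Field k] [AddCommGroup A] [AddCommGroup B]
    [AddCommGroup B'] [Module k A] [Module k B] [Module k B'] (f : A →ₗ[k] B) (g : A →ₗ[k] B')
    (hf : Function.Surjective f) (hg : Function.Surjective g)
    (h : LinearMap.ker f = LinearMap.ker g) : ∃ Ψ : B ≃ₗ[k] B', ∀ a, Ψ (f a) = g a :=
  ⟨(f.quotKerEquivOfSurjective hf).symm ≪≫ₗ Submodule.quotEquivOfEq _ _ h ≪≫ₗ
    g.quotKerEquivOfSurjective hg, fun a => by simp⟩

theorem resb_red' [Fact ℓ.Prime] (O : ValuationSubring F) :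
    ∃ f : Uv ℓ O →ₗ[ZMod ℓ] V ℓ (Res O), Function.Surjective f ∧ (∀ v, f v = 0 ↔ v.1 ∈ Nv ℓ O) ∧
      ∀ (v : Uv ℓ O) (a : F), O.valuation a = 1 → cl ℓ a = v → f v = cl ℓ (res O a) := by
  obtain ⟨f, hf⟩ := resb_red (ℓ := ℓ) O
  refine ⟨f, fun w => ?_, fun v => ?_, hf⟩
  · obtain ⟨r, hr, rfl⟩ := cl_surj w
    obtain ⟨a, ha, rfl⟩ := res_surj O r
    have h1 := resb_unit ha hr
    exact ⟨⟨cl ℓ a, cl_mem_Hs h1⟩, hf _ a h1 rfl⟩
  · obtain ⟨a, ha, h⟩ := (mem_Uv_iff O v.1).1 v.2
    rw [hf v a ha h, ← h, cl_mem_Nv_iff O ha]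

/-- corresponding valuation rings have isomorphic residue `V` (both are `U / N`) -/
theorem Corr.exists_res [Fact ℓ.Prime] {K L : Type*} [Field K] [Field L]
    {Θ : V ℓ K ≃ₗ[ZMod ℓ] V ℓ L} {O : ValuationSubring K} {O' : ValuationSubring L}
    (h : Corr ℓ Θ O O') :
    ∃ Ψ : V ℓ (Res O) ≃ₗ[ZMod ℓ] V ℓ (Res O'), ∀ (a : K) (b : L), O.valuation a = 1 →
      O'.valuation b = 1 → Θ (cl ℓ a) = cl ℓ b → Ψ (cl ℓ (res O a)) = cl ℓ (res O' b) := by
  obtain ⟨f, f1, f2, f3⟩ := resb_red' (ℓ := ℓ) O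
  obtain ⟨g, g1, g2, g3⟩ := resb_red' (ℓ := ℓ) O'
  let e := Θ.ofSubmodules _ _ h.1
  obtain ⟨Ψ, hΨ⟩ := resb_descend f (g ∘ₗ e.toLinearMap) f1 (g1.comp e.surjective) (by
    ext v
    rw [LinearMap.mem_ker, LinearMap.mem_ker, f2, LinearMap.comp_apply, g2, ← h.2]
    exact (Submodule.mem_map_equiv _ (e := Θ)).trans (by simp [e]) |>.symm)
  refine ⟨Ψ, fun a b ha hb hab => ?_⟩
  rw [← f3 ⟨cl ℓ a, cl_mem_Hs ha⟩ a ha rfl, hΨ]
  exact g3 _ b hb hab.symm

/-- composite of `O` with a valuation ring of its residue field -/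
theorem exists_comp (O : ValuationSubring F) (u : ValuationSubring (Res O)) :
    ∃ W : ValuationSubring F, W ≤ O ∧ ∀ a ∈ O, (a ∈ W ↔ res O a ∈ u) := by
  refine ⟨{ carrier := {a | a ∈ O ∧ res O a ∈ u}
            mul_mem' := fun ha hb => ⟨mul_mem ha.1 hb.1, ?_⟩
            one_mem' := ⟨one_mem O, ?_⟩
            add_mem' := fun ha hb => ⟨add_mem ha.1 hb.1, ?_⟩
            zero_mem' := ⟨zero_mem O, ?_⟩
            neg_mem' := fun ha => ⟨neg_mem ha.1, ?_⟩
            mem_or_inv_mem' := fun x => ?_ }, fun _ ha => ha.1, fun a ha => and_iff_right ha⟩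
  · rw [res_mul O ha.1 hb.1]
    exact mul_mem ha.2 hb.2
  · rw [res_one]
    exact one_mem u
  · rw [res_add O ha.1 hb.1]
    exact add_mem ha.2 hb.2
  · rw [res_zero]
    exact zero_mem u
  · rw [resb_neg O ha.1]
    exact neg_mem ha.2
  · have key : ∀ y, O.valuation y < 1 → y ∈ O ∧ res O y ∈ u := fun y hy =>
      ⟨resb_mem' hy, by rw [(res_eq_zero_iff O (resb_mem' hy)).2 hy]; exact zero_mem u⟩
    rcases lt_trichotomy (O.valuation x) 1 with hx | hx | hx
    · exact Or.inl (key x hx)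
    · refine (u.mem_or_inv_mem (res O x)).imp (fun h => ⟨resb_mem hx, h⟩)
        fun h => ⟨resb_mem (resb_inv hx), ?_⟩
      rwa [res_inv O hx]
    · exact Or.inr (key _ (by rw [map_inv₀]; exact inv_lt_one_of_one_lt₀ hx))
theorem exists_quot {W O : ValuationSubring F} (h : W ≤ O) :
    ∃ u : ValuationSubring (Res O), ∀ a ∈ O, (a ∈ W ↔ res O a ∈ u) := by
  refine ⟨{ carrier := {r | ∃ a ∈ W, res O a = r}
            mul_mem' := ?_
            one_mem' := ⟨1, one_mem W, res_one O⟩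
            add_mem' := ?_
            zero_mem' := ⟨0, zero_mem W, res_zero O⟩
            neg_mem' := ?_
            mem_or_inv_mem' := fun r => ?_ }, fun a ha => ⟨fun h' => ⟨a, h', rfl⟩, ?_⟩⟩
  · rintro _ _ ⟨a, ha, rfl⟩ ⟨b, hb, rfl⟩
    exact ⟨a * b, mul_mem ha hb, res_mul O (h ha) (h hb)⟩
  · rintro _ _ ⟨a, ha, rfl⟩ ⟨b, hb, rfl⟩
    exact ⟨a + b, add_mem ha hb, res_add O (h ha) (h hb)⟩
  · rintro _ ⟨a, ha, rfl⟩
    exact ⟨-a, neg_mem ha, resb_neg O (h ha)⟩
  · by_cases h0 : r = 0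
    · exact Or.inl ⟨0, zero_mem W, (res_zero O).trans h0.symm⟩
    · obtain ⟨a, ha, rfl⟩ := res_surj O r
      exact (W.mem_or_inv_mem a).imp (fun h' => ⟨a, h', rfl⟩)
        fun h' => ⟨a⁻¹, h', res_inv O (resb_unit ha h0)⟩
  · rintro ⟨b, hb, hab⟩
    have h1 := resb_mem' (val_lt_one_of_le h ((res_eq_iff O ha (h hb)).1 hab.symm))
    simpa using add_mem h1 hb
theorem resb_comp {W O : ValuationSubring F} (h : W ≤ O) {u : ValuationSubring (Res O)}
    (hu : ∀ a ∈ O, (a ∈ W ↔ res O a ∈ u)) {a : F} (ha : a ∈ O) :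
    W.valuation a < 1 ↔ u.valuation (res O a) < 1 := by
  by_cases h0 : res O a = 0
  · refine iff_of_true (val_lt_one_of_le h ((res_eq_zero_iff O ha).1 h0)) ?_
    rw [h0, map_zero]
    exact zero_lt_one
  · have h1 := resb_unit ha h0
    rw [resb_lt_one_iff, resb_lt_one_iff, or_iff_right h0, or_iff_right (resb_ne h1),
      hu _ (resb_mem (resb_inv h1)), res_inv O h1]

theorem comp_val_eq_one {W O : ValuationSubring F} (h : W ≤ O) {u : ValuationSubring (Res O)}
    (hu : ∀ a ∈ O, (a ∈ W ↔ res O a ∈ u)) {a : F} (ha : a ∈ O) :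
    W.valuation a = 1 ↔ u.valuation (res O a) = 1 := by
  rw [resb_eq_one_iff, resb_eq_one_iff, resb_comp h hu ha, hu a ha]
theorem comp_val_lt_one {W O : ValuationSubring F} (h : W ≤ O) {u : ValuationSubring (Res O)}
    (hu : ∀ a ∈ O, (a ∈ W ↔ res O a ∈ u)) {a : F} (ha : a ∈ O) :
    W.valuation a < 1 ↔ u.valuation (res O a) < 1 := by
  exact resb_comp h hu ha

theorem exists_VLim {ι : Type*} (𝒰 : Ultrafilter ι) (O : ι → ValuationSubring F) :
    ∃ W, VLim (𝒰 : Filter ι) O W := by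
  exact ⟨{ carrier := {x | ∀ᶠ i in (𝒰 : Filter ι), x ∈ O i}
           mul_mem' := fun ha hb => (ha.and hb).mono fun _ h => mul_mem h.1 h.2
           one_mem' := Filter.Eventually.of_forall fun i => one_mem (O i)
           add_mem' := fun ha hb => (ha.and hb).mono fun _ h => add_mem h.1 h.2
           zero_mem' := Filter.Eventually.of_forall fun i => zero_mem (O i)
           neg_mem' := fun ha => ha.mono fun _ h => neg_mem h
           mem_or_inv_mem' := fun x => Ultrafilter.eventually_or.1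
             (Filter.Eventually.of_forall fun i => (O i).mem_or_inv_mem x) }, fun _ => Iff.rfl⟩
theorem VLim.lt_one {ι : Type*} {𝒰 : Ultrafilter ι} {O : ι → ValuationSubring F}
    {W : ValuationSubring F} (h : VLim (𝒰 : Filter ι) O W) (x : F) :
    W.valuation x < 1 ↔ ∀ᶠ i in (𝒰 : Filter ι), (O i).valuation x < 1 := by
  simp only [resb_lt_one_iff]
  by_cases h0 : x = 0
  · simp [h0]
  · simp only [h0, false_or]
    rw [h, Ultrafilter.eventually_not]
theorem VLim.eq_one {ι : Type*} {𝒰 : Ultrafilter ι} {O : ι → ValuationSubring F}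
    {W : ValuationSubring F} (h : VLim (𝒰 : Filter ι) O W) (x : F) :
    W.valuation x = 1 ↔ ∀ᶠ i in (𝒰 : Filter ι), (O i).valuation x = 1 := by
  simp only [resb_eq_one_iff]
  rw [Filter.eventually_and, Ultrafilter.eventually_not, h.lt_one, h]
/-- to check a limit it is enough to check two inclusions -/
theorem VLim.of_le {ι : Type*} {𝒰 : Ultrafilter ι} {O : ι → ValuationSubring F}
    {W : ValuationSubring F} (h₁ : ∀ x ∈ W, ∀ᶠ i in (𝒰 : Filter ι), x ∈ O i)
    (h₂ : ∀ x, W.valuation x < 1 → ∀ᶠ i in (𝒰 : Filter ι), (O i).valuation x < 1) :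
    VLim (𝒰 : Filter ι) O W := by
  refine fun x => ⟨h₁ x, fun hx => ?_⟩
  by_contra hW
  have h0 : x ≠ 0 := fun h => hW (h ▸ zero_mem W)
  obtain ⟨i, h1, h2⟩ := (hx.and (h₂ x⁻¹ ((resb_lt_one_iff W _).2 (Or.inr (by rwa [inv_inv]))))).exists
  rw [resb_lt_one_iff, inv_inv] at h2
  exact h2.elim (inv_ne_zero h0) fun h => h h1

/-- extension of places: a ring homomorphism from a subring to a field is dominated by a
valuation ring (use `LocalSubring.ofPrime`, `LocalSubring.exists_le_valuationSubring`) -/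
theorem exists_val_of_prime (A : Subring F) (𝔭 : Ideal A) [𝔭.IsPrime] :
    ∃ W : ValuationSubring F, (∀ a : A, (a : F) ∈ W) ∧
      ∀ a : A, W.valuation (a : F) < 1 ↔ a ∈ 𝔭 := by
  obtain ⟨W, hW, hl⟩ := (LocalSubring.ofPrime A 𝔭).exists_le_valuationSubring
  refine ⟨W, fun a => hW (LocalSubring.le_ofPrime A 𝔭 a.2), fun a => ?_⟩
  rw [← IsLocalization.AtPrime.to_map_mem_maximal_iff (LocalSubring.ofPrime A 𝔭).toSubring 𝔭 a]
  refine (W.valuation_lt_one_iff (Subring.inclusion hW (algebraMap A _ a))).symm.trans ?_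
  exact not_congr (isUnit_map_iff (Subring.inclusion hW) _)
theorem exists_ext {K : Type*} [Field K] [Algebra F K] (O : ValuationSubring F) :
    ∃ W : ValuationSubring K, W.comap (algebraMap F K) = O := by
  obtain ⟨W, hW, hl⟩ := IsLocalRing.exists_factor_valuationRing ((algebraMap F K).comp O.subtype)
  refine ⟨W, le_antisymm (fun x hx => ?_) fun x hx => hW ⟨x, hx⟩⟩
  by_contra hO
  have h0 : x ≠ 0 := fun h => hO (h ▸ zero_mem O)
  have h1 : x⁻¹ ∈ O := (O.mem_or_inv_mem x).resolve_left hO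
  have h2 : IsUnit (⟨x⁻¹, h1⟩ : O) := by
    refine hl.map_nonunit _ (IsUnit.of_mul_eq_one ⟨algebraMap F K x, hx⟩ (Subtype.ext ?_))
    change algebraMap F K x⁻¹ * algebraMap F K x = 1
    rw [← map_mul, inv_mul_cancel₀ h0, map_one]
  have h3 := resb_mem (resb_inv ((O.valuation_eq_one_iff _).1 h2))
  exact hO (by simpa using h3)

end P019
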