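import Vale.Agent.P019.Flag

/-!
P019 SepA: separating characters (first part of `Sep`, plan in the header of that file).
-/

namespace P019

open IntermediateField

variable {ℓ : ℕ} [Fact ℓ.Prime] {k F : Type*} [Field k] [Field F] [Algebra k F]

omit [Fact ℓ.Prime] in
theorem sepa_unit {O : ValuationSubring F} (hO : Triv k O) {c : k} (hc : c ≠ 0) :
    O.valuation (algebraMap k F c) = 1 := by
  have h1 : O.valuation (algebraMap k F c) ≤ 1 := (O.valuation_le_one_iff _).2 (hO c)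
  have h2 : O.valuation (algebraMap k F c⁻¹) ≤ 1 := (O.valuation_le_one_iff _).2 (hO c⁻¹)
  have h0 : O.valuation (algebraMap k F c) ≠ 0 := by simpa using hc
  rw [map_inv₀, map_inv₀, inv_le_one₀ (zero_lt_iff.2 h0)] at h2
  exact le_antisymm h1 h2

/-- a character of inertia seeing the uniformizing variable -/
theorem sepa_char {O : ValuationSubring F} (hO : Triv k O) {ι : Type*} {u : F} {z : ι → F}
    (hu : ZInd k O fun _ : Unit => u) (hu1 : O.valuation u < 1) (hz : RInd k O z)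
    (hI : IdxOK ℓ (adjoin k (Set.range (Sum.elim (fun _ : Unit => u) z))) O) :
    ∃ σ ∈ Iv ℓ O, σ (cl ℓ u) ≠ 0 := by
  classical
  obtain ⟨N, hN, hI⟩ := hI
  have hu0 : 0 < O.valuation u := zero_lt_iff.2 (by simpa using hu.1 ())
  have inj := zpow_right_injective₀ hu0 hu1.ne
  have key : ∀ a : F, a ≠ 0 → ∃ n : ℤ, O.valuation a ^ N = O.valuation u ^ n := fun a ha => by
    obtain ⟨c, hc⟩ := hI a
    have hc0 : (c : F) ≠ 0 := fun h0 => by
      rw [show algebraMap _ F c = (c : F) from rfl, h0, map_zero, map_eq_zero] at hc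
      exact pow_ne_zero N ha hc
    obtain ⟨n, b, hb, e⟩ := mono_val hu hz c.2 hc0
    refine ⟨n (), ?_⟩
    rw [← map_pow, hc, show algebraMap _ F c = (c : F) from rfl, e, map_mul, sepa_unit hO hb,
      one_mul, Finsupp.prod_fintype _ _ (by simp), Fintype.prod_unique, map_zpow₀]
  choose n hn using key
  obtain ⟨σ, hσ⟩ := exists_char (ℓ := ℓ) (fun a => if h : a = 0 then 0 else (n a h : ZMod ℓ))
    (by simp) fun a b ha hb => by
      have e : n (a * b) (mul_ne_zero ha hb) = n a ha + n b hb := inj (by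
        simp only
        rw [← hn, zpow_add₀ hu0.ne', ← hn, ← hn, map_mul, mul_pow])
      simp [ha, hb, e]
  refine ⟨σ, (mem_Iv_iff O σ).2 fun a ha => ?_, ?_⟩
  · have e : n a (resb_ne ha) = 0 := inj (by
      simp only
      rw [← hn, ha, one_pow, zpow_zero])
    rw [hσ, dif_neg (resb_ne ha), e, Int.cast_zero]
  · have e : n u (hu.1 ()) = N := inj (by
      simp only
      rw [← hn, zpow_natCast])
    rw [hσ, dif_neg (hu.1 ()), e, Int.cast_natCast, Ne, ZMod.natCast_eq_zero_iff]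
    exact fun hd => (Fact.out : ℓ.Prime).one_lt.ne' (Nat.Coprime.eq_one_of_dvd hN.symm hd)

variable [IsAlgClosed k]

theorem exists_sepChar (hℓ : (ℓ : k) ≠ 0) {d : ℕ} (hF : IsFF k F d) (A : IntermediateField k F)
    {y : F} (hy : Transcendental A y) :
    ∀ᶠ c in Filter.cofinite, ∃ (O : ValuationSubring F) (σ : X ℓ F), (∀ a ∈ A, a ∈ O) ∧
      σ ∈ Iv ℓ O ∧ O.valuation (y - algebraMap k F c) < 1 ∧
      σ (cl ℓ (y - algebraMap k F c)) ≠ 0 := by
  have := hF.ess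
  have := Algebra.EssFiniteType.of_comp k A F
  obtain ⟨e, he, -⟩ := isFF_of_fg (k := A) (F := F) (fg_top_iff.2 this)
  have hy1 : AlgebraicIndependent A fun _ : Unit => y :=
    algebraicIndependent_unique_type_iff.2 hy
  obtain ⟨s, rfl⟩ : ∃ s, e = 1 + s := ⟨e - 1, by have := he.card_le hy1; simp at this; omega⟩
  obtain ⟨z, hz⟩ := he.extend hy1 (by simp)
  have := he.finite hz (by simp)
  have hℓ' : (ℓ : A) ≠ 0 := by
    rw [← map_natCast (algebraMap k A)]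
    exact (map_ne_zero _).2 hℓ
  obtain ⟨Δ, hΔ, hI⟩ := gm_idx_triv hℓ' hz
  have hfin : {c : k | MvPolynomial.eval (fun _ => algebraMap k A c) Δ = 0}.Finite := by
    by_contra hinf
    obtain ⟨c, hc, hc'⟩ := exists_eval_ne hΔ (fun _ => algebraMap k A ''
      {c : k | MvPolynomial.eval (fun _ => algebraMap k A c) Δ = 0})
      fun _ => Set.Infinite.image (algebraMap k A).injective.injOn hinf
    obtain ⟨b, hb, hb'⟩ := hc ()
    exact hc' (by rw [show c = fun _ => algebraMap k A b from funext fun _ => hb'.symm]; exact hb)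
  refine Filter.mem_of_superset hfin.compl_mem_cofinite fun c hc => ?_
  have hs := indep_shift hz fun _ => algebraMap k A c
  obtain ⟨G, hG, hR⟩ := exists_gauss ⊤ hs
  obtain ⟨W, -, hW, h1, h2, h3⟩ := exists_refine hR
  have hT : Triv A W := fun a => by
    have h4 : a ∈ W.comap (algebraMap A F) := by
      rw [hW, hG]
      trivial
    exact h4
  have h4 := hI _ hc W hT h2 h3
  rw [← adjoin_shift fun _ => algebraMap k A c] at h4
  obtain ⟨σ, h5, h6⟩ := sepa_char hT h1 (h2 ()) h3 h4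
  exact ⟨W, σ, fun a ha => hT ⟨a, ha⟩, h5, h2 (), h6⟩

theorem sepa_sep (hℓ : (ℓ : k) ≠ 0) {d : ℕ} (hF : IsFF k F d) {y : F} (hy : Transcendental k y) :
    ∀ᶠ c in Filter.cofinite, ∃ (O : ValuationSubring F) (σ : X ℓ F), Triv k O ∧
      σ ∈ Iv ℓ O ∧ O.valuation (y - algebraMap k F c) < 1 ∧
      σ (cl ℓ (y - algebraMap k F c)) ≠ 0 := by
  have hy' : Transcendental (⊥ : IntermediateField k F) y := fun h =>
    hy (IsAlgebraic.restrictScalars k h)
  filter_upwards [exists_sepChar hℓ hF ⊥ hy'] with c ⟨O, σ, h1, h2⟩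
  exact ⟨O, σ, fun c => h1 _ (IntermediateField.algebraMap_mem _ c), h2⟩

omit [IsAlgClosed k] in
theorem sepa_add {O : ValuationSubring F} (hO : Triv k O) {a : F} (ha : O.valuation a < 1)
    {c : k} (hc : c ≠ 0) : O.valuation (a + algebraMap k F c) = 1 := by
  rw [Valuation.map_add_eq_of_lt_right _ (by rw [sepa_unit hO hc]; exact ha), sepa_unit hO hc]

theorem sepa_cl_div (a : F) {c : k} (hc : c ≠ 0) : cl ℓ (a / algebraMap k F c) = cl ℓ a := by
  by_cases ha : a = 0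
  · rw [ha, zero_div]
  · rw [cl_div ha ((map_ne_zero _).2 hc), cl_algebraMap, sub_zero]

theorem ff_cl_ne (hℓ : (ℓ : k) ≠ 0) {d : ℕ} (hF : IsFF k F d) {y : F} (hy : Transcendental k y) :
    ∀ᶠ c in Filter.cofinite, cl ℓ (y - algebraMap k F c) ≠ 0 := by
  filter_upwards [sepa_sep hℓ hF hy] with c ⟨O, σ, _, _, _, h⟩ h0
  exact h (by rw [h0, map_zero])

theorem ff_exists_cl_ne (hℓ : (ℓ : k) ≠ 0) {d : ℕ} (hF : IsFF k F d) (hd : 1 ≤ d) :
    ∃ a : F, cl ℓ a ≠ 0 := by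
  obtain ⟨y, hy, -⟩ := id hF
  obtain ⟨c, hc⟩ := (ff_cl_ne hℓ hF (hy.transcendental ⟨0, hd⟩)).exists
  exact ⟨_, hc⟩

theorem ff_nonCP (hℓ : (ℓ : k) ≠ 0) {d : ℕ} (hF : IsFF k F d) (hd : 1 ≤ d) :
    ∃ σ τ : X ℓ F, ¬ CP σ τ := by
  obtain ⟨y, hy, -⟩ := id hF
  have h := sepa_sep hℓ hF (hy.transcendental ⟨0, hd⟩)
  obtain ⟨c₁, O₁, σ₁, t1, i1, v1, n1⟩ := h.exists
  obtain ⟨c₂, ⟨O₂, σ₂, -, -, -, n2⟩, hne⟩ := (h.and (Filter.eventually_cofinite_ne c₁)).exists
  refine ⟨σ₁, σ₂, fun hc => ?_⟩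
  have h1 : c₂ - c₁ ≠ 0 := sub_ne_zero.2 hne
  have h2 : c₁ - c₂ ≠ 0 := sub_ne_zero.2 hne.symm
  have h3 : algebraMap k F c₂ - algebraMap k F c₁ ≠ 0 := by
    rw [← map_sub]
    exact (map_ne_zero _).2 h1
  have h4 : algebraMap k F c₁ - algebraMap k F c₂ ≠ 0 := by
    rw [← map_sub]
    exact (map_ne_zero _).2 h2
  have e : 1 - (y ⟨0, hd⟩ - algebraMap k F c₁) / algebraMap k F (c₂ - c₁) =
      (y ⟨0, hd⟩ - algebraMap k F c₂) / algebraMap k F (c₁ - c₂) := by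
    rw [map_sub, map_sub]
    field_simp
    ring
  have h5 := hc ((y ⟨0, hd⟩ - algebraMap k F c₁) / algebraMap k F (c₂ - c₁))
  have h6 := (mem_Iv_iff O₁ σ₁).1 i1 _ (sepa_add t1 v1 h2)
  rw [map_sub, sub_add_sub_cancel] at h6
  rw [e, sepa_cl_div _ h1, sepa_cl_div _ h2, h6, zero_mul] at h5
  exact mul_ne_zero n1 n2 h5

theorem ff_center (hℓ : (ℓ : k) ≠ 0) {d : ℕ} (hF : IsFF k F d) {ρ : X ℓ F}
    (h : ∀ σ : X ℓ F, CP ρ σ) : ρ = 0 := by
  refine LinearMap.ext fun v => ?_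
  obtain ⟨f, -, rfl⟩ := cl_surj v
  rw [LinearMap.zero_apply]
  by_contra h0
  have hf : Transcendental k f := fun ha => by
    obtain ⟨c, rfl⟩ := minpoly.mem_range_of_degree_eq_one k f
      (IsAlgClosed.degree_eq_one_of_irreducible k (minpoly.irreducible ha.isIntegral))
    exact h0 (by rw [cl_algebraMap, map_zero])
  obtain ⟨c, ⟨O, σ, t1, i1, v1, n1⟩, hc⟩ :=
    ((sepa_sep hℓ hF hf).and (Filter.eventually_cofinite_ne 0)).exists
  have h1 : algebraMap k F c ≠ 0 := (map_ne_zero _).2 hc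
  have e : 1 - f / algebraMap k F c = (f - algebraMap k F c) / algebraMap k F (-c) := by
    rw [map_neg]
    field_simp
    ring
  have h5 := h σ (f / algebraMap k F c)
  have h6 := (mem_Iv_iff O σ).1 i1 _ (sepa_add t1 v1 hc)
  rw [sub_add_cancel] at h6
  rw [e, sepa_cl_div _ hc, sepa_cl_div _ (neg_ne_zero.2 hc), h6, mul_zero] at h5
  exact mul_ne_zero h0 n1 h5

theorem res_ne_zero_of_val {O : ValuationSubring F} (h : O.valuation (ℓ : F) = 1) :
    (ℓ : resK k O) ≠ 0 := fun h0 => by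
  have h1 := congrArg (fun a : resK k O => (a : Res O)) h0
  simp only [SubringClass.coe_natCast, ZeroMemClass.coe_zero] at h1
  exact resb_res_ne h ((res_natCast O ℓ).trans h1)

theorem nc_of_res {O : ValuationSubring F} (h : O.valuation (ℓ : F) = 1) {s : ℕ}
    (hs : IsFF (resK k O) (Res O) s) (h1 : 1 ≤ s) :
    (∃ ρ₁ ∈ Dv ℓ O, ∃ ρ₂ ∈ Dv ℓ O, ¬ CP ρ₁ ρ₂) ∧ Nv ℓ O ≠ Uv ℓ O ∧ ∀ τ ∈ Iv ℓ O, NC τ := by
  have := resK_isAlgClosed k O
  have hℓ := res_ne_zero_of_val (k := k) h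
  obtain ⟨ρ, ρ', hρ⟩ := ff_nonCP hℓ hs h1
  obtain ⟨τ, t1, t2⟩ := exists_liftChar O ρ
  obtain ⟨τ', s1, s2⟩ := exists_liftChar O ρ'
  have hn : ¬ CP τ τ' := fun hc => hρ ((CP_res_iff k O t1 s1 t2 s2).1 hc)
  refine ⟨⟨τ, t1, τ', s1, hn⟩, fun he => ?_, fun σ hσ =>
    ⟨τ, τ', CP_of_Iv_Dv k hσ t1, CP_of_Iv_Dv k hσ s1, hn⟩⟩
  obtain ⟨a, ha⟩ := ff_exists_cl_ne hℓ hs h1
  obtain ⟨b, hb, rfl⟩ := res_surj O a
  have hu : O.valuation b = 1 := resb_unit hb fun h0 => ha (by rw [h0]; simp [cl])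
  exact ha ((cl_mem_Nv_iff O hu).1 (he ▸ (mem_Uv_iff O _).2 ⟨b, hu, rfl⟩))

end P019
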