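import Vale.Agent.P019.SepA

/-!
P019 SepB: transport of valuation rings with function field residue, comparison of dimensions.
-/

namespace P019

open IntermediateField

variable {ℓ : ℕ} [Fact ℓ.Prime] {k F : Type*} [Field k] [Field F] [Algebra k F] [IsAlgClosed k]

theorem transport_ff (l : Type*) {L : Type*} [Field l] [Field L] [Algebra l L] [IsAlgClosed l]
    {Θ : V ℓ F ≃ₗ[ZMod ℓ] V ℓ L} (hΘ : Compat Θ) {O : ValuationSubring F} {r : ℕ}
    (hr : IRank ℓ O r) (hcan : ∃ σ : X ℓ F, IsCanon σ O) (h : O.valuation (ℓ : F) = 1) {s : ℕ}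
    (hs : IsFF (resK k O) (Res O) s) (h1 : 1 ≤ s) :
    ∃ O' : ValuationSubring L, Corr ℓ Θ O O' ∧ ∃ τ : X ℓ L, IsCanon τ O' := by
  refine transport k l hΘ hr hcan (nc_of_res h hs h1).1 fun τ hτ hc => ?_
  have := resK_isAlgClosed k O
  obtain ⟨ρ, hρ⟩ := exists_resChar O hτ
  have h0 : ρ = 0 := ff_center (res_ne_zero_of_val h) hs fun σ => by
    obtain ⟨τ', hτ', hσ⟩ := exists_liftChar O σ
    exact (CP_res_iff k O hτ hτ' hρ hσ).1 (hc τ' hτ')
  rw [mem_Iv_iff]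
  intro a ha
  rw [← hρ a ha, h0, LinearMap.zero_apply]

/-- corresponding rings keep inclusions when the ranks differ by one -/
theorem corr_le_of_le {L : Type*} [Field L] {Θ : V ℓ F ≃ₗ[ZMod ℓ] V ℓ L}
    {O Om : ValuationSubring F} {O' Om' : ValuationSubring L} (hc : Corr ℓ Θ O O')
    (hm : Corr ℓ Θ Om Om') (hle : O ≤ Om) {r : ℕ} (hr : IRank ℓ O (r + 1)) (hr' : IRank ℓ Om r)
    (hcan : ∃ τ : X ℓ L, IsCanon τ O') : O' ≤ Om' := by
  obtain ⟨τ, hτ⟩ := hcan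
  have h1 : τ ∈ Dv ℓ Om' :=
    (hm.mem_Dv τ).2 (Dv_mono hle ((hc.mem_Dv τ).1 (Iv_le_Dv O' hτ.1)))
  refine (hτ.comparable h1).resolve_right fun h2 => ?_
  have h3 : Uv ℓ O' = Uv ℓ Om' := by
    refine le_antisymm ?_ (Uv_mono h2)
    rw [← hc.1, ← hm.1]
    exact Submodule.map_mono (Uv_mono hle)
  have h4 := (hc.IRank hr).2
  rw [h3, (hm.IRank hr').2] at h4
  omega

theorem le_of_Hs_le (hℓ : (ℓ : k) ≠ 0) {d : ℕ} (hF : IsFF k F d) {A B : IntermediateField k F}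
    {b : ℕ} (hB : Flat B b) (h : Hs ℓ (A : Set F) ≤ Hs ℓ (B : Set F)) : A ≤ B := by
  intro a ha
  by_contra hb
  obtain ⟨c, O, σ, h1, h2, -, h3⟩ :=
    (exists_sepChar hℓ hF B (y := a) fun h4 => hb (hB.1 a h4)).exists
  have h4 : σ ∈ (Hs ℓ (B : Set F)).dualAnnihilator := by
    rw [bas_ann]
    intro z hz
    by_cases h0 : z = 0
    · rw [h0, cl, dif_pos rfl, map_zero]
    · refine (mem_Iv_iff O σ).1 h2 z ((resb_eq_one_iff O z).2 ⟨h1 z hz, fun h5 => ?_⟩)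
      exact ((resb_lt_one_iff O z).1 h5).elim h0 fun h6 => h6 (h1 _ (inv_mem hz))
  exact h3 ((Submodule.mem_dualAnnihilator σ).1 h4 _
    (h (cl_mem_Hs (sub_mem ha (A.algebraMap_mem c)))))

theorem dim_le {l L : Type*} [Field l] [Field L] [Algebra l L] [IsAlgClosed l]
    (hℓ : (ℓ : k) ≠ 0) {d e : ℕ} (hF : IsFF k F d) (hL : IsFF l L e) (hd : 2 ≤ d)
    {Θ : V ℓ F ≃ₗ[ZMod ℓ] V ℓ L} (hΘ : Compat Θ) : d ≤ e := by
  obtain ⟨r, rfl⟩ : ∃ r, d = r + 1 + 1 := ⟨d - 2, by omega⟩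
  obtain ⟨y, hy, -⟩ := id hF
  have h1 : AlgebraicIndependent k
      (Sum.elim (fun i => y (Fin.castAdd 1 i)) fun i => y (Fin.natAdd (r + 1) i)) := by
    have h2 := hy.comp _ (finSumFinEquiv (m := r + 1) (n := 1)).injective
    refine (congrArg (fun z => AlgebraicIndependent k z) (funext fun i => ?_)).mp h2
    rcases i with i | i <;> rfl
  obtain ⟨O, -, -, hT, hr, hcan, hs, -, -⟩ :=
    flag_triv hℓ hF h1 (fun _ => Set.univ) fun _ => Set.infinite_univ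
  have hv : O.valuation (ℓ : F) = 1 := by
    rw [← map_natCast (algebraMap k F)]
    refine (resb_eq_one_iff O _).2 ⟨hT _, fun h2 => ?_⟩
    refine ((resb_lt_one_iff O _).1 h2).elim ((map_ne_zero _).2 hℓ) fun h3 => h3 ?_
    rw [← map_inv₀]
    exact hT _
  obtain ⟨O', hc, -⟩ := transport_ff l hΘ hr hcan hv hs le_rfl
  refine IRank.succ_le hL (hc.IRank hr) fun h2 => (nc_of_res hv hs le_rfl).2.1 ?_
  rw [← hc.1, ← hc.2] at h2
  exact Submodule.map_injective_of_injective Θ.injective h2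

end P019
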