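import Vale.Agent.P019.Cv

/-!
P019 Ultra: the ultraproduct of curves, elements of bounded degree.
`UP = (Π i, F i) / {f | ∀ᶠ i, f i = 0}` (a maximal ideal; `Ideal.Quotient.field`), `M` = subfield of
classes of bounded `pdeg` (`cv_pdeg_add`, `cv_pdeg_mul`, `cv_pdeg_inv`, `cv_pdeg_neg`), `κ` = classes
of constants; it is algebraically closed (roots of a monic polynomial coordinatewise,
`IsAlgClosed.of_exists_root`).  `B + 1` elements of `M` are dependent over `κ[x]` by `cv_rel`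
(the degrees of the `p j` are bounded, so the coefficients give finitely many elements of `κ`);
hence `finrank ≤ B` (`Module.finite_of_rank_le`/`rank_le`, clear denominators is not needed).
An `n`-th root of a bounded element is bounded (`cv_pdeg_pow`).
-/

namespace P019

open IntermediateField

universe u v w

section

variable {ι : Type u} (𝒰 : Ultrafilter ι) {F : ι → Type v} [∀ i, Field (F i)]
  (κ : ∀ i, Subfield (F i)) [∀ i, IsAlgClosed (κ i)]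
  (h : ∀ᶠ i in (𝒰 : Filter ι), IsFF (κ i) (F i) 1)

/-- families of bounded degree -/
def ultraR : Subring (∀ i, F i) where
  carrier := {g | ∃ D : ℕ, ∀ᶠ i in (𝒰 : Filter ι), pdeg (κ i) (g i) ≤ D}
  one_mem' := ⟨0, h.mono fun i hi => by simpa using cv_pdeg_const hi 1⟩
  zero_mem' := ⟨0, h.mono fun i hi => by simpa using cv_pdeg_const hi 0⟩
  mul_mem' := fun ⟨D, h1⟩ ⟨D', h2⟩ => ⟨D + D', by
    filter_upwards [h, h1, h2] with i a1 a2 a3
    exact (cv_pdeg_mul a1 _ _).trans (add_le_add a2 a3)⟩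
  add_mem' := fun ⟨D, h1⟩ ⟨D', h2⟩ => ⟨D + D', by
    filter_upwards [h, h1, h2] with i a1 a2 a3
    exact (cv_pdeg_add a1 _ _).trans (add_le_add a2 a3)⟩
  neg_mem' := fun ⟨D, h1⟩ => ⟨D, by
    filter_upwards [h, h1] with i a1 a2
    exact (cv_pdeg_neg a1 _).trans_le a2⟩

theorem ultra_inv (g : ultraR 𝒰 κ h) : g.1⁻¹ ∈ ultraR 𝒰 κ h :=
  g.2.imp fun _ h1 => by
    filter_upwards [h, h1] with i a1 a2
    exact (cv_pdeg_inv a1 _).trans_le a2

/-- families that vanish almost everywhere -/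
def ultraI : Ideal (ultraR 𝒰 κ h) where
  carrier := {g | ∀ᶠ i in (𝒰 : Filter ι), g.1 i = 0}
  zero_mem' := Filter.Eventually.of_forall fun _ => rfl
  add_mem' := fun {a b} h1 h2 => by
    filter_upwards [h1, h2] with i a1 a2
    exact (congrArg₂ (· + ·) a1 a2).trans (add_zero 0)
  smul_mem' := fun c a h1 => by
    filter_upwards [h1] with i a1
    exact (congrArg (c.1 i * ·) a1).trans (mul_zero _)

theorem ultra_eq (a b : ultraR 𝒰 κ h) :
    Ideal.Quotient.mk (ultraI 𝒰 κ h) a = Ideal.Quotient.mk (ultraI 𝒰 κ h) b ↔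
      ∀ᶠ i in (𝒰 : Filter ι), a.1 i = b.1 i :=
  Ideal.Quotient.eq.trans (Filter.eventually_congr
    (Filter.Eventually.of_forall fun _ => sub_eq_zero))

theorem ultra_max : (ultraI 𝒰 κ h).IsMaximal := by
  refine Ideal.isMaximal_iff.2 ⟨fun h1 => ?_, fun J g hJ h1 h2 => ?_⟩
  · obtain ⟨i, hi⟩ := Filter.Eventually.exists h1
    exact one_ne_zero hi
  · have h3 : 1 - ⟨_, ultra_inv 𝒰 κ h g⟩ * g ∈ ultraI 𝒰 κ h := by
      filter_upwards [Ultrafilter.eventually_not.2 h1] with i hi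
      exact sub_eq_zero.2 (inv_mul_cancel₀ hi).symm
    simpa using J.add_mem (hJ h3) (J.mul_mem_left ⟨_, ultra_inv 𝒰 κ h g⟩ h2)

/-- constants -/
def ultraC : (∀ i, κ i) →+* ultraR 𝒰 κ h :=
  (RingHom.pi fun i => (κ i).subtype.comp (Pi.evalRingHom (fun i => κ i) i)).codRestrict _
    fun c => ⟨0, h.mono fun i hi => (cv_pdeg_const hi (c i)).le⟩

end

theorem ultra_closed {ι : Type u} {κ : ι → Type v} [∀ i, Field (κ i)] [∀ i, IsAlgClosed (κ i)]
    {K : Type w} [Field K] (ψ : (∀ i, κ i) →+* K) (hψ : Function.Surjective ψ) :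
    IsAlgClosed K := by
  refine IsAlgClosed.of_exists_root K fun p hp hi => ?_
  obtain ⟨q, rfl, h1, h2⟩ := Polynomial.lifts_and_natDegree_eq_and_monic
    (Polynomial.mem_lifts_of_surjective hψ p) hp
  have h3 : ∀ i, ∃ r, (q.map (Pi.evalRingHom κ i)).IsRoot r := fun i =>
    IsAlgClosed.exists_root _ (Polynomial.degree_ne_of_natDegree_ne (n := 0) (by
      rw [h2.natDegree_map, h1]
      exact hi.natDegree_pos.ne'))
  choose r hr using h3
  have h4 : q.eval r = 0 := funext fun i =>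
    (Polynomial.eval_map_apply (Pi.evalRingHom κ i) r).symm.trans (hr i)
  exact ⟨ψ r, by rw [Polynomial.eval_map_apply, h4, map_zero]⟩

theorem ultra_choice {ι : Type u} {l : Filter ι} {β : ι → Type v} [∀ i, Nonempty (β i)]
    {r : ∀ i, β i → Prop} (h : ∀ᶠ i in l, ∃ y, r i y) : ∃ g : ∀ i, β i, ∀ᶠ i in l, r i (g i) :=
  ⟨fun i => Classical.epsilon (r i), h.mono fun _ => Classical.epsilon_spec⟩

theorem ultra_aux {ι : Type u} (𝒰 : Ultrafilter ι) {F : ι → Type v} [∀ i, Field (F i)]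
    (κ : ∀ i, Subfield (F i)) [∀ i, IsAlgClosed (κ i)]
    (h : ∀ᶠ i in (𝒰 : Filter ι), IsFF (κ i) (F i) 1) {L : Type w} [Field L] (f : L → ∀ i, F i)
    (hadd : ∀ a b, ∀ᶠ i in (𝒰 : Filter ι), f (a + b) i = f a i + f b i)
    (hmul : ∀ a b, ∀ᶠ i in (𝒰 : Filter ι), f (a * b) i = f a i * f b i)
    (hone : ∀ᶠ i in (𝒰 : Filter ι), f 1 i = 1)
    (hb : ∀ a, ∃ D : ℕ, ∀ᶠ i in (𝒰 : Filter ι), pdeg (κ i) (f a i) ≤ D)
    {x : L} (hx : ∀ᶠ i in (𝒰 : Filter ι), f x i ∉ κ i) {B : ℕ}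
    (hB : ∀ᶠ i in (𝒰 : Filter ι), pdeg (κ i) (f x i) ≤ B) {M : Type*} [Field M]
    (mk : ultraR 𝒰 κ h →+* M) (hs : Function.Surjective mk)
    (he : ∀ a b, mk a = mk b ↔ ∀ᶠ i in (𝒰 : Filter ι), a.1 i = b.1 i) :
    ∃ (κ' : Subfield M) (φ : L →+* M), IsAlgClosed κ' ∧
      Transcendental κ' (φ x) ∧ FiniteDimensional κ'⟮φ x⟯ M ∧ Module.finrank κ'⟮φ x⟯ M ≤ B ∧
      (∀ a, φ a ∈ κ' ↔ ∀ᶠ i in (𝒰 : Filter ι), f a i ∈ κ i) ∧
      ∀ (a : L) (n : ℕ), n ≠ 0 →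
        ((∃ g : M, g ^ n = φ a) ↔ ∀ᶠ i in (𝒰 : Filter ι), ∃ g : F i, g ^ n = f a i) := by
  classical
  have he0 : ∀ a, mk a = 0 ↔ ∀ᶠ i in (𝒰 : Filter ι), a.1 i = 0 := fun a => by
    rw [← map_zero mk]
    exact he a 0
  let φ : L →+* M := RingHom.mk'
    { toFun := fun a => mk ⟨f a, hb a⟩
      map_one' := ((he _ 1).2 hone).trans (map_one mk)
      map_mul' := fun a b =>
        ((he _ (⟨f a, hb a⟩ * ⟨f b, hb b⟩)).2 (hmul a b)).trans (map_mul mk _ _) }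
    fun a b => ((he ⟨f (a + b), hb _⟩ (⟨f a, hb a⟩ + ⟨f b, hb b⟩)).2 (hadd a b)).trans
      (map_add mk _ _)
  let ψ := mk.comp (ultraC 𝒰 κ h)
  let κ' : Subfield M :=
    { ψ.range with
      inv_mem' := by
        rintro _ ⟨c, rfl⟩
        rcases eq_or_ne (ψ c) 0 with h0 | h0
        · exact ⟨0, by rw [h0, inv_zero, map_zero]⟩
        · refine ⟨c⁻¹, eq_inv_of_mul_eq_one_left ((map_mul ψ _ _).symm.trans
            (((he _ 1).2 ?_).trans (map_one mk)))⟩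
          filter_upwards [Ultrafilter.eventually_not.2 fun h1 => h0 ((he0 _).2 h1)] with i hi
          exact inv_mul_cancel₀ hi }
  let ψ' : (∀ i, κ i) →+* κ' := ψ.codRestrict κ' fun c => ⟨c, rfl⟩
  have hcl : IsAlgClosed κ' := ultra_closed ψ' fun ⟨_, c, e⟩ => ⟨c, Subtype.ext e⟩
  have hmem : ∀ a, φ a ∈ κ' ↔ ∀ᶠ i in (𝒰 : Filter ι), f a i ∈ κ i := fun a => by
    refine ⟨fun ⟨c, e⟩ => ((he _ _).1 e).mono fun i hi => ?_, fun h1 => ⟨fun i =>
      if h2 : f a i ∈ κ i then ⟨_, h2⟩ else 0, (he _ _).2 (h1.mono fun i hi => ?_)⟩⟩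
    · exact (show (c i : F i) = f a i from hi) ▸ (c i).2
    · exact congrArg Subtype.val (dif_pos hi)
  have htr : Transcendental κ' (φ x) := (cv_trans_iff _).2 fun ⟨c, e⟩ => by
    obtain ⟨i, h1, h2⟩ := (hx.and ((hmem x).1 (e ▸ c.2))).exists
    exact h1 h2
  have hrk : Module.rank κ'⟮φ x⟯ M ≤ B := by
    rw [← Order.lt_succ_iff, Cardinal.succ_natCast, ← Nat.cast_succ, ← not_le, Module.le_rank_iff]
    rintro ⟨v, hv⟩
    choose g hg using fun j => hs (v j)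
    choose D hD using fun j => (g j).2
    set N := (B + 1) * Finset.univ.sup D + 1 with hN
    have h1 : ∀ᶠ i in (𝒰 : Filter ι), ∃ p : Fin (B + 1) → Polynomial (κ i), p ≠ 0 ∧
        (∀ j, (p j).natDegree ≤ N) ∧ ∑ j, Polynomial.aeval (f x i) (p j) * (g j).1 i = 0 := by
      filter_upwards [h, hB, Filter.eventually_all.2 hD] with i a1 a2 a3
      exact cv_rel a1 a2 _ fun j => (a3 j).trans (Finset.le_sup (Finset.mem_univ j))
    obtain ⟨p, hp⟩ := ultra_choice h1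
    let P : Fin (B + 1) → Polynomial κ' := fun j => ∑ a : Fin (N + 1),
      Polynomial.monomial a.val (ψ' fun i => (p i j).coeff a)
    have h2 : ∀ᶠ i in (𝒰 : Filter ι), ∃ q : Fin (B + 1) × Fin (N + 1), (p i q.1).coeff q.2 ≠ 0 :=
      hp.mono fun i hi => by
        obtain ⟨j, hj⟩ := Function.ne_iff.1 hi.1
        exact ⟨(j, ⟨_, Nat.lt_succ_of_le (hi.2.1 j)⟩), Polynomial.leadingCoeff_ne_zero.2 hj⟩
    obtain ⟨q, hq⟩ := Ultrafilter.eventually_exists_iff.1 h2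
    have h3 : P q.1 ≠ 0 := fun e => by
      have e1 := congrArg (Polynomial.coeff · q.2.val) e
      simp only [P, Polynomial.finsetSum_coeff, Polynomial.coeff_monomial, Fin.val_inj,
        Finset.sum_ite_eq', Finset.mem_univ, if_true, Polynomial.coeff_zero] at e1
      obtain ⟨i, a1, a2⟩ := (hq.and ((he0 (ultraC 𝒰 κ h _)).1 (congrArg Subtype.val e1))).exists
      exact a1 (Subtype.ext a2)
    have h4 := Fintype.linearIndependent_iff.1 hv
      (fun j => Polynomial.aeval (AdjoinSimple.gen κ' (φ x)) (P j)) ?_ q.1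
    · refine htr ⟨P q.1, h3, ?_⟩
      rw [← AdjoinSimple.algebraMap_gen κ' (φ x), Polynomial.aeval_algebraMap_apply, h4, map_zero]
    · have e : ∀ j, Polynomial.aeval (AdjoinSimple.gen κ' (φ x)) (P j) • v j =
          mk ((∑ a : Fin (N + 1), ultraC 𝒰 κ h (fun i => (p i j).coeff a) *
            ⟨f x, hb x⟩ ^ a.val) * g j) := fun j => by
        rw [Algebra.smul_def, ← Polynomial.aeval_algebraMap_apply, AdjoinSimple.algebraMap_gen,
          map_mul, hg, map_sum, map_sum]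
        refine congrArg (· * v j) (Finset.sum_congr rfl fun a _ => ?_)
        rw [Polynomial.aeval_monomial, map_mul, map_pow]
        rfl
      rw [Finset.sum_congr rfl fun j _ => e j, ← map_sum]
      refine (he0 _).2 (hp.mono fun i hi => Eq.trans ?_ hi.2.2)
      rw [AddSubmonoidClass.coe_finsetSum, Finset.sum_apply]
      refine Finset.sum_congr rfl fun j _ => ?_
      rw [Subring.coe_mul, Pi.mul_apply, AddSubmonoidClass.coe_finsetSum, Finset.sum_apply,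
        Polynomial.aeval_eq_sum_range' (Nat.lt_succ_of_le (hi.2.1 j)), Finset.sum_range]
      rfl
  refine ⟨κ', φ, hcl, htr, Module.rank_lt_aleph0_iff.1
    (hrk.trans_lt (Cardinal.natCast_lt_aleph0)), Module.finrank_le_of_rank_le hrk, hmem,
    fun a n hn => ⟨fun ⟨g, e⟩ => ?_, fun h1 => ?_⟩⟩
  · obtain ⟨r, rfl⟩ := hs g
    exact ((he (r ^ n) ⟨f a, hb a⟩).1 ((map_pow mk r n).trans e)).mono fun i hi => ⟨r.1 i, hi⟩
  · obtain ⟨r, hr⟩ := ultra_choice h1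
    obtain ⟨D, hD⟩ := hb a
    refine ⟨mk ⟨r, D, ?_⟩, (map_pow mk _ n).symm.trans ((he _ ⟨f a, hb a⟩).2 hr)⟩
    filter_upwards [h, hr, hD] with i a1 a2 a3
    rw [← a2, cv_pdeg_pow a1] at a3
    exact (Nat.le_mul_of_pos_left _ (Nat.pos_of_ne_zero hn)).trans a3

theorem ultra {ι : Type u} (𝒰 : Ultrafilter ι) {F : ι → Type v} [∀ i, Field (F i)]
    (κ : ∀ i, Subfield (F i)) [∀ i, IsAlgClosed (κ i)]
    (h : ∀ᶠ i in (𝒰 : Filter ι), IsFF (κ i) (F i) 1) {L : Type w} [Field L] (f : L → ∀ i, F i)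
    (hadd : ∀ a b, ∀ᶠ i in (𝒰 : Filter ι), f (a + b) i = f a i + f b i)
    (hmul : ∀ a b, ∀ᶠ i in (𝒰 : Filter ι), f (a * b) i = f a i * f b i)
    (hone : ∀ᶠ i in (𝒰 : Filter ι), f 1 i = 1)
    (hb : ∀ a, ∃ D : ℕ, ∀ᶠ i in (𝒰 : Filter ι), pdeg (κ i) (f a i) ≤ D)
    {x : L} (hx : ∀ᶠ i in (𝒰 : Filter ι), f x i ∉ κ i) {B : ℕ}
    (hB : ∀ᶠ i in (𝒰 : Filter ι), pdeg (κ i) (f x i) ≤ B) :
    ∃ (M : Type (max u v)) (_ : Field M) (κ' : Subfield M) (φ : L →+* M), IsAlgClosed κ' ∧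
      Transcendental κ' (φ x) ∧ FiniteDimensional κ'⟮φ x⟯ M ∧ Module.finrank κ'⟮φ x⟯ M ≤ B ∧
      (∀ a, φ a ∈ κ' ↔ ∀ᶠ i in (𝒰 : Filter ι), f a i ∈ κ i) ∧
      ∀ (a : L) (n : ℕ), n ≠ 0 →
        ((∃ g : M, g ^ n = φ a) ↔ ∀ᶠ i in (𝒰 : Filter ι), ∃ g : F i, g ^ n = f a i) := by
  have := ultra_max 𝒰 κ h
  exact ⟨ultraR 𝒰 κ h ⧸ ultraI 𝒰 κ h, Ideal.Quotient.field _, @ultra_aux ι 𝒰 F _ κ _ h L _ f hadd
    hmul hone hb x hx B hB _ (Ideal.Quotient.field _) (Ideal.Quotient.mk _)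
    Ideal.Quotient.mk_surjective (ultra_eq 𝒰 κ h)⟩

end P019
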