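import Vale.Agent.P019.VG1A

/-!
P019 VG1: valuation rings above a given one in an algebraic extension.
`loc_lemma`: take a relation `Σ a_i x^i = 0` over `F`, normalized in `O` with some unit
coefficient, `j` the largest index with `a_j` a unit, `s = a_j + a_(j+1) x + ...`; `s` is a unit
of `W`; for another `W'`: if `x ∈ W'` clear, else `s = -(a_0 x^(-j) + ... + a_(j-1) x^(-1))` and
`s x` lie in `W'`.  `ext_eq_of_le`: `mono`-free argument: if `x ∈ W'` and `x ∉ W` then `1/x ∈ m_W`
is a unit of `W'`; a normalized relation for `1/x` with the smallest unit index gives a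
contradiction (non-units of `O` are non-units of both).
`ext_sep`: distinct rings above `O` are incomparable; use `loc_lemma` for `x ∈ W \ W'`: `s` is
then a non-unit of `W'`; multiply.  `ext_conj`: otherwise the two orbits are disjoint; for each `W''`
in the orbit of `W'` take `s_W''` from `ext_sep` against all other members of both orbits; the
sum `s` is a unit on the orbit of `W'`, a non-unit on the orbit of `W`; the norm `Π g s` is fixed
by all automorphisms, a power of it lies in `F` (`fixed_pow`: the fixed field is purely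
inseparable), it is a unit for `W'` and a non-unit for `W`.  `res_gen`: `S` = coefficients of `minpoly θ` and the inverse of the
discriminant of the power basis; `Algebra.discr_mul_isIntegral_mem_adjoin`, `loc_lemma`, and an
element lying in all valuation rings above `O` is integral over `O`
(`iInf_valuationSubring_superset`, `ext_eq_of_le` style minimality or `exists_val_of_prime`).
-/

namespace P019

open IntermediateField

variable {F K : Type*} [Field F] [Field K] [Algebra F K]

theorem vg1_comap_lt {E : Type*} [Field E] (f : E →+* K) (W : ValuationSubring K) (a : E) :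
    (W.comap f).valuation a < 1 ↔ W.valuation (f a) < 1 := by
  rw [← ValuationSubring.mem_nonunits_iff, ← ValuationSubring.mem_nonunits_iff,
    ValuationSubring.mem_nonunits_iff_or, ValuationSubring.mem_nonunits_iff_or,
    ValuationSubring.mem_comap, map_inv₀, map_eq_zero]

open Polynomial in
theorem vg1_prod (W : ValuationSubring K) (m : Multiset K) (h : ∀ r ∈ m, W.valuation r < 1) :
    ∀ i, W.valuation (((m.map fun r => Polynomial.X - C r).prod - Polynomial.X ^ m.card).coeff i) < 1 := by
  induction m using Multiset.induction_on with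
  | empty => simp
  | cons r m ih =>
    intro i
    have h1 := ih fun r hr => h r (Multiset.mem_cons_of_mem hr)
    have h2 := h r (Multiset.mem_cons_self r m)
    rw [Multiset.map_cons, Multiset.prod_cons, Multiset.card_cons]
    set p := (m.map fun r => Polynomial.X - C r).prod
    have e : (Polynomial.X - C r) * p - Polynomial.X ^ (m.card + 1) =
        Polynomial.X * (p - Polynomial.X ^ m.card) - C r * (p - Polynomial.X ^ m.card) -
          C r * Polynomial.X ^ m.card := by ring
    rw [e, coeff_sub, coeff_sub, coeff_C_mul, coeff_C_mul]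
    refine Valuation.map_sub_lt _ (Valuation.map_sub_lt _ ?_ ?_) ?_
    · rcases i with _ | i
      · simp
      · rw [coeff_X_mul]; exact h1 i
    · rw [map_mul]; exact mul_lt_one_of_lt_of_le h2 (h1 i).le
    · rw [coeff_X_pow]; split_ifs <;> simp [h2]

open Polynomial in
theorem ext_conj [FiniteDimensional F K] [Normal F K] {W W' : ValuationSubring K}
    (hc : W.comap (algebraMap F K) = W'.comap (algebraMap F K)) :
    ∃ g : K ≃ₐ[F] K, W' = W.comap (g : K →+* K) := by
  classical
  by_contra hne
  push Not at hne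
  obtain ⟨s, h1, h2, -⟩ := ext_sep (F := F) W'
    (Finset.univ.image fun g : K ≃ₐ[F] K => W.comap (g : K →+* K)) (by
      intro V hV
      obtain ⟨g, -, rfl⟩ := Finset.mem_image.1 hV
      refine ⟨(hne g).symm, ?_⟩
      rw [← hc]
      ext a
      simp [ValuationSubring.mem_comap])
  have hs : IsIntegral F s := IsIntegral.of_finite F s
  set μ := (minpoly F s).map (algebraMap F K) with hμ
  have hm : μ.Monic := (minpoly.monic hs).map _
  have h3 := vg1_prod W μ.roots fun r hr => by
    obtain ⟨g, rfl⟩ := minpoly.exists_algEquiv_of_root' (x := r) hs.isAlgebraic (by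
      rw [← eval_map_algebraMap]; exact (mem_roots hm.ne_zero).1 hr)
    exact (vg1_comap_lt (g : K →+* K) W s).1 (h2 _ (Finset.mem_image_of_mem _ (Finset.mem_univ g)))
  rw [← (Normal.splits inferInstance s).eq_prod_roots_of_monic hm] at h3
  set n := μ.roots.card
  have e : μ - Polynomial.X ^ n = (minpoly F s - Polynomial.X ^ n).map (algebraMap F K) := by simp [hμ]
  have h4 : ∀ i, W'.valuation ((μ - Polynomial.X ^ n).coeff i) < 1 := fun i => by
    have := h3 i
    rw [e, coeff_map, ← vg1_comap_lt] at this ⊢
    rwa [← hc]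
  have h5 : W'.valuation ((μ - Polynomial.X ^ n).eval s) < 1 := by
    rw [eval_eq_sum_range]
    refine Valuation.map_sum_lt _ one_ne_zero fun i _ => ?_
    rw [map_mul, map_pow, h1, one_pow, mul_one]
    exact h4 i
  rw [eval_sub, hμ, eval_map_algebraMap, minpoly.aeval, eval_pow, eval_X, zero_sub,
    Valuation.map_neg, map_pow, h1, one_pow] at h5
  exact lt_irrefl _ h5

theorem vg1_trace [FiniteDimensional F K] [Algebra.IsSeparable F K] (W : ValuationSubring K) {z : K}
    (hz : ∀ W' : ValuationSubring K,
      W'.comap (algebraMap F K) = W.comap (algebraMap F K) → z ∈ W') :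
    algebraMap F K (Algebra.trace F K z) ∈ W := by
  obtain ⟨V, rfl⟩ := exists_ext (K := AlgebraicClosure K) W
  rw [ValuationSubring.mem_comap, ← IsScalarTower.algebraMap_apply,
    trace_eq_sum_embeddings (AlgebraicClosure K)]
  refine sum_mem fun σ _ => ?_
  refine hz (V.comap (σ : K →+* AlgebraicClosure K)) ?_
  ext a
  simp only [ValuationSubring.mem_comap, RingHom.coe_coe, AlgHom.commutes,
    ← IsScalarTower.algebraMap_apply]

/-- elements of `W` whose residue lies in the field generated by the residue of `θ` -/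
def vg1R (F : Type*) [Field F] [Algebra F K] (W : ValuationSubring K) (θ : K) : Subring K where
  carrier := {z | z ∈ W ∧ res W z ∈ (resK F W)⟮res W θ⟯}
  mul_mem' ha hb := ⟨mul_mem ha.1 hb.1, by rw [res_mul W ha.1 hb.1]; exact mul_mem ha.2 hb.2⟩
  add_mem' ha hb := ⟨add_mem ha.1 hb.1, by rw [res_add W ha.1 hb.1]; exact add_mem ha.2 hb.2⟩
  one_mem' := ⟨one_mem _, by rw [res_one]; exact one_mem _⟩
  zero_mem' := ⟨zero_mem _, by rw [res_zero]; exact zero_mem _⟩
  neg_mem' {a} ha := ⟨neg_mem ha.1, by
    rw [← zero_sub, res_sub W (zero_mem _) ha.1, res_zero]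
    exact sub_mem (zero_mem _) ha.2⟩

theorem vg1_const {W : ValuationSubring K} (θ : K) {c : F} (hc : algebraMap F K c ∈ W) :
    algebraMap F K c ∈ vg1R F W θ :=
  ⟨hc, (resK F W)⟮res W θ⟯.algebraMap_mem ⟨_, (mem_resK W _).2 ⟨c, hc, rfl⟩⟩⟩

theorem vg1_aeval {W : ValuationSubring K} {θ : K} (hθ : θ ∈ W) {p : Polynomial F}
    (hp : ∀ a ∈ p.coeffs, algebraMap F K a ∈ W) : Polynomial.aeval θ p ∈ vg1R F W θ := by
  rw [Polynomial.aeval_eq_sum_range]
  refine sum_mem fun i _ => ?_
  by_cases h : p.coeff i = 0
  · simp [h]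
  · rw [Algebra.smul_def]
    exact mul_mem (vg1_const θ (hp _ (Polynomial.coeff_mem_coeffs h)))
      (pow_mem (show θ ∈ vg1R F W θ from ⟨hθ, mem_adjoin_simple_self _ _⟩) i)

/-- the residue field is generated by the residue of a primitive element -/
theorem res_gen [FiniteDimensional F K] [Algebra.IsSeparable F K] {θ : K} (hθ : F⟮θ⟯ = ⊤) :
    ∃ S : Finset F, ∀ W : ValuationSubring K, (∀ a ∈ S, algebraMap F K a ∈ W) →
      θ ∈ W ∧ (resK F W)⟮res W θ⟯ = ⊤ := by
  classical
  have hi : IsIntegral F θ := IsIntegral.of_finite F θ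
  have hp : ∀ a : K, ∃ p : Polynomial F, Polynomial.aeval θ p = a := fun a => by
    have h1 : a ∈ F⟮θ⟯.toSubalgebra := by rw [hθ]; trivial
    rwa [adjoin_simple_toSubalgebra_of_isAlgebraic hi.isAlgebraic,
      Algebra.adjoin_singleton_eq_range_aeval] at h1
  choose P hP using hp
  let b := Module.finBasis F K
  let S : Finset F := (minpoly F θ).coeffs ∪ ((Finset.univ.biUnion fun i => (P (b i)).coeffs) ∪
    Finset.univ.biUnion fun i => (P (b.traceDual i)).coeffs)
  have h1 : ∀ W : ValuationSubring K, (∀ a ∈ S, algebraMap F K a ∈ W) → θ ∈ W := fun W hW => by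
    refine mem_of_monic W ((minpoly.monic hi).map (algebraMap F K)) (fun i => ?_)
      (by rw [Polynomial.eval_map_algebraMap, minpoly.aeval])
    rw [Polynomial.coeff_map]
    by_cases h : (minpoly F θ).coeff i = 0
    · simp [h]
    · exact hW _ (Finset.mem_union_left _ (Polynomial.coeff_mem_coeffs h))
  have h2 : ∀ W : ValuationSubring K, (∀ a ∈ S, algebraMap F K a ∈ W) → ∀ i,
      b i ∈ vg1R F W θ ∧ b.traceDual i ∈ vg1R F W θ := fun W hW i => by
    rw [← hP (b i), ← hP (b.traceDual i)]
    exact ⟨vg1_aeval (h1 W hW) fun a ha => hW a (Finset.mem_union_right _ (Finset.mem_union_left _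
        (Finset.mem_biUnion.2 ⟨i, Finset.mem_univ i, ha⟩))),
      vg1_aeval (h1 W hW) fun a ha => hW a (Finset.mem_union_right _ (Finset.mem_union_right _
        (Finset.mem_biUnion.2 ⟨i, Finset.mem_univ i, ha⟩)))⟩
  refine ⟨S, fun W hW => ⟨h1 W hW, eq_top_iff.2 fun r _ => ?_⟩⟩
  have h3 : ∀ z : K, (∀ W' : ValuationSubring K,
      W'.comap (algebraMap F K) = W.comap (algebraMap F K) → z ∈ W') → z ∈ vg1R F W θ := by
    intro z hz
    rw [← b.traceDual.sum_repr z]
    refine sum_mem fun i _ => ?_
    rw [Algebra.smul_def, Module.Basis.traceDual_repr_apply, Algebra.traceForm_apply]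
    refine mul_mem (vg1_const θ (vg1_trace W fun W' hW' => mul_mem (hz W' hW') ?_)) (h2 W hW i).2
    refine (h2 W' (fun a ha => ?_) i).1.1
    rw [← ValuationSubring.mem_comap, hW']
    exact hW a ha
  obtain ⟨a, ha, rfl⟩ := res_surj W r
  obtain ⟨s, hs, hs'⟩ := loc_lemma (F := F) ha (Algebra.IsAlgebraic.isAlgebraic a)
  have h4 := h3 s fun W' h => (hs' W' h).1
  have h5 := (h3 (s * a) fun W' h => (hs' W' h).2).2
  have h6 : res W s ≠ 0 := fun h => ((res_eq_zero_iff W h4.1).1 h).ne hs
  rw [res_mul W h4.1 ha] at h5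
  rw [← inv_mul_cancel_left₀ h6 (res W a)]
  exact mul_mem (inv_mem h4.2) h5

end P019
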