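import Vale.Agent.P019.Mono

/-!
P019 VG1A: valuation rings above a given one in an algebraic extension, first part.
-/

namespace P019

open IntermediateField

variable {F K : Type*} [Field F] [Field K] [Algebra F K]

theorem vg1_mem {W W' : ValuationSubring K}
    (hc : W'.comap (algebraMap F K) = W.comap (algebraMap F K)) {a : F}
    (h : algebraMap F K a ∈ W) : algebraMap F K a ∈ W' := by
  have h1 : a ∈ W.comap (algebraMap F K) := h
  rw [← hc] at h1
  exact h1

theorem vg1_lt {W W' : ValuationSubring K}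
    (hc : W'.comap (algebraMap F K) = W.comap (algebraMap F K)) {a : F}
    (h : W.valuation (algebraMap F K a) < 1) : W'.valuation (algebraMap F K a) < 1 := by
  rw [← ValuationSubring.mem_nonunits_iff, ValuationSubring.mem_nonunits_iff_or] at h ⊢
  refine h.imp_right fun h1 h2 => h1 ?_
  rw [← map_inv₀] at h2 ⊢
  exact vg1_mem hc.symm h2

theorem vg1_mul_lt {Γ : Type*} [LinearOrderedCommGroupWithZero Γ] {a b : Γ} (ha : a < 1)
    (hb : b ≤ 1) : a * b < 1 := (mul_le_of_le_one_right' hb).trans_lt ha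

theorem vg1_lt_of_mul {W : ValuationSubring K} {s x : K} (h : s * x ∈ W) (hx : x ∉ W) :
    W.valuation s < 1 := by
  rw [← W.valuation_le_one_iff, not_le] at hx
  rw [← W.valuation_le_one_iff, map_mul] at h
  by_contra hs
  exact absurd h (not_le.2 (hx.trans_le (le_mul_of_one_le_left' (not_lt.1 hs))))

theorem vg1_core (W : ValuationSubring K) {x : K} (ha : IsAlgebraic F x) :
    ∃ t : K, ∀ W' : ValuationSubring K,
      W'.comap (algebraMap F K) = W.comap (algebraMap F K) →
        (x ∈ W' → W'.valuation t < 1) ∧ (x ∉ W' → (1 + t) * x ∈ W') := by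
  classical
  obtain ⟨p, hp, hx⟩ := ha
  set n := p.natDegree + 1 with hn
  set v : ℕ → W.ValueGroup := fun i => W.valuation (algebraMap F K (p.coeff i)) with hv
  obtain ⟨i0, hi0, hmax⟩ := Finset.exists_max_image (Finset.range n) v ⟨0, by simp [hn]⟩
  obtain ⟨j, hj, hjm⟩ := Finset.exists_max_image ((Finset.range n).filter fun i => v i = v i0) id
    ⟨i0, by simp [hi0]⟩
  obtain ⟨hjn, hjv⟩ := Finset.mem_filter.1 hj
  have hvj : v j ≠ 0 := by
    have h1 : v p.natDegree ≠ 0 := by
      simp only [hv, ne_eq, map_eq_zero]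
      exact Polynomial.leadingCoeff_ne_zero.2 hp
    have h2 := hmax p.natDegree (by simp [hn])
    rw [hjv]
    exact fun h => h1 (le_zero_iff.1 (h ▸ h2))
  have hcj : p.coeff j ≠ 0 := fun h => hvj (by simp [hv, h])
  have hcj' : algebraMap F K (p.coeff j) ≠ 0 := (map_ne_zero _).2 hcj
  set A : ℕ → K := fun i => algebraMap F K (p.coeff i / p.coeff j) with hA
  have hAv : ∀ i, W.valuation (A i) = v i / v j := fun i => by simp only [hA, hv, map_div₀]
  have hA1 : ∀ i ∈ Finset.range n, A i ∈ W := fun i hi => by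
    rw [← W.valuation_le_one_iff, hAv, div_le_one₀ (zero_lt_iff.2 hvj), hjv]
    exact hmax i hi
  have hA2 : ∀ i ∈ Finset.range n, j < i → W.valuation (A i) < 1 := fun i hi hji => by
    rw [hAv, div_lt_one₀ (zero_lt_iff.2 hvj), hjv]
    refine lt_of_le_of_ne (hmax i hi) fun h => ?_
    exact absurd (hjm i (Finset.mem_filter.2 ⟨hi, h⟩)) (not_le.2 hji)
  have hjn' : j < n := Finset.mem_range.1 hjn
  have hrel : ∑ i ∈ Finset.range n, A i * x ^ i = 0 := by
    rw [Polynomial.aeval_eq_sum_range] at hx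
    have e : ∑ i ∈ Finset.range n, A i * x ^ i =
        (∑ i ∈ Finset.range n, p.coeff i • x ^ i) / algebraMap F K (p.coeff j) := by
      rw [Finset.sum_div]
      refine Finset.sum_congr rfl fun i _ => ?_
      rw [hA, Algebra.smul_def]
      simp only [map_div₀]
      ring
    rw [e, hx, zero_div]
  have hAj : A j = 1 := by simp only [hA, div_self hcj, map_one]
  refine ⟨∑ i ∈ Finset.Ico (j + 1) n, A i * x ^ (i - j), fun W' hc => ⟨fun hxW => ?_,
    fun hxW => ?_⟩⟩
  · refine W'.valuation.map_sum_lt one_ne_zero fun i hi => ?_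
    obtain ⟨h1, h2⟩ := Finset.mem_Ico.1 hi
    rw [map_mul]
    exact vg1_mul_lt (vg1_lt hc (hA2 i (Finset.mem_range.2 h2) h1))
      ((W'.valuation_le_one_iff _).2 (pow_mem hxW _))
  · have hx0 : x ≠ 0 := fun h => hxW (h ▸ W'.zero_mem)
    have hxi : x⁻¹ ∈ W' := (W'.mem_or_inv_mem x).resolve_left hxW
    have e : (1 + ∑ i ∈ Finset.Ico (j + 1) n, A i * x ^ (i - j)) * x =
        -∑ i ∈ Finset.range j, A i * x⁻¹ ^ (j - 1 - i) := by
      rw [← Finset.sum_range_add_sum_Ico _ (Nat.succ_le_of_lt hjn'), Finset.sum_range_succ, hAj,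
        one_mul] at hrel
      have e1 : (∑ i ∈ Finset.Ico (j + 1) n, A i * x ^ (i - j)) * x ^ j =
          ∑ i ∈ Finset.Ico (j + 1) n, A i * x ^ i := by
        rw [Finset.sum_mul]
        refine Finset.sum_congr rfl fun i hi => ?_
        have := (Finset.mem_Ico.1 hi).1
        rw [mul_assoc, ← pow_add, Nat.sub_add_cancel (by omega)]
      have e2 : (∑ i ∈ Finset.range j, A i * x⁻¹ ^ (j - 1 - i)) * x ^ j =
          (∑ i ∈ Finset.range j, A i * x ^ i) * x := by
        rw [Finset.sum_mul, Finset.sum_mul]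
        refine Finset.sum_congr rfl fun i hi => ?_
        have := Finset.mem_range.1 hi
        have e3 : x ^ j = x ^ (j - 1 - i) * (x ^ i * x) := by
          rw [← pow_succ, ← pow_add]
          congr 1
          omega
        rw [e3, mul_assoc, ← mul_assoc (x⁻¹ ^ _), ← mul_pow, inv_mul_cancel₀ hx0, one_pow,
          one_mul, mul_assoc]
      refine mul_right_cancel₀ (pow_ne_zero j hx0) ?_
      rw [neg_mul, e2]
      linear_combination x * e1 + x * hrel
    rw [e]
    refine neg_mem (sum_mem fun i hi => mul_mem ?_ (pow_mem hxi _))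
    exact vg1_mem hc (hA1 i (Finset.mem_range.2 ((Finset.mem_range.1 hi).trans hjn')))

theorem ext_eq_of_le [Algebra.IsAlgebraic F K] {W W' : ValuationSubring K} (h : W ≤ W')
    (hc : W.comap (algebraMap F K) = W'.comap (algebraMap F K)) : W = W' := by
  refine le_antisymm h fun x hx => ?_
  by_contra hxW
  obtain ⟨t, ht⟩ := vg1_core W (Algebra.IsAlgebraic.isAlgebraic (R := F) x)
  have h1 := (ht W' hc.symm).1 hx
  have h2 := vg1_lt_of_mul ((ht W rfl).2 hxW) hxW
  have h3 : W.valuation t < 1 := ValuationSubring.nonunits_le_nonunits.2 h h1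
  rw [W.valuation.map_one_add_of_lt h3] at h2
  exact lt_irrefl _ h2

theorem loc_lemma {W : ValuationSubring K} {x : K} (hx : x ∈ W) (ha : IsAlgebraic F x) :
    ∃ s : K, W.valuation s = 1 ∧ ∀ W' : ValuationSubring K,
      W'.comap (algebraMap F K) = W.comap (algebraMap F K) → s ∈ W' ∧ s * x ∈ W' := by
  obtain ⟨t, ht⟩ := vg1_core W ha
  refine ⟨1 + t, W.valuation.map_one_add_of_lt ((ht W rfl).1 hx), fun W' hc => ?_⟩
  by_cases hxW : x ∈ W'
  · have h1 : 1 + t ∈ W' :=
      add_mem W'.one_mem ((W'.valuation_le_one_iff _).1 ((ht W' hc).1 hxW).le)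
    exact ⟨h1, mul_mem h1 hxW⟩
  · have h1 := (ht W' hc).2 hxW
    exact ⟨(W'.valuation_le_one_iff _).1 (vg1_lt_of_mul h1 hxW).le, h1⟩

theorem ext_sep [Algebra.IsAlgebraic F K] (W : ValuationSubring K)
    (T : Finset (ValuationSubring K))
    (hT : ∀ W' ∈ T, W' ≠ W ∧ W'.comap (algebraMap F K) = W.comap (algebraMap F K)) :
    ∃ s : K, W.valuation s = 1 ∧ (∀ W' ∈ T, W'.valuation s < 1) ∧ ∀ W' : ValuationSubring K,
      W'.comap (algebraMap F K) = W.comap (algebraMap F K) → s ∈ W' := by
  classical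
  induction T using Finset.induction_on with
  | empty => exact ⟨1, map_one _, by simp, fun W' _ => W'.one_mem⟩
  | insert W1 T _ ih =>
    obtain ⟨s, hs1, hs2, hs3⟩ := ih fun W' hW' => hT W' (Finset.mem_insert_of_mem hW')
    obtain ⟨hne, hc⟩ := hT W1 (Finset.mem_insert_self _ _)
    have hnle : ¬ W ≤ W1 := fun h => hne (ext_eq_of_le h hc.symm).symm
    obtain ⟨x, hx, hx1⟩ := SetLike.not_le_iff_exists.1 hnle
    obtain ⟨r, hr1, hr2⟩ := loc_lemma hx (Algebra.IsAlgebraic.isAlgebraic (R := F) x)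
    refine ⟨r * s, by rw [map_mul, hr1, hs1, mul_one], fun W' hW' => ?_,
      fun W' hc' => mul_mem (hr2 W' hc').1 (hs3 W' hc')⟩
    rw [map_mul]
    rcases Finset.mem_insert.1 hW' with rfl | h
    · exact vg1_mul_lt (vg1_lt_of_mul (hr2 W' hc).2 hx1)
        ((W'.valuation_le_one_iff _).2 (hs3 W' hc))
    · rw [mul_comm]
      exact vg1_mul_lt (hs2 W' h)
        ((W'.valuation_le_one_iff _).2 (hr2 W' (hT W' hW').2).1)

/-- a power of an element fixed by all automorphisms lies in the base -/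
theorem fixed_pow [FiniteDimensional F K] [Normal F K] :
    ∃ e : ℕ, ∀ a : K, (∀ g : K ≃ₐ[F] K, g a = a) →
      ∃ c : F, algebraMap F K c = a ^ ringExpChar F ^ e := by
  classical
  refine ⟨IsPurelyInseparable.exponent F (perfectClosure F K), fun a ha => ?_⟩
  have hi : IsIntegral F a := Algebra.IsIntegral.isIntegral a
  have hm : a ∈ perfectClosure F K := by
    rw [mem_perfectClosure_iff_natSepDegree_eq_one,
      Polynomial.natSepDegree_eq_of_splits _ (Normal.splits inferInstance a),
      Finset.card_eq_one]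
    refine ⟨a, Finset.eq_singleton_iff_unique_mem.2 ⟨?_, fun y hy => ?_⟩⟩
    · rw [Multiset.mem_toFinset, Polynomial.mem_aroots]
      exact ⟨minpoly.ne_zero hi, minpoly.aeval F a⟩
    · rw [Multiset.mem_toFinset, Polynomial.mem_aroots] at hy
      obtain ⟨g, hg⟩ := minpoly.exists_algEquiv_of_root' hi.isAlgebraic hy.2
      rw [← hg, ha]
  obtain ⟨c, hc⟩ := IsPurelyInseparable.exponent_def F (⟨a, hm⟩ : perfectClosure F K)
  refine ⟨c, ?_⟩
  have := congrArg Subtype.val hc
  simpa using this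

end P019
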