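import Vale.Agent.P019.VG2A

/-!
P019 VG2: the inertia group; the value group of its fixed field is that of the base.
`G = K ≃ₐ[F] K` (finite), `D` = stabilizer of `W`, `I = Inert F W ≤ D`.
For `g ∈ D`: `v (g a) = v a` (an order preserving map of finite order is the identity).
Step D to G (Engler-Prestel): `s` from `ext_sep` for the conjugates `≠ W`, `e = Π_(h ∈ D) h s` is
fixed by `D`, a unit, and `v (g e) < 1` for `g ∉ D`.  For `a ≠ 0` fixed by `D` choose `n` with
`v (g (e^n a)) ≠ v (e^n a)` for all `g ∉ D` (at most one bad `n` per `g`).  Let `b_1 = e^n a, ...`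
be the distinct conjugates; if `r` of them are larger than `b_1`, the elementary symmetric
functions `e_r, e_(r+1)` (fixed by `G`) have a unique largest term, `v b_1 = v (e_(r+1) / e_r)`.
(Equivalent: for a polynomial `Π (T - b_j)` with coefficients in a subfield, evaluate: in
`Σ c_i b_1^i = 0`... any proof is fine, e.g. induction with `Multiset.esymm`.)
Step I to D: the maps `b ↦ res (g b)` on `W ∩ K^I`, `g ∈ D / I`, are distinct monoid homs (if
`g` acts trivially on the residues of the coefficients of `Π_(h ∈ I) (T - h x) ≡ (T - x)^|I|` then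
`g x ≡ x`); by `linearIndependent_monoidHom` some `b` has `Σ_(g ∈ D/I) (g a / a) g b` a unit, so
`c = Σ g (a b)` is fixed by `D` and `v c = v a`.
`inert_val_pow`: for `J ≤ I` the product of `g a` over `I / J` is fixed by `I` and has value
`v a ^ [I : J]`.
-/

namespace P019

variable {F : Type*} {K : Type*} [Field F] [Field K] [Algebra F K] [FiniteDimensional F K]

omit [FiniteDimensional F K] in
theorem vg2_coset (H J : Subgroup (K ≃ₐ[F] K)) {x : K} (hx : ∀ g ∈ J, g x = x) (h : H)
    (q : H ⧸ J.subgroupOf H) : ((h • q).out : H).1 x = h.1 (q.out.1 x) := by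
  obtain ⟨j, hj⟩ := QuotientGroup.mk_out_eq_mul (J.subgroupOf H) (h • q.out)
  rw [← MulAction.Quotient.mk_smul_out, hj]
  change h.1 (q.out.1 (j.1.1 x)) = _
  rw [hx j.1.1 j.2]

theorem vg2_res_sum (W : ValuationSubring K) {ι : Type*} (s : Finset ι) (f : ι → K)
    (hf : ∀ i, f i ∈ W) : res W (∑ i ∈ s, f i) = ∑ i ∈ s, res W (f i) := by
  have e : ∑ i ∈ s, f i = ((∑ i ∈ s, (⟨f i, hf i⟩ : W) : W) : K) := by
    rw [AddSubmonoidClass.coe_finsetSum]
  rw [e, resb_coe, map_sum]
  exact Finset.sum_congr rfl fun i _ => (resb_coe W ⟨f i, hf i⟩).symm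

theorem vg2_mem {W : ValuationSubring K} {g : K ≃ₐ[F] K} (hg : g ∈ Inert F W) {x : K}
    (hx : x ∈ W) : g x ∈ W := by
  rw [← W.valuation_le_one_iff] at hx ⊢
  rwa [Inert.val hg]

/-- an element of the decomposition group acting trivially on the residues of the fixed field of
the inertia group lies in the inertia group -/
theorem vg2_inert {W : ValuationSubring K} {k : K ≃ₐ[F] K} (hk : ∀ x ∈ W, k x ∈ W)
    (h : ∀ b ∈ W, (∀ g ∈ Inert F W, g b = b) → W.valuation (k b - b) < 1) : k ∈ Inert F W := by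
  classical
  intro x hx
  let P : Polynomial K := ∏ g : Inert F W, (Polynomial.X - Polynomial.C (g.1 x))
  have hW : ∀ i, P.coeff i ∈ W := by
    intro i
    have e : P = (∏ g : Inert F W, (Polynomial.X - Polynomial.C (⟨g.1 x, vg2_mem g.2 hx⟩ : W))).map
        W.subtype := by
      rw [Polynomial.map_prod]
      refine Finset.prod_congr rfl fun g _ => ?_
      rw [Polynomial.map_sub, Polynomial.map_X, Polynomial.map_C]
      rfl
    rw [e, Polynomial.coeff_map]
    exact SetLike.coe_mem _
  have hI : ∀ g ∈ Inert F W, ∀ i, g (P.coeff i) = P.coeff i := by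
    intro g hg i
    have e : P.map (g : K →+* K) = P := by
      rw [Polynomial.map_prod]
      refine Fintype.prod_equiv (Equiv.mulLeft (⟨g, hg⟩ : Inert F W)) _ _ fun g' => ?_
      rw [Polynomial.map_sub, Polynomial.map_X, Polynomial.map_C]
      rfl
    conv_rhs => rw [← e, Polynomial.coeff_map]
    rfl
  have h0 : P.eval x = 0 := by
    rw [Polynomial.eval_prod]
    exact Finset.prod_eq_zero (Finset.mem_univ 1) (by simp)
  have h1 : (P.map (k : K →+* K)).eval (k x) = 0 := by
    have := Polynomial.eval_map_apply (p := P) (k : K →+* K) x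
    rw [h0, map_zero] at this
    exact this
  have h2 : W.valuation (P.eval (k x)) < 1 := by
    rw [← Valuation.map_neg, ← zero_sub, ← h1, ← Polynomial.eval_sub, Polynomial.eval_eq_sum_range]
    refine Valuation.map_sum_lt _ one_ne_zero fun i _ => ?_
    rw [map_mul, map_pow, Polynomial.coeff_sub, Polynomial.coeff_map]
    exact mul_lt_one_of_lt_of_le (h _ (hW i) fun g hg => hI g hg i)
      (pow_le_one' ((W.valuation_le_one_iff _).2 (hk x hx)) _)
  rw [Polynomial.eval_prod, map_prod] at h2
  obtain ⟨g, hg⟩ : ∃ g : Inert F W, W.valuation (k x - g.1 x) < 1 := by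
    by_contra hc
    refine absurd h2 (not_lt.2 (Finset.one_le_prod' fun g _ => ?_))
    rw [Polynomial.eval_sub, Polynomial.eval_X, Polynomial.eval_C]
    exact not_lt.1 fun c => hc ⟨g, c⟩
  have := Valuation.map_add_lt _ hg (g.2 x hx)
  rwa [sub_add_sub_cancel] at this

theorem inert_val (W : ValuationSubring K) {a : K} (ha : ∀ g ∈ Inert F W, g a = a) :
    ∃ c : K, (∀ g : K ≃ₐ[F] K, g c = c) ∧ W.valuation c = W.valuation a := by
  classical
  by_cases a0 : a = 0
  · exact ⟨0, fun g => map_zero g, by rw [a0]⟩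
  let D : Subgroup (K ≃ₐ[F] K) :=
    { carrier := {g | ∀ x ∈ W, g x ∈ W}
      mul_mem' := fun hg hh x hx => hg _ (hh x hx)
      one_mem' := fun x hx => hx
      inv_mem' := fun {g} hg x hx => by
        rw [← W.valuation_le_one_iff] at hx ⊢
        rw [← val_of_stab hg]
        simpa using hx }
  let M : Submonoid K :=
    { carrier := {b | b ∈ W ∧ ∀ g ∈ Inert F W, g b = b}
      mul_mem' := fun hb hc => ⟨mul_mem hb.1 hc.1, fun g hg => by
        rw [map_mul, hb.2 g hg, hc.2 g hg]⟩
      one_mem' := ⟨one_mem W, fun g _ => map_one g⟩ }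
  let χ : D ⧸ (Inert F W).subgroupOf D → M →* Res W := fun q =>
    { toFun := fun b => res W (q.out.1 b.1)
      map_one' := by
        rw [OneMemClass.coe_one, map_one]
        exact (resb_coe W 1).trans (map_one _)
      map_mul' := fun b c => by
        rw [Submonoid.coe_mul, map_mul]
        exact res_mul W (q.out.2 _ b.2.1) (q.out.2 _ c.2.1) }
  have inj : Function.Injective χ := by
    intro q q' e
    rw [← q.out_eq', ← q'.out_eq', QuotientGroup.eq, Subgroup.mem_subgroupOf]
    refine vg2_inert (q.out⁻¹ * q'.out).2 fun b hb hI => ?_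
    have e1 : res W (q'.out.1 b) = res W (q.out.1 b) := (DFunLike.congr_fun e ⟨b, hb, hI⟩).symm
    rw [res_eq_iff W (q'.out.2 b hb) (q.out.2 b hb)] at e1
    rw [← val_of_stab q.out.2, map_sub]
    simpa using e1
  have li := (linearIndependent_monoidHom M (Res W)).comp χ inj
  have hu : ∀ q : D ⧸ (Inert F W).subgroupOf D, W.valuation (q.out.1 a / a) = 1 := fun q => by
    rw [map_div₀, val_of_stab q.out.2, div_self ((map_ne_zero _).2 a0)]
  obtain ⟨b, hb⟩ : ∃ b : M, ∑ q : D ⧸ (Inert F W).subgroupOf D,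
      res W (q.out.1 a / a) * res W (q.out.1 b.1) ≠ 0 := by
    by_contra hc
    refine resb_res_ne (hu (1 : D)) (Fintype.linearIndependent_iff.1 li
      (fun q => res W (q.out.1 a / a)) (funext fun b => ?_) _)
    rw [Finset.sum_apply]
    exact not_not.1 fun c => hc ⟨b, c⟩
  have hm : ∀ q : D ⧸ (Inert F W).subgroupOf D, q.out.1 a / a * q.out.1 b.1 ∈ W := fun q =>
    mul_mem (resb_mem (hu q)) (q.out.2 _ b.2.1)
  have h1 : W.valuation (∑ q : D ⧸ (Inert F W).subgroupOf D, q.out.1 a / a * q.out.1 b.1) = 1 := by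
    refine resb_unit (sum_mem fun q _ => hm q) ?_
    rw [vg2_res_sum W _ _ hm]
    simpa only [fun q => res_mul W (resb_mem (hu q)) (q.out.2 _ b.2.1)] using hb
  obtain ⟨c, hc1, hc2⟩ := dec_val (F := F) W
    (a := ∑ q : D ⧸ (Inert F W).subgroupOf D, q.out.1 (a * b.1)) fun g hg => by
      rw [map_sum]
      refine Fintype.sum_equiv (MulAction.toPerm (⟨g, hg⟩ : D)) _ _ fun q => ?_
      exact (vg2_coset D (Inert F W) (fun g hg => by rw [map_mul, ha g hg, b.2.2 g hg]) ⟨g, hg⟩ q).symm
  refine ⟨c, hc1, ?_⟩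
  rw [hc2, ← mul_one (W.valuation a), ← h1, ← map_mul, Finset.mul_sum]
  refine congrArg _ (Finset.sum_congr rfl fun q _ => ?_)
  rw [map_mul]
  field_simp

/-- if a subgroup of index prime to `ℓ` of the inertia group fixes the subfield `E`, the value
group of `E` is that of `F` up to index prime to `ℓ` -/
theorem inert_val_pow {ℓ : ℕ} [Fact ℓ.Prime] (hℓ : (ℓ : F) ≠ 0) [Normal F K]
    (W : ValuationSubring K) (J : Subgroup (K ≃ₐ[F] K)) (hJ : J ≤ Inert F W)
    (hi : (J.relIndex (Inert F W)).Coprime ℓ) :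
    ∃ N : ℕ, N.Coprime ℓ ∧ ∀ a : K, (∀ g ∈ J, g a = a) →
      ∃ c : F, W.valuation (a ^ N) = W.valuation (algebraMap F K c) := by
  classical
  obtain ⟨e, he⟩ := fixed_pow (F := F) (K := K)
  have hp : (ringExpChar F).Coprime ℓ := by
    rcases (ExpChar.exists F) with ⟨p, hp⟩
    rw [ringExpChar.eq F p]
    cases hp with
    | zero => exact Nat.coprime_one_left _
    | prime hq =>
      refine (Nat.coprime_primes hq Fact.out).2 fun c => hℓ ?_
      rw [← c]
      exact CharP.cast_eq_zero F p
  refine ⟨J.relIndex (Inert F W) * ringExpChar F ^ e, hi.mul_left (hp.pow_left e), fun a ha => ?_⟩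
  obtain ⟨c, hc1, hc2⟩ := inert_val (F := F) W
    (a := ∏ q : Inert F W ⧸ J.subgroupOf (Inert F W), q.out.1 a) fun g hg => by
      rw [map_prod]
      refine Fintype.prod_equiv (MulAction.toPerm (⟨g, hg⟩ : Inert F W)) _ _ fun q => ?_
      exact (vg2_coset (Inert F W) J ha ⟨g, hg⟩ q).symm
  obtain ⟨c0, h0⟩ := he c hc1
  refine ⟨c0, ?_⟩
  rw [h0, pow_mul, map_pow, map_pow, map_pow, hc2, map_prod,
    Finset.prod_congr rfl fun q _ => Inert.val q.out.2 a, Finset.prod_const, Finset.card_univ,
    Subgroup.relIndex, Subgroup.index, Nat.card_eq_fintype_card]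

end P019
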