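import Vale.Agent.P019.VG1

/-!
P019 VG2A: the inertia group, the value group of the fixed field of the decomposition group.
-/

namespace P019

section aux

variable {K : Type*} [Field K]

theorem vg2a_lt_one_iff (W : ValuationSubring K) (x : K) :
    W.valuation x < 1 ↔ x = 0 ∨ x⁻¹ ∉ W := by
  by_cases hx : x = 0
  · simp [hx]
  · have h0 : W.valuation x ≠ 0 := by simpa using hx
    rw [← W.valuation_le_one_iff, map_inv₀, not_le, one_lt_inv₀ (zero_lt_iff.2 h0)]
    simp [hx]

theorem vg2a_comap_lt_one {L : Type*} [Field L] (W : ValuationSubring L) (f : K →+* L) (x : K) :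
    (W.comap f).valuation x < 1 ↔ W.valuation (f x) < 1 := by
  rw [vg2a_lt_one_iff, vg2a_lt_one_iff, ValuationSubring.mem_comap, map_inv₀, map_eq_zero]

theorem vg2a_prod_lt {Γ ι : Type*} [LinearOrderedCommGroupWithZero Γ] (f : ι → Γ) (γ : Γ)
    {u : Finset ι} (hu : u.Nonempty) (h : ∀ y ∈ u, f y < γ) : ∏ y ∈ u, f y < γ ^ u.card := by
  induction hu using Finset.Nonempty.cons_induction with
  | singleton a => simpa using h
  | cons a s ha hs ih =>
    rw [Finset.prod_cons, Finset.card_cons, pow_succ']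
    exact mul_lt_mul'' (h a (by simp)) (ih fun y hy => h y (by simp [hy])) zero_le zero_le

theorem vg2a_top {Γ ι : Type*} [DecidableEq ι] [LinearOrderedCommGroupWithZero Γ] (f : ι → Γ)
    {S A t : Finset ι} (hA : ∀ x ∈ A, ∀ y ∈ S, y ∉ A → f y < f x) (h0 : ∀ x ∈ A, f x ≠ 0)
    (ht : t ⊆ S) (hc : t.card = A.card) (hne : t ≠ A) : ∏ y ∈ t, f y < ∏ x ∈ A, f x := by
  have h1 : (t \ A).card = (A \ t).card := by
    have e1 := Finset.card_sdiff_add_card_inter t A
    have e2 := Finset.card_sdiff_add_card_inter A t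
    rw [Finset.inter_comm A t] at e2
    omega
  have h2 : (t \ A).Nonempty := by
    rw [Finset.nonempty_iff_ne_empty]
    intro h
    exact hne (Finset.eq_of_subset_of_card_le (Finset.sdiff_eq_empty_iff_subset.1 h) hc.ge)
  have h3 : (A \ t).Nonempty := by
    rw [← Finset.card_pos, ← h1, Finset.card_pos]; exact h2
  obtain ⟨x0, hx0, hmin⟩ := Finset.exists_min_image (A \ t) f h3
  have h4 : ∏ y ∈ t \ A, f y < f x0 ^ (t \ A).card :=
    vg2a_prod_lt f _ h2 fun y hy =>
      hA x0 (Finset.mem_sdiff.1 hx0).1 y (ht (Finset.mem_sdiff.1 hy).1) (Finset.mem_sdiff.1 hy).2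
  have h5 : f x0 ^ (A \ t).card ≤ ∏ x ∈ A \ t, f x := Finset.pow_card_le_prod _ _ _ hmin
  have h6 : 0 < ∏ x ∈ t ∩ A, f x :=
    zero_lt_iff.2 (Finset.prod_ne_zero_iff.2 fun x hx => h0 x (Finset.mem_inter.1 hx).2)
  rw [← Finset.prod_inter_mul_prod_sdiff t A, ← Finset.prod_inter_mul_prod_sdiff A t,
    Finset.inter_comm A t]
  exact mul_lt_mul_of_pos_left (h4.trans_le (h1 ▸ h5)) h6

theorem vg2a_esymm (W : ValuationSubring K) {S A : Finset K} (hAS : A ⊆ S)
    (hA : ∀ x ∈ A, ∀ y ∈ S, y ∉ A → W.valuation y < W.valuation x) (h0 : ∀ x ∈ A, x ≠ 0) :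
    W.valuation (∑ t ∈ S.powersetCard A.card, ∏ x ∈ t, x) = ∏ x ∈ A, W.valuation x := by
  classical
  rw [← map_prod]
  refine Valuation.map_sum_eq_of_lt _ (f := fun t : Finset K => ∏ x ∈ t, x)
    (Finset.mem_powersetCard.2 ⟨hAS, rfl⟩) ?_
  intro t ht
  have ht1 := Finset.mem_powersetCard.1 (Finset.mem_sdiff.1 ht).1
  have ht2 : t ≠ A := by simpa using (Finset.mem_sdiff.1 ht).2
  rw [map_prod, map_prod]
  exact vg2a_top (fun x => W.valuation x) hA (fun x hx => by simpa using h0 x hx) ht1.1 ht1.2 ht2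

end aux

section stab

variable {F : Type*} {K : Type*} [Field F] [Field K] [Algebra F K] [FiniteDimensional F K]

theorem val_of_stab {W : ValuationSubring K} {g : K ≃ₐ[F] K} (hg : ∀ x ∈ W, g x ∈ W) (a : K) :
    W.valuation (g a) = W.valuation a := by
  have mono : ∀ x y : K, W.valuation x ≤ W.valuation y →
      W.valuation (g x) ≤ W.valuation (g y) := by
    intro x y h
    obtain ⟨c, hc⟩ := (W.valuation_le_iff x y).1 h
    exact (W.valuation_le_iff _ _).2 ⟨⟨g c, hg _ c.2⟩, by rw [← hc, map_mul]⟩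
  obtain ⟨m, hm⟩ : ∃ m, orderOf g = m + 1 :=
    ⟨orderOf g - 1, by have := orderOf_pos g; omega⟩
  have hga : g ((g ^ m) a) = a := by
    rw [← AlgEquiv.mul_apply, ← pow_succ', ← hm, pow_orderOf_eq_one]; rfl
  rcases le_total (W.valuation (g a)) (W.valuation a) with h | h
  · have : ∀ k : ℕ, W.valuation ((g ^ k) a) ≤ W.valuation a := by
      intro k
      induction k with
      | zero => simp
      | succ k ih => rw [pow_succ', AlgEquiv.mul_apply]; exact (mono _ _ ih).trans h
    refine le_antisymm h ?_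
    have h2 := mono _ _ (this m)
    rwa [hga] at h2
  · have : ∀ k : ℕ, W.valuation a ≤ W.valuation ((g ^ k) a) := by
      intro k
      induction k with
      | zero => simp
      | succ k ih => rw [pow_succ', AlgEquiv.mul_apply]; exact h.trans (mono _ _ ih)
    refine le_antisymm ?_ h
    have h2 := mono _ _ (this m)
    rwa [hga] at h2

omit [FiniteDimensional F K] in
theorem vg2a_stab_of {W : ValuationSubring K} {g : K ≃ₐ[F] K}
    (hg : ∀ x ∈ W, W.valuation (g x - x) < 1) : ∀ x ∈ W, g x ∈ W := by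
  intro x hx
  have h1 : g x - x ∈ W := (W.valuation_le_one_iff _).1 (hg x hx).le
  simpa using W.add_mem _ _ h1 hx

end stab

variable (F : Type*) {K : Type*} [Field F] [Field K] [Algebra F K]

/-- inertia group -/
def Inert [FiniteDimensional F K] (W : ValuationSubring K) : Subgroup (K ≃ₐ[F] K) where
  carrier := {g | ∀ x ∈ W, W.valuation (g x - x) < 1}
  mul_mem' := by
    intro g h hg hh x hx
    have e : (g * h) x - x = (g (h x) - h x) + (h x - x) := by
      rw [AlgEquiv.mul_apply]; ring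
    rw [e]
    exact Valuation.map_add_lt _ (hg _ (vg2a_stab_of hh x hx)) (hh x hx)
  one_mem' := by
    intro x _
    simp
  inv_mem' := by
    intro g hg x hx
    rw [← val_of_stab (vg2a_stab_of hg), map_sub, ← AlgEquiv.mul_apply, mul_inv_cancel,
      AlgEquiv.one_apply, Valuation.map_sub_swap]
    exact hg x hx

variable {F} [FiniteDimensional F K]

theorem mem_Inert (W : ValuationSubring K) (g : K ≃ₐ[F] K) :
    g ∈ Inert F W ↔ ∀ x ∈ W, W.valuation (g x - x) < 1 := Iff.rfl

theorem Inert.val {W : ValuationSubring K} {g : K ≃ₐ[F] K} (hg : g ∈ Inert F W) (a : K) :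
    W.valuation (g a) = W.valuation a := val_of_stab (vg2a_stab_of hg) a

theorem mem_Inert_comap (W : ValuationSubring K) (g h : K ≃ₐ[F] K) :
    g ∈ Inert F (W.comap (h : K →+* K)) ↔ h * g * h⁻¹ ∈ Inert F W := by
  rw [mem_Inert, mem_Inert]
  have hh : ∀ y : K, h (h⁻¹ y) = y := fun y => by
    rw [← AlgEquiv.mul_apply, mul_inv_cancel, AlgEquiv.one_apply]
  have hh' : ∀ y : K, h⁻¹ (h y) = y := fun y => by
    rw [← AlgEquiv.mul_apply, inv_mul_cancel, AlgEquiv.one_apply]
  constructor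
  · intro H y hy
    have h1 := H (h⁻¹ y) (by
      rw [ValuationSubring.mem_comap]
      change h (h⁻¹ y) ∈ W
      rw [hh]; exact hy)
    rw [vg2a_comap_lt_one] at h1
    change W.valuation (h (g (h⁻¹ y) - h⁻¹ y)) < 1 at h1
    rw [map_sub, hh] at h1
    exact h1
  · intro H x hx
    rw [vg2a_comap_lt_one]
    have h1 := H (h x) hx
    change W.valuation (h (g (h⁻¹ (h x))) - h x) < 1 at h1
    rw [hh'] at h1
    change W.valuation (h (g x - x)) < 1
    rw [map_sub]
    exact h1

/-- the stabilizer of a valuation ring -/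
def vg2aDec (W : ValuationSubring K) : Subgroup (K ≃ₐ[F] K) where
  carrier := {g | ∀ x ∈ W, g x ∈ W}
  mul_mem' := by
    intro g h hg hh x hx
    exact hg _ (hh x hx)
  one_mem' := by
    intro x hx
    exact hx
  inv_mem' := by
    intro g hg x hx
    rw [← W.valuation_le_one_iff, ← val_of_stab hg, ← AlgEquiv.mul_apply, mul_inv_cancel,
      AlgEquiv.one_apply, W.valuation_le_one_iff]
    exact hx

omit [FiniteDimensional F K] in
theorem vg2a_comap_comap (W : ValuationSubring K) (g : K ≃ₐ[F] K) :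
    (W.comap (g : K →+* K)).comap (algebraMap F K) = W.comap (algebraMap F K) := by
  ext x
  simp [ValuationSubring.mem_comap]

theorem vg2a_unit (W : ValuationSubring K) :
    ∃ e : K, W.valuation e = 1 ∧ (∀ g ∈ vg2aDec (F := F) W, g e = e) ∧
      ∀ g : K ≃ₐ[F] K, g ∉ vg2aDec (F := F) W → W.valuation (g e) < 1 := by
  classical
  obtain ⟨s, hs1, hs2, hs3⟩ := ext_sep (F := F) W
    ((Finset.univ.filter fun g : K ≃ₐ[F] K => g ∉ vg2aDec (F := F) W).image
      fun g : K ≃ₐ[F] K => W.comap (g : K →+* K)) (by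
    intro W' hW'
    obtain ⟨g, hg, rfl⟩ := Finset.mem_image.1 hW'
    refine ⟨fun h => (Finset.mem_filter.1 hg).2 ?_, vg2a_comap_comap W g⟩
    intro x hx
    rw [← h] at hx
    exact hx)
  refine ⟨∏ h : vg2aDec (F := F) W, (h : K ≃ₐ[F] K) s, ?_, ?_, ?_⟩
  · rw [map_prod]
    exact Finset.prod_eq_one fun h _ => (val_of_stab h.2 s).trans hs1
  · intro g hg
    rw [map_prod]
    exact Fintype.prod_equiv (Equiv.mulLeft (⟨g, hg⟩ : vg2aDec (F := F) W)) _ _ fun h => rfl
  · intro g hg
    rw [map_prod, map_prod]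
    have h := vg2a_prod_lt (fun h : vg2aDec (F := F) W => W.valuation (g ((h : K ≃ₐ[F] K) s))) 1
      (u := Finset.univ) ⟨1, Finset.mem_univ _⟩ (by
        intro h _
        have h1 : g * (h : K ≃ₐ[F] K) ∉ vg2aDec (F := F) W := fun h2 =>
          hg ((Subgroup.mul_mem_cancel_right _ h.2).1 h2)
        have h2 := hs2 (W.comap ((g * (h : K ≃ₐ[F] K) : K ≃ₐ[F] K) : K →+* K))
          (Finset.mem_image.2 ⟨_, Finset.mem_filter.2 ⟨Finset.mem_univ _, h1⟩, rfl⟩)
        rw [vg2a_comap_lt_one] at h2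
        exact h2)
    rwa [one_pow] at h

theorem vg2a_sep (W : ValuationSubring K) {a : K} (ha0 : a ≠ 0)
    (ha : ∀ g ∈ vg2aDec (F := F) W, g a = a) :
    ∃ b : K, W.valuation b = W.valuation a ∧
      ∀ g : K ≃ₐ[F] K, g b ≠ b → W.valuation (g b) ≠ W.valuation b := by
  obtain ⟨e, he1, he2, he3⟩ := vg2a_unit (F := F) W
  have he0 : e ≠ 0 := by
    intro h
    rw [h] at he1
    simp at he1
  have hfin : ∀ g : K ≃ₐ[F] K, {n : ℕ | g ∉ vg2aDec (F := F) W ∧
      W.valuation (g e) ^ n * W.valuation (g a) = W.valuation a}.Finite := by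
    intro g
    refine Set.Subsingleton.finite ?_
    intro n hn m hm
    have h1 : W.valuation (g a) ≠ 0 := by simpa using ha0
    have h2 : W.valuation (g e) ≠ 0 := by simpa using he0
    have h3 := mul_right_cancel₀ h1 (hn.2.trans hm.2.symm)
    exact pow_right_injective₀ (zero_lt_iff.2 h2) (he3 g hn.1).ne h3
  obtain ⟨n, hn⟩ := (Set.finite_iUnion hfin).exists_notMem
  have hv : W.valuation (e ^ n * a) = W.valuation a := by
    rw [map_mul, map_pow, he1, one_pow, one_mul]
  refine ⟨e ^ n * a, hv, fun g hg h => ?_⟩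
  have hD : g ∉ vg2aDec (F := F) W := fun hD => hg (by rw [map_mul, map_pow, he2 g hD, ha g hD])
  refine hn (Set.mem_iUnion.2 ⟨g, hD, ?_⟩)
  rw [hv, map_mul, map_pow, map_mul, map_pow] at h
  exact h

theorem dec_val (W : ValuationSubring K) {a : K}
    (ha : ∀ g : K ≃ₐ[F] K, (∀ x ∈ W, g x ∈ W) → g a = a) :
    ∃ c : K, (∀ g : K ≃ₐ[F] K, g c = c) ∧ W.valuation c = W.valuation a := by
  classical
  by_cases ha0 : a = 0
  · exact ⟨0, fun g => map_zero g, by rw [ha0]⟩
  obtain ⟨b, hb1, hb2⟩ := vg2a_sep (F := F) W ha0 ha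
  have hb0 : b ≠ 0 := by
    intro h
    rw [h, map_zero] at hb1
    exact ha0 (by simpa using hb1.symm)
  set S : Finset K := Finset.univ.image fun g : K ≃ₐ[F] K => g b with hS
  have hbS : b ∈ S := Finset.mem_image.2 ⟨1, Finset.mem_univ _, rfl⟩
  have hS0 : ∀ x ∈ S, x ≠ 0 := by
    intro x hx
    obtain ⟨g, -, rfl⟩ := Finset.mem_image.1 hx
    simpa using hb0
  have hSne : ∀ x ∈ S, x ≠ b → W.valuation x ≠ W.valuation b := by
    intro x hx
    obtain ⟨g, -, rfl⟩ := Finset.mem_image.1 hx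
    exact hb2 g
  have hfix : ∀ (g : K ≃ₐ[F] K) (k : ℕ), g (∑ t ∈ S.powersetCard k, ∏ x ∈ t, x) =
      ∑ t ∈ S.powersetCard k, ∏ x ∈ t, x := by
    intro g k
    have h1 : S.map ⟨g, g.injective⟩ = S := by
      refine Finset.eq_of_subset_of_card_le ?_ (by simp)
      intro x hx
      obtain ⟨y, hy, rfl⟩ := Finset.mem_map.1 hx
      obtain ⟨h, -, rfl⟩ := Finset.mem_image.1 hy
      exact Finset.mem_image.2 ⟨g * h, Finset.mem_univ _, rfl⟩
    have h2 : S.val.map g = S.val.map id := by
      rw [Multiset.map_id]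
      exact congrArg Finset.val h1
    have h3 := Finset.esymm_map_val (fun x : K => g x) S k
    have h4 := Finset.esymm_map_val (id : K → K) S k
    rw [h2, h4] at h3
    simp only [map_sum, map_prod]
    exact h3.symm
  set A : Finset K := S.filter fun x => W.valuation b < W.valuation x with hA
  have hbA : b ∉ A := by simp [hA]
  have e1 := vg2a_esymm W (S := S) (A := A) (Finset.filter_subset _ _) (by
    intro x hx y hy hyA
    have h1 : ¬ W.valuation b < W.valuation y := fun h => hyA (Finset.mem_filter.2 ⟨hy, h⟩)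
    exact (not_lt.1 h1).trans_lt (Finset.mem_filter.1 hx).2)
    (fun x hx => hS0 x (Finset.mem_filter.1 hx).1)
  have e2 := vg2a_esymm W (S := S) (A := insert b A)
    (Finset.insert_subset hbS (Finset.filter_subset _ _)) (by
    intro x hx y hy hyA
    rw [Finset.mem_insert, not_or] at hyA
    have h1 : ¬ W.valuation b < W.valuation y := fun h => hyA.2 (Finset.mem_filter.2 ⟨hy, h⟩)
    have h2 : W.valuation y < W.valuation b := lt_of_le_of_ne (not_lt.1 h1) (hSne y hy hyA.1)
    rcases Finset.mem_insert.1 hx with rfl | hx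
    · exact h2
    · exact h2.trans (Finset.mem_filter.1 hx).2) (by
    intro x hx
    rcases Finset.mem_insert.1 hx with rfl | hx
    · exact hb0
    · exact hS0 x (Finset.mem_filter.1 hx).1)
  refine ⟨(∑ t ∈ S.powersetCard (insert b A).card, ∏ x ∈ t, x) /
    ∑ t ∈ S.powersetCard A.card, ∏ x ∈ t, x, fun g => by rw [map_div₀, hfix, hfix], ?_⟩
  have h0 : ∏ x ∈ A, W.valuation x ≠ 0 :=
    Finset.prod_ne_zero_iff.2 fun x hx => by simpa using hS0 x (Finset.mem_filter.1 hx).1
  rw [map_div₀, e1, e2, Finset.prod_insert hbA, mul_div_assoc, div_self h0, mul_one, hb1]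

end P019
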