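import Vale.Agent.P019.VG2

/-!
P019 VG3: tame inertia.  For `g ∈ I` the map `χ_g : a ↦ res (g a / a)` is a character of `Kˣ`,
trivial on units, multiplicative in `g`; for `g` of order `ℓ^e` its values are `ℓ^e`-th roots of
unity, and `χ_g = 1` forces `g = 1` (take `a = g b - b ≠ 0`, `Σ_j g^j a = 0`, but
`Σ_j g^j a / a ≡ ℓ^e ≠ 0`).  Let `H` be the group fixing `E`, `P` an `ℓ`-Sylow subgroup of
`I ⊓ H`, inside an `ℓ`-Sylow `Q` of `I`.  `A = Kˣ / {a | ∃ c fixed by P, v a = v c}` has at most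
`[K : K^P] = |P|` elements (different cosets are independent).  By `inert_val_pow` for `K / E` and
`IdxOK`, a power prime to `ℓ` of every `c` fixed by `P` has the value of an element of `F`, so
`χ_g` (`g ∈ Q`) factors through `A`; `|Q| ≤ |Hom (A, κˣ)| ≤ |A| ≤ |P|` (`linearIndependent_monoidHom`
for the last but one), so `Q = P`.
-/

namespace P019

variable {ℓ : ℕ} [Fact ℓ.Prime] {F K : Type*} [Field F] [Field K] [Algebra F K]

section aux

variable [FiniteDimensional F K] {W : ValuationSubring K}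

theorem vg3_unit {g : K ≃ₐ[F] K} (hg : g ∈ Inert F W) {a : K} (ha : a ≠ 0) :
    W.valuation (g a / a) = 1 := by
  rw [map_div₀, Inert.val hg, div_self ((Valuation.ne_zero_iff _).2 ha)]

/-- the character of an element of the inertia group -/
noncomputable def vg3Chi (g : Inert F W) : Kˣ →* Res W where
  toFun a := res W (g.1 a / a)
  map_one' := by
    rw [Units.val_one, map_one, div_one]
    exact_mod_cast res_natCast W 1
  map_mul' a b := by
    rw [← res_mul W (resb_mem (vg3_unit g.2 a.ne_zero)) (resb_mem (vg3_unit g.2 b.ne_zero)),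
      Units.val_mul, map_mul, mul_div_mul_comm]

theorem vg3_eq (g h : Inert F W) (a : Kˣ) :
    vg3Chi g a = vg3Chi h a ↔ W.valuation (g.1 a - h.1 a) < W.valuation a := by
  refine (res_eq_iff W (resb_mem (vg3_unit g.2 a.ne_zero))
    (resb_mem (vg3_unit h.2 a.ne_zero))).trans ?_
  rw [← sub_div, map_div₀, div_lt_one₀ ((Valuation.pos_iff _).2 a.ne_zero)]

theorem vg3_one (a : Kˣ) : vg3Chi (1 : Inert F W) a = 1 := by
  change res W ((a : K) / a) = 1
  rw [div_self a.ne_zero]
  exact_mod_cast res_natCast W 1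

theorem vg3_val (g : Inert F W) {a b : Kˣ} (h : W.valuation a = W.valuation b) :
    vg3Chi g a = vg3Chi g b := by
  have h1 : W.valuation ((a / b : Kˣ) : K) = 1 := by
    rw [Units.val_div_eq_div_val, map_div₀, h, div_self ((Valuation.ne_zero_iff _).2 b.ne_zero)]
  have h2 : vg3Chi g (a / b) = 1 := by
    rw [← vg3_one (F := F) (a / b), vg3_eq, h1]
    exact g.2 _ (resb_mem h1)
  rw [← div_mul_cancel a b, map_mul, h2, one_mul]

theorem vg3_mul (g h : Inert F W) (a : Kˣ) : vg3Chi (g * h) a = vg3Chi g a * vg3Chi h a := by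
  have h0 : h.1 a ≠ 0 := (map_ne_zero _).2 a.ne_zero
  rw [← vg3_val g (a := Units.mk0 _ h0) (Inert.val h.2 a)]
  refine Eq.trans ?_ (res_mul W (resb_mem (vg3_unit g.2 h0)) (resb_mem (vg3_unit h.2 a.ne_zero)))
  rw [Units.val_mk0, div_mul_div_cancel₀ h0]
  rfl

theorem vg3_pow (g : Inert F W) (a : Kˣ) (n : ℕ) : vg3Chi (g ^ n) a = vg3Chi g a ^ n := by
  induction n with
  | zero => rw [pow_zero, pow_zero, vg3_one]
  | succ n ih => rw [pow_succ, pow_succ, vg3_mul, ih]

theorem vg3_triv {g : Inert F W} {n : ℕ} (hn : W.valuation (n : K) = 1) (hg : g ^ n = 1)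
    (h : ∀ a, vg3Chi g a = 1) : g = 1 := by
  refine Subtype.ext (AlgEquiv.ext fun b => ?_)
  by_contra hb
  have h0 : g.1 b - b ≠ 0 := sub_ne_zero.2 hb
  have h1 : ∀ j, W.valuation ((g ^ j).1 (g.1 b - b) - (g.1 b - b)) < W.valuation (g.1 b - b) :=
    fun j => (vg3_eq (g ^ j) 1 (Units.mk0 _ h0)).1 (by rw [vg3_pow, h, one_pow, vg3_one])
  have h2 := Valuation.map_sum_lt W.valuation ((Valuation.ne_zero_iff _).2 h0)
    (s := Finset.range n) fun j _ => h1 j
  have h3 : ∑ j ∈ Finset.range n, (g ^ j).1 (g.1 b - b) = 0 := by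
    have h4 := Finset.sum_range_sub (fun j => (g ^ j).1 b) n
    rw [hg, pow_zero, sub_self] at h4
    rw [← h4]
    exact Finset.sum_congr rfl fun j _ => by rw [map_sub, pow_succ]; rfl
  rw [Finset.sum_sub_distrib, h3, zero_sub, Valuation.map_neg, Finset.sum_const, Finset.card_range,
    nsmul_eq_mul, map_mul, hn, one_mul] at h2
  exact lt_irrefl _ h2

/-- elements with the value of an element fixed by `P` -/
def vg3B (W : ValuationSubring K) (P : Subgroup (K ≃ₐ[F] K)) : Subgroup Kˣ where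
  carrier := {a | ∃ c ∈ IntermediateField.fixedField P, W.valuation a = W.valuation c}
  mul_mem' := by
    rintro a b ⟨c, hc, e⟩ ⟨d, hd, e'⟩
    exact ⟨c * d, mul_mem hc hd, by rw [Units.val_mul, map_mul, map_mul, e, e']⟩
  one_mem' := ⟨1, one_mem _, rfl⟩
  inv_mem' := by
    rintro a ⟨c, hc, e⟩
    exact ⟨c⁻¹, inv_mem hc, by rw [Units.val_inv_eq_inv_val, map_inv₀, map_inv₀, e]⟩

omit [FiniteDimensional F K] in
theorem vg3_indep (P : Subgroup (K ≃ₐ[F] K)) : LinearIndependent (IntermediateField.fixedField P)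
    fun α : Kˣ ⧸ vg3B W P => ((α.out : Kˣ) : K) := by
  classical
  refine linearIndependent_iff'.2 fun s c h i hi => ?_
  by_contra hc
  obtain ⟨j, hj, hm⟩ := s.exists_max_image (fun α => W.valuation (c α • ((α.out : Kˣ) : K))) ⟨i, hi⟩
  have h0 : 0 < W.valuation (c j • ((j.out : Kˣ) : K)) := lt_of_lt_of_le
    ((Valuation.pos_iff _).2 (mul_ne_zero (fun h0 => hc (Subtype.ext h0)) i.out.ne_zero)) (hm i hi)
  have h1 := Valuation.map_sum_eq_of_lt W.valuation (f := fun α => c α • ((α.out : Kˣ) : K)) hj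
    fun α hα => lt_of_le_of_ne (hm α (Finset.mem_sdiff.1 hα).1) fun e => by
      have hα0 : W.valuation (c α : K) ≠ 0 := fun h2 => by
        rw [← e, IntermediateField.smul_def, smul_eq_mul, map_mul, h2, zero_mul] at h0
        exact lt_irrefl _ h0
      refine (Finset.mem_sdiff.1 hα).2 (Finset.mem_singleton.2 ?_)
      rw [← j.out_eq, ← α.out_eq, eq_comm]
      refine QuotientGroup.eq.2 ⟨(c j / c α : IntermediateField.fixedField P), (c j / c α).2, ?_⟩
      rw [IntermediateField.smul_def, IntermediateField.smul_def, smul_eq_mul, smul_eq_mul,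
        map_mul, map_mul] at e
      rw [Units.val_mul, Units.val_inv_eq_inv_val, map_mul, map_inv₀, IntermediateField.coe_div,
        map_div₀, eq_div_iff hα0, mul_assoc, mul_comm _ (W.valuation (c α : K)), e, mul_left_comm,
        inv_mul_cancel₀ ((Valuation.ne_zero_iff _).2 j.out.ne_zero), mul_one]
  rw [h, map_zero] at h1
  exact h0.ne h1

omit [Fact ℓ.Prime] in
theorem vg3_card (W : ValuationSubring K) (hW : W.valuation (ℓ : K) = 1)
    {Q : Subgroup (Inert F W)} (hQ : IsPGroup ℓ Q) (P : Subgroup (K ≃ₐ[F] K)) {N : ℕ}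
    (hN : N.Coprime ℓ) (h : ∀ a : K, (∀ g ∈ P, g a = a) →
      ∃ c : F, W.valuation (a ^ N) = W.valuation (algebraMap F K c)) :
    Nat.card Q ≤ Nat.card P := by
  have hk : ∀ g : Q, vg3B W P ≤ (vg3Chi g.1).ker := by
    rintro g a ⟨c, hc, e⟩
    obtain ⟨d, hd⟩ := h c ((IntermediateField.mem_fixedField_iff _ _).1 hc)
    obtain ⟨n, hn⟩ := hQ g
    have h0 : algebraMap F K d ≠ 0 := (Valuation.ne_zero_iff W.valuation).1 (by
      rw [← hd, map_pow, ← e]
      exact pow_ne_zero _ ((Valuation.ne_zero_iff _).2 a.ne_zero))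
    have h1 : vg3Chi g.1 a ^ N = 1 := by
      rw [← map_pow, vg3_val g.1 (b := Units.mk0 _ h0) (by
        rw [Units.val_pow_eq_pow_val, map_pow, e, ← map_pow, hd, Units.val_mk0]),
        ← vg3_one (F := F) (Units.mk0 _ h0), vg3_eq, Units.val_mk0, AlgEquiv.commutes,
        AlgEquiv.commutes, sub_self, map_zero]
      exact (Valuation.pos_iff _).2 h0
    have h2 : vg3Chi g.1 a ^ ℓ ^ n = 1 := by
      rw [← vg3_pow, ← Subgroup.coe_pow, hn, Subgroup.coe_one, vg3_one]
    exact (pow_eq_one_iff_of_coprime (hN.pow_right n)).1 ⟨h1, h2⟩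
  have hi : Function.Injective fun g : Q => QuotientGroup.lift (vg3B W P) (vg3Chi g.1) (hk g) := by
    intro g g' e
    obtain ⟨n, hn⟩ := hQ (g⁻¹ * g')
    refine (inv_mul_eq_one.1 (Subtype.ext (vg3_triv (n := ℓ ^ n) (by
      rw [Nat.cast_pow, map_pow, hW, one_pow]) (congrArg Subtype.val hn) fun a => ?_)))
    have e1 : vg3Chi g.1 a = vg3Chi g'.1 a := DFunLike.congr_fun e (a : Kˣ ⧸ vg3B W P)
    rw [Subgroup.coe_mul, vg3_mul, ← e1, ← vg3_mul, Subgroup.coe_inv, inv_mul_cancel, vg3_one]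
  have l1 := (linearIndependent_monoidHom (Kˣ ⧸ vg3B W P) (Res W)).comp _ hi
  have l2 := vg3_indep (W := W) P
  have := l2.finite
  have := Fintype.ofFinite (Kˣ ⧸ vg3B W P)
  have := Fintype.ofFinite Q
  have h1 := l1.fintype_card_le_finrank
  have h2 := l2.fintype_card_le_finrank
  rw [Module.finrank_fintype_fun_eq_card] at h1
  rw [IntermediateField.finrank_fixedField_eq_card] at h2
  rw [Nat.card_eq_fintype_card]
  exact h1.trans h2

end aux

theorem tame_sylow [FiniteDimensional F K] [Normal F K] (E : IntermediateField F K)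
    (W : ValuationSubring K) (hW : W.valuation (ℓ : K) = 1)
    (hI : IdxOK ℓ F (W.comap (algebraMap E K))) :
    ∃ P : Subgroup (K ≃ₐ[F] K), P ≤ Inert F W ∧ P ≤ E.fixingSubgroup ∧ IsPGroup ℓ P ∧
      (P.relIndex (Inert F W)).Coprime ℓ := by
  have hp : ℓ.Prime := Fact.out
  have hE : (ℓ : E) ≠ 0 := fun h => by
    have h1 := congrArg (algebraMap E K) h
    rw [map_natCast, map_zero] at h1
    exact resb_ne hW h1
  have : Normal E K := Normal.tower_top_of_normal F E K
  obtain ⟨P₀⟩ : Nonempty (Sylow ℓ (Inert E W)) := inferInstance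
  obtain ⟨N₁, c₁, h₁⟩ := inert_val_pow hE W ((P₀ : Subgroup (Inert E W)).map (Inert E W).subtype)
    (Subgroup.map_subtype_le _) (by
      rw [Subgroup.relIndex, Subgroup.subgroupOf, Subgroup.comap_map_eq_self_of_injective
        (Subgroup.subtype_injective _)]
      exact ((Nat.Prime.coprime_iff_not_dvd hp).2 P₀.not_dvd_index).symm)
  obtain ⟨N₂, c₂, h₂⟩ := hI
  obtain ⟨P, hP⟩ : ∃ P, P = ((P₀ : Subgroup (Inert E W)).map (Inert E W).subtype).map
    (AlgEquiv.restrictScalarsHom F) := ⟨_, rfl⟩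
  have hPI : P ≤ Inert F W := by
    rw [hP]
    rintro _ ⟨_, ⟨g, -, rfl⟩, rfl⟩
    exact g.2
  have hPp : IsPGroup ℓ P := hP ▸ (P₀.isPGroup'.map _).map _
  refine ⟨P, hPI, ?_, hPp, ?_⟩
  · rw [hP]
    rintro _ ⟨g, -, rfl⟩
    exact (IntermediateField.mem_fixingSubgroup_iff _ _).2 fun x hx => g.commutes ⟨x, hx⟩
  obtain ⟨Q, hQ⟩ := (hPp.comap_subtype (K := Inert F W)).exists_le_sylow
  have hc : Nat.card Q ≤ Nat.card P := by
    refine vg3_card W hW Q.isPGroup' P (N := N₁ * N₂) (Nat.Coprime.mul_left c₁ c₂) fun a ha => ?_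
    obtain ⟨c, hc⟩ := h₁ a fun g hg => ha _ (hP ▸ Subgroup.mem_map_of_mem _ hg)
    obtain ⟨d, hd⟩ := h₂ c
    refine ⟨d, ?_⟩
    rw [pow_mul, map_pow, hc, ← map_pow, ← map_pow, IsScalarTower.algebraMap_apply F E K]
    exact le_antisymm ((val_comap _ W _ _).1 hd.le) ((val_comap _ W _ _).1 hd.ge)
  have e : P.comap (Inert F W).subtype = Q := Subgroup.eq_of_le_of_card_ge hQ
    (hc.trans_eq (Nat.card_congr (Subgroup.subgroupOfEquivOfLe hPI).toEquiv).symm)
  rw [Subgroup.relIndex, Subgroup.subgroupOf, e]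
  exact ((Nat.Prime.coprime_iff_not_dvd hp).2 Q.not_dvd_index).symm

end P019
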