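import Vale.Agent.P019.VG3

/-!
P019 VG4: the two outputs.  Let `N` be a normal closure of `K / F` (finite).
`lemU`: for `g ≠ 1` pick `x_g` with `g x_g ≠ x_g`; `S` = coefficients of the minimal polynomials
of `x_g` and `(g x_g - x_g)⁻¹`; any ring of `N` above `W` (`exists_ext`) has trivial inertia
(`mem_of_monic`); `inert_val_pow` with `J = ⊥`.
`lemS`: extend `W` to `W₁` on `N`, extend the `O i` arbitrarily; their limit (`exists_VLim`) lies
above `W ∩ F`, so is conjugate to `W₁` (`ext_conj`); conjugate all.  Eventually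
`Inert (W i) ≤ Inert W₁` (a witness for each `g ∉ Inert W₁`).  With `P` from `tame_sylow`, an
`ℓ`-Sylow subgroup of `Inert (W i)` is conjugate into `P` by some `h i ∈ Inert W₁`; conjugating
`W i` by `h i` keeps the limit (finitely many `h`, each fixes `W₁`); `inert_val_pow`.
-/

namespace P019

theorem vg4_eq {E F : Type*} [Field E] [Field F] (f : E →+* F) (O : ValuationSubring F)
    (a b : E) : (O.comap f).valuation a = (O.comap f).valuation b ↔
      O.valuation (f a) = O.valuation (f b) := by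
  rw [le_antisymm_iff, le_antisymm_iff, val_comap, val_comap]

theorem vg4_mem {F N : Type*} [Field F] [Field N] [Algebra F N] [FiniteDimensional F N]
    (W : ValuationSubring N) (x : N)
    (h : ∀ a ∈ (minpoly F x).coeffs, algebraMap F N a ∈ W) : x ∈ W := by
  have hx : IsIntegral F x := Algebra.IsIntegral.isIntegral x
  refine mem_of_monic W ((minpoly.monic hx).map (algebraMap F N)) (fun i => ?_) ?_
  · rw [Polynomial.coeff_map]
    by_cases h0 : (minpoly F x).coeff i = 0
    · rw [h0, map_zero]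
      exact zero_mem W
    · exact h _ (Polynomial.coeff_mem_coeffs h0)
  · rw [Polynomial.eval_map_algebraMap, minpoly.aeval]

theorem vg4_sylow {G : Type*} [Group G] [Finite G] {p : ℕ} [hp : Fact p.Prime]
    {I P J : Subgroup G} (hP : IsPGroup p P) (hi : (P.relIndex I).Coprime p) (hJ : J ≤ I) :
    ∃ h ∈ I, ∃ Q : Subgroup G, Q ≤ J ∧ (Q.relIndex J).Coprime p ∧ ∀ q ∈ Q, h⁻¹ * q * h ∈ P := by
  have h1 : IsPGroup p (P.subgroupOf I) := hP.comap_subtype
  have h2 : ¬ p ∣ (P.subgroupOf I).index := (hp.out.coprime_iff_not_dvd).1 hi.symm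
  obtain ⟨Q⟩ : Nonempty (Sylow p J) := inferInstance
  have h3 : IsPGroup p ((Q : Subgroup J).map J.subtype) := Q.isPGroup'.map _
  have h4 : IsPGroup p (((Q : Subgroup J).map J.subtype).subgroupOf I) := h3.comap_subtype
  obtain ⟨S, hS⟩ := h4.exists_le_sylow
  obtain ⟨g, hg⟩ := MulAction.exists_smul_eq I S (h1.toSylow h2)
  refine ⟨(g⁻¹ : I), (g⁻¹).2, (Q : Subgroup J).map J.subtype, Subgroup.map_subtype_le _, ?_,
    fun q hq => ?_⟩
  · have e : ((Q : Subgroup J).map J.subtype).relIndex J = (Q : Subgroup J).index := by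
      rw [Subgroup.relIndex, Subgroup.subgroupOf,
        Subgroup.comap_map_eq_self_of_injective J.subtype_injective]
    rw [e]
    exact ((hp.out.coprime_iff_not_dvd).2 Q.not_dvd_index).symm
  · have hqI : q ∈ I := hJ (Subgroup.map_subtype_le _ hq)
    have h5 : (⟨q, hqI⟩ : I) ∈ (S : Subgroup I) := hS (Subgroup.mem_subgroupOf.2 hq)
    have h6 : g * ⟨q, hqI⟩ * g⁻¹ ∈ ((g • S : Sylow p I) : Subgroup I) := by
      rw [Sylow.coe_subgroup_smul]
      exact Subgroup.smul_mem_pointwise_smul _ (MulAut.conj g) _ h5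
    rw [hg] at h6
    have h7 : ((g * ⟨q, hqI⟩ * g⁻¹ : I) : G) ∈ P := Subgroup.mem_subgroupOf.1 h6
    simpa using h7

section aux

variable {ℓ : ℕ} [Fact ℓ.Prime] {F K : Type*} [Field F] [Field K] [Algebra F K]
  (N : Type*) [Field N] [Algebra F N] [Algebra K N] [IsScalarTower F K N]
  [FiniteDimensional F N] [Normal F N]

include N in
theorem vg4_U (hℓ : (ℓ : F) ≠ 0) : ∃ S : Finset F, ∀ W : ValuationSubring K,
    (∀ a ∈ S, algebraMap F K a ∈ W) → IdxOK ℓ F W := by
  classical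
  have hx : ∀ g : N ≃ₐ[F] N, ∃ x : N, g ≠ 1 → g x ≠ x := fun g => by
    by_cases hg : g = 1
    · exact ⟨0, fun h => (h hg).elim⟩
    · obtain ⟨x, hx⟩ := not_forall.1 fun h => hg (AlgEquiv.ext h)
      exact ⟨x, fun _ => hx⟩
  choose x hx using hx
  refine ⟨Finset.univ.biUnion fun g : N ≃ₐ[F] N =>
    (minpoly F (x g)).coeffs ∪ (minpoly F (g (x g) - x g)⁻¹).coeffs, fun W hW => ?_⟩
  obtain ⟨U, rfl⟩ := exists_ext (K := N) W
  have hU : ∀ (g : N ≃ₐ[F] N) (a : F), a ∈ (minpoly F (x g)).coeffs ∪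
      (minpoly F (g (x g) - x g)⁻¹).coeffs → algebraMap F N a ∈ U := fun g a ha => by
    have := hW a (Finset.mem_biUnion.2 ⟨g, Finset.mem_univ g, ha⟩)
    rwa [ValuationSubring.mem_comap, ← IsScalarTower.algebraMap_apply] at this
  have hI : Inert F U = ⊥ := by
    refine eq_bot_iff.2 fun g hg => ?_
    by_contra h1
    have h2 := (mem_Inert U g).1 hg (x g)
      (vg4_mem U _ fun a ha => hU g a (Finset.mem_union_left _ ha))
    have h3 := (U.valuation_le_one_iff _).2
      (vg4_mem U _ fun a ha => hU g a (Finset.mem_union_right _ ha))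
    have h4 : U.valuation (g (x g) - x g) ≠ 0 :=
      (map_ne_zero _).2 (sub_ne_zero.2 (hx g h1))
    rw [map_inv₀, inv_le_one₀ (zero_lt_iff.2 h4)] at h3
    exact absurd h2 (not_lt.2 h3)
  obtain ⟨n, hn, h⟩ := inert_val_pow hℓ U ⊥ bot_le
    (by rw [hI, Subgroup.relIndex_self]; exact Nat.coprime_one_left ℓ)
  refine ⟨n, hn, fun a => ?_⟩
  obtain ⟨c, hc⟩ := h (algebraMap K N a) fun g hg => by rw [Subgroup.mem_bot.1 hg]; rfl
  exact ⟨c, by rw [vg4_eq, map_pow, hc, ← IsScalarTower.algebraMap_apply]⟩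

omit [Fact ℓ.Prime] [FiniteDimensional F N] [Normal F N] in
theorem vg4_range {U : ValuationSubring N} (hI : IdxOK ℓ F (U.comap (algebraMap K N))) :
    IdxOK ℓ F (U.comap (algebraMap (IsScalarTower.toAlgHom F K N).fieldRange N)) := by
  obtain ⟨n, hn, h⟩ := hI
  refine ⟨n, hn, ?_⟩
  rintro ⟨_, a, rfl⟩
  obtain ⟨c, hc⟩ := h a
  refine ⟨c, ?_⟩
  rw [vg4_eq, map_pow, ← IsScalarTower.algebraMap_apply] at hc
  rw [vg4_eq, map_pow, ← IsScalarTower.algebraMap_apply]
  exact hc

theorem vg4_lim {U : ValuationSubring N} {ι : Type*} (𝒰 : Ultrafilter ι)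
    (O : ι → ValuationSubring F) (hO : VLim (𝒰 : Filter ι) O (U.comap (algebraMap F N))) :
    ∃ T : ι → ValuationSubring N, (∀ i, (T i).comap (algebraMap F N) = O i) ∧
      VLim (𝒰 : Filter ι) T U := by
  choose T hT using fun i => exists_ext (K := N) (O i)
  obtain ⟨L, hL⟩ := exists_VLim 𝒰 T
  have e : L.comap (algebraMap F N) = U.comap (algebraMap F N) := by
    ext x
    rw [hO x, ValuationSubring.mem_comap, hL]
    simp only [← hT, ValuationSubring.mem_comap]
  obtain ⟨g, rfl⟩ := ext_conj e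
  refine ⟨fun i => (T i).comap (g : N →+* N), fun i => ?_, fun x => hL _⟩
  ext x
  rw [← hT, ValuationSubring.mem_comap, ValuationSubring.mem_comap, ValuationSubring.mem_comap]
  exact Iff.of_eq (congrArg (· ∈ T i) (g.commutes x))

omit [Normal F N] in
theorem vg4_inert {U : ValuationSubring N} {ι : Type*} {𝒰 : Ultrafilter ι}
    {T : ι → ValuationSubring N} (hT : VLim (𝒰 : Filter ι) T U) :
    ∀ᶠ i in (𝒰 : Filter ι), Inert F (T i) ≤ Inert F U := by
  have h : ∀ g : N ≃ₐ[F] N, ∀ᶠ i in (𝒰 : Filter ι), g ∈ Inert F (T i) → g ∈ Inert F U := by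
    intro g
    by_cases hg : g ∈ Inert F U
    · exact Filter.Eventually.of_forall fun _ _ => hg
    · rw [mem_Inert] at hg
      push Not at hg
      obtain ⟨x, hx, h1⟩ := hg
      have h2 := Ultrafilter.eventually_not.2 fun h => not_lt.2 h1 ((hT.lt_one _).2 h)
      filter_upwards [(hT x).1 hx, h2] with i a b c
      exact (b ((mem_Inert _ _).1 c x a)).elim
  exact (Filter.eventually_all.2 h).mono fun i hi g => hi g

omit [Normal F N] in
theorem vg4_move {U : ValuationSubring N} {ι : Type*} {𝒰 : Ultrafilter ι}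
    {T : ι → ValuationSubring N} (hT : VLim (𝒰 : Filter ι) T U) (h : ι → N ≃ₐ[F] N)
    (hh : ∀ i, h i ∈ Inert F U) :
    VLim (𝒰 : Filter ι) (fun i => (T i).comap (h i : N →+* N)) U := by
  have e : ∀ g ∈ Inert F U, ∀ y, g y ∈ U ↔ y ∈ U := fun g hg y => by
    rw [← U.valuation_le_one_iff, ← U.valuation_le_one_iff, Inert.val hg]
  have k : ∀ y, ∀ᶠ i in (𝒰 : Filter ι), ∀ g : N ≃ₐ[F] N, g y ∈ T i ↔ g y ∈ U := fun y => by
    refine Filter.eventually_all.2 fun g => ?_
    by_cases hg : g y ∈ U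
    · exact ((hT _).1 hg).mono fun i hi => iff_of_true hi hg
    · exact (Ultrafilter.eventually_not.2 fun a => hg ((hT _).2 a)).mono
        fun i hi => iff_of_false hi hg
  intro y
  refine ⟨fun hy => (k y).mono fun i hi => (hi (h i)).2 ((e _ (hh i) y).2 hy), fun hy => ?_⟩
  obtain ⟨i, a, b⟩ := (hy.and (k y)).exists
  exact (e _ (hh i) y).1 ((b (h i)).1 a)

include N in
theorem vg4_S {W : ValuationSubring K} (hW : W.valuation (ℓ : K) = 1) (hI : IdxOK ℓ F W)
    {ι : Type*} (𝒰 : Ultrafilter ι) (O : ι → ValuationSubring F)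
    (hO : VLim (𝒰 : Filter ι) O (W.comap (algebraMap F K))) :
    ∃ W' : ι → ValuationSubring K, (∀ i, (W' i).comap (algebraMap F K) = O i) ∧
      VLim (𝒰 : Filter ι) W' W ∧ ∀ᶠ i in (𝒰 : Filter ι), IdxOK ℓ F (W' i) := by
  have hℓ : (ℓ : F) ≠ 0 := fun h => resb_ne hW (by rw [← map_natCast (algebraMap F K), h, map_zero])
  obtain ⟨U, rfl⟩ := exists_ext (K := N) W
  have hU : U.valuation (ℓ : N) = 1 := by
    have := (vg4_eq (algebraMap K N) U ℓ 1).1 (by rw [hW, map_one])
    rwa [map_natCast, map_one, map_one] at this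
  rw [ValuationSubring.comap_comap, ← IsScalarTower.algebraMap_eq] at hO
  obtain ⟨T, hT, hL⟩ := vg4_lim N 𝒰 O hO
  obtain ⟨P, -, hPE, hP, hi⟩ := tame_sylow _ U hU (vg4_range N hI)
  have key : ∀ i, ∃ h ∈ Inert F U, Inert F (T i) ≤ Inert F U →
      IdxOK ℓ F (((T i).comap (h : N →+* N)).comap (algebraMap K N)) := by
    intro i
    by_cases hle : Inert F (T i) ≤ Inert F U
    · obtain ⟨h, hh, Q, hQ, hq, hc⟩ := vg4_sylow hP hi hle
      obtain ⟨n, hn, H⟩ := inert_val_pow hℓ (T i) Q hQ hq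
      refine ⟨h, hh, fun _ => ⟨n, hn, fun a => ?_⟩⟩
      obtain ⟨c, e⟩ := H (h (algebraMap K N a)) fun q hq => by
        have h1 : (h⁻¹ * q * h) (algebraMap K N a) = algebraMap K N a :=
          hPE (hc q hq) ⟨algebraMap K N a, a, rfl⟩
        have h2 := congrArg h h1
        rwa [← AlgEquiv.mul_apply, ← mul_assoc, ← mul_assoc, mul_inv_cancel, one_mul,
          AlgEquiv.mul_apply] at h2
      refine ⟨c, ?_⟩
      rw [vg4_eq, vg4_eq, map_pow, map_pow, ← IsScalarTower.algebraMap_apply]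
      exact e.trans (congrArg _ (h.commutes c).symm)
    · exact ⟨1, one_mem _, fun h => (hle h).elim⟩
  choose h hh H using key
  refine ⟨fun i => ((T i).comap (h i : N →+* N)).comap (algebraMap K N), fun i => ?_,
    fun x => vg4_move N hL h hh _, (vg4_inert N hL).mono H⟩
  ext x
  rw [← hT, ValuationSubring.mem_comap, ValuationSubring.mem_comap, ValuationSubring.mem_comap,
    ValuationSubring.mem_comap, ← IsScalarTower.algebraMap_apply]
  exact Iff.of_eq (congrArg (· ∈ T i) ((h i).commutes x))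

end aux

variable {ℓ : ℕ} [Fact ℓ.Prime] {F K : Type*} [Field F] [Field K] [Algebra F K]
  [FiniteDimensional F K]

theorem lemU (hℓ : (ℓ : F) ≠ 0) : ∃ S : Finset F, ∀ W : ValuationSubring K,
    (∀ a ∈ S, algebraMap F K a ∈ W) → IdxOK ℓ F W :=
  vg4_U (IntermediateField.normalClosure F K (AlgebraicClosure K)) hℓ

theorem lemS {W : ValuationSubring K} (hW : W.valuation (ℓ : K) = 1) (hI : IdxOK ℓ F W)
    {ι : Type*} (𝒰 : Ultrafilter ι) (O : ι → ValuationSubring F)
    (hO : VLim (𝒰 : Filter ι) O (W.comap (algebraMap F K))) :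
    ∃ W' : ι → ValuationSubring K, (∀ i, (W' i).comap (algebraMap F K) = O i) ∧
      VLim (𝒰 : Filter ι) W' W ∧ ∀ᶠ i in (𝒰 : Filter ι), IdxOK ℓ F (W' i) :=
  vg4_S (IntermediateField.normalClosure F K (AlgebraicClosure K)) hW hI 𝒰 O hO

end P019
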